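import Vale.Agent.P154.Model

/-!
# Expectations over the Poisson Galton–Watson tree, in `ℝ≥0∞`
-/

namespace Vale.Agent.P154

open Finset
open scoped ENNReal

/-- Tonelli for finite products of sums. -/
theorem tsum_pi_prod {α : Type*} : (k : ℕ) → (F : Fin k → α → ℝ≥0∞) →
    ∑' c : Fin k → α, ∏ v, F v (c v) = ∏ v, ∑' a, F v a
  | 0, F => by
      simp
  | k + 1, F => by
      rw [← (Fin.insertNthEquiv (fun _ => α) 0).tsum_eq]
      rw [ENNReal.tsum_prod']
      rw [Fin.prod_univ_succ, ← tsum_pi_prod k (fun v => F v.succ)]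
      have : ∀ (a : α) (c : Fin k → α),
          ∏ v, F v ((Fin.insertNthEquiv (fun _ => α) 0) (a, c) v)
            = F 0 a * ∏ v, F v.succ (c v) := by
        intro a c
        rw [Fin.prod_univ_succ]
        simp
      simp_rw [this]
      simp_rw [ENNReal.tsum_mul_left, ENNReal.tsum_mul_right]

theorem tsum_pi_one {α : Type*} {k : ℕ} (w G : α → ℝ≥0∞) (hw : ∑' a, w a = 1) (v : Fin k) :
    ∑' c : Fin k → α, (∏ u, w (c u)) * G (c v) = ∑' a, w a * G a := by
  classical
  have h1 : ∀ c : Fin k → α, (∏ u, w (c u)) * G (c v)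
      = ∏ u, (w (c u) * (if u = v then G (c u) else 1)) := by
    intro c
    rw [Finset.prod_mul_distrib]
    congr 1
    rw [Finset.prod_ite_eq']
    simp
  simp_rw [h1]
  rw [tsum_pi_prod k (fun u a => w a * (if u = v then G a else 1))]
  rw [← Finset.mul_prod_erase Finset.univ _ (Finset.mem_univ v)]
  have h2 : ∏ u ∈ Finset.univ.erase v, ∑' a, w a * (if u = v then G a else 1) = 1 := by
    apply Finset.prod_eq_one
    intro u hu
    have huv : u ≠ v := (Finset.mem_erase.mp hu).1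
    simp [huv, hw]
  rw [h2]
  simp

theorem tsum_pi_two {α : Type*} {k : ℕ} (w G : α → ℝ≥0∞) (hw : ∑' a, w a = 1) (v v' : Fin k)
    (hv : v ≠ v') :
    ∑' c : Fin k → α, (∏ u, w (c u)) * (G (c v) * G (c v')) = (∑' a, w a * G a) ^ 2 := by
  classical
  have h1 : ∀ c : Fin k → α, (∏ u, w (c u)) * (G (c v) * G (c v'))
      = ∏ u, (w (c u) * ((if u = v then G (c u) else 1) * (if u = v' then G (c u) else 1))) := by
    intro c
    rw [Finset.prod_mul_distrib, Finset.prod_mul_distrib]
    congr 1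
    rw [Finset.prod_ite_eq', Finset.prod_ite_eq']
    simp
  simp_rw [h1]
  rw [tsum_pi_prod k
    (fun u a => w a * ((if u = v then G a else 1) * (if u = v' then G a else 1)))]
  rw [← Finset.mul_prod_erase Finset.univ _ (Finset.mem_univ v)]
  rw [← Finset.mul_prod_erase (Finset.univ.erase v) _
    (Finset.mem_erase.mpr ⟨hv.symm, Finset.mem_univ v'⟩)]
  have h2 : ∏ u ∈ (Finset.univ.erase v).erase v', ∑' a, w a *
      ((if u = v then G a else 1) * (if u = v' then G a else 1)) = 1 := by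
    apply Finset.prod_eq_one
    intro u hu
    have huw : u ≠ v' := (Finset.mem_erase.mp hu).1
    have huv : u ≠ v := (Finset.mem_erase.mp (Finset.mem_erase.mp hu).2).1
    simp [huw, huv, hw]
  rw [h2]
  simp [hv, hv.symm, sq]

/-! ### Poisson weights -/

/-- the Poisson(`d`) probability of `k`, in `ℝ≥0∞` -/
noncomputable def pk (d : ℝ) (k : ℕ) : ℝ≥0∞ :=
  ENNReal.ofReal (Real.exp (-d) * d ^ k / (k.factorial : ℝ))

theorem pk_hasSum (d : ℝ) :
    HasSum (fun k : ℕ => Real.exp (-d) * d ^ k / (k.factorial : ℝ)) 1 := by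
  have h := (NormedSpace.expSeries_div_hasSum_exp (𝔸 := ℝ) d).mul_left (Real.exp (-d))
  have h2 : Real.exp (-d) * NormedSpace.exp d = 1 := by
    rw [← Real.exp_eq_exp_ℝ, ← Real.exp_add]
    simp
  rw [h2] at h
  simpa only [mul_div_assoc] using h

theorem pk_tsum {d : ℝ} (hd : 0 ≤ d) : ∑' k, pk d k = 1 := by
  unfold pk
  rw [← ENNReal.ofReal_tsum_of_nonneg (fun k => by positivity) (pk_hasSum d).summable,
    (pk_hasSum d).tsum_eq, ENNReal.ofReal_one]

theorem pk_succ {d : ℝ} (hd : 0 ≤ d) (k : ℕ) :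
    pk d (k + 1) * ((k + 1 : ℕ) : ℝ≥0∞) = ENNReal.ofReal d * pk d k := by
  unfold pk
  rw [← ENNReal.ofReal_natCast, ← ENNReal.ofReal_mul (by positivity), ← ENNReal.ofReal_mul hd]
  congr 1
  rw [Nat.factorial_succ]
  push_cast
  field_simp
  ring

/-- first moment of the Poisson law -/
theorem pk_first {d : ℝ} (hd : 0 ≤ d) : ∑' k, pk d k * (k : ℝ≥0∞) = ENNReal.ofReal d := by
  rw [tsum_eq_zero_add' ENNReal.summable]
  simp only [Nat.cast_zero, mul_zero, zero_add]
  simp_rw [pk_succ hd]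
  rw [ENNReal.tsum_mul_left, pk_tsum hd, mul_one]

/-- second factorial moment of the Poisson law -/
theorem pk_second {d : ℝ} (hd : 0 ≤ d) :
    ∑' k, pk d k * ((k * (k - 1) : ℕ) : ℝ≥0∞) = ENNReal.ofReal d ^ 2 := by
  rw [tsum_eq_zero_add' ENNReal.summable]
  simp only [zero_mul, Nat.cast_zero, mul_zero, zero_add, Nat.add_sub_cancel]
  have : ∀ k : ℕ, pk d (k + 1) * (((k + 1) * k : ℕ) : ℝ≥0∞)
      = ENNReal.ofReal d * (pk d k * (k : ℝ≥0∞)) := by
    intro k
    rw [Nat.cast_mul, ← mul_assoc, pk_succ hd, mul_assoc]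
  simp_rw [this]
  rw [ENNReal.tsum_mul_left, pk_first hd, sq]

/-- generating function of the Poisson law -/
theorem pk_gen {d : ℝ} (hd : 0 ≤ d) {s : ℝ} (hs : 0 ≤ s) :
    ∑' k, pk d k * ENNReal.ofReal s ^ k = ENNReal.ofReal (Real.exp (-(d * (1 - s)))) := by
  have h := (NormedSpace.expSeries_div_hasSum_exp (𝔸 := ℝ) (d * s)).mul_left (Real.exp (-d))
  have h2 : Real.exp (-d) * NormedSpace.exp (d * s) = Real.exp (-(d * (1 - s))) := by
    rw [← Real.exp_eq_exp_ℝ, ← Real.exp_add]
    congr 1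
    ring
  rw [h2] at h
  have h3 : ∀ k, pk d k * ENNReal.ofReal s ^ k
      = ENNReal.ofReal (Real.exp (-d) * ((d * s) ^ k / (k.factorial : ℝ))) := by
    intro k
    unfold pk
    rw [← ENNReal.ofReal_pow hs, ← ENNReal.ofReal_mul (by positivity)]
    congr 1
    rw [mul_pow]
    ring
  simp_rw [h3]
  rw [← ENNReal.ofReal_tsum_of_nonneg (fun k => by positivity) h.summable, h.tsum_eq]

/-! ### the tree measure -/

/-- the probability of a tree, in `ℝ≥0∞` -/
noncomputable def treeW (d : ℝ) {n : ℕ} (T : GTree n) : ℝ≥0∞ := ENNReal.ofReal (poissonWeight d T)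

theorem poissonWeight_nonneg {d : ℝ} (hd : 0 ≤ d) : {n : ℕ} → (T : GTree n) →
    0 ≤ poissonWeight d T
  | _, .leaf => zero_le_one
  | _, .node k c => by
      show 0 ≤ Real.exp (-d) * d ^ k / (k.factorial : ℝ) * ∏ v : Fin k, poissonWeight d (c v)
      exact mul_nonneg (by positivity) (Finset.prod_nonneg (fun v _ => poissonWeight_nonneg hd (c v)))

theorem treeW_leaf (d : ℝ) : treeW d .leaf = 1 := by
  show ENNReal.ofReal 1 = 1
  simp

theorem treeW_node {d : ℝ} (hd : 0 ≤ d) {n k : ℕ} (c : Fin k → GTree n) :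
    treeW d (.node k c) = pk d k * ∏ v, treeW d (c v) := by
  show ENNReal.ofReal (Real.exp (-d) * d ^ k / (k.factorial : ℝ)
    * ∏ v : Fin k, poissonWeight d (c v)) = _
  rw [ENNReal.ofReal_mul (by positivity)]
  unfold pk treeW
  rw [ENNReal.ofReal_prod_of_nonneg (fun v _ => poissonWeight_nonneg hd (c v))]

/-- expectation of a nonnegative function of the tree -/
noncomputable def treeE (d : ℝ) (n : ℕ) (F : GTree n → ℝ≥0∞) : ℝ≥0∞ := ∑' T, treeW d T * F T

theorem treeE_zero (d : ℝ) (F : GTree 0 → ℝ≥0∞) : treeE d 0 F = F .leaf := by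
  unfold treeE
  rw [tsum_eq_single (GTree.leaf)]
  · rw [treeW_leaf, one_mul]
  · intro T hT
    cases T
    exact absurd rfl hT

theorem treeE_succ {d : ℝ} (hd : 0 ≤ d) (n : ℕ) (F : GTree (n + 1) → ℝ≥0∞) :
    treeE d (n + 1) F
      = ∑' k, pk d k * ∑' c : Fin k → GTree n, (∏ v, treeW d (c v)) * F (.node k c) := by
  unfold treeE
  rw [← (GTree.equivSigma n).symm.tsum_eq, ENNReal.tsum_sigma']
  refine tsum_congr (fun k => ?_)
  rw [← ENNReal.tsum_mul_left]
  refine tsum_congr (fun c => ?_)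
  show treeW d (.node k c) * F (.node k c) = _
  rw [treeW_node hd, mul_assoc]

theorem treeE_one {d : ℝ} (hd : 0 ≤ d) : (n : ℕ) → ∑' T : GTree n, treeW d T = 1
  | 0 => by
      have := treeE_zero d (fun _ => 1)
      unfold treeE at this
      simpa using this
  | n + 1 => by
      have h := treeE_succ hd n (fun _ => 1)
      unfold treeE at h
      simp only [mul_one] at h
      rw [h]
      have h2 : ∀ k : ℕ, ∑' c : Fin k → GTree n, ∏ v, treeW d (c v) = 1 := by
        intro k
        rw [tsum_pi_prod k (fun _ T => treeW d T)]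
        rw [treeE_one hd n]
        simp
      simp_rw [h2, mul_one]
      exact pk_tsum hd

/-- expectation of a sum over the children -/
theorem treeE_sum_children {d : ℝ} (hd : 0 ≤ d) (n : ℕ) (F : GTree (n + 1) → ℝ≥0∞)
    (G : GTree n → ℝ≥0∞) (h : ∀ k (c : Fin k → GTree n), F (.node k c) = ∑ v, G (c v)) :
    treeE d (n + 1) F = ENNReal.ofReal d * treeE d n G := by
  rw [treeE_succ hd]
  have h2 : ∀ k : ℕ, ∑' c : Fin k → GTree n, (∏ v, treeW d (c v)) * F (.node k c)
      = (k : ℝ≥0∞) * treeE d n G := by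
    intro k
    simp_rw [h, Finset.mul_sum]
    rw [Summable.tsum_finsetSum (fun _ _ => ENNReal.summable)]
    simp_rw [tsum_pi_one (fun T => treeW d T) G (treeE_one hd n)]
    simp [treeE]
  simp_rw [h2, ← mul_assoc]
  rw [ENNReal.tsum_mul_right, pk_first hd]

/-- expectation of a sum over pairs of distinct children -/
theorem treeE_sum_pairs {d : ℝ} (hd : 0 ≤ d) (n : ℕ) (F : GTree (n + 1) → ℝ≥0∞)
    (G : GTree n → ℝ≥0∞) (h : ∀ k (c : Fin k → GTree n),
      F (.node k c) = ∑ v, ∑ w ∈ Finset.univ.erase v, G (c v) * G (c w)) :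
    treeE d (n + 1) F = (ENNReal.ofReal d * treeE d n G) ^ 2 := by
  rw [treeE_succ hd]
  have h2 : ∀ k : ℕ, ∑' c : Fin k → GTree n, (∏ v, treeW d (c v)) * F (.node k c)
      = ((k * (k - 1) : ℕ) : ℝ≥0∞) * treeE d n G ^ 2 := by
    intro k
    simp_rw [h, Finset.mul_sum]
    rw [Summable.tsum_finsetSum (fun _ _ => ENNReal.summable)]
    have h3 : ∀ v : Fin k, ∑' c : Fin k → GTree n, ∑ w ∈ Finset.univ.erase v,
        (∏ v, treeW d (c v)) * (G (c v) * G (c w)) = ((k - 1 : ℕ) : ℝ≥0∞) * treeE d n G ^ 2 := by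
      intro v
      rw [Summable.tsum_finsetSum (fun _ _ => ENNReal.summable)]
      have h4 : ∀ w ∈ Finset.univ.erase v, ∑' c : Fin k → GTree n,
          (∏ v, treeW d (c v)) * (G (c v) * G (c w)) = treeE d n G ^ 2 := by
        intro w hw
        rw [tsum_pi_two (fun T => treeW d T) G (treeE_one hd n) v w
          (Finset.mem_erase.mp hw).1.symm]
        rfl
      rw [Finset.sum_congr rfl h4]
      rw [Finset.sum_const, Finset.card_erase_of_mem (Finset.mem_univ v), Finset.card_univ,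
        Fintype.card_fin, nsmul_eq_mul]
    rw [Finset.sum_congr rfl (fun v _ => h3 v)]
    rw [Finset.sum_const, Finset.card_univ, Fintype.card_fin, nsmul_eq_mul, Nat.cast_mul,
      mul_assoc]
  simp_rw [h2, ← mul_assoc]
  rw [ENNReal.tsum_mul_right, pk_second hd, mul_pow]

/-- expectation of a product over the children -/
theorem treeE_prod_children {d : ℝ} (hd : 0 ≤ d) (n : ℕ) (F : GTree (n + 1) → ℝ≥0∞)
    (G : GTree n → ℝ≥0∞) (h : ∀ k (c : Fin k → GTree n), F (.node k c) = ∏ v, G (c v)) :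
    treeE d (n + 1) F = ∑' k, pk d k * treeE d n G ^ k := by
  rw [treeE_succ hd]
  refine tsum_congr (fun k => ?_)
  congr 1
  simp_rw [h, ← Finset.prod_mul_distrib]
  rw [tsum_pi_prod k (fun _ T => treeW d T * G T)]
  simp [treeE]

theorem treeE_add (d : ℝ) (n : ℕ) (F G : GTree n → ℝ≥0∞) :
    treeE d n (fun T => F T + G T) = treeE d n F + treeE d n G := by
  unfold treeE
  simp_rw [mul_add]
  exact ENNReal.tsum_add

theorem treeE_const_mul (d : ℝ) (n : ℕ) (a : ℝ≥0∞) (F : GTree n → ℝ≥0∞) :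
    treeE d n (fun T => a * F T) = a * treeE d n F := by
  unfold treeE
  simp_rw [mul_left_comm _ a]
  exact ENNReal.tsum_mul_left

theorem treeE_mono (d : ℝ) (n : ℕ) {F G : GTree n → ℝ≥0∞} (h : ∀ T, F T ≤ G T) :
    treeE d n F ≤ treeE d n G := by
  unfold treeE
  exact ENNReal.tsum_le_tsum (fun T => mul_le_mul_right (h T) _)

theorem poissonWeight_summable {d : ℝ} (hd : 0 ≤ d) (n : ℕ) :
    Summable (fun T : GTree n => poissonWeight d T) := by
  have h1 : ∑' T : GTree n, ENNReal.ofReal (poissonWeight d T) ≠ ∞ := by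
    have := treeE_one hd n
    unfold treeW at this
    rw [this]
    exact ENNReal.one_ne_top
  have h2 := ENNReal.summable_toReal h1
  refine h2.congr (fun T => ?_)
  exact ENNReal.toReal_ofReal (poissonWeight_nonneg hd T)

theorem poissonWeight_tsum {d : ℝ} (hd : 0 ≤ d) (n : ℕ) :
    ∑' T : GTree n, poissonWeight d T = 1 := by
  have h := treeE_one hd n
  unfold treeW at h
  rw [← ENNReal.ofReal_tsum_of_nonneg (fun T => poissonWeight_nonneg hd T)
    (poissonWeight_summable hd n)] at h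
  exact ENNReal.ofReal_eq_one.mp h

/-- For bounded nonnegative functions, the real sum is the `ℝ≥0∞` expectation. -/
theorem ofReal_tsum_weight {d : ℝ} (hd : 0 ≤ d) (n : ℕ) (g : GTree n → ℝ) (hg : ∀ T, 0 ≤ g T)
    (hg1 : ∀ T, g T ≤ 1) :
    ENNReal.ofReal (∑' T : GTree n, poissonWeight d T * g T)
      = treeE d n (fun T => ENNReal.ofReal (g T)) := by
  have hs : Summable (fun T : GTree n => poissonWeight d T * g T) :=
    Summable.of_nonneg_of_le (fun T => mul_nonneg (poissonWeight_nonneg hd T) (hg T))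
      (fun T => mul_le_of_le_one_right (poissonWeight_nonneg hd T) (hg1 T))
      (poissonWeight_summable hd n)
  rw [ENNReal.ofReal_tsum_of_nonneg
    (fun T => mul_nonneg (poissonWeight_nonneg hd T) (hg T)) hs]
  unfold treeE treeW
  refine tsum_congr (fun T => ?_)
  rw [ENNReal.ofReal_mul (poissonWeight_nonneg hd T)]

end Vale.Agent.P154
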