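import Vale.Agent.P154.KSMoments
import Vale.Agent.P154.PoissonTree

/-!
# The sequences `a_n` are nonincreasing (data processing)
-/

namespace Vale.Agent.P154

open Finset
open scoped ENNReal

/-- cut the last level of the tree -/
def trunc : {n : ℕ} → GTree (n + 1) → GTree n
  | 0, .node _ _ => .leaf
  | _ + 1, .node k c => .node k (fun v => trunc (c v))

theorem trunc_node {n k : ℕ} (c : Fin k → GTree (n + 1)) :
    trunc (.node k c) = .node k (fun v => trunc (c v)) := rfl

/-- the observation at level `n+1` is obtained from the one at level `n` by a Markov kernel -/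
theorem exists_kernel {q : ℕ} (hq : 2 ≤ q) {lam : ℝ} (h1 : -1 / ((q : ℝ) - 1) ≤ lam)
    (h2 : lam ≤ 1) : (n : ℕ) → (T : GTree (n + 1)) →
    ∃ K : Obs q (trunc T) → Obs q T → ℝ, (∀ x y, 0 ≤ K x y) ∧ (∀ x, ∑ y, K x y = 1) ∧
      ∀ y i, lik q lam T y i = ∑ x, lik q lam (trunc T) x i * K x y
  | 0, .node k c => by
      refine ⟨fun (x : Fin q) y => lik q lam (.node k c) y x, ?_, ?_, ?_⟩
      · intro x y
        exact lik_nonneg hq h1 h2 _ _ _
      · intro x
        exact sum_lik hq lam _ _
      · intro y i
        show _ = ∑ x : Fin q, (if x = i then (1 : ℝ) else 0) * lik q lam (.node k c) y x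
        simp
  | n + 1, .node k c => by
      choose K hK0 hK1 hK2 using fun v => exists_kernel hq h1 h2 n (c v)
      refine ⟨fun (x : (v : Fin k) → Obs q (trunc (c v))) (y : (v : Fin k) → Obs q (c v)) =>
        ∏ v, K v (x v) (y v), ?_, ?_, ?_⟩
      · intro x y
        exact Finset.prod_nonneg (fun v _ => hK0 v _ _)
      · intro x
        rw [sum_obs_node]
        rw [sum_pi_prod (fun v y => K v (x v) y)]
        exact Finset.prod_eq_one (fun v _ => hK1 v _)
      · intro y i
        show ∏ v : Fin k, ∑ j : Fin q, potts q lam i j * lik q lam (c v) (y v) j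
          = ∑ x : ((v : Fin k) → Obs q (trunc (c v))),
            (∏ v : Fin k, ∑ j : Fin q, potts q lam i j * lik q lam (trunc (c v)) (x v) j)
              * ∏ v, K v (x v) (y v)
        have h3 : ∀ x : ((v : Fin k) → Obs q (trunc (c v))),
            (∏ v : Fin k, ∑ j : Fin q, potts q lam i j * lik q lam (trunc (c v)) (x v) j)
              * ∏ v, K v (x v) (y v)
            = ∏ v, ((∑ j : Fin q, potts q lam i j * lik q lam (trunc (c v)) (x v) j)
              * K v (x v) (y v)) := fun x => by rw [Finset.prod_mul_distrib]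
        simp_rw [h3]
        rw [sum_pi_prod (fun v x => (∑ j : Fin q, potts q lam i j * lik q lam (trunc (c v)) x j)
              * K v x (y v))]
        refine Finset.prod_congr rfl (fun v _ => ?_)
        simp_rw [hK2 v (y v), Finset.sum_mul, Finset.mul_sum]
        rw [Finset.sum_comm]
        simp_rw [mul_assoc]

/-- signed deviation of the joint law from independence -/
noncomputable def dev (q : ℕ) (lam : ℝ) {n : ℕ} (T : GTree n) (i : Fin q) (x : Obs q T) : ℝ :=
  (1 / q) * lik q lam T x i - obsProb q lam T x * (1 / q)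

theorem adv_eq_dev {q : ℕ} (hq : 2 ≤ q) {lam : ℝ} (h1 : -1 / ((q : ℝ) - 1) ≤ lam)
    (h2 : lam ≤ 1) {n : ℕ} (T : GTree n) :
    adv q lam T = (1 / 2) * ∑ i, ∑ x, |dev q lam T i x| := by
  rw [adv_eq, Finset.sum_comm, Finset.mul_sum]
  refine Finset.sum_congr rfl (fun x _ => ?_)
  unfold tv dev
  rw [mul_left_comm]
  congr 1
  rw [Finset.mul_sum]
  refine Finset.sum_congr rfl (fun i _ => ?_)
  rw [lik_eq hq h1 h2 T x i, ← mul_sub, abs_mul, abs_of_nonneg (obsProb_nonneg hq h1 h2 T x)]

/-- data processing inequality -/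
theorem adv_trunc {q : ℕ} (hq : 2 ≤ q) {lam : ℝ} (h1 : -1 / ((q : ℝ) - 1) ≤ lam)
    (h2 : lam ≤ 1) {n : ℕ} (T : GTree (n + 1)) : adv q lam T ≤ adv q lam (trunc T) := by
  obtain ⟨K, hK0, hK1, hK2⟩ := exists_kernel hq h1 h2 n T
  rw [adv_eq_dev hq h1 h2, adv_eq_dev hq h1 h2]
  refine mul_le_mul_of_nonneg_left (Finset.sum_le_sum (fun i _ => ?_)) (by norm_num)
  have h3 : ∀ y, dev q lam T i y = ∑ x, dev q lam (trunc T) i x * K x y := by
    intro y
    have h4 : obsProb q lam T y = ∑ x, obsProb q lam (trunc T) x * K x y := by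
      unfold obsProb
      simp_rw [hK2 y]
      rw [Finset.sum_comm, Finset.mul_sum]
      refine Finset.sum_congr rfl (fun x _ => ?_)
      rw [← Finset.sum_mul]
      ring
    unfold dev
    rw [hK2 y, h4, Finset.mul_sum, Finset.sum_mul, ← Finset.sum_sub_distrib]
    refine Finset.sum_congr rfl (fun x _ => ?_)
    ring
  calc ∑ y, |dev q lam T i y| ≤ ∑ y, ∑ x, |dev q lam (trunc T) i x| * K x y := by
        refine Finset.sum_le_sum (fun y _ => ?_)
        rw [h3 y]
        refine (Finset.abs_sum_le_sum_abs _ _).trans (le_of_eq ?_)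
        refine Finset.sum_congr rfl (fun x _ => ?_)
        rw [abs_mul, abs_of_nonneg (hK0 x y)]
    _ = ∑ x, |dev q lam (trunc T) i x| := by
        rw [Finset.sum_comm]
        refine Finset.sum_congr rfl (fun x _ => ?_)
        rw [← Finset.mul_sum, hK1 x, mul_one]

theorem trunc_dary (d : ℕ) : (n : ℕ) → trunc (dary d (n + 1)) = dary d n
  | 0 => rfl
  | n + 1 => by
      show GTree.node d (fun _ => trunc (dary d (n + 1))) = GTree.node d (fun _ => dary d n)
      rw [trunc_dary d n]

theorem antitone_dary {q : ℕ} (hq : 2 ≤ q) {lam : ℝ} (h1 : -1 / ((q : ℝ) - 1) ≤ lam)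
    (h2 : lam ≤ 1) (d : ℕ) : Antitone (aDary q lam d) := by
  apply antitone_nat_of_succ_le
  intro n
  show adv q lam (dary d (n + 1)) ≤ adv q lam (dary d n)
  rw [← trunc_dary d n]
  exact adv_trunc hq h1 h2 _

/-! ### Poisson trees -/

open Classical in
theorem treeW_trunc {d : ℝ} (hd : 0 ≤ d) : (n : ℕ) → (T' : GTree n) →
    ∑' T : GTree (n + 1), treeW d T * (if trunc T = T' then 1 else 0) = treeW d T'
  | 0, T' => by
      have h : ∀ T : GTree 1, trunc T = T' := fun T => by
        cases trunc T
        cases T'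
        rfl
      simp_rw [h]
      simp only [if_true, mul_one]
      rw [treeE_one hd 1]
      cases T'
      rw [treeW_leaf]
  | n + 1, .node k c' => by
      have h := treeE_succ hd (n + 1)
        (fun T => if trunc T = GTree.node k c' then (1 : ℝ≥0∞) else 0)
      unfold treeE at h
      rw [h]
      rw [tsum_eq_single k]
      · rw [treeW_node hd]
        congr 1
        have h3 : ∀ c : Fin k → GTree (n + 1),
            (∏ v, treeW d (c v)) * (if trunc (GTree.node k c) = GTree.node k c' then 1 else 0)
              = ∏ v, (treeW d (c v) * (if trunc (c v) = c' v then (1 : ℝ≥0∞) else 0)) := by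
          intro c
          rw [Finset.prod_mul_distrib]
          congr 1
          rw [trunc_node]
          by_cases hc : ∀ v, trunc (c v) = c' v
          · have : (fun v => trunc (c v)) = c' := funext hc
            rw [this]
            simp [hc]
          · rw [if_neg]
            · push Not at hc
              obtain ⟨v, hv⟩ := hc
              rw [Finset.prod_eq_zero (Finset.mem_univ v)]
              simp [hv]
            · intro heq
              apply hc
              intro v
              have := GTree.node.inj heq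
              exact congrFun (eq_of_heq this.2) v
        simp_rw [h3]
        rw [tsum_pi_prod k (fun v T => treeW d T * (if trunc T = c' v then (1 : ℝ≥0∞) else 0))]
        exact Finset.prod_congr rfl (fun v _ => treeW_trunc hd n (c' v))
      · intro k' hk'
        have h3 : ∀ c : Fin k' → GTree (n + 1), trunc (GTree.node k' c) ≠ GTree.node k c' := by
          intro c heq
          rw [trunc_node] at heq
          exact hk' (GTree.node.inj heq).1
        simp [h3]

theorem treeE_trunc {d : ℝ} (hd : 0 ≤ d) (n : ℕ) (F : GTree n → ℝ≥0∞) :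
    treeE d (n + 1) (fun T => F (trunc T)) = treeE d n F := by
  classical
  unfold treeE
  have h : ∀ T : GTree (n + 1), treeW d T * F (trunc T)
      = ∑' T' : GTree n, (treeW d T * (if trunc T = T' then 1 else 0)) * F T' := by
    intro T
    rw [tsum_eq_single (trunc T)]
    · simp
    · intro T' hT'
      simp [hT'.symm]
  simp_rw [h]
  rw [ENNReal.tsum_comm]
  refine tsum_congr (fun T' => ?_)
  rw [ENNReal.tsum_mul_right]
  congr 1
  convert treeW_trunc hd n T'

theorem antitone_poisson {q : ℕ} (hq : 2 ≤ q) {lam : ℝ} (h1 : -1 / ((q : ℝ) - 1) ≤ lam)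
    (h2 : lam ≤ 1) {d : ℝ} (hd : 0 ≤ d) : Antitone (aPoisson q lam d) := by
  apply antitone_nat_of_succ_le
  intro n
  have h3 : treeE d (n + 1) (fun T => ENNReal.ofReal (adv q lam T))
      ≤ treeE d (n + 1) (fun T => ENNReal.ofReal (adv q lam (trunc T))) :=
    treeE_mono d (n + 1) (fun T => ENNReal.ofReal_le_ofReal (adv_trunc hq h1 h2 T))
  rw [treeE_trunc hd n (fun T => ENNReal.ofReal (adv q lam T))] at h3
  rw [← ofReal_tsum_weight hd (n + 1) _ (fun T => adv_nonneg hq h1 h2 T)
      (fun T => adv_le_one hq h1 h2 T),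
    ← ofReal_tsum_weight hd n _ (fun T => adv_nonneg hq h1 h2 T)
      (fun T => adv_le_one hq h1 h2 T)] at h3
  have ha : 0 ≤ ∑' T : GTree n, poissonWeight d T * adv q lam T :=
    tsum_nonneg (fun T => mul_nonneg (poissonWeight_nonneg hd T) (adv_nonneg hq h1 h2 T))
  exact (ENNReal.ofReal_le_ofReal_iff ha).mp h3

end Vale.Agent.P154
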