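import Vale.Agent.P154.Upper

/-!
# Assembling the case of three states and nonnegative parameter

The analytic core is taken as a hypothesis here.
-/

namespace Vale.Agent.P154.Up

open Finset Filter Topology Vale.Agent.P154

/-- the analytic core for three states: products -/
def CorePair3 (c : ℝ) : Prop :=
  ∀ (X Y : Type) [Fintype X] [Fintype Y] (u : X → Fin 3 → ℝ) (v : Y → Fin 3 → ℝ),
    GoodExp u → GoodExp v → Inv3 u → Inv3 v →
    Inv3 (prodExp u v) ∧ Mfun (prodExp u v) ≤ Mfun u + Mfun v - c * Mfun u * Mfun v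

/-- the analytic core for three states: noise -/
def CoreNoise3 : Prop :=
  ∀ (lam : ℝ), 0 < lam → lam < 1 → ∀ (X : Type) [Fintype X] (u : X → Fin 3 → ℝ),
    WeakExp u → Inv3 u → Inv3 (chan lam u)

theorem Qfun_equiv {X Y : Type*} [Fintype X] [Fintype Y] (e : X ≃ Y) (u : Y → Fin 3 → ℝ) :
    Qfun (fun x => u (e x)) = Qfun u := by
  unfold Qfun
  exact Equiv.sum_comp e (fun y => mass (u y) * qfun (u y))

theorem Qfun_unit : Qfun (fun (_ : Unit) (_ : Fin 3) => (1 : ℝ)) = 1 := by
  unfold Qfun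
  simp only [Finset.univ_unique, Finset.sum_singleton]
  have h1 : mass (fun _ : Fin 3 => (1 : ℝ)) = 1 := by
    simp [mass]
  have h2 : qfun (fun _ : Fin 3 => (1 : ℝ)) = 1 := by
    unfold qfun post
    simp only [Finset.sum_const, Finset.card_univ, Fintype.card_fin, Finset.prod_const]
    norm_num
  rw [h1, h2, mul_one]

theorem inv3_unit : Inv3 (fun (_ : Unit) (_ : Fin 3) => (1 : ℝ)) := by
  unfold Inv3
  rw [Qfun_unit, Mfun_unit (by norm_num)]
  norm_num

theorem inv3_leaf : Inv3 (leafExp 3) := by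
  unfold Inv3
  have h1 : Mfun (leafExp 3) = 1 := by
    rw [Mfun_eq_Gfun (by norm_num)]
    have : ∀ x : Fin 3, Gfun (leafExp 3 x) = 1 / 3 := by
      intro x
      unfold Gfun leafExp
      simp
      norm_num
    simp_rw [this]
    simp
  have h2 : Qfun (leafExp 3) = 0 := by
    unfold Qfun
    refine Finset.sum_eq_zero fun x _ => ?_
    have : qfun (leafExp 3 x) = 0 := by
      unfold qfun
      have h3 : ∏ i, post (leafExp 3 x) i = 0 := by
        refine Finset.prod_eq_zero (mem_univ (x + 1)) ?_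
        unfold post leafExp
        have : x ≠ x + 1 := by
          revert x
          decide
        simp [this]
      rw [h3]
      simp
    rw [this, mul_zero]
  rw [h1, h2]
  norm_num

theorem core3 {c : ℝ} (hc1 : c ≤ 1) (hp : CorePair3 c) (hn : CoreNoise3) :
    ∀ lam ∈ Set.Ioo (0 : ℝ) 1, Core 3 lam c (fun _ _ u => Inv3 u) (fun _ _ u => Mfun u) := by
  intro lam hlam
  refine Core.ofMfun (by norm_num) hc1 ?_ ?_ ?_ ?_ ?_ ?_
  · intro X Y _ _ e u h
    unfold Inv3 at h ⊢
    rwa [Mfun_equiv e u, Qfun_equiv e u]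
  · exact inv3_unit
  · exact hn lam hlam.1 hlam.2 _ _ weakExp_leaf inv3_leaf
  · intro X _ u hu hi
    exact hn lam hlam.1 hlam.2 _ _ (hu.weak (by norm_num)) hi
  · intro X Y _ _ u v hu hv iu iv
    exact (hp X Y u v hu hv iu iv).1
  · intro X Y _ _ u v hu hv iu iv
    exact (hp X Y u v hu hv iu iv).2

/-- The exact threshold for three states and nonnegative parameter, given the analytic core. -/
theorem threshold3 {c : ℝ} (hc : 0 < c) (hc1 : c ≤ 1) (hp : CorePair3 c) (hn : CoreNoise3)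
    (lam : ℝ) (h0 : 0 ≤ lam) (h1 : lam ≤ 1) :
    (∀ d : ℕ, 2 ≤ d →
      (1 < (d : ℝ) * lam ^ 2 → Reconstruction (aDary 3 lam d)) ∧
      ((d : ℝ) * lam ^ 2 ≤ 1 → Nonreconstruction (aDary 3 lam d)) ∧
      (Reconstruction (aDary 3 lam d) ↔ 1 < (d : ℝ) * lam ^ 2)) ∧
    (∀ d : ℝ, 0 < d →
      (1 < d * lam ^ 2 → Reconstruction (aPoisson 3 lam d)) ∧
      (d * lam ^ 2 ≤ 1 → Nonreconstruction (aPoisson 3 lam d)) ∧
      (Reconstruction (aPoisson 3 lam d) ↔ 1 < d * lam ^ 2)) := by
  have hR : RecIneq 3 lam c := recIneq_of_core (q := 3) (by norm_num) hc (a := 0) (b := 1) one_pos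
    (by norm_num) le_rfl (fun _ _ _ u => Inv3 u) (core3 hc1 hp hn) lam ⟨h0, h1⟩
  exact threshold_of_recIneq (by norm_num) hc hc1 (le_trans (by norm_num) h0) h1 hR

end Vale.Agent.P154.Up
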