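import Vale.Agent.P154.Mono

/-!
# Four states: explicit sums over permutations, invariants, sorting, noise
-/

namespace Vale.Agent.P154

open Finset Vale.Agent.P154.Up

/-! ### sums over the permutations of four points -/

/-- explicit sum over the permutations of four points -/
noncomputable def S24 (f : ℝ → ℝ → ℝ → ℝ → ℝ) (a b c d : ℝ) : ℝ :=
  f a b c d + f a b d c + f a c b d + f a c d b + f a d b c + f a d c b +
  f b a c d + f b a d c + f b c a d + f b c d a + f b d a c + f b d c a +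
  f c a b d + f c a d b + f c b a d + f c b d a + f c d a b + f c d b a +
  f d a b c + f d a c b + f d b a c + f d b c a + f d c a b + f d c b a

theorem sum_perm_four (f : ℝ → ℝ → ℝ → ℝ → ℝ) (w : Fin 4 → ℝ) :
    ∑ σ : Equiv.Perm (Fin 4), f (w (σ 0)) (w (σ 1)) (w (σ 2)) (w (σ 3)) =
      S24 f (w 0) (w 1) (w 2) (w 3) := by
  have h4 : ∀ g : Equiv.Perm (Fin 4) → ℝ, ∑ σ : Equiv.Perm (Fin 4), g σ =
      ∑ i : Fin 4, ∑ τ : Equiv.Perm (Fin 3), g (Equiv.Perm.decomposeFin.symm (i, τ)) := by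
    intro g
    rw [← Equiv.sum_comp Equiv.Perm.decomposeFin.symm g, Fintype.sum_prod_type]
  have h3 : ∀ g : Equiv.Perm (Fin 3) → ℝ, ∑ σ : Equiv.Perm (Fin 3), g σ =
      ∑ i : Fin 3, ∑ τ : Equiv.Perm (Fin 2), g (Equiv.Perm.decomposeFin.symm (i, τ)) := by
    intro g
    rw [← Equiv.sum_comp Equiv.Perm.decomposeFin.symm g, Fintype.sum_prod_type]
  have h2 : ∀ g : Equiv.Perm (Fin 2) → ℝ, ∑ σ : Equiv.Perm (Fin 2), g σ =
      ∑ i : Fin 2, ∑ τ : Equiv.Perm (Fin 1), g (Equiv.Perm.decomposeFin.symm (i, τ)) := by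
    intro g
    rw [← Equiv.sum_comp Equiv.Perm.decomposeFin.symm g, Fintype.sum_prod_type]
  have h1 : ∀ g : Equiv.Perm (Fin 1) → ℝ, ∑ σ : Equiv.Perm (Fin 1), g σ = g 1 := by
    intro g
    rw [Fintype.sum_unique]
    rfl
  rw [h4]
  simp only [h3, h2, h1, Fin.sum_univ_succ, Fin.sum_univ_zero, add_zero]
  have key : ∀ (i : Fin 4) (j : Fin 3) (k : Fin 2),
      f (w ((Equiv.Perm.decomposeFin.symm (i, Equiv.Perm.decomposeFin.symm
        (j, Equiv.Perm.decomposeFin.symm (k, 1)))) 0))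
        (w ((Equiv.Perm.decomposeFin.symm (i, Equiv.Perm.decomposeFin.symm
        (j, Equiv.Perm.decomposeFin.symm (k, 1)))) 1))
        (w ((Equiv.Perm.decomposeFin.symm (i, Equiv.Perm.decomposeFin.symm
        (j, Equiv.Perm.decomposeFin.symm (k, 1)))) 2))
        (w ((Equiv.Perm.decomposeFin.symm (i, Equiv.Perm.decomposeFin.symm
        (j, Equiv.Perm.decomposeFin.symm (k, 1)))) 3)) = f (w i) (w (Equiv.swap 0 i (Fin.succ j)))
        (w (Equiv.swap 0 i (Fin.succ (Equiv.swap 0 j (Fin.succ k)))))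
        (w (Equiv.swap 0 i (Fin.succ (Equiv.swap 0 j (Fin.succ (Equiv.swap 0 k (Fin.succ 0))))))) := by
    intro i j k
    fin_cases i <;> fin_cases j <;> fin_cases k <;> rfl
  simp only [key]
  unfold S24
  have e : ∀ x y z : Fin 4, Equiv.swap x y z = if z = x then y else if z = y then x else z :=
    fun x y z => Equiv.swap_apply_def x y z
  simp only [e, Equiv.swap_apply_def]
  simp (config := {decide := true}) only [if_true, if_false]
  have e1 : (Fin.succ 0 : Fin 4) = 1 := rfl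
  have e2 : ((Fin.succ 0 : Fin 3).succ : Fin 4) = 2 := rfl
  have e3 : (((Fin.succ 0 : Fin 2).succ : Fin 3).succ : Fin 4) = 3 := rfl
  simp only [e3, e2, e1]
  ring

/-- explicit monomial mean on four points -/
noncomputable def mt4 (i j k l : ℕ) (a b c d : ℝ) : ℝ :=
  1 / 24 * S24 (fun x y z t => x ^ i * y ^ j * z ^ k * t ^ l) a b c d

theorem card_perm_four : (Fintype.card (Equiv.Perm (Fin 4)) : ℝ) = 24 := by
  rw [Fintype.card_perm, Fintype.card_fin]
  norm_num [Nat.factorial]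

theorem mt_four (i j k l : ℕ) (w : Fin 4 → ℝ) :
    mt ![i, j, k, l] w = mt4 i j k l (w 0) (w 1) (w 2) (w 3) := by
  unfold mt mt4
  rw [card_perm_four, ← sum_perm_four]
  congr 1
  refine Finset.sum_congr rfl fun σ _ => ?_
  simp [Fin.prod_univ_four]

/-! ### invariants of a vector on four points -/

/-- first coordinate -/
def cX (p : Fin 4 → ℝ) : ℝ := p 0 + p 1 - p 2 - p 3
/-- second coordinate -/
def cY (p : Fin 4 → ℝ) : ℝ := p 0 - p 1 + p 2 - p 3
/-- third coordinate -/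
def cZ (p : Fin 4 → ℝ) : ℝ := p 0 - p 1 - p 2 + p 3
/-- quadratic invariant -/
noncomputable def iv2 (p : Fin 4 → ℝ) : ℝ := (cX p ^ 2 + cY p ^ 2 + cZ p ^ 2) / 3
/-- cubic invariant -/
noncomputable def iv3 (p : Fin 4 → ℝ) : ℝ := cX p * cY p * cZ p
/-- quartic invariant -/
noncomputable def iv4 (p : Fin 4 → ℝ) : ℝ :=
  cX p ^ 2 * cY p ^ 2 + cY p ^ 2 * cZ p ^ 2 + cZ p ^ 2 * cX p ^ 2

theorem iv2_eq (p : Fin 4 → ℝ) : iv2 p = (4 * ∑ i, p i ^ 2 - (∑ i, p i) ^ 2) / 3 := by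
  unfold iv2 cX cY cZ
  rw [Fin.sum_univ_four, Fin.sum_univ_four]
  ring

theorem iv3_eq (p : Fin 4 → ℝ) : iv3 p =
    1 / 3 * (∑ i, p i) ^ 3 - 2 * (∑ i, p i) * (∑ i, p i ^ 2) + 8 / 3 * ∑ i, p i ^ 3 := by
  unfold iv3 cX cY cZ
  rw [Fin.sum_univ_four, Fin.sum_univ_four, Fin.sum_univ_four]
  ring

theorem iv4_eq (p : Fin 4 → ℝ) : iv4 p =
    5 / 3 * (∑ i, p i) ^ 4 - 8 * (∑ i, p i) ^ 2 * (∑ i, p i ^ 2) + 4 * (∑ i, p i ^ 2) ^ 2
      + 16 / 3 * (∑ i, p i) * (∑ i, p i ^ 3) - 64 * ∏ i, p i := by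
  unfold iv4 cX cY cZ
  rw [Fin.sum_univ_four, Fin.sum_univ_four, Fin.sum_univ_four, Fin.prod_univ_four]
  ring

theorem iv2_perm (p : Fin 4 → ℝ) (σ : Equiv.Perm (Fin 4)) : iv2 (fun i => p (σ i)) = iv2 p := by
  rw [iv2_eq, iv2_eq, Equiv.sum_comp σ, Equiv.sum_comp σ (fun i => p i ^ 2)]

theorem iv3_perm (p : Fin 4 → ℝ) (σ : Equiv.Perm (Fin 4)) : iv3 (fun i => p (σ i)) = iv3 p := by
  rw [iv3_eq, iv3_eq, Equiv.sum_comp σ, Equiv.sum_comp σ (fun i => p i ^ 2),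
    Equiv.sum_comp σ (fun i => p i ^ 3)]

theorem iv4_perm (p : Fin 4 → ℝ) (σ : Equiv.Perm (Fin 4)) : iv4 (fun i => p (σ i)) = iv4 p := by
  rw [iv4_eq, iv4_eq, Equiv.sum_comp σ, Equiv.sum_comp σ (fun i => p i ^ 2),
    Equiv.sum_comp σ (fun i => p i ^ 3), Equiv.prod_comp σ]

theorem rr_four {p : Fin 4 → ℝ} (hp : ∑ i, p i = 1) : rr p = iv2 p := by
  rw [iv2_eq, hp]
  unfold rr
  norm_num

/-! ### noise on the invariants -/

theorem cX_noise (lam : ℝ) (p : Fin 4 → ℝ) :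
    cX (fun i => lam * p i + (1 - lam) / (4 : ℕ)) = lam * cX p := by
  unfold cX
  ring

theorem cY_noise (lam : ℝ) (p : Fin 4 → ℝ) :
    cY (fun i => lam * p i + (1 - lam) / (4 : ℕ)) = lam * cY p := by
  unfold cY
  ring

theorem cZ_noise (lam : ℝ) (p : Fin 4 → ℝ) :
    cZ (fun i => lam * p i + (1 - lam) / (4 : ℕ)) = lam * cZ p := by
  unfold cZ
  ring

theorem iv2_noise (lam : ℝ) (p : Fin 4 → ℝ) :
    iv2 (fun i => lam * p i + (1 - lam) / (4 : ℕ)) = lam ^ 2 * iv2 p := by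
  unfold iv2
  rw [cX_noise, cY_noise, cZ_noise]
  ring

theorem iv3_noise (lam : ℝ) (p : Fin 4 → ℝ) :
    iv3 (fun i => lam * p i + (1 - lam) / (4 : ℕ)) = lam ^ 3 * iv3 p := by
  unfold iv3
  rw [cX_noise, cY_noise, cZ_noise]
  ring

theorem iv4_noise (lam : ℝ) (p : Fin 4 → ℝ) :
    iv4 (fun i => lam * p i + (1 - lam) / (4 : ℕ)) = lam ^ 4 * iv4 p := by
  unfold iv4
  rw [cX_noise, cY_noise, cZ_noise]
  ring

/-! ### relabelling both arguments of the kernel -/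

variable {q : ℕ}

theorem overlap_perm (p r : Fin q → ℝ) (s : Equiv.Perm (Fin q)) :
    overlap (fun i => p (s i)) (fun i => r (s i)) = overlap p r := by
  unfold overlap
  rw [Equiv.sum_comp s (fun i => p i * r i)]

theorem comb_perm (p r : Fin q → ℝ) (s : Equiv.Perm (Fin q)) :
    comb (fun i => p (s i)) (fun i => r (s i)) = fun i => comb p r (s i) := by
  funext i
  unfold comb
  rw [Equiv.sum_comp s (fun i => p i * r i)]

theorem KS_perm (φ : (Fin q → ℝ) → ℝ)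
    (hφ : ∀ (p : Fin q → ℝ) (σ : Equiv.Perm (Fin q)), φ (fun i => p (σ i)) = φ p)
    (p r : Fin q → ℝ) (s t : Equiv.Perm (Fin q)) :
    KS φ (fun i => p (s i)) (fun i => r (t i)) = KS φ p r := by
  unfold KS
  congr 1
  let e : Equiv.Perm (Fin q) ≃ Equiv.Perm (Fin q) :=
    (Equiv.mulRight s⁻¹).trans (Equiv.mulLeft t)
  refine Fintype.sum_equiv e _ _ fun σ => ?_
  have h1 : (fun i => r (t (σ i))) = fun i => (fun j => r ((e σ) j)) (s i) := by
    funext i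
    simp [e]
  have h2 : overlap (fun i => p (s i)) (fun i => r (t (σ i))) =
      overlap p (fun j => r ((e σ) j)) := by
    rw [h1, overlap_perm p (fun j => r ((e σ) j)) s]
  have h3 : φ (comb (fun i => p (s i)) (fun i => r (t (σ i)))) =
      φ (comb p (fun j => r ((e σ) j))) := by
    rw [h1, comb_perm p (fun j => r ((e σ) j)) s, hφ]
  rw [h2, h3]

theorem rr_perm (p : Fin q → ℝ) (σ : Equiv.Perm (Fin q)) : rr (fun i => p (σ i)) = rr p := by
  unfold rr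
  rw [Equiv.sum_comp σ (fun i => p i ^ 2)]

/-! ### sorting -/

/-- sorted vector with prescribed gaps (divided by four) -/
noncomputable def srt (a b c d : ℝ) : Fin 4 → ℝ :=
  ![(a + b + c + d) / 4, (b + c + d) / 4, (c + d) / 4, d / 4]

theorem exists_sorted (p : Fin 4 → ℝ) (hp : ∀ i, 0 < p i) (hs : ∑ i, p i = 1) :
    ∃ (σ : Equiv.Perm (Fin 4)) (a b c d : ℝ), 0 ≤ a ∧ 0 ≤ b ∧ 0 ≤ c ∧ 0 < d ∧
      a + 2 * b + 3 * c + 4 * d = 4 ∧ (fun i => p (σ i)) = srt a b c d := by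
  have hm : Monotone ((fun i => - p i) ∘ Tuple.sort (fun i => - p i)) :=
    Tuple.monotone_sort _
  set σ := Tuple.sort (fun i => - p i) with hσ
  have h01 : p (σ 1) ≤ p (σ 0) := by
    have := hm (show (0 : Fin 4) ≤ 1 by decide)
    simp only [Function.comp] at this
    linarith
  have h12 : p (σ 2) ≤ p (σ 1) := by
    have := hm (show (1 : Fin 4) ≤ 2 by decide)
    simp only [Function.comp] at this
    linarith
  have h23 : p (σ 3) ≤ p (σ 2) := by
    have := hm (show (2 : Fin 4) ≤ 3 by decide)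
    simp only [Function.comp] at this
    linarith
  have hsum : p (σ 0) + p (σ 1) + p (σ 2) + p (σ 3) = 1 := by
    rw [← hs, ← Equiv.sum_comp σ p, Fin.sum_univ_four]
  refine ⟨σ, 4 * (p (σ 0) - p (σ 1)), 4 * (p (σ 1) - p (σ 2)), 4 * (p (σ 2) - p (σ 3)),
    4 * p (σ 3), by linarith, by linarith, by linarith, by linarith [hp (σ 3)], by linarith, ?_⟩
  funext i
  fin_cases i
  · change p (σ 0) = (4 * (p (σ 0) - p (σ 1)) + 4 * (p (σ 1) - p (σ 2)) +
      4 * (p (σ 2) - p (σ 3)) + 4 * p (σ 3)) / 4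
    ring
  · change p (σ 1) = (4 * (p (σ 1) - p (σ 2)) + 4 * (p (σ 2) - p (σ 3)) + 4 * p (σ 3)) / 4
    ring
  · change p (σ 2) = (4 * (p (σ 2) - p (σ 3)) + 4 * p (σ 3)) / 4
    ring
  · change p (σ 3) = (4 * p (σ 3)) / 4
    ring

/-- A statement about two positive probability vectors on four points that is invariant under
independent relabellings follows from its sorted case. -/
theorem sorted_reduction (P : (Fin 4 → ℝ) → (Fin 4 → ℝ) → Prop)
    (hP : ∀ (p r : Fin 4 → ℝ) (s t : Equiv.Perm (Fin 4)),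
      P (fun i => p (s i)) (fun i => r (t i)) → P p r)
    (h : ∀ a b c d a' b' c' d' : ℝ, 0 ≤ a → 0 ≤ b → 0 ≤ c → 0 < d → 0 ≤ a' → 0 ≤ b' → 0 ≤ c' →
      0 < d' → a + 2 * b + 3 * c + 4 * d = 4 → a' + 2 * b' + 3 * c' + 4 * d' = 4 →
      P (srt a b c d) (srt a' b' c' d'))
    (p r : Fin 4 → ℝ) (hp : ∀ i, 0 < p i) (hr : ∀ i, 0 < r i) (hps : ∑ i, p i = 1)
    (hrs : ∑ i, r i = 1) : P p r := by
  obtain ⟨s, a, b, c, d, ha, hb, hc, hd, hsum, he⟩ := exists_sorted p hp hps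
  obtain ⟨t, a', b', c', d', ha', hb', hc', hd', hsum', he'⟩ := exists_sorted r hr hrs
  apply hP p r s t
  rw [he, he']
  exact h a b c d a' b' c' d' ha hb hc hd ha' hb' hc' hd' hsum hsum'

theorem sorted_reduction_one (P : (Fin 4 → ℝ) → Prop)
    (hP : ∀ (p : Fin 4 → ℝ) (s : Equiv.Perm (Fin 4)), P (fun i => p (s i)) → P p)
    (h : ∀ a b c d : ℝ, 0 ≤ a → 0 ≤ b → 0 ≤ c → 0 < d → a + 2 * b + 3 * c + 4 * d = 4 →
      P (srt a b c d))
    (p : Fin 4 → ℝ) (hp : ∀ i, 0 < p i) (hps : ∑ i, p i = 1) : P p := by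
  obtain ⟨s, a, b, c, d, ha, hb, hc, hd, hsum, he⟩ := exists_sorted p hp hps
  apply hP p s
  rw [he]
  exact h a b c d ha hb hc hd hsum

end Vale.Agent.P154
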