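import Vale.Agent.P154.Kron
import Vale.Agent.P154.Q4

/-!
# Generic polynomial expressions for the four state certificates
-/

namespace Vale.Agent.P154

open PE Finset Vale.Agent.P154.Up

/-! ### lists of lists, graded by degree -/

/-- sum of expressions -/
def sumE {α : Type} (f : α → PE) : List α → PE
  | [] => C 0
  | a :: l => f a + sumE f l

/-- homogenised sum of expressions (highest degree first) -/
def hsE {α : Type} (s : PE) (f : α → PE) : List (List α) → PE
  | [] => C 0
  | l :: L =>
    match L with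
    | [] => sumE f l
    | _ :: _ => sumE f l + s * hsE s f L

/-- real sum -/
noncomputable def sumR {α : Type} (g : α → ℝ) : List α → ℝ
  | [] => 0
  | a :: l => g a + sumR g l

/-- real sum -/
noncomputable def allR {α : Type} (g : α → ℝ) : List (List α) → ℝ
  | [] => 0
  | l :: L => sumR g l + allR g L

/-- the grading is respected -/
def okD {α : Type} (d : α → ℕ) : List (List α) → Bool
  | [] => true
  | l :: L => l.all (fun a => Nat.beq (d a) L.length) && okD d L

theorem sumR_mul {α : Type} (c : ℝ) (g : α → ℝ) (l : List α) :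
    sumR (fun a => c * g a) l = c * sumR g l := by
  induction l with
  | nil => simp [sumR]
  | cons a l ih => rw [sumR, sumR, ih]; ring

theorem allR_mul {α : Type} (c : ℝ) (g : α → ℝ) (l : List (List α)) :
    allR (fun a => c * g a) l = c * allR g l := by
  induction l with
  | nil => simp [allR]
  | cons a l ih => rw [allR, allR, ih, sumR_mul]; ring

theorem sumR_congr {α : Type} {g g' : α → ℝ} {l : List α} (h : ∀ a ∈ l, g a = g' a) :
    sumR g l = sumR g' l := by
  induction l with
  | nil => rfl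
  | cons a l ih =>
    rw [sumR, sumR, h a (by simp), ih fun b hb => h b (by simp [hb])]

theorem allR_congr {α : Type} {g g' : α → ℝ} {L : List (List α)}
    (h : ∀ l ∈ L, ∀ a ∈ l, g a = g' a) : allR g L = allR g' L := by
  induction L with
  | nil => rfl
  | cons l L ih =>
    rw [allR, allR, sumR_congr (h l (by simp)), ih fun b hb => h b (by simp [hb])]

theorem sumR_append {α : Type} (g : α → ℝ) (l m : List α) :
    sumR g (l ++ m) = sumR g l + sumR g m := by
  induction l with
  | nil => simp [sumR]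
  | cons a l ih => rw [List.cons_append, sumR, sumR, ih]; ring

theorem allR_flatten {α : Type} (g : α → ℝ) (L : List (List α)) :
    allR g L = sumR g L.flatten := by
  induction L with
  | nil => rfl
  | cons l L ih => rw [List.flatten_cons, sumR_append, allR, ih]

theorem sumR_eq {α : Type} (g : α → ℝ) (l : List α) : sumR g l = (l.map g).sum := by
  induction l with
  | nil => rfl
  | cons a l ih => rw [sumR, ih, List.map_cons, List.sum_cons]

theorem allR_nil_cons {α : Type} (g : α → ℝ) (L : List (List α)) :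
    allR g ([] :: L) = allR g L := by
  rw [allR, sumR, zero_add]

theorem den_sumE {α : Type} (v : ℕ → ℝ) (f : α → PE) (l : List α) :
    den v (sumE f l) = sumR (fun a => den v (f a)) l := by
  induction l with
  | nil => simp [sumE, sumR]
  | cons a l ih => rw [sumE, den_add, ih, sumR]

theorem den_hsE {α : Type} (v : ℕ → ℝ) (s : PE) (f : α → PE) (g : α → ℝ) (d : α → ℕ)
    (L : List (List α)) (h : okD d L = true)
    (hf : ∀ l ∈ L, ∀ a ∈ l, den v (f a) = den v s ^ d a * g a) :
    den v s * den v (hsE s f L) = den v s ^ L.length * allR g L := by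
  induction L with
  | nil => simp [hsE, allR]
  | cons l L ih =>
    simp only [okD, Bool.and_eq_true] at h
    have h1 : den v (sumE f l) = den v s ^ L.length * sumR g l := by
      rw [den_sumE, ← sumR_mul]
      refine sumR_congr fun a ha => ?_
      have h2 := List.all_eq_true.mp h.1 a ha
      have h3 : d a = L.length := Nat.eq_of_beq_eq_true h2
      rw [hf l (by simp) a ha, h3]
    have h4 := ih h.2 fun m hm a ha => hf m (by simp [hm]) a ha
    cases L with
    | nil =>
      have e : den v (hsE s f [l]) = den v (sumE f l) := rfl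
      rw [e, h1]
      simp [allR]
    | cons m M =>
      have e : den v (hsE s f (l :: m :: M)) =
          den v (sumE f l) + den v s * den v (hsE s f (m :: M)) := rfl
      have e2 : allR g (l :: m :: M) = sumR g l + allR g (m :: M) := rfl
      have e3 : (l :: m :: M).length = (m :: M).length + 1 := rfl
      rw [e, h1, h4, e2, e3]
      ring

/-! ### invariants -/

/-- exponents of `3 iv2`, `iv3`, `iv4` -/
abbrev Mon := ℕ × ℕ × ℕ

/-- monomials in the invariants -/
noncomputable def mono (β : Mon) (p : Fin 4 → ℝ) : ℝ :=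
  (3 * iv2 p) ^ β.1 * (iv3 p ^ β.2.1 * iv4 p ^ β.2.2)

/-- degree -/
def mdeg (β : Mon) : ℕ := 2 * β.1 + 3 * β.2.1 + 4 * β.2.2

/-- first coordinate -/
def eX (x y z t : PE) : PE := x + y - z - t
/-- second coordinate -/
def eY (x y z t : PE) : PE := x - y + z - t
/-- third coordinate -/
def eZ (x y z t : PE) : PE := x - y - z + t

/-- monomials in the invariants -/
def monE (x y z t : PE) (β : Mon) : PE :=
  (eX x y z t ^ 2 + eY x y z t ^ 2 + eZ x y z t ^ 2) ^ β.1 *
    ((eX x y z t * (eY x y z t * eZ x y z t)) ^ β.2.1 *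
      (eX x y z t ^ 2 * eY x y z t ^ 2 + eY x y z t ^ 2 * eZ x y z t ^ 2
        + eZ x y z t ^ 2 * eX x y z t ^ 2) ^ β.2.2)

/-- the expressions `x, y, z, t` denote `S` times the vector `p` -/
structure Rep (v : ℕ → ℝ) (x y z t : PE) (S : ℝ) (p : Fin 4 → ℝ) : Prop where
  h0 : den v x = S * p 0
  h1 : den v y = S * p 1
  h2 : den v z = S * p 2
  h3 : den v t = S * p 3

theorem den_monE {v : ℕ → ℝ} {x y z t : PE} {S : ℝ} {p : Fin 4 → ℝ}
    (h : Rep v x y z t S p) (β : Mon) :
    den v (monE x y z t β) = S ^ mdeg β * mono β p := by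
  have e0 : den v (eX x y z t) = S * cX p := by
    simp only [eX, den_add, den_sub, h.h0, h.h1, h.h2, h.h3, cX]; ring
  have e1 : den v (eY x y z t) = S * cY p := by
    simp only [eY, den_add, den_sub, h.h0, h.h1, h.h2, h.h3, cY]; ring
  have e2 : den v (eZ x y z t) = S * cZ p := by
    simp only [eZ, den_add, den_sub, h.h0, h.h1, h.h2, h.h3, cZ]; ring
  have e3 : S ^ mdeg β = (S ^ 2) ^ β.1 * ((S ^ 3) ^ β.2.1 * (S ^ 4) ^ β.2.2) := by
    rw [mdeg, pow_add, pow_add, pow_mul, pow_mul, pow_mul]; ring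
  simp only [monE, den_mul, den_pow, den_add, e0, e1, e2, mono, e3]
  have e4 : (S * cX p) ^ 2 + (S * cY p) ^ 2 + (S * cZ p) ^ 2 = S ^ 2 * (3 * iv2 p) := by
    unfold iv2; ring
  have e5 : S * cX p * (S * cY p * (S * cZ p)) = S ^ 3 * iv3 p := by
    unfold iv3; ring
  have e6 : (S * cX p) ^ 2 * (S * cY p) ^ 2 + (S * cY p) ^ 2 * (S * cZ p) ^ 2
      + (S * cZ p) ^ 2 * (S * cX p) ^ 2 = S ^ 4 * iv4 p := by
    unfold iv4; ring
  rw [e4, e5, e6, mul_pow, mul_pow, mul_pow]
  ring

/-- integer polynomials in the invariants, graded, highest degree first -/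
abbrev L1 := List (List (Mon × ℤ))

/-- real value of a graded polynomial -/
noncomputable def val (L : L1) (p : Fin 4 → ℝ) : ℝ := allR (fun e => (e.2 : ℝ) * mono e.1 p) L

/-- homogenised expression of a graded polynomial -/
def oneE (s x y z t : PE) (L : L1) : PE :=
  hsE s (fun e => C e.2 * monE x y z t e.1) L

theorem den_oneE {v : ℕ → ℝ} {s x y z t : PE} {S : ℝ} {p : Fin 4 → ℝ} (hs : den v s = S)
    (h : Rep v x y z t S p) (L : L1) (hL : okD (fun e => mdeg e.1) L = true) :
    S * den v (oneE s x y z t L) = S ^ L.length * val L p := by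
  have := den_hsE v s (fun e : Mon × ℤ => C e.2 * monE x y z t e.1)
    (fun e => (e.2 : ℝ) * mono e.1 p) (fun e => mdeg e.1) L hL (fun l _ a _ => by
      rw [den_mul, den_C, den_monE h, hs]; ring)
  rw [hs] at this
  exact this

/-- bilinear forms in the invariants -/
abbrev L2 := List (List (Mon × L1))

/-- real value -/
noncomputable def bval (L : L2) (p r : Fin 4 → ℝ) : ℝ :=
  allR (fun e => mono e.1 p * val e.2 r) L

/-- all rows are graded and have length `n + 1` -/
def okL2 (n : ℕ) (L : L2) : Bool :=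
  okD (fun e => mdeg e.1) L &&
    L.all (fun l => l.all (fun e => Nat.beq e.2.length (n + 1) && okD (fun a => mdeg a.1) e.2))

/-- homogenised expression of a bilinear form -/
def bilE (s x y z t s' x' y' z' t' : PE) (L : L2) : PE :=
  hsE s (fun e => monE x y z t e.1 * oneE s' x' y' z' t' e.2) L

theorem den_bilE {v : ℕ → ℝ} {s x y z t s' x' y' z' t' : PE} {S S' : ℝ}
    {p r : Fin 4 → ℝ} (hs : den v s = S) (h : Rep v x y z t S p) (hs' : den v s' = S')
    (h' : Rep v x' y' z' t' S' r) (hS' : S' ≠ 0) (n : ℕ) (L : L2) (hL : okL2 n L = true) :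
    S * den v (bilE s x y z t s' x' y' z' t' L) = S ^ L.length * (S' ^ n * bval L p r) := by
  simp only [okL2, Bool.and_eq_true] at hL
  have h2 := hL.2
  rw [List.all_eq_true] at h2
  have := den_hsE v s (fun e : Mon × L1 => monE x y z t e.1 * oneE s' x' y' z' t' e.2)
    (fun e => S' ^ n * (mono e.1 p * val e.2 r)) (fun e => mdeg e.1) L hL.1
    (fun l hl a ha => by
      have h3 := h2 l hl
      rw [List.all_eq_true] at h3
      have h4 := h3 a ha
      rw [Bool.and_eq_true] at h4
      have h5 : a.2.length = n + 1 := Nat.eq_of_beq_eq_true h4.1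
      have h6 := den_oneE hs' h' a.2 h4.2
      rw [h5, pow_succ'] at h6
      have h7 : den v (oneE s' x' y' z' t' a.2) = S' ^ n * val a.2 r := by
        have : S' * den v (oneE s' x' y' z' t' a.2) = S' * (S' ^ n * val a.2 r) := by
          rw [h6]; ring
        exact mul_left_cancel₀ hS' this
      rw [den_mul, den_monE h, h7, hs]; ring)
  rw [hs, allR_mul] at this
  exact this

/-! ### monomial means -/

/-- exponents -/
abbrev Ex := ℕ × ℕ × ℕ × ℕ

/-- degree -/
def edeg (α : Ex) : ℕ := α.1 + α.2.1 + α.2.2.1 + α.2.2.2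

/-- monomial -/
def mE (α : Ex) (x y z t : PE) : PE := x ^ α.1 * (y ^ α.2.1 * (z ^ α.2.2.1 * t ^ α.2.2.2))

/-- 24 times the monomial mean -/
def mtE (α : Ex) (a b c d : PE) : PE :=
  mE α a b c d + mE α a b d c + mE α a c b d + mE α a c d b + mE α a d b c + mE α a d c b +
  mE α b a c d + mE α b a d c + mE α b c a d + mE α b c d a + mE α b d a c + mE α b d c a +
  mE α c a b d + mE α c a d b + mE α c b a d + mE α c b d a + mE α c d a b + mE α c d b a +
  mE α d a b c + mE α d a c b + mE α d b a c + mE α d b c a + mE α d c a b + mE α d c b a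

/-- monomial mean with bundled exponents -/
noncomputable def mm (α : Ex) (w : Fin 4 → ℝ) : ℝ :=
  mt ![α.1, α.2.1, α.2.2.1, α.2.2.2] w

theorem den_mtE {v : ℕ → ℝ} {x y z t : PE} {S : ℝ} {p : Fin 4 → ℝ}
    (h : Rep v x y z t S p) (α : Ex) :
    den v (mtE α x y z t) = 24 * (S ^ edeg α * mm α p) := by
  have e : ∀ a b c d : ℝ, (S * a) ^ α.1 * ((S * b) ^ α.2.1 * ((S * c) ^ α.2.2.1 *
      (S * d) ^ α.2.2.2)) = S ^ edeg α * (a ^ α.1 * b ^ α.2.1 * c ^ α.2.2.1 * d ^ α.2.2.2) := by
    intro a b c d
    rw [edeg, pow_add, pow_add, pow_add, mul_pow, mul_pow, mul_pow, mul_pow]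
    ring
  simp only [mtE, mE, den_add, den_mul, den_pow, h.h0, h.h1, h.h2, h.h3, e]
  rw [mm, mt_four, mt4, S24]
  ring

theorem mm_smul (α : Ex) (c : ℝ) (w : Fin 4 → ℝ) :
    mm α (fun i => c * w i) = c ^ edeg α * mm α w := by
  have e : ∀ x y z t : ℝ, (c * x) ^ α.1 * (c * y) ^ α.2.1 * (c * z) ^ α.2.2.1 *
      (c * t) ^ α.2.2.2 = c ^ edeg α * (x ^ α.1 * y ^ α.2.1 * z ^ α.2.2.1 * t ^ α.2.2.2) := by
    intro x y z t
    rw [edeg, pow_add, pow_add, pow_add, mul_pow, mul_pow, mul_pow, mul_pow]
    ring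
  rw [mm, mm, mt_four, mt_four, mt4, mt4, S24, S24]
  simp only [e]
  ring

theorem mm_perm (α : Ex) (w : Fin 4 → ℝ) (s : Equiv.Perm (Fin 4)) :
    mm α (fun i => w (s i)) = mm α w := by
  unfold mm mt
  congr 1
  refine Fintype.sum_equiv (Equiv.mulLeft s) _ _ fun σ => ?_
  rfl

/-- graded lists of monomial means -/
abbrev LM := List (List (Ex × ℤ))

/-- coefficient of a monomial mean -/
noncomputable def cf (e : Ex × ℤ) : ℝ := (e.2 : ℝ) / 16 ^ edeg e.1

/-- the polynomial with a given list of coefficients -/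
noncomputable def tval (L : LM) (w : Fin 4 → ℝ) : ℝ := allR (fun e => cf e * mm e.1 w) L

/-- the bilinear form with a given list of coefficients -/
noncomputable def tbil (L : LM) (x y : Fin 4 → ℝ) : ℝ :=
  allR (fun e => cf e * (mm e.1 x * mm e.1 y)) L

theorem tval_perm (L : LM) (w : Fin 4 → ℝ) (s : Equiv.Perm (Fin 4)) :
    tval L (fun i => w (s i)) = tval L w := by
  unfold tval
  refine allR_congr fun l _ a _ => ?_
  rw [mm_perm]

/-- transfer of a pointwise minorant to the kernel -/
theorem tbil_le_KS (L : LM) (φ : (Fin 4 → ℝ) → ℝ) (p r : Fin 4 → ℝ)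
    (h : ∀ σ : Equiv.Perm (Fin 4),
      tval L (fun i => (4 * p i) * (4 * r (σ i))) ≤
        overlap p (fun i => r (σ i)) * φ (comb p (fun i => r (σ i)))) :
    tbil L (fun i => 4 * p i) (fun i => 4 * r i) ≤ KS φ p r := by
  have e1 : ∀ w : Fin 4 → ℝ, tval L w = ∑ j : Fin L.flatten.length,
      cf L.flatten[j] * mt ![(L.flatten[j]).1.1, (L.flatten[j]).1.2.1,
        (L.flatten[j]).1.2.2.1, (L.flatten[j]).1.2.2.2] w := by
    intro w
    rw [tval, allR_flatten, sumR_eq, ← Fin.sum_univ_fun_getElem]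
    rfl
  have e2 : ∀ x y : Fin 4 → ℝ, tbil L x y = ∑ j : Fin L.flatten.length,
      cf L.flatten[j] * (mt ![(L.flatten[j]).1.1, (L.flatten[j]).1.2.1,
        (L.flatten[j]).1.2.2.1, (L.flatten[j]).1.2.2.2] x *
          mt ![(L.flatten[j]).1.1, (L.flatten[j]).1.2.1,
        (L.flatten[j]).1.2.2.1, (L.flatten[j]).1.2.2.2] y) := by
    intro x y
    rw [tbil, allR_flatten, sumR_eq, ← Fin.sum_univ_fun_getElem]
    rfl
  rw [e2]
  have h4 : ((4 : ℕ) : ℝ) = 4 := by norm_num
  have := KS_ge (q := 4) Finset.univ (fun j : Fin L.flatten.length => cf L.flatten[j])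
    (fun j => ![(L.flatten[j]).1.1, (L.flatten[j]).1.2.1,
        (L.flatten[j]).1.2.2.1, (L.flatten[j]).1.2.2.2]) φ p r (fun σ => by
      have h1 := h σ
      rw [e1] at h1
      rw [h4]
      exact h1)
  rw [h4] at this
  exact this

end Vale.Agent.P154
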