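import Vale.Agent.P154.Bern4

/-!
# From kernel checks to inequalities between functions of the posterior (four states)
-/

namespace Vale.Agent.P154

open PE Finset Vale.Agent.P154.Up

/-- values of at most eight variables -/
def v8 (a b c d x y z t : ℝ) : ℕ → ℝ
  | 0 => a
  | 1 => b
  | 2 => c
  | 3 => d
  | 4 => x
  | 5 => y
  | 6 => z
  | 7 => t
  | _ => 0

theorem v8_nonneg {a b c d x y z t : ℝ} (ha : 0 ≤ a) (hb : 0 ≤ b) (hc : 0 ≤ c) (hd : 0 ≤ d)
    (hx : 0 ≤ x) (hy : 0 ≤ y) (hz : 0 ≤ z) (ht : 0 ≤ t) (i : ℕ) : 0 ≤ v8 a b c d x y z t i := by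
  unfold v8
  split <;> first | assumption | exact le_refl _

/-! ### bilinear form below the monomial means -/

/-- the expression of the first check -/
def F1 (LT : LM) (LB : L2) : PE :=
  hsE ((X 3 + X 4 + X 5 + C 1) * (X 0 + X 1 + X 2 + C 1))
    (fun e => C e.2 * (mtE e.1 (X 3) (X 4) (X 5) (C 1) * mtE e.1 (X 0) (X 1) (X 2) (C 1))) LT
  - C 576 * bilE (X 3 + X 4 + X 5 + C 1) (X 3) (X 4) (X 5) (C 1)
      (X 0 + X 1 + X 2 + C 1) (X 0) (X 1) (X 2) (C 1) LB

theorem bval_le_tbil (LT : LM) (LB : L2) (n b R : ℕ) (hT : LT.length = n + 1)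
    (hB : LB.length = n + 1) (okT : okD (fun e => edeg e.1) LT = true)
    (okB : okL2 n LB = true) (hk : kcheck 3 3 b R (F1 LT LB) = true) (p r : Fin 4 → ℝ)
    (hp : ∀ i, 0 < p i) (hr : ∀ i, 0 < r i) (hps : ∑ i, p i = 1) (hrs : ∑ i, r i = 1) :
    bval LB p r ≤ tbil LT (fun i => 4 * p i) (fun i => 4 * r i) := by
  have hp0 := hp 0
  have hp1 := hp 1
  have hp2 := hp 2
  have hp3 := hp 3
  have hr0 := hr 0
  have hr1 := hr 1
  have hr2 := hr 2
  have hr3 := hr 3
  rw [Fin.sum_univ_four] at hps hrs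
  set v := v8 (r 0 / r 3) (r 1 / r 3) (r 2 / r 3) (p 0 / p 3) (p 1 / p 3) (p 2 / p 3) 0 0
    with hv
  have h0 := den_nonneg_of_kcheck v 3 3 b R (fun i _ => v8_nonneg (by positivity)
    (by positivity) (by positivity) (by positivity) (by positivity) (by positivity)
    (le_refl _) (le_refl _) i) _ hk
  have hs : den v (X 3 + X 4 + X 5 + C 1) = 1 / p 3 := by
    simp only [den_add, den_X, den_C, hv, v8]
    push_cast
    field_simp
    linarith
  have hs' : den v (X 0 + X 1 + X 2 + C 1) = 1 / r 3 := by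
    simp only [den_add, den_X, den_C, hv, v8]
    push_cast
    field_simp
    linarith
  have R1 : Rep v (X 3) (X 4) (X 5) (C 1) (1 / p 3) p := by
    constructor
    · simp only [den_X, hv, v8]; ring
    · simp only [den_X, hv, v8]; ring
    · simp only [den_X, hv, v8]; ring
    · simp only [den_C]; push_cast; field_simp
  have R2 : Rep v (X 0) (X 1) (X 2) (C 1) (1 / r 3) r := by
    constructor
    · simp only [den_X, hv, v8]; ring
    · simp only [den_X, hv, v8]; ring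
    · simp only [den_X, hv, v8]; ring
    · simp only [den_C]; push_cast; field_simp
  have hSp : 0 < 1 / p 3 := by positivity
  have hSr : 0 < 1 / r 3 := by positivity
  generalize 1 / p 3 = S at hs R1 hSp
  generalize 1 / r 3 = S' at hs' R2 hSr
  have h1 := den_hsE v ((X 3 + X 4 + X 5 + C 1) * (X 0 + X 1 + X 2 + C 1))
    (fun e : Ex × ℤ => C e.2 * (mtE e.1 (X 3) (X 4) (X 5) (C 1) *
      mtE e.1 (X 0) (X 1) (X 2) (C 1)))
    (fun e => 576 * (cf e * (mm e.1 (fun i => 4 * p i) * mm e.1 (fun i => 4 * r i))))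
    (fun e => edeg e.1) LT okT (fun l _ e _ => by
      rw [den_mul, den_mul, den_mul, den_C, den_mtE R1, den_mtE R2, hs, hs', mm_smul, mm_smul,
        cf]
      have : (16 : ℝ) ^ edeg e.1 = 4 ^ edeg e.1 * 4 ^ edeg e.1 := by
        rw [← mul_pow]; norm_num
      have h4 : (4 : ℝ) ^ edeg e.1 ≠ 0 := by positivity
      rw [this, mul_pow]
      field_simp
      ring)
  rw [allR_mul] at h1
  have h2 := den_bilE hs R1 hs' R2 hSr.ne' n LB okB
  rw [den_mul, hs, hs', hT] at h1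
  rw [hB] at h2
  rw [F1, den_sub, den_mul, den_C] at h0
  have e1 : S ^ (n + 1) = S * S ^ n := pow_succ' _ _
  have e2 : (S * S') ^ (n + 1) = (S * S') * (S ^ n * S' ^ n) := by
    rw [pow_succ, mul_pow]; ring
  rw [e2, mul_assoc (S * S')] at h1
  rw [e1, mul_assoc S] at h2
  have hA := mul_left_cancel₀ (mul_pos hSp hSr).ne' h1
  have hB' := mul_left_cancel₀ hSp.ne' h2
  have h0' : 0 ≤ S ^ n * S' ^ n * (576 * tbil LT (fun i => 4 * p i) (fun i => 4 * r i)) -
      576 * (S ^ n * (S' ^ n * bval LB p r)) := by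
    have h0'' := h0
    rw [hA, hB'] at h0''
    push_cast at h0''
    exact h0''
  have h4 : 0 ≤ 576 * (S ^ n * S' ^ n) *
      (tbil LT (fun i => 4 * p i) (fun i => 4 * r i) - bval LB p r) := by linarith
  have h5 : (0 : ℝ) < 576 * (S ^ n * S' ^ n) := by positivity
  have h6 := nonneg_of_mul_nonneg_right h4 h5
  linarith

/-! ### sorted coordinates -/

/-- the sorted vector with gaps `a, b, c` and last entry one, normalised -/
noncomputable def sv (a b c : ℝ) : Fin 4 → ℝ := fun i =>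
  (![a + b + c + 1, b + c + 1, c + 1, 1] : Fin 4 → ℝ) i / (a + 2 * b + 3 * c + 4)

theorem srt_eq_sv {a b c d : ℝ} (hd : 0 < d) (h : a + 2 * b + 3 * c + 4 * d = 4) :
    srt a b c d = sv (a / d) (b / d) (c / d) := by
  have h1 : a / d + 2 * (b / d) + 3 * (c / d) + 4 = 4 / d := by
    field_simp
    linarith
  funext i
  unfold srt sv
  rw [h1]
  fin_cases i
  · simp only [Fin.zero_eta, Matrix.cons_val_zero]; field_simp
  · simp only [Fin.mk_one, Matrix.cons_val_one, Matrix.cons_val_zero]; field_simp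
  · simp only [Fin.reduceFinMk, Matrix.cons_val]; field_simp
  · simp only [Fin.reduceFinMk, Matrix.cons_val]; field_simp

/-- sum of the entries -/
def sE (a b c : PE) : PE := a + C 2 * b + C 3 * c + C 4
/-- entry -/
def pA (a b c : PE) : PE := a + b + c + C 1
/-- entry -/
def pB (b c : PE) : PE := b + c + C 1
/-- entry -/
def pC (c : PE) : PE := c + C 1

theorem rep_sv {v : ℕ → ℝ} {a b c : PE} (ha : 0 ≤ den v a) (hb : 0 ≤ den v b)
    (hc : 0 ≤ den v c) :
    Rep v (pA a b c) (pB b c) (pC c) (C 1) (den v (sE a b c))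
      (sv (den v a) (den v b) (den v c)) := by
  have hS : den v (sE a b c) = den v a + 2 * den v b + 3 * den v c + 4 := by
    simp only [sE, den_add, den_mul, den_C]; push_cast; ring
  have h0 : den v a + 2 * den v b + 3 * den v c + 4 ≠ 0 := by positivity
  constructor
  · rw [hS]
    simp only [pA, den_add, den_C, sv, Matrix.cons_val_zero]
    push_cast
    field_simp
  · rw [hS]
    simp only [pB, den_add, den_C, sv, Matrix.cons_val_one, Matrix.cons_val_zero]
    push_cast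
    field_simp
  · rw [hS]
    simp only [pC, den_add, den_C, sv, Matrix.cons_val]
    push_cast
    field_simp
  · rw [hS]
    simp only [den_C, sv, Matrix.cons_val]
    push_cast
    field_simp

theorem den_sE_pos {v : ℕ → ℝ} {a b c : PE} (ha : 0 ≤ den v a) (hb : 0 ≤ den v b)
    (hc : 0 ≤ den v c) : 0 < den v (sE a b c) := by
  have hS : den v (sE a b c) = den v a + 2 * den v b + 3 * den v c + 4 := by
    simp only [sE, den_add, den_mul, den_C]; push_cast; ring
  rw [hS]; positivity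

/-! ### one argument -/

/-- expression of the check in one argument -/
def F4 (L : L1) : PE :=
  oneE (sE (X 0) (X 1) (X 2)) (pA (X 0) (X 1) (X 2)) (pB (X 1) (X 2)) (pC (X 2)) (C 1) L

theorem val_nonneg_sv (L : L1) (b R : ℕ) (okL : okD (fun e => mdeg e.1) L = true)
    (hk : kcheck 3 0 b R (F4 L) = true) {x y z : ℝ} (hx : 0 ≤ x) (hy : 0 ≤ y) (hz : 0 ≤ z) :
    0 ≤ val L (sv x y z) := by
  set v := v8 x y z 0 0 0 0 0 with hv
  have h0 := den_nonneg_of_kcheck v 3 0 b R (fun i _ => v8_nonneg hx hy hz (le_refl _)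
    (le_refl _) (le_refl _) (le_refl _) (le_refl _) i) _ hk
  have hp := den_sE_pos (v := v) (a := X 0) (b := X 1) (c := X 2) hx hy hz
  have h1 := den_oneE (rfl : den v (sE (X 0) (X 1) (X 2)) = _)
    (rep_sv (v := v) (a := X 0) (b := X 1) (c := X 2) hx hy hz) L okL
  have h2 : 0 ≤ den v (sE (X 0) (X 1) (X 2)) ^ L.length *
      val L (sv (den v (X 0)) (den v (X 1)) (den v (X 2))) := by
    rw [← h1]
    exact mul_nonneg hp.le h0
  exact nonneg_of_mul_nonneg_right h2 (by positivity)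

/-! ### two arguments -/

/-- a list of products of one argument polynomials -/
abbrev LQ := List (ℤ × L1 × L1)

/-- real value -/
noncomputable def qval (Q : LQ) (p r : Fin 4 → ℝ) : ℝ :=
  sumR (fun e => (e.1 : ℝ) * (val e.2.1 p * val e.2.2 r)) Q

/-- graded, of length `n + 1` -/
def okQ (n : ℕ) (Q : LQ) : Bool :=
  Q.all fun e => Nat.beq e.2.1.length (n + 1) && Nat.beq e.2.2.length (n + 1) &&
    okD (fun a => mdeg a.1) e.2.1 && okD (fun a => mdeg a.1) e.2.2

/-- expression of the check in two arguments -/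
def F2 (LB : L2) (Q : LQ) : PE :=
  bilE (sE (X 3) (X 4) (X 5)) (pA (X 3) (X 4) (X 5)) (pB (X 4) (X 5)) (pC (X 5)) (C 1)
    (sE (X 0) (X 1) (X 2)) (pA (X 0) (X 1) (X 2)) (pB (X 1) (X 2)) (pC (X 2)) (C 1) LB
  - sumE (fun e => C e.1 *
      (oneE (sE (X 3) (X 4) (X 5)) (pA (X 3) (X 4) (X 5)) (pB (X 4) (X 5)) (pC (X 5)) (C 1)
          e.2.1 *
        oneE (sE (X 0) (X 1) (X 2)) (pA (X 0) (X 1) (X 2)) (pB (X 1) (X 2)) (pC (X 2)) (C 1)
          e.2.2)) Q

theorem qval_le_bval (LB : L2) (Q : LQ) (n b R : ℕ) (hB : LB.length = n + 1)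
    (okB : okL2 n LB = true) (hQ : okQ n Q = true) (hk : kcheck 3 3 b R (F2 LB Q) = true)
    {a b' c x y z : ℝ} (ha : 0 ≤ a) (hb : 0 ≤ b') (hc : 0 ≤ c) (hx : 0 ≤ x) (hy : 0 ≤ y)
    (hz : 0 ≤ z) : qval Q (sv a b' c) (sv x y z) ≤ bval LB (sv a b' c) (sv x y z) := by
  set v := v8 x y z a b' c 0 0 with hv
  have h0 := den_nonneg_of_kcheck v 3 3 b R (fun i _ => v8_nonneg hx hy hz ha hb hc
    (le_refl _) (le_refl _) i) _ hk
  have hp1 := den_sE_pos (v := v) (a := X 0) (b := X 1) (c := X 2) hx hy hz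
  have hp2 := den_sE_pos (v := v) (a := X 3) (b := X 4) (c := X 5) ha hb hc
  have R1 := rep_sv (v := v) (a := X 3) (b := X 4) (c := X 5) ha hb hc
  have R2 := rep_sv (v := v) (a := X 0) (b := X 1) (c := X 2) hx hy hz
  have h2 := den_bilE rfl R1 rfl R2 hp1.ne' n LB okB
  rw [hB] at h2
  set S := den v (sE (X 3) (X 4) (X 5)) with hS
  set S' := den v (sE (X 0) (X 1) (X 2)) with hS'
  have e1 : den v (X 3) = a := rfl
  have e2 : den v (X 4) = b' := rfl
  have e3 : den v (X 5) = c := rfl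
  have e4 : den v (X 0) = x := rfl
  have e5 : den v (X 1) = y := rfl
  have e6 : den v (X 2) = z := rfl
  rw [e1, e2, e3] at R1
  rw [e4, e5, e6] at R2
  rw [e1, e2, e3, e4, e5, e6] at h2
  have h3 : den v (bilE (sE (X 3) (X 4) (X 5)) (pA (X 3) (X 4) (X 5)) (pB (X 4) (X 5))
      (pC (X 5)) (C 1) (sE (X 0) (X 1) (X 2)) (pA (X 0) (X 1) (X 2)) (pB (X 1) (X 2))
      (pC (X 2)) (C 1) LB) = S ^ n * S' ^ n * bval LB (sv a b' c) (sv x y z) := by
    have : S * den v (bilE (sE (X 3) (X 4) (X 5)) (pA (X 3) (X 4) (X 5)) (pB (X 4) (X 5))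
      (pC (X 5)) (C 1) (sE (X 0) (X 1) (X 2)) (pA (X 0) (X 1) (X 2)) (pB (X 1) (X 2))
      (pC (X 2)) (C 1) LB) = S * (S ^ n * S' ^ n * bval LB (sv a b' c) (sv x y z)) := by
      rw [h2]; ring
    exact mul_left_cancel₀ hp2.ne' this
  have h4 : den v (sumE (fun e : ℤ × L1 × L1 => C e.1 *
      (oneE (sE (X 3) (X 4) (X 5)) (pA (X 3) (X 4) (X 5)) (pB (X 4) (X 5)) (pC (X 5)) (C 1)
          e.2.1 *
        oneE (sE (X 0) (X 1) (X 2)) (pA (X 0) (X 1) (X 2)) (pB (X 1) (X 2)) (pC (X 2)) (C 1)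
          e.2.2)) Q) = S ^ n * S' ^ n * qval Q (sv a b' c) (sv x y z) := by
    rw [den_sumE, qval, ← sumR_mul]
    refine sumR_congr fun e he => ?_
    have hq := List.all_eq_true.mp hQ e he
    simp only [Bool.and_eq_true] at hq
    obtain ⟨⟨⟨q1, q2⟩, q3⟩, q4⟩ := hq
    have q1' : e.2.1.length = n + 1 := Nat.eq_of_beq_eq_true q1
    have q2' : e.2.2.length = n + 1 := Nat.eq_of_beq_eq_true q2
    have k1 := den_oneE (rfl : den v (sE (X 3) (X 4) (X 5)) = _) R1 e.2.1 q3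
    have k2 := den_oneE (rfl : den v (sE (X 0) (X 1) (X 2)) = _) R2 e.2.2 q4
    rw [q1', pow_succ', mul_assoc] at k1
    rw [q2', pow_succ', mul_assoc] at k2
    have k1' := mul_left_cancel₀ hp2.ne' k1
    have k2' := mul_left_cancel₀ hp1.ne' k2
    rw [den_mul, den_mul, den_C, k1', k2']
    ring
  rw [F2, den_sub, h3, h4] at h0
  have h5 : 0 ≤ (S ^ n * S' ^ n) *
      (bval LB (sv a b' c) (sv x y z) - qval Q (sv a b' c) (sv x y z)) := by linarith
  have h6 : 0 < S ^ n * S' ^ n := by positivity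
  have h7 := nonneg_of_mul_nonneg_right h5 h6
  linarith

/-! ### pointwise minorant -/

/-- expression of the check of the minorant for `D` between `l` and `u` -/
def F3 (l u : ℤ) (n e : ℕ) (κ : ℤ) (LT : LM) (LP : L1) : PE :=
  C (96 * κ) * ((C l + C u * X 3) * ((C 4 * (C 1 + X 3)) ^ n *
    oneE (sE (X 0) (X 1) (X 2)) (pA (X 0) (X 1) (X 2)) (pB (X 1) (X 2)) (pC (X 2)) (C 1) LP))
  - sE (X 0) (X 1) (X 2) ^ e *
    hsE (C 4 * (C 1 + X 3) * sE (X 0) (X 1) (X 2))
      (fun a => C a.2 * ((C l + C u * X 3) ^ edeg a.1 *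
        mtE a.1 (pA (X 0) (X 1) (X 2)) (pB (X 1) (X 2)) (pC (X 2)) (C 1))) LT

theorem tval_le_sv (l u : ℤ) (n e : ℕ) (κ : ℤ) (LT : LM) (LP : L1) (b R : ℕ)
    (hT : LT.length = n + 2) (hP : LP.length = n + 1 + e + 1)
    (okT : okD (fun e => edeg e.1) LT = true) (okP : okD (fun e => mdeg e.1) LP = true)
    (hl : 0 ≤ l) (hk : kcheck 3 1 b R (F3 l u n e κ LT LP) = true)
    {x y z D : ℝ} (hx : 0 ≤ x) (hy : 0 ≤ y) (hz : 0 ≤ z) (hD0 : (l : ℝ) ≤ D)
    (hD1 : D < u) :
    tval LT (fun i => 4 * D * sv x y z i) ≤ D * (κ * val LP (sv x y z)) := by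
  have hl' : (0 : ℝ) ≤ l := by exact_mod_cast hl
  have hu : 0 < (u : ℝ) - D := by linarith
  have hu' : (0 : ℝ) < u := by linarith
  set t := (D - l) / (u - D) with ht
  have ht0 : 0 ≤ t := div_nonneg (by linarith) hu.le
  have ht1 : (l : ℝ) + u * t = D * (1 + t) := by
    rw [ht]; field_simp; ring
  set v := v8 x y z t 0 0 0 0 with hv
  have h0 := den_nonneg_of_kcheck v 3 1 b R (fun i _ => v8_nonneg hx hy hz ht0
    (le_refl _) (le_refl _) (le_refl _) (le_refl _) i) _ hk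
  have hp := den_sE_pos (v := v) (a := X 0) (b := X 1) (c := X 2) hx hy hz
  have R1 := rep_sv (v := v) (a := X 0) (b := X 1) (c := X 2) hx hy hz
  have e4 : den v (X 0) = x := rfl
  have e5 : den v (X 1) = y := rfl
  have e6 : den v (X 2) = z := rfl
  rw [e4, e5, e6] at R1
  set S := den v (sE (X 0) (X 1) (X 2)) with hS
  have hlu : den v (C l + C u * X 3) = D * (1 + t) := by
    rw [← ht1]; rfl
  have h1t : den v (C 4 * (C 1 + X 3)) = 4 * (1 + t) := by
    simp only [den_mul, den_add, den_C, den_X, hv, v8]; push_cast; ring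
  have hT1 : 0 < 1 + t := by positivity
  have k1 := den_oneE (rfl : den v (sE (X 0) (X 1) (X 2)) = _) R1 LP okP
  rw [← hS, hP, pow_succ', mul_assoc] at k1
  have k1' := mul_left_cancel₀ hp.ne' k1
  have hb : den v (C 4 * (C 1 + X 3) * sE (X 0) (X 1) (X 2)) = 4 * (1 + t) * S := by
    rw [den_mul, h1t]
  have k2 := den_hsE v (C 4 * (C 1 + X 3) * sE (X 0) (X 1) (X 2))
      (fun a : Ex × ℤ => C a.2 * ((C l + C u * X 3) ^ edeg a.1 *
        mtE a.1 (pA (X 0) (X 1) (X 2)) (pB (X 1) (X 2)) (pC (X 2)) (C 1)))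
      (fun a => 24 * (cf a * mm a.1 (fun i => 4 * D * sv x y z i)))
      (fun a => edeg a.1) LT okT (fun _ _ a _ => by
        rw [den_mul, den_mul, den_pow, den_C, den_mtE R1, hb, hlu, mm_smul, cf]
        have e16 : (16 : ℝ) ^ edeg a.1 = 4 ^ edeg a.1 * 4 ^ edeg a.1 := by
          rw [← mul_pow]; norm_num
        have h4 : (4 : ℝ) ^ edeg a.1 ≠ 0 := by positivity
        rw [e16, mul_pow, mul_pow, mul_pow, mul_pow]
        field_simp)
  rw [allR_mul, hb, hT] at k2
  have hpos : 0 < 4 * (1 + t) * S := by positivity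
  rw [pow_succ'] at k2
  have k2' := mul_left_cancel₀ hpos.ne' (k2.trans (mul_assoc _ _ _))
  rw [F3, den_sub] at h0
  change 0 ≤ ((96 * κ : ℤ) : ℝ) * (den v (C l + C u * X 3) *
    (den v (C 4 * (C 1 + X 3)) ^ n * den v (oneE (sE (X 0) (X 1) (X 2)) (pA (X 0) (X 1) (X 2))
      (pB (X 1) (X 2)) (pC (X 2)) (C 1) LP))) - S ^ e *
    den v (hsE (C 4 * (C 1 + X 3) * sE (X 0) (X 1) (X 2))
      (fun a : Ex × ℤ => C a.2 * ((C l + C u * X 3) ^ edeg a.1 *
        mtE a.1 (pA (X 0) (X 1) (X 2)) (pB (X 1) (X 2)) (pC (X 2)) (C 1))) LT) at h0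
  rw [hlu, h1t, k1', k2'] at h0
  have e7 : (4 * (1 + t) * S) ^ (n + 1) = (4 * (1 + t)) ^ n * (4 * (1 + t)) * S ^ (n + 1) := by
    rw [mul_pow, pow_succ (4 * (1 + t))]
  have e8 : S ^ (n + 1 + e) = S ^ (n + 1) * S ^ e := pow_add _ _ _
  rw [e7, e8] at h0
  push_cast at h0
  have h5 : 0 ≤ (24 * ((4 * (1 + t)) ^ n * (4 * (1 + t))) * (S ^ (n + 1) * S ^ e)) *
      (D * (κ * val LP (sv x y z)) - tval LT (fun i => 4 * D * sv x y z i)) := by
    have e9 : tval LT (fun i => 4 * D * sv x y z i) =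
      allR (fun a => cf a * mm a.1 fun i => 4 * D * sv x y z i) LT := rfl
    rw [e9]
    refine le_of_le_of_eq h0 ?_
    ring
  have h6 : 0 < 24 * ((4 * (1 + t)) ^ n * (4 * (1 + t))) * (S ^ (n + 1) * S ^ e) := by
    positivity
  have h7 := nonneg_of_mul_nonneg_right h5 h6
  linarith

end Vale.Agent.P154
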