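import Vale.Agent.P154.Pair
import Vale.Agent.P154.Assemble3

/-!
# The analytic core for three states and nonnegative parameter
-/

namespace Vale.Agent.P154

open Finset Vale.Agent.P154.Up

/-- `mass * rfun` as a function of three numbers -/
noncomputable def fr (a b c : ℝ) : ℝ := (a + b + c) / 3 - (a * b + b * c + c * a) / (a + b + c)

/-- `mass * qfun` as a function of three numbers -/
noncomputable def fq (a b c : ℝ) : ℝ :=
  (a + b + c) / 3 * Real.sqrt (27 * (a * b * c) / (a + b + c) ^ 3)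

theorem rfun_eq (t : Fin 3 → ℝ) (ht : 0 < ∑ i, t i) :
    rfun t = cr (t 0 / ∑ i, t i) (t 1 / ∑ i, t i) (t 2 / ∑ i, t i) := by
  have hS : (∑ i, t i) = t 0 + t 1 + t 2 := Fin.sum_univ_three t
  unfold rfun post cr
  rw [Fin.sum_univ_three]
  rw [hS] at ht ⊢
  push_cast
  field_simp
  ring

theorem qfun_eq (t : Fin 3 → ℝ) :
    qfun t = cq (t 0 / ∑ i, t i) (t 1 / ∑ i, t i) (t 2 / ∑ i, t i) := by
  unfold qfun post cq cw
  rw [Fin.prod_univ_three]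

theorem massr_eq (t : Fin 3 → ℝ) (ht : 0 < ∑ i, t i) :
    mass t * rfun t = fr (t 0) (t 1) (t 2) := by
  rw [rfun_eq t ht]
  have hS : (∑ i, t i) = t 0 + t 1 + t 2 := Fin.sum_univ_three t
  unfold mass cr fr
  rw [hS] at ht ⊢
  push_cast
  field_simp

theorem massq_eq (t : Fin 3 → ℝ) (ht : 0 < ∑ i, t i) :
    mass t * qfun t = fq (t 0) (t 1) (t 2) := by
  rw [qfun_eq t]
  have hS : (∑ i, t i) = t 0 + t 1 + t 2 := Fin.sum_univ_three t
  unfold mass cq cw fq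
  rw [hS] at ht ⊢
  push_cast
  congr 2
  field_simp

theorem fr_scale {S T x1 x2 x3 y1 y2 y3 : ℝ} (hS : 0 < S) (hT : 0 < T)
    (hD : 0 < cD x1 x2 x3 y1 y2 y3) :
    fr (S * x1 * (T * y1)) (S * x2 * (T * y2)) (S * x3 * (T * y3))
      = S / 3 * (T / 3) * (cD x1 x2 x3 y1 y2 y3
        - cP x1 x2 x3 y1 y2 y3 / cD x1 x2 x3 y1 y2 y3) := by
  have e : S * x1 * (T * y1) + S * x2 * (T * y2) + S * x3 * (T * y3)
      = S * T * cD x1 x2 x3 y1 y2 y3 / 3 := by unfold cD; ring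
  unfold fr
  rw [e]
  have e2 : S * x1 * (T * y1) * (S * x2 * (T * y2)) + S * x2 * (T * y2) * (S * x3 * (T * y3))
      + S * x3 * (T * y3) * (S * x1 * (T * y1)) = S ^ 2 * T ^ 2 * cP x1 x2 x3 y1 y2 y3 / 27 := by
    unfold cP; ring
  rw [e2]
  field_simp
  ring

theorem fq_scale {S T x1 x2 x3 y1 y2 y3 : ℝ} (hS : 0 < S) (hT : 0 < T)
    (h1 : 0 ≤ x1) (h2 : 0 ≤ x2) (h3 : 0 ≤ x3) (k1 : 0 ≤ y1) (k2 : 0 ≤ y2) (k3 : 0 ≤ y3)
    (hD : 0 < cD x1 x2 x3 y1 y2 y3) :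
    fq (S * x1 * (T * y1)) (S * x2 * (T * y2)) (S * x3 * (T * y3))
      = S / 3 * (T / 3) * (cD x1 x2 x3 y1 y2 y3 *
        Real.sqrt ((cq x1 x2 x3 * cq y1 y2 y3) ^ 2 / cD x1 x2 x3 y1 y2 y3 ^ 3)) := by
  have e : S * x1 * (T * y1) + S * x2 * (T * y2) + S * x3 * (T * y3)
      = S * T * cD x1 x2 x3 y1 y2 y3 / 3 := by unfold cD; ring
  unfold fq
  rw [e, mul_pow, cq_sq h1 h2 h3, cq_sq k1 k2 k3]
  have e3 : 27 * (S * x1 * (T * y1) * (S * x2 * (T * y2)) * (S * x3 * (T * y3)))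
      / (S * T * cD x1 x2 x3 y1 y2 y3 / 3) ^ 3
      = cw x1 x2 x3 * cw y1 y2 y3 / cD x1 x2 x3 y1 y2 y3 ^ 3 := by
    unfold cw; field_simp; ring
  rw [e3]
  ring

/-- symmetrisation -/
theorem sum_S6 {Y : Type*} [Fintype Y] {v : Y → Fin 3 → ℝ} (hv : SymExp v)
    (F : ℝ → ℝ → ℝ → ℝ) :
    ∑ y, S6 F (v y 0) (v y 1) (v y 2) = 6 * ∑ y, F (v y 0) (v y 1) (v y 2) := by
  have key : ∀ g : Equiv.Perm (Fin 3),
      ∑ y, F (v y (g 0)) (v y (g 1)) (v y (g 2)) = ∑ y, F (v y 0) (v y 1) (v y 2) := by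
    intro g
    obtain ⟨e, he⟩ := hv g
    rw [← Equiv.sum_comp e (fun y => F (v y 0) (v y 1) (v y 2))]
    simp_rw [he]
  have k1 := key (finRotate 3)
  have k2 := key ((finRotate 3) * (finRotate 3))
  have k3 := key (Equiv.swap 1 2)
  have k4 := key (Equiv.swap 0 2)
  have k5 := key (Equiv.swap 0 1)
  have r0 : (finRotate 3) 0 = 1 := by decide
  have r1 : (finRotate 3) 1 = 2 := by decide
  have r2 : (finRotate 3) 2 = 0 := by decide
  have q0 : (Equiv.swap (1 : Fin 3) 2) 0 = 0 := by decide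
  have q1 : (Equiv.swap (1 : Fin 3) 2) 1 = 2 := by decide
  have q2 : (Equiv.swap (1 : Fin 3) 2) 2 = 1 := by decide
  have s0 : (Equiv.swap (0 : Fin 3) 2) 0 = 2 := by decide
  have s1 : (Equiv.swap (0 : Fin 3) 2) 1 = 1 := by decide
  have s2 : (Equiv.swap (0 : Fin 3) 2) 2 = 0 := by decide
  have t0 : (Equiv.swap (0 : Fin 3) 1) 0 = 1 := by decide
  have t1 : (Equiv.swap (0 : Fin 3) 1) 1 = 0 := by decide
  have t2 : (Equiv.swap (0 : Fin 3) 1) 2 = 2 := by decide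
  simp only [Equiv.Perm.mul_apply, r0, r1, r2, q0, q1, q2, s0, s1, s2, t0, t1, t2] at k1 k2 k3 k4 k5
  unfold S6
  simp only [Finset.sum_add_distrib]
  linarith

section
variable {u v : Fin 3 → ℝ}

theorem norm_facts (hu : ∀ i, 0 < u i) : 0 < (∑ i, u i) ∧
    (0 < u 0 / ∑ i, u i ∧ 0 < u 1 / ∑ i, u i ∧ 0 < u 2 / ∑ i, u i) ∧
    u 0 / (∑ i, u i) + u 1 / (∑ i, u i) + u 2 / (∑ i, u i) = 1 := by
  have h0 := hu 0
  have h1 := hu 1
  have h2 := hu 2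
  have hS : (∑ i, u i) = u 0 + u 1 + u 2 := Fin.sum_univ_three u
  rw [hS]
  refine ⟨by positivity, ⟨by positivity, by positivity, by positivity⟩, ?_⟩
  field_simp

/-- symmetrised mean of `r`, unnormalised -/
theorem S6_fr (hu : ∀ i, 0 < u i) (hv : ∀ i, 0 < v i) :
    S6 (fun a b c => fr (u 0 * a) (u 1 * b) (u 2 * c)) (v 0) (v 1) (v 2)
      = 6 * (mass u * mass v * Kr (u 0 / ∑ i, u i) (u 1 / ∑ i, u i) (u 2 / ∑ i, u i)
        (v 0 / ∑ i, v i) (v 1 / ∑ i, v i) (v 2 / ∑ i, v i)) := by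
  obtain ⟨hS, ⟨h1, h2, h3⟩, hx⟩ := norm_facts hu
  obtain ⟨hT, ⟨k1, k2, k3⟩, hy⟩ := norm_facts hv
  set S := ∑ i, u i with hSdef
  set T := ∑ i, v i with hTdef
  have key : ∀ a b c : ℝ, 0 < a → 0 < b → 0 < c →
      fr (u 0 * (T * a)) (u 1 * (T * b)) (u 2 * (T * c)) = S / 3 * (T / 3) *
        (cD (u 0 / S) (u 1 / S) (u 2 / S) a b c
        - cP (u 0 / S) (u 1 / S) (u 2 / S) a b c / cD (u 0 / S) (u 1 / S) (u 2 / S) a b c) := by
    intro a b c ha hb hc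
    have := fr_scale (S := S) (T := T) (x1 := u 0 / S) (x2 := u 1 / S) (x3 := u 2 / S)
      (y1 := a) (y2 := b) (y3 := c) hS hT (cD_pos h1 h2 h3 ha hb hc)
    rw [← this]
    have e : ∀ z : ℝ, S * (z / S) = z := fun z => by field_simp
    rw [e, e, e]
  have ev : ∀ z : ℝ, z = T * (z / T) := fun z => by field_simp
  unfold S6
  have m1 : mass u = S / 3 := by unfold mass; push_cast; rfl
  have m2 : mass v = T / 3 := by unfold mass; push_cast; rfl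
  rw [m1, m2, ev (v 0), ev (v 1), ev (v 2)]
  simp only [key _ _ _ k1 k2 k3, key _ _ _ k2 k3 k1, key _ _ _ k3 k1 k2, key _ _ _ k1 k3 k2,
    key _ _ _ k3 k2 k1, key _ _ _ k2 k1 k3]
  rw [← ev (v 0), ← ev (v 1), ← ev (v 2)]
  unfold Kr S6
  ring

/-- symmetrised mean of `q`, unnormalised -/
theorem S6_fq (hu : ∀ i, 0 < u i) (hv : ∀ i, 0 < v i) :
    S6 (fun a b c => fq (u 0 * a) (u 1 * b) (u 2 * c)) (v 0) (v 1) (v 2)
      = 6 * (mass u * mass v * Kq (u 0 / ∑ i, u i) (u 1 / ∑ i, u i) (u 2 / ∑ i, u i)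
        (v 0 / ∑ i, v i) (v 1 / ∑ i, v i) (v 2 / ∑ i, v i)) := by
  obtain ⟨hS, ⟨h1, h2, h3⟩, hx⟩ := norm_facts hu
  obtain ⟨hT, ⟨k1, k2, k3⟩, hy⟩ := norm_facts hv
  set S := ∑ i, u i with hSdef
  set T := ∑ i, v i with hTdef
  have key : ∀ a b c : ℝ, 0 < a → 0 < b → 0 < c →
      fq (u 0 * (T * a)) (u 1 * (T * b)) (u 2 * (T * c)) = S / 3 * (T / 3) *
        (cD (u 0 / S) (u 1 / S) (u 2 / S) a b c * Real.sqrt ((cq (u 0 / S) (u 1 / S) (u 2 / S)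
          * cq a b c) ^ 2 / cD (u 0 / S) (u 1 / S) (u 2 / S) a b c ^ 3)) := by
    intro a b c ha hb hc
    have := fq_scale (S := S) (T := T) (x1 := u 0 / S) (x2 := u 1 / S) (x3 := u 2 / S)
      (y1 := a) (y2 := b) (y3 := c) hS hT h1.le h2.le h3.le ha.le hb.le hc.le
      (cD_pos h1 h2 h3 ha hb hc)
    rw [← this]
    have e : ∀ z : ℝ, S * (z / S) = z := fun z => by field_simp
    rw [e, e, e]
  have ev : ∀ z : ℝ, z = T * (z / T) := fun z => by field_simp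
  unfold S6
  have m1 : mass u = S / 3 := by unfold mass; push_cast; rfl
  have m2 : mass v = T / 3 := by unfold mass; push_cast; rfl
  rw [m1, m2, ev (v 0), ev (v 1), ev (v 2)]
  simp only [key _ _ _ k1 k2 k3, key _ _ _ k2 k3 k1, key _ _ _ k3 k1 k2, key _ _ _ k1 k3 k2,
    key _ _ _ k3 k2 k1, key _ _ _ k2 k1 k3]
  rw [← ev (v 0), ← ev (v 1), ← ev (v 2)]
  unfold Kq S6
  ring

end

end Vale.Agent.P154
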