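import Vale.Agent.P154.Core3

/-!
# The two core statements for three states
-/

namespace Vale.Agent.P154

open Finset Vale.Agent.P154.Up

/-- coordinates of an observation -/
noncomputable def hfun (u : Fin 3 → ℝ) : ℝ := 1 - rfun u - qfun u

section
variable {X Y : Type} [Fintype X] [Fintype Y] {u : X → Fin 3 → ℝ} {v : Y → Fin 3 → ℝ}

theorem Mfun_prod_eq (hu : GoodExp u) (hv : GoodExp v) :
    Mfun (prodExp u v) = ∑ x, ∑ y, mass (u x) * mass (v y) *
      Kr (u x 0 / ∑ i, u x i) (u x 1 / ∑ i, u x i) (u x 2 / ∑ i, u x i)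
        (v y 0 / ∑ i, v y i) (v y 1 / ∑ i, v y i) (v y 2 / ∑ i, v y i) := by
  unfold Mfun
  rw [Fintype.sum_prod_type]
  refine Finset.sum_congr rfl fun x _ => ?_
  have h1 : ∀ y, mass (prodExp u v (x, y)) * rfun (prodExp u v (x, y))
      = (fun a b c => fr (u x 0 * a) (u x 1 * b) (u x 2 * c)) (v y 0) (v y 1) (v y 2) := by
    intro y
    have hpos : 0 < ∑ i, prodExp u v (x, y) i :=
      Finset.sum_pos (fun i _ => mul_pos (hu.pos x i) (hv.pos y i)) ⟨0, mem_univ _⟩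
    rw [massr_eq _ hpos]
    rfl
  rw [Finset.sum_congr rfl fun y _ => h1 y]
  have h2 := sum_S6 hv.sym (fun a b c => fr (u x 0 * a) (u x 1 * b) (u x 2 * c))
  have h3 : ∑ y, S6 (fun a b c => fr (u x 0 * a) (u x 1 * b) (u x 2 * c)) (v y 0) (v y 1) (v y 2)
      = 6 * ∑ y, mass (u x) * mass (v y) *
      Kr (u x 0 / ∑ i, u x i) (u x 1 / ∑ i, u x i) (u x 2 / ∑ i, u x i)
        (v y 0 / ∑ i, v y i) (v y 1 / ∑ i, v y i) (v y 2 / ∑ i, v y i) := by
    rw [Finset.mul_sum]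
    exact Finset.sum_congr rfl fun y _ => S6_fr (hu.pos x) (hv.pos y)
  linarith

theorem Qfun_prod_eq (hu : GoodExp u) (hv : GoodExp v) :
    Qfun (prodExp u v) = ∑ x, ∑ y, mass (u x) * mass (v y) *
      Kq (u x 0 / ∑ i, u x i) (u x 1 / ∑ i, u x i) (u x 2 / ∑ i, u x i)
        (v y 0 / ∑ i, v y i) (v y 1 / ∑ i, v y i) (v y 2 / ∑ i, v y i) := by
  unfold Qfun
  rw [Fintype.sum_prod_type]
  refine Finset.sum_congr rfl fun x _ => ?_
  have h1 : ∀ y, mass (prodExp u v (x, y)) * qfun (prodExp u v (x, y))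
      = (fun a b c => fq (u x 0 * a) (u x 1 * b) (u x 2 * c)) (v y 0) (v y 1) (v y 2) := by
    intro y
    have hpos : 0 < ∑ i, prodExp u v (x, y) i :=
      Finset.sum_pos (fun i _ => mul_pos (hu.pos x i) (hv.pos y i)) ⟨0, mem_univ _⟩
    rw [massq_eq _ hpos]
    rfl
  rw [Finset.sum_congr rfl fun y _ => h1 y]
  have h2 := sum_S6 hv.sym (fun a b c => fq (u x 0 * a) (u x 1 * b) (u x 2 * c))
  have h3 : ∑ y, S6 (fun a b c => fq (u x 0 * a) (u x 1 * b) (u x 2 * c)) (v y 0) (v y 1) (v y 2)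
      = 6 * ∑ y, mass (u x) * mass (v y) *
      Kq (u x 0 / ∑ i, u x i) (u x 1 / ∑ i, u x i) (u x 2 / ∑ i, u x i)
        (v y 0 / ∑ i, v y i) (v y 1 / ∑ i, v y i) (v y 2 / ∑ i, v y i) := by
    rw [Finset.mul_sum]
    exact Finset.sum_congr rfl fun y _ => S6_fq (hu.pos x) (hv.pos y)
  linarith

theorem mass_pos {u : Fin 3 → ℝ} (hu : ∀ i, 0 < u i) : 0 < mass u := by
  have := (norm_facts hu).1
  unfold mass; positivity

/-- bilinear expansion of a double sum -/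
theorem double_sum (m a b : X → ℝ) (n c d : Y → ℝ) :
    ∑ x, ∑ y, m x * n y * (a x * c y + b x * d y)
      = (∑ x, m x * a x) * (∑ y, n y * c y) + (∑ x, m x * b x) * (∑ y, n y * d y) := by
  simp only [Finset.sum_mul_sum]
  rw [← Finset.sum_add_distrib]
  refine Finset.sum_congr rfl fun x _ => ?_
  rw [← Finset.sum_add_distrib]
  exact Finset.sum_congr rfl fun y _ => by ring

theorem Hsum (u : X → Fin 3 → ℝ) (hu : ∀ i, ∑ x, u x i = 1) :
    ∑ x, mass (u x) * hfun (u x) = 1 - Mfun u - Qfun u := by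
  have h1 := sum_mass_eq_one (q := 3) (by norm_num) hu
  unfold hfun Mfun Qfun
  have : ∀ x, mass (u x) * (1 - rfun (u x) - qfun (u x))
      = mass (u x) - mass (u x) * rfun (u x) - mass (u x) * qfun (u x) := fun x => by ring
  simp_rw [this, Finset.sum_sub_distrib, h1]

theorem coords {u : Fin 3 → ℝ} (hu : ∀ i, 0 < u i) :
    cr (u 0 / ∑ i, u i) (u 1 / ∑ i, u i) (u 2 / ∑ i, u i) = rfun u ∧
    ch (u 0 / ∑ i, u i) (u 1 / ∑ i, u i) (u 2 / ∑ i, u i) = hfun u ∧
    cw (u 0 / ∑ i, u i) (u 1 / ∑ i, u i) (u 2 / ∑ i, u i) = qfun u ^ 2 ∧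
    0 ≤ rfun u ∧ 0 ≤ hfun u ∧ 0 ≤ qfun u := by
  obtain ⟨hS, ⟨h1, h2, h3⟩, hx⟩ := norm_facts hu
  have e1 := rfun_eq u hS
  have e2 := qfun_eq u
  have d := dom_coords h1.le h2.le h3.le hx
  refine ⟨e1.symm, ?_, ?_, ?_, ?_, ?_⟩
  · unfold ch hfun; rw [← e1, ← e2]
  · rw [e2, cq_sq h1.le h2.le h3.le]
  · rw [e1]; exact d.hr
  · have := d.hh
    unfold ch at this; unfold hfun; rw [e1, e2]; exact this
  · rw [e2]; exact d.hq

theorem Mfun_prod_le (hu : GoodExp u) (hv : GoodExp v) (iu : Inv3 u) (iv : Inv3 v) :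
    Mfun (prodExp u v) ≤ Mfun u + Mfun v - 1 / 20 * Mfun u * Mfun v := by
  have bound : Mfun (prodExp u v) ≤ ∑ x, ∑ y, mass (u x) * mass (v y) *
      (rfun (u x) + rfun (v y) - rfun (u x) * rfun (v y)
        + 19 / 20 * (rfun (v y) * hfun (u x) + rfun (u x) * hfun (v y))) := by
    rw [Mfun_prod_eq hu hv]
    refine Finset.sum_le_sum fun x _ => Finset.sum_le_sum fun y _ => ?_
    refine mul_le_mul_of_nonneg_left ?_
      (mul_nonneg (mass_pos (hu.pos x)).le (mass_pos (hv.pos y)).le)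
    obtain ⟨hS, ⟨h1, h2, h3⟩, hx⟩ := norm_facts (hu.pos x)
    obtain ⟨hT, ⟨k1, k2, k3⟩, hy⟩ := norm_facts (hv.pos y)
    have key := Kr_le h1 h2 h3 k1 k2 k3 hx hy
    obtain ⟨c1, c2, -, -, -, -⟩ := coords (hu.pos x)
    obtain ⟨d1, d2, -, -, -, -⟩ := coords (hv.pos y)
    rw [c1, c2, d1, d2] at key
    exact key
  have hmu := sum_mass_eq_one (q := 3) (by norm_num) hu.sum
  have hmv := sum_mass_eq_one (q := 3) (by norm_num) hv.sum
  have Hu := Hsum u hu.sum
  have Hv := Hsum v hv.sum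
  have expand : ∑ x, ∑ y, mass (u x) * mass (v y) *
      (rfun (u x) + rfun (v y) - rfun (u x) * rfun (v y)
        + 19 / 20 * (rfun (v y) * hfun (u x) + rfun (u x) * hfun (v y)))
      = Mfun u + Mfun v - Mfun u * Mfun v
        + 19 / 20 * (Mfun v * (1 - Mfun u - Qfun u) + Mfun u * (1 - Mfun v - Qfun v)) := by
    have e1 := double_sum (fun x => mass (u x)) (fun x => rfun (u x)) (fun _ => 1)
      (fun y => mass (v y)) (fun _ => 1) (fun y => rfun (v y))
    have e2 := double_sum (fun x => mass (u x)) (fun x => rfun (u x)) (fun _ => 0)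
      (fun y => mass (v y)) (fun y => rfun (v y)) (fun _ => 0)
    have e3 := double_sum (fun x => mass (u x)) (fun x => hfun (u x)) (fun x => rfun (u x))
      (fun y => mass (v y)) (fun y => rfun (v y)) (fun y => hfun (v y))
    simp only [mul_one, mul_zero, add_zero, Finset.sum_const_zero] at e1 e2 e3
    rw [hmu, hmv] at e1
    rw [Hu, Hv] at e3
    have split : ∀ x y, mass (u x) * mass (v y) *
      (rfun (u x) + rfun (v y) - rfun (u x) * rfun (v y)
        + 19 / 20 * (rfun (v y) * hfun (u x) + rfun (u x) * hfun (v y)))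
      = mass (u x) * mass (v y) * (rfun (u x) + 1 * rfun (v y))
        - mass (u x) * mass (v y) * (rfun (u x) * rfun (v y))
        + 19 / 20 * (mass (u x) * mass (v y) *
          (hfun (u x) * rfun (v y) + rfun (u x) * hfun (v y))) := fun x y => by ring
    simp_rw [split, Finset.sum_add_distrib, Finset.sum_sub_distrib, ← Finset.mul_sum]
    rw [e1, e2, e3]
    unfold Mfun
    ring
  have mu0 := (hu.weak (by norm_num)).Mfun_nonneg (q := 3) (by norm_num)
  have mv0 := (hv.weak (by norm_num)).Mfun_nonneg (q := 3) (by norm_num)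
  unfold Inv3 at iu iv
  have a1 : Mfun v * (1 - Mfun u - Qfun u) ≤ Mfun v * (Mfun u / 2) :=
    mul_le_mul_of_nonneg_left (by linarith) mv0
  have a2 : Mfun u * (1 - Mfun v - Qfun v) ≤ Mfun u * (Mfun v / 2) :=
    mul_le_mul_of_nonneg_left (by linarith) mu0
  rw [expand] at bound
  nlinarith [bound, a1, a2]

theorem Inv3_prod (hu : GoodExp u) (hv : GoodExp v) (iu : Inv3 u) (iv : Inv3 v) :
    Inv3 (prodExp u v) := by
  have bound : ∑ x, ∑ y, mass (u x) * mass (v y) *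
      ((rfun (u x) / 2 - hfun (u x)) * ((2 * qfun (v y) ^ 2 + (1 - rfun (v y))) / 3)
        + ((2 * qfun (u x) ^ 2 + (1 - rfun (u x))) / 3) * (rfun (v y) / 2 - hfun (v y)))
      ≤ 3 / 2 * Mfun (prodExp u v) - 1 + Qfun (prodExp u v) := by
    have hmu := sum_mass_eq_one (q := 3) (by norm_num) hu.sum
    have hmv := sum_mass_eq_one (q := 3) (by norm_num) hv.sum
    have one : (1 : ℝ) = ∑ x, ∑ y, mass (u x) * mass (v y) := by
      simp_rw [← Finset.mul_sum, hmv, mul_one, hmu]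
    rw [Mfun_prod_eq hu hv, Qfun_prod_eq hu hv, Finset.mul_sum]
    conv_rhs => rw [one]
    rw [← Finset.sum_sub_distrib, ← Finset.sum_add_distrib]
    refine Finset.sum_le_sum fun x _ => ?_
    rw [Finset.mul_sum, ← Finset.sum_sub_distrib, ← Finset.sum_add_distrib]
    refine Finset.sum_le_sum fun y _ => ?_
    obtain ⟨hS, ⟨h1, h2, h3⟩, hx⟩ := norm_facts (hu.pos x)
    obtain ⟨hT, ⟨k1, k2, k3⟩, hy⟩ := norm_facts (hv.pos y)
    have key := Kinv_ge h1 h2 h3 k1 k2 k3 hx hy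
    obtain ⟨c1, c2, c3, -, -, -⟩ := coords (hu.pos x)
    obtain ⟨d1, d2, d3, -, -, -⟩ := coords (hv.pos y)
    rw [c1, c2, c3, d1, d2, d3] at key
    have hm : 0 ≤ mass (u x) * mass (v y) :=
      mul_nonneg (mass_pos (hu.pos x)).le (mass_pos (hv.pos y)).le
    have := mul_le_mul_of_nonneg_left key hm
    linarith
  rw [double_sum] at bound
  have Lu : ∀ {Z : Type} [Fintype Z] (w : Z → Fin 3 → ℝ), (∀ i, ∑ x, w x i = 1) →
      ∑ x, mass (w x) * (rfun (w x) / 2 - hfun (w x)) = 3 / 2 * Mfun w - 1 + Qfun w := by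
    intro Z _ w hw
    have H := Hsum w hw
    have : ∀ x, mass (w x) * (rfun (w x) / 2 - hfun (w x))
      = 1 / 2 * (mass (w x) * rfun (w x)) - mass (w x) * hfun (w x) := fun x => by ring
    simp_rw [this, Finset.sum_sub_distrib, ← Finset.mul_sum, H]
    unfold Mfun; ring
  rw [Lu u hu.sum, Lu v hv.sum] at bound
  have pos : ∀ {Z : Type} [Fintype Z] (w : Z → Fin 3 → ℝ), (∀ x i, 0 < w x i) →
      0 ≤ ∑ x, mass (w x) * ((2 * qfun (w x) ^ 2 + (1 - rfun (w x))) / 3) := by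
    intro Z _ w hw
    refine Finset.sum_nonneg fun x _ => mul_nonneg (mass_pos (hw x)).le ?_
    obtain ⟨-, -, -, c4, c5, c6⟩ := coords (hw x)
    unfold hfun at c5
    have : 0 ≤ 1 - rfun (w x) := by linarith
    positivity
  unfold Inv3 at iu iv ⊢
  have p1 := mul_nonneg iu (pos v hv.pos)
  have p2 := mul_nonneg (pos u hu.pos) iv
  linarith

end

theorem corePair3 : CorePair3 (1 / 20) := by
  intro X Y _ _ u v hu hv iu iv
  exact ⟨Inv3_prod hu hv iu iv, Mfun_prod_le hu hv iu iv⟩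

/-- the pointwise noise inequality -/
theorem noise_point {lam r w p : ℝ} (h0 : 0 ≤ lam) (h1 : lam ≤ 1) (hr : 0 ≤ r)
    (hrp : r ≤ p) (hw : w = 1 - p * (2 - p)) :
    1 - lam ^ 3 * p - 3 / 2 * lam ^ 2 * (1 - lam) * r ≤
      Real.sqrt (1 - lam ^ 3 * (1 - w) - 3 * lam ^ 2 * (1 - lam) * r) := by
  refine (le_abs_self _).trans (Real.abs_le_sqrt ?_)
  subst hw
  have hl : 0 ≤ 1 - lam := by linarith
  have hp : 0 ≤ p := hr.trans hrp
  have id : (1 - lam ^ 3 * (1 - (1 - p * (2 - p))) - 3 * lam ^ 2 * (1 - lam) * r)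
      - (1 - lam ^ 3 * p - 3 / 2 * lam ^ 2 * (1 - lam) * r) ^ 2
      = lam ^ 3 * (1 - lam) * ((1 + lam + lam ^ 2) * p ^ 2 - 9 / 4 * lam * (1 - lam) * r ^ 2
        - 3 * lam ^ 2 * p * r) := by ring
  have a1 : 9 / 4 * lam * (1 - lam) * r ^ 2 ≤ 9 / 4 * lam * (1 - lam) * p ^ 2 :=
    mul_le_mul_of_nonneg_left (by nlinarith) (by positivity)
  have a2 : 3 * lam ^ 2 * p * r ≤ 3 * lam ^ 2 * p * p :=
    mul_le_mul_of_nonneg_left hrp (by positivity)
  have a3 : 0 ≤ (1 - lam) * (1 - lam / 4) * p ^ 2 := by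
    have : 0 ≤ 1 - lam / 4 := by linarith
    positivity
  have key : 0 ≤ (1 + lam + lam ^ 2) * p ^ 2 - 9 / 4 * lam * (1 - lam) * r ^ 2
        - 3 * lam ^ 2 * p * r := by nlinarith [a1, a2, a3]
  have : 0 ≤ lam ^ 3 * (1 - lam) * ((1 + lam + lam ^ 2) * p ^ 2 - 9 / 4 * lam * (1 - lam) * r ^ 2
        - 3 * lam ^ 2 * p * r) := by positivity
  linarith

end Vale.Agent.P154
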