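import Vale.Agent.P154.Q4Data

/-!
# Kernel checks of the four state certificate: closure inequality
-/

namespace Vale.Agent.P154.Q4C

open Vale.Agent.P154 PE

set_option maxRecDepth 100000

theorem kB2 : kcheck 3 3 116 11 (F2 (pad2 2 LB2) Q2) = true := by decide +kernel

end Vale.Agent.P154.Q4C
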