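import Vale.Agent.P154.Q4Data

/-!
# Kernel checks of the four state certificate: pointwise minorants
-/

namespace Vale.Agent.P154.Q4C

open Vale.Agent.P154 PE

set_option maxRecDepth 100000

theorem kC20 : kcheck 3 1 116 13 (F3 0 1 7 4 13824000 LT2 (pad 6 Lpsi)) = true := by decide +kernel

theorem kC21 : kcheck 3 1 116 13 (F3 1 2 7 4 13824000 LT2 (pad 6 Lpsi)) = true := by decide +kernel

theorem kC22 : kcheck 3 1 116 13 (F3 2 4 7 4 13824000 LT2 (pad 6 Lpsi)) = true := by decide +kernel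

theorem kC10 : kcheck 3 1 84 8 (F3 0 1 6 0 2700000 LT1 (pad 5 Lmr)) = true := by decide +kernel

theorem kC11 : kcheck 3 1 84 8 (F3 1 2 6 0 2700000 LT1 (pad 5 Lmr)) = true := by decide +kernel

theorem kC12 : kcheck 3 1 84 8 (F3 2 4 6 0 2700000 LT1 (pad 5 Lmr)) = true := by decide +kernel

end Vale.Agent.P154.Q4C
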