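import Vale.Agent.P154.Q4Data

/-!
# Kernel checks of the four state certificate: one argument inequalities
-/

namespace Vale.Agent.P154.Q4C

open Vale.Agent.P154 PE

set_option maxRecDepth 100000

theorem kDA : kcheck 3 0 63 11 (F4 (pad 4 LAm)) = true := by decide +kernel

theorem kDB : kcheck 3 0 63 11 (F4 (pad 4 LBm)) = true := by decide +kernel

theorem kE0 : kcheck 3 0 63 11 (F4 (pad 4 LE0)) = true := by decide +kernel

theorem kE1 : kcheck 3 0 63 11 (F4 (pad 4 LE1)) = true := by decide +kernel

theorem kE2 : kcheck 3 0 63 11 (F4 (pad 4 LE2)) = true := by decide +kernel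

end Vale.Agent.P154.Q4C
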