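import Vale.Agent.P154.Q4CertA
import Vale.Agent.P154.Q4CertB1
import Vale.Agent.P154.Q4CertB2
import Vale.Agent.P154.Q4CertC
import Vale.Agent.P154.Q4CertD

/-!
# The kernel inequalities for four states
-/

namespace Vale.Agent.P154

open PE Finset Vale.Agent.P154.Up Q4C

/-! ### symmetry and padding -/

theorem mono_perm (β : Mon) (p : Fin 4 → ℝ) (s : Equiv.Perm (Fin 4)) :
    mono β (fun i => p (s i)) = mono β p := by
  unfold mono
  rw [iv2_perm, iv3_perm, iv4_perm]

theorem val_perm (L : L1) (p : Fin 4 → ℝ) (s : Equiv.Perm (Fin 4)) :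
    val L (fun i => p (s i)) = val L p := by
  unfold val
  refine allR_congr fun l _ a _ => ?_
  rw [mono_perm]

theorem allR_pad {α : Type} (g : α → ℝ) (m : ℕ) (L : List (List α)) :
    allR g (pad m L) = allR g L := by
  unfold pad
  induction m with
  | zero => rfl
  | succ m ih => rw [List.replicate_succ, List.cons_append, allR_nil_cons, ih]

theorem val_pad (m : ℕ) (L : L1) (p : Fin 4 → ℝ) : val (pad m L) p = val L p := allR_pad _ _ _

theorem sumR_map {α β : Type} (g : β → ℝ) (f : α → β) (l : List α) :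
    sumR g (l.map f) = sumR (fun a => g (f a)) l := by
  induction l with
  | nil => rfl
  | cons a l ih => rw [List.map_cons, sumR, sumR, ih]

theorem allR_map {α β : Type} (g : β → ℝ) (f : α → β) (L : List (List α)) :
    allR g (L.map fun l => l.map f) = allR (fun a => g (f a)) L := by
  induction L with
  | nil => rfl
  | cons a l ih => rw [List.map_cons, allR, allR, ih, sumR_map]

theorem bval_pad (m : ℕ) (L : L2) (p r : Fin 4 → ℝ) : bval (pad2 m L) p r = bval L p r := by
  unfold bval pad2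
  rw [allR_pad, allR_map]
  refine allR_congr fun l _ a _ => ?_
  rw [val_pad]

/-! ### positivity of one argument functions -/

theorem val_nonneg (L : L1) (m b R : ℕ) (okL : okD (fun e => mdeg e.1) (pad m L) = true)
    (hk : kcheck 3 0 b R (F4 (pad m L)) = true) (p : Fin 4 → ℝ) (hp : ∀ i, 0 < p i)
    (hs : ∑ i, p i = 1) : 0 ≤ val L p := by
  refine sorted_reduction_one (fun p => 0 ≤ val L p) (fun p s h => ?_) ?_ p hp hs
  · rwa [val_perm] at h
  · intro a b' c d ha hb hc hd h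
    rw [srt_eq_sv hd h, ← val_pad m]
    exact val_nonneg_sv (pad m L) b R okL hk (div_nonneg ha hd.le) (div_nonneg hb hd.le)
      (div_nonneg hc hd.le)

/-! ### pointwise minorants -/

theorem pointwise (LT : LM) (LP : L1) (m n e : ℕ) (κ : ℤ) (b R : ℕ)
    (hT : LT.length = n + 2) (hP : (pad m LP).length = n + 1 + e + 1)
    (okT : okD (fun e => edeg e.1) LT = true)
    (okP : okD (fun e => mdeg e.1) (pad m LP) = true)
    (h01 : kcheck 3 1 b R (F3 0 1 n e κ LT (pad m LP)) = true)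
    (h12 : kcheck 3 1 b R (F3 1 2 n e κ LT (pad m LP)) = true)
    (h24 : kcheck 3 1 b R (F3 2 4 n e κ LT (pad m LP)) = true)
    (p : Fin 4 → ℝ) (hp : ∀ i, 0 < p i) (hs : ∑ i, p i = 1) (D : ℝ) (hD0 : 0 < D)
    (hD4 : D < 4) : tval LT (fun i => 4 * D * p i) ≤ D * (κ * val LP p) := by
  refine sorted_reduction_one (fun p => tval LT (fun i => 4 * D * p i) ≤ D * (κ * val LP p))
    (fun p s h => ?_) ?_ p hp hs
  · rw [val_perm] at h
    rwa [tval_perm LT (fun i => 4 * D * p i) s] at h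
  · intro a b' c d ha hb hc hd h
    rw [srt_eq_sv hd h, ← val_pad m]
    have ha' := div_nonneg ha hd.le
    have hb' := div_nonneg hb hd.le
    have hc' := div_nonneg hc hd.le
    rcases lt_or_ge D 1 with h1 | h1
    · exact tval_le_sv 0 1 n e κ LT (pad m LP) b R hT hP okT okP (by norm_num) h01 ha' hb' hc'
        (by push_cast; exact hD0.le) (by push_cast; exact h1)
    · rcases lt_or_ge D 2 with h2 | h2
      · exact tval_le_sv 1 2 n e κ LT (pad m LP) b R hT hP okT okP (by norm_num) h12 ha' hb'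
          hc' (by push_cast; exact h1) (by push_cast; exact h2)
      · exact tval_le_sv 2 4 n e κ LT (pad m LP) b R hT hP okT okP (by norm_num) h24 ha' hb'
          hc' (by push_cast; exact h2) (by push_cast; exact hD4)

theorem sum_mul_pos {p r : Fin 4 → ℝ} (hp : ∀ i, 0 < p i) (hr : ∀ i, 0 < r i) :
    0 < ∑ i, p i * r i :=
  Finset.sum_pos (fun i _ => mul_pos (hp i) (hr i)) ⟨0, Finset.mem_univ _⟩

theorem sum_mul_lt {p r : Fin 4 → ℝ} (hp : ∀ i, 0 < p i) (hr : ∀ i, 0 < r i)
    (hps : ∑ i, p i = 1) (hrs : ∑ i, r i = 1) : ∑ i, p i * r i < 1 := by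
  have h1 : ∀ i, r i < 1 := by
    intro i
    rw [Fin.sum_univ_four] at hrs
    have h0 := hr 0
    have h1 := hr 1
    have h2 := hr 2
    have h3 := hr 3
    fin_cases i <;> simp only [Fin.zero_eta, Fin.mk_one, Fin.reduceFinMk] <;> linarith
  calc ∑ i, p i * r i < ∑ i, p i * 1 :=
        Finset.sum_lt_sum_of_nonempty ⟨0, Finset.mem_univ _⟩
          fun i _ => mul_lt_mul_of_pos_left (h1 i) (hp i)
    _ = 1 := by simp [hps]

theorem comb_pos {p r : Fin 4 → ℝ} (hp : ∀ i, 0 < p i) (hr : ∀ i, 0 < r i) (i : Fin 4) :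
    0 < comb p r i := div_pos (mul_pos (hp i) (hr i)) (sum_mul_pos hp hr)

theorem comb_sum {p r : Fin 4 → ℝ} (hp : ∀ i, 0 < p i) (hr : ∀ i, 0 < r i) :
    ∑ i, comb p r i = 1 := by
  unfold comb
  rw [← Finset.sum_div, div_self (sum_mul_pos hp hr).ne']

theorem tbil_le (LT : LM) (φ : (Fin 4 → ℝ) → ℝ)
    (h : ∀ p : Fin 4 → ℝ, (∀ i, 0 < p i) → ∑ i, p i = 1 → ∀ D : ℝ, 0 < D → D < 4 →
      tval LT (fun i => 4 * D * p i) ≤ D * φ p)
    (p r : Fin 4 → ℝ) (hp : ∀ i, 0 < p i) (hr : ∀ i, 0 < r i) (hps : ∑ i, p i = 1)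
    (hrs : ∑ i, r i = 1) : tbil LT (fun i => 4 * p i) (fun i => 4 * r i) ≤ KS φ p r := by
  refine tbil_le_KS LT φ p r fun σ => ?_
  have hr' : ∀ i, 0 < r (σ i) := fun i => hr (σ i)
  have hrs' : ∑ i, r (σ i) = 1 := by rw [Equiv.sum_comp σ r, hrs]
  have h1 := sum_mul_pos hp hr'
  have h2 := sum_mul_lt hp hr' hps hrs'
  have h3 := h (comb p fun i => r (σ i)) (comb_pos hp hr') (comb_sum hp hr')
    (overlap p fun i => r (σ i)) (by unfold overlap; push_cast; linarith)
    (by unfold overlap; push_cast; linarith)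
  have e : (fun i => 4 * p i * (4 * r (σ i))) =
      fun i => 4 * (overlap p fun i => r (σ i)) * comb p (fun i => r (σ i)) i := by
    funext i
    unfold overlap comb
    push_cast
    field_simp
  rw [e]
  exact h3

theorem KS_const_mul (c : ℝ) (φ : (Fin 4 → ℝ) → ℝ) (p r : Fin 4 → ℝ) :
    KS (fun w => c * φ w) p r = c * KS φ p r := by
  unfold KS
  have : ∀ σ : Equiv.Perm (Fin 4), overlap p (fun i => r (σ i)) *
      (c * φ (comb p fun i => r (σ i))) = c * (overlap p (fun i => r (σ i)) *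
      φ (comb p fun i => r (σ i))) := fun σ => by ring
  simp only [this, ← Finset.mul_sum]
  ring

theorem KS_congr {φ ψ : (Fin 4 → ℝ) → ℝ} {p r : Fin 4 → ℝ} (hp : ∀ i, 0 < p i)
    (hr : ∀ i, 0 < r i)
    (h : ∀ w : Fin 4 → ℝ, (∀ i, 0 < w i) → ∑ i, w i = 1 → φ w = ψ w) :
    KS φ p r = KS ψ p r := by
  unfold KS
  congr 1
  refine Finset.sum_congr rfl fun σ _ => ?_
  rw [h _ (comb_pos hp fun i => hr (σ i)) (comb_sum hp fun i => hr (σ i))]

/-! ### the potential and the multipliers -/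

/-- potential -/
noncomputable def L4 (p : Fin 4 → ℝ) : ℝ := val Lpsi p / 300
/-- multiplier of the gain inequality -/
noncomputable def A4 (p : Fin 4 → ℝ) : ℝ := val LAm p / 27000
/-- multiplier of the closure inequality -/
noncomputable def B4 (p : Fin 4 → ℝ) : ℝ := val LBm p / 27000

theorem L4_perm (p : Fin 4 → ℝ) (s : Equiv.Perm (Fin 4)) : L4 (fun i => p (s i)) = L4 p := by
  unfold L4; rw [val_perm]

theorem A4_perm (p : Fin 4 → ℝ) (s : Equiv.Perm (Fin 4)) : A4 (fun i => p (s i)) = A4 p := by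
  unfold A4; rw [val_perm]

theorem B4_perm (p : Fin 4 → ℝ) (s : Equiv.Perm (Fin 4)) : B4 (fun i => p (s i)) = B4 p := by
  unfold B4; rw [val_perm]

theorem L4_eq (p : Fin 4 → ℝ) : L4 p = iv3 p - 87 / 100 * iv2 p ^ 2 - 18 / 100 * iv4 p
    + 87 / 100 * (iv2 p * iv3 p) - 10 / 100 * iv3 p ^ 2 - 10 / 100 * (iv2 p * iv4 p)
    + 18 / 100 * iv2 p ^ 3 := by
  simp only [L4, val, Lpsi, allR, sumR, mono]
  push_cast
  ring

theorem A4_nonneg (p : Fin 4 → ℝ) (hp : ∀ i, 0 < p i) (hs : ∑ i, p i = 1) : 0 ≤ A4 p :=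
  div_nonneg (val_nonneg LAm 4 63 11 (by decide +kernel) kDA p hp hs) (by norm_num)

theorem B4_nonneg (p : Fin 4 → ℝ) (hp : ∀ i, 0 < p i) (hs : ∑ i, p i = 1) : 0 ≤ B4 p :=
  div_nonneg (val_nonneg LBm 4 63 11 (by decide +kernel) kDB p hp hs) (by norm_num)

theorem val_Lone (p : Fin 4 → ℝ) : val Lone p = 1 := by
  simp [val, Lone, allR, sumR, mono]

theorem val_Lr (p : Fin 4 → ℝ) : val Lr p = 3 * iv2 p := by
  simp [val, Lr, allR, sumR, mono]

theorem val_Lmr (p : Fin 4 → ℝ) : val Lmr p = -(3 * iv2 p) := by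
  simp [val, Lmr, allR, sumR, mono]

theorem val_Lr2 (p : Fin 4 → ℝ) : val Lr2 p = 9 * iv2 p ^ 2 := by
  simp only [val, Lr2, allR, sumR, mono]
  push_cast
  ring

theorem sv_nonneg {a b c : ℝ} (ha : 0 ≤ a) (hb : 0 ≤ b) (hc : 0 ≤ c) (i : Fin 4) :
    0 < sv a b c i := by
  unfold sv
  refine div_pos ?_ (by positivity)
  fin_cases i <;> simp <;> positivity

theorem sv_sum {a b c : ℝ} (ha : 0 ≤ a) (hb : 0 ≤ b) (hc : 0 ≤ c) : ∑ i, sv a b c i = 1 := by
  have h : a + 2 * b + 3 * c + 4 ≠ 0 := by positivity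
  rw [Fin.sum_univ_four]
  simp only [sv, Matrix.cons_val_zero, Matrix.cons_val_one, Matrix.cons_val]
  field_simp
  ring

/-- closure inequality -/
theorem ineqL4 (p r : Fin 4 → ℝ) (hp : ∀ i, 0 < p i) (hr : ∀ i, 0 < r i)
    (hps : ∑ i, p i = 1) (hrs : ∑ i, r i = 1) : B4 r * L4 p + B4 p * L4 r ≤ KS L4 p r := by
  refine sorted_reduction (fun p r => B4 r * L4 p + B4 p * L4 r ≤ KS L4 p r)
    (fun p r s t h => ?_) ?_ p r hp hr hps hrs
  · rw [B4_perm, B4_perm, L4_perm, L4_perm, KS_perm L4 L4_perm p r s t] at h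
    exact h
  · intro a b c d a' b' c' d' ha hb hc hd ha' hb' hc' hd' h h'
    rw [srt_eq_sv hd h, srt_eq_sv hd' h']
    have x1 := div_nonneg ha hd.le
    have x2 := div_nonneg hb hd.le
    have x3 := div_nonneg hc hd.le
    have y1 := div_nonneg ha' hd'.le
    have y2 := div_nonneg hb' hd'.le
    have y3 := div_nonneg hc' hd'.le
    generalize a / d = x at x1 ⊢
    generalize b / d = y at x2 ⊢
    generalize c / d = z at x3 ⊢
    generalize a' / d' = x' at y1 ⊢
    generalize b' / d' = y' at y2 ⊢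
    generalize c' / d' = z' at y3 ⊢
    have p1 := sv_nonneg x1 x2 x3
    have p2 := sv_sum x1 x2 x3
    have r1 := sv_nonneg y1 y2 y3
    have r2 := sv_sum y1 y2 y3
    have k1 := tbil_le LT2 (fun w => (13824000 : ℤ) * val Lpsi w)
      (fun w hw hws D hD0 hD4 => pointwise LT2 Lpsi 6 7 4 13824000 116 13 rfl rfl
        (by decide +kernel) (by decide +kernel) kC20 kC21 kC22 w hw hws D hD0 hD4)
      (sv x y z) (sv x' y' z') p1 r1 p2 r2
    have k2 := bval_le_tbil LT2 LB2 8 91 9 rfl rfl (by decide +kernel) (by decide +kernel) kA2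
      (sv x y z) (sv x' y' z') p1 r1 p2 r2
    have k3 := qval_le_bval (pad2 2 LB2) Q2 10 116 11 rfl (by decide +kernel)
      (by decide +kernel) kB2 x1 x2 x3 y1 y2 y3
    rw [bval_pad] at k3
    have k4 : KS (fun w => ((13824000 : ℤ) : ℝ) * val Lpsi w) (sv x y z) (sv x' y' z') =
        4147200000 * KS L4 (sv x y z) (sv x' y' z') := by
      have e : (fun w => ((13824000 : ℤ) : ℝ) * val Lpsi w) = fun w => 4147200000 * L4 w := by
        funext w
        unfold L4
        push_cast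
        ring
      rw [e, KS_const_mul]
    have k5 : qval Q2 (sv x y z) (sv x' y' z') = 4147200000 *
        (B4 (sv x' y' z') * L4 (sv x y z) + B4 (sv x y z) * L4 (sv x' y' z')) := by
      simp only [qval, Q2, sumR, val_pad, B4, L4]
      push_cast
      ring
    rw [k4] at k1
    rw [k5] at k3
    linarith

/-- gain inequality -/
theorem ineqM4 (p r : Fin 4 → ℝ) (hp : ∀ i, 0 < p i) (hr : ∀ i, 0 < r i)
    (hps : ∑ i, p i = 1) (hrs : ∑ i, r i = 1) :
    KS rr p r ≤ rr p + rr r - 1 / 200 * (rr p ^ 2 * rr r + rr p * rr r ^ 2)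
      - (A4 r * L4 p + A4 p * L4 r) := by
  refine sorted_reduction (fun p r => KS rr p r ≤ rr p + rr r
    - 1 / 200 * (rr p ^ 2 * rr r + rr p * rr r ^ 2) - (A4 r * L4 p + A4 p * L4 r))
    (fun p r s t h => ?_) ?_ p r hp hr hps hrs
  · rw [A4_perm, A4_perm, L4_perm, L4_perm, KS_perm rr rr_perm p r s t, rr_perm, rr_perm] at h
    exact h
  · intro a b c d a' b' c' d' ha hb hc hd ha' hb' hc' hd' h h'
    rw [srt_eq_sv hd h, srt_eq_sv hd' h']
    have x1 := div_nonneg ha hd.le
    have x2 := div_nonneg hb hd.le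
    have x3 := div_nonneg hc hd.le
    have y1 := div_nonneg ha' hd'.le
    have y2 := div_nonneg hb' hd'.le
    have y3 := div_nonneg hc' hd'.le
    generalize a / d = x at x1 ⊢
    generalize b / d = y at x2 ⊢
    generalize c / d = z at x3 ⊢
    generalize a' / d' = x' at y1 ⊢
    generalize b' / d' = y' at y2 ⊢
    generalize c' / d' = z' at y3 ⊢
    have p1 := sv_nonneg x1 x2 x3
    have p2 := sv_sum x1 x2 x3
    have r1 := sv_nonneg y1 y2 y3
    have r2 := sv_sum y1 y2 y3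
    have k1 := tbil_le LT1 (fun w => (2700000 : ℤ) * val Lmr w)
      (fun w hw hws D hD0 hD4 => pointwise LT1 Lmr 5 6 0 2700000 84 8 rfl rfl
        (by decide +kernel) (by decide +kernel) kC10 kC11 kC12 w hw hws D hD0 hD4)
      (sv x y z) (sv x' y' z') p1 r1 p2 r2
    have k2 := bval_le_tbil LT1 LB1 7 72 8 rfl rfl (by decide +kernel) (by decide +kernel) kA1
      (sv x y z) (sv x' y' z') p1 r1 p2 r2
    have k3 := qval_le_bval (pad2 3 LB1) Q1 10 101 11 rfl (by decide +kernel)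
      (by decide +kernel) kB1 x1 x2 x3 y1 y2 y3
    rw [bval_pad] at k3
    have k4 : KS (fun w => ((2700000 : ℤ) : ℝ) * val Lmr w) (sv x y z) (sv x' y' z') =
        -8100000 * KS rr (sv x y z) (sv x' y' z') := by
      rw [← KS_const_mul]
      refine KS_congr p1 r1 fun w hw hws => ?_
      rw [val_Lmr, rr_four hws]
      push_cast
      ring
    have e1 := rr_four p2
    have e2 := rr_four r2
    have k5 : qval Q1 (sv x y z) (sv x' y' z') = -8100000 * (rr (sv x y z) + rr (sv x' y' z')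
        - 1 / 200 * (rr (sv x y z) ^ 2 * rr (sv x' y' z') +
          rr (sv x y z) * rr (sv x' y' z') ^ 2)
        - (A4 (sv x' y' z') * L4 (sv x y z) + A4 (sv x y z) * L4 (sv x' y' z'))) := by
      rw [e1, e2]
      simp only [qval, Q1, sumR, val_pad, A4, L4, val_Lone, val_Lr, val_Lr2]
      push_cast
      ring
    rw [k4] at k1
    rw [k5] at k3
    linarith

end Vale.Agent.P154
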