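import Mathlib

/-!
# Core definitions for the analytic part (q = 3 states)

`u : X → Fin q → ℝ` is a finite experiment: `u x i` is the likelihood of the observation `x`
when the root spin is `i`.
-/

namespace Vale.Agent.P154

open Finset

/-- probability of an observation with likelihood vector `u` under the uniform root spin -/
noncomputable def mass {q : ℕ} (u : Fin q → ℝ) : ℝ := (∑ i, u i) / q

/-- posterior of the root spin -/
noncomputable def post {q : ℕ} (u : Fin q → ℝ) (i : Fin q) : ℝ := u i / ∑ j, u j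

/-- normalised chi-square of the posterior, `0` at the centre and `1` at a vertex -/
noncomputable def rfun {q : ℕ} (u : Fin q → ℝ) : ℝ :=
  ((q : ℝ) * ∑ i, post u i ^ 2 - 1) / ((q : ℝ) - 1)

/-- square root of `27 π₀ π₁ π₂` -/
noncomputable def qfun (u : Fin 3 → ℝ) : ℝ := Real.sqrt (27 * ∏ i, post u i)

/-- mean of `rfun` -/
noncomputable def Mfun {q : ℕ} {X : Type*} [Fintype X] (u : X → Fin q → ℝ) : ℝ :=
  ∑ x, mass (u x) * rfun (u x)

/-- mean of `qfun` -/
noncomputable def Qfun {X : Type*} [Fintype X] (u : X → Fin 3 → ℝ) : ℝ :=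
  ∑ x, mass (u x) * qfun (u x)

/-- the experiment is invariant under relabelling of the spins -/
def SymExp {q : ℕ} {X : Type*} (u : X → Fin q → ℝ) : Prop :=
  ∀ g : Equiv.Perm (Fin q), ∃ e : X ≃ X, ∀ x i, u (e x) i = u x (g i)

/-- positive normalised symmetric experiment -/
structure GoodExp {q : ℕ} {X : Type*} [Fintype X] (u : X → Fin q → ℝ) : Prop where
  pos : ∀ x i, 0 < u x i
  sum : ∀ i, ∑ x, u x i = 1
  sym : SymExp u

/-- the invariant `E h ≤ (1/2) E r`, where `h = 1 - r - q` -/
def Inv3 {X : Type*} [Fintype X] (u : X → Fin 3 → ℝ) : Prop :=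
  0 ≤ 3 / 2 * Mfun u - 1 + Qfun u

end Vale.Agent.P154
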