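import Vale.Agent.P154.MFacts

/-!
# The recursion inequality on all admissible parameters

The functional `Mtree` is continuous in the channel parameter, which gives the recursion
inequality at the two ends of the parameter interval, where likelihoods may vanish.
-/

namespace Vale.Agent.P154.Up

open Finset Filter Topology Vale.Agent.P154

variable {q : ℕ}

/-- chi-square information of the level-`n` spins about the root, for a fixed tree -/
noncomputable def Mtree (q : ℕ) (lam : ℝ) {n : ℕ} (T : GTree n) : ℝ := Mfun (lik q lam T)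

theorem Mfun_nonneg' (hq : 2 ≤ q) {X : Type*} [Fintype X] {u : X → Fin q → ℝ}
    (hu : ∀ x i, 0 ≤ u x i) : 0 ≤ Mfun u := by
  rw [Mfun_eq_Gfun hq]
  exact Finset.sum_nonneg fun x _ => Gfun_nonneg hq (hu x)

theorem Mfun_le_one' (hq : 2 ≤ q) {X : Type*} [Fintype X] {u : X → Fin q → ℝ}
    (hu : ∀ x i, 0 ≤ u x i) (hs : ∀ i, ∑ x, u x i = 1) : Mfun u ≤ 1 := by
  rw [Mfun_eq_Gfun hq, ← sum_mass_eq_one (by omega) hs]
  exact Finset.sum_le_sum fun x _ => Gfun_le_mass hq (hu x)

theorem lik_nonneg (hq : 2 ≤ q) {lam : ℝ} (h1 : -1 / ((q : ℝ) - 1) ≤ lam) (h2 : lam ≤ 1)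
    {n : ℕ} (T : GTree n) (x : Obs q T) (i : Fin q) : 0 ≤ lik q lam T x i := by
  induction T generalizing i with
  | leaf =>
    change 0 ≤ leafExp q x i
    unfold leafExp
    split_ifs <;> norm_num
  | node k ch ih =>
    change 0 ≤ ∏ v : Fin k, ∑ j, potts q lam i j * lik q lam (ch v) (x v) j
    exact Finset.prod_nonneg fun v _ => Finset.sum_nonneg fun j _ =>
      mul_nonneg (potts_nonneg hq h1 h2 i j) (ih v (x v) j)

theorem lik_sum (hq : 0 < q) (lam : ℝ) {n : ℕ} (T : GTree n) (i : Fin q) :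
    ∑ x, lik q lam T x i = 1 := by
  induction T generalizing i with
  | leaf =>
    rw [sum_obs_leaf]
    simp only [lik_leaf]
    simp
  | node k ch ih =>
    rw [sum_obs_node]
    simp only [lik_node]
    have := Finset.prod_univ_sum (fun v : Fin k => (univ : Finset (Obs q (ch v))))
      (fun v x => ∑ j, potts q lam i j * lik q lam (ch v) x j)
    rw [Fintype.piFinset_univ] at this
    rw [← this]
    refine Finset.prod_eq_one fun v _ => ?_
    rw [Finset.sum_comm]
    simp_rw [← Finset.mul_sum, ih, mul_one]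
    exact sum_potts hq lam i

theorem Mtree_nonneg (hq : 2 ≤ q) {lam : ℝ} (h1 : -1 / ((q : ℝ) - 1) ≤ lam) (h2 : lam ≤ 1)
    {n : ℕ} (T : GTree n) : 0 ≤ Mtree q lam T :=
  Mfun_nonneg' hq (lik_nonneg hq h1 h2 T)

theorem Mtree_le_one (hq : 2 ≤ q) {lam : ℝ} (h1 : -1 / ((q : ℝ) - 1) ≤ lam) (h2 : lam ≤ 1)
    {n : ℕ} (T : GTree n) : Mtree q lam T ≤ 1 :=
  Mfun_le_one' hq (lik_nonneg hq h1 h2 T) (lik_sum (by omega) lam T)

theorem continuous_lik {n : ℕ} (T : GTree n) (x : Obs q T) (i : Fin q) :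
    Continuous (fun lam => lik q lam T x i) := by
  induction T generalizing i with
  | leaf =>
    change Continuous (fun _ : ℝ => leafExp q x i)
    exact continuous_const
  | node k ch ih =>
    change Continuous (fun lam => ∏ v : Fin k, ∑ j, potts q lam i j * lik q lam (ch v) (x v) j)
    refine continuous_finsetProd _ fun v _ => continuous_finsetSum _ fun j _ => ?_
    refine Continuous.mul ?_ (ih v (x v) j)
    unfold potts
    fun_prop

theorem continuousWithinAt_Gfun (hq : 2 ≤ q) {S : Set ℝ} {a : ℝ} {u : ℝ → Fin q → ℝ}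
    (ha : a ∈ S) (hc : ∀ i, ContinuousWithinAt (fun t => u t i) S a)
    (hn : ∀ t ∈ S, ∀ i, 0 ≤ u t i) : ContinuousWithinAt (fun t => Gfun (u t)) S a := by
  have hsum : ContinuousWithinAt (fun t => ∑ i, u t i) S a :=
    tendsto_finsetSum _ fun i _ => hc i
  by_cases hs : (∑ i, u a i) = 0
  · have h0 : Gfun (u a) = 0 := by
      unfold Gfun
      rw [hs]
      simp
    unfold ContinuousWithinAt
    simp only [h0]
    have hm : Tendsto (fun t => mass (u t)) (𝓝[S] a) (𝓝 0) := by
      have : Tendsto (fun t => (∑ i, u t i) / (q : ℝ)) (𝓝[S] a) (𝓝 ((∑ i, u a i) / q)) :=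
        hsum.div_const _
      rw [hs, zero_div] at this
      exact this
    refine tendsto_of_tendsto_of_tendsto_of_le_of_le' tendsto_const_nhds hm ?_ ?_
    · filter_upwards [self_mem_nhdsWithin] with t ht using Gfun_nonneg hq (hn t ht)
    · filter_upwards [self_mem_nhdsWithin] with t ht using Gfun_le_mass hq (hn t ht)
  · unfold Gfun
    refine ContinuousWithinAt.div_const ?_ _
    refine ContinuousWithinAt.sub ?_ hsum
    refine ContinuousWithinAt.div ?_ hsum hs
    refine ContinuousWithinAt.mul continuousWithinAt_const ?_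
    exact tendsto_finsetSum _ fun i _ => (hc i).pow 2

theorem continuousWithinAt_Mtree (hq : 2 ≤ q) {a : ℝ}
    (ha : a ∈ Set.Icc (-1 / ((q : ℝ) - 1)) 1) {n : ℕ} (T : GTree n) :
    ContinuousWithinAt (fun lam => Mtree q lam T) (Set.Icc (-1 / ((q : ℝ) - 1)) 1) a := by
  unfold Mtree
  simp_rw [Mfun_eq_Gfun hq]
  refine tendsto_finsetSum _ fun x _ => ?_
  exact continuousWithinAt_Gfun hq ha
    (fun i => (continuous_lik T x i).continuousWithinAt)
    (fun t ht i => lik_nonneg hq ht.1 ht.2 T x i)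

/-- The recursion inequality for the parameter `lam`. -/
def RecIneq (q : ℕ) (lam c : ℝ) : Prop :=
  ∀ {n : ℕ} (k : ℕ) (ch : Fin k → GTree n),
    c * Mtree q lam (GTree.node k ch) ≤ 1 - ∏ v, (1 - c * (lam ^ 2 * Mtree q lam (ch v)))

theorem Core.recIneq {lam c : ℝ} {Inv : ∀ (X : Type) [Fintype X], (X → Fin q → ℝ) → Prop}
    (C : Core q lam c Inv (fun _ _ u => Mfun u)) (hq : 2 ≤ q) (hc : 0 < c)
    (h1 : -1 / ((q : ℝ) - 1) < lam) (h2 : lam < 1) : RecIneq q lam c :=
  fun k ch => C.recursion hq hc h1 h2 k ch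

/-- The recursion inequality passes to the end points of an interval of parameters. -/
theorem recIneq_closure (hq : 2 ≤ q) {c a b : ℝ} (hab : a < b)
    (ha : -1 / ((q : ℝ) - 1) ≤ a) (hb : b ≤ 1)
    (h : ∀ lam ∈ Set.Ioo a b, RecIneq q lam c) : ∀ lam ∈ Set.Icc a b, RecIneq q lam c := by
  intro lam0 h0 n k ch
  have hsub : Set.Ioo a b ⊆ Set.Icc (-1 / ((q : ℝ) - 1)) 1 := fun t ht =>
    ⟨ha.trans ht.1.le, ht.2.le.trans hb⟩
  have hmem : lam0 ∈ Set.Icc (-1 / ((q : ℝ) - 1)) 1 := ⟨ha.trans h0.1, h0.2.trans hb⟩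
  have hcl : lam0 ∈ closure (Set.Ioo a b) := by
    rw [closure_Ioo hab.ne]
    exact h0
  refine ContinuousWithinAt.closure_le (f := fun lam => c * Mtree q lam (GTree.node k ch))
    (g := fun lam => 1 - ∏ v, (1 - c * (lam ^ 2 * Mtree q lam (ch v)))) hcl ?_ ?_
    (fun lam hlam => h lam hlam k ch)
  · exact ContinuousWithinAt.mul continuousWithinAt_const
      ((continuousWithinAt_Mtree hq hmem _).mono hsub)
  · refine ContinuousWithinAt.sub continuousWithinAt_const ?_
    refine tendsto_finsetProd _ fun v _ => ?_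
    refine ContinuousWithinAt.sub continuousWithinAt_const ?_
    refine ContinuousWithinAt.mul continuousWithinAt_const ?_
    refine ContinuousWithinAt.mul ?_ ((continuousWithinAt_Mtree hq hmem _).mono hsub)
    exact (continuous_pow 2).continuousWithinAt

end Vale.Agent.P154.Up
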