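import Vale.Agent.P154.DaryLimit
import Vale.Agent.P154.PoissonTree

/-!
# From the recursion inequality to nonreconstruction on the Poisson tree
-/

namespace Vale.Agent.P154.Up

open Finset Filter Topology Vale.Agent.P154
open scoped ENNReal

variable {q : ℕ}

theorem summable_weight {d : ℝ} (hd : 0 ≤ d) (n : ℕ) {g : GTree n → ℝ} {B : ℝ}
    (hg : ∀ T, 0 ≤ g T) (hg1 : ∀ T, g T ≤ B) :
    Summable (fun T : GTree n => poissonWeight d T * g T) :=
  Summable.of_nonneg_of_le (fun T => mul_nonneg (poissonWeight_nonneg hd T) (hg T))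
    (fun T => mul_le_mul_of_nonneg_left (hg1 T) (poissonWeight_nonneg hd T))
    ((poissonWeight_summable hd n).mul_right B)

/-- average of `1 - g` -/
theorem tsum_weight_one_sub {d : ℝ} (hd : 0 ≤ d) (n : ℕ) {g : GTree n → ℝ} (a : ℝ)
    (hg : ∀ T, 0 ≤ g T) (hg1 : ∀ T, g T ≤ 1) :
    ∑' T : GTree n, poissonWeight d T * (1 - a * g T) =
      1 - a * ∑' T : GTree n, poissonWeight d T * g T := by
  have hs := summable_weight hd n hg hg1
  have h1 : ∀ T : GTree n, poissonWeight d T * (1 - a * g T) =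
      poissonWeight d T - a * (poissonWeight d T * g T) := by
    intro T
    ring
  simp_rw [h1]
  rw [(poissonWeight_summable hd n).tsum_sub (hs.mul_left a), tsum_mul_left,
    poissonWeight_tsum hd n]

theorem poisson_recursion {d : ℝ} (hd : 0 ≤ d) (n : ℕ) {y : ∀ {m : ℕ}, GTree m → ℝ} {b : ℝ}
    (hb0 : 0 ≤ b) (hb1 : b ≤ 1)
    (hy0 : ∀ {m : ℕ} (T : GTree m), 0 ≤ y T) (hy1 : ∀ {m : ℕ} (T : GTree m), y T ≤ 1)
    (hrec : ∀ {m : ℕ} (k : ℕ) (ch : Fin k → GTree m),
      y (GTree.node k ch) ≤ 1 - ∏ v, (1 - b * y (ch v))) :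
    ∑' T : GTree (n + 1), poissonWeight d T * y T ≤
      1 - Real.exp (-(d * b * ∑' T : GTree n, poissonWeight d T * y T)) := by
  set s : ℝ := ∑' T : GTree n, poissonWeight d T * (1 - b * y T) with hs
  have hs' : s = 1 - b * ∑' T : GTree n, poissonWeight d T * y T :=
    tsum_weight_one_sub hd n b hy0 hy1
  have hfac : ∀ {m : ℕ} (T : GTree m), 0 ≤ 1 - b * y T ∧ 1 - b * y T ≤ 1 := by
    intro m T
    have h0 := hy0 T
    have h1 := hy1 T
    constructor
    · nlinarith
    · nlinarith
  have hs0 : 0 ≤ s := tsum_nonneg fun T => mul_nonneg (poissonWeight_nonneg hd T) (hfac T).1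
  have hE : ENNReal.ofReal s = treeE d n (fun T => ENNReal.ofReal (1 - b * y T)) :=
    ofReal_tsum_weight hd n _ (fun T => (hfac T).1) (fun T => (hfac T).2)
  -- the function of the children
  let G : GTree (n + 1) → ℝ≥0∞ := fun T => match T with
    | .node _ c => ∏ v, ENNReal.ofReal (1 - b * y (c v))
  have hG : treeE d (n + 1) G = ENNReal.ofReal (Real.exp (-(d * (1 - s)))) := by
    rw [treeE_prod_children hd n G (fun T => ENNReal.ofReal (1 - b * y T)) (fun k c => rfl),
      ← hE, pk_gen hd hs0]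
  have hle : treeE d (n + 1) G ≤ treeE d (n + 1) (fun T => ENNReal.ofReal (1 - 1 * y T)) := by
    refine treeE_mono d (n + 1) fun T => ?_
    cases T with
    | node k c =>
      change ∏ v, ENNReal.ofReal (1 - b * y (c v)) ≤ _
      rw [← ENNReal.ofReal_prod_of_nonneg (fun v _ => (hfac (c v)).1)]
      refine ENNReal.ofReal_le_ofReal ?_
      have := hrec k c
      linarith
  rw [hG, ← ofReal_tsum_weight hd (n + 1) _ (fun T => by linarith [hy1 T])
    (fun T => by linarith [hy0 T])] at hle
  have h2 := tsum_weight_one_sub hd (n + 1) 1 (g := fun T => y T) hy0 hy1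
  have h3 : 0 ≤ ∑' T : GTree (n + 1), poissonWeight d T * (1 - 1 * y T) :=
    tsum_nonneg fun T => mul_nonneg (poissonWeight_nonneg hd T) (by linarith [hy1 T])
  rw [ENNReal.ofReal_le_ofReal_iff h3, h2, hs'] at hle
  have e : -(d * b * ∑' T : GTree n, poissonWeight d T * y T) =
      -(d * (1 - (1 - b * ∑' T : GTree n, poissonWeight d T * y T))) := by ring
  rw [e]
  linarith

/-- The recursion inequality gives nonreconstruction on the Poisson tree. -/
theorem nonreconstruction_poisson (hq : 2 ≤ q) {lam c : ℝ} (hc : 0 < c) (hc1 : c ≤ 1)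
    (h1 : -1 / ((q : ℝ) - 1) ≤ lam) (h2 : lam ≤ 1) (hR : RecIneq q lam c)
    {d : ℝ} (hd : 0 ≤ d) (hlam : d * lam ^ 2 ≤ 1) : Nonreconstruction (aPoisson q lam d) := by
  have hlam2 := sq_le_one_of_lam hq h1 h2
  set x : ℕ → ℝ := fun n => ∑' T : GTree n, poissonWeight d T * (c * Mtree q lam T) with hx
  have hy0 : ∀ {m : ℕ} (T : GTree m), 0 ≤ c * Mtree q lam T := fun T =>
    mul_nonneg hc.le (Mtree_nonneg hq h1 h2 T)
  have hy1 : ∀ {m : ℕ} (T : GTree m), c * Mtree q lam T ≤ 1 := fun T => by
    nlinarith [Mtree_nonneg hq h1 h2 T, Mtree_le_one hq h1 h2 T]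
  have hx0 : ∀ n, 0 ≤ x n := fun n =>
    tsum_nonneg fun T => mul_nonneg (poissonWeight_nonneg hd T) (hy0 T)
  have hx1 : ∀ n, x n ≤ 1 := by
    intro n
    rw [← poissonWeight_tsum hd n]
    exact (summable_weight hd n hy0 hy1).tsum_le_tsum
      (fun T => mul_le_of_le_one_right (poissonWeight_nonneg hd T) (hy1 T))
      (poissonWeight_summable hd n)
  have hrec : ∀ n, x (n + 1) ≤ 1 - Real.exp (-(x n)) := by
    intro n
    have h := poisson_recursion (y := fun {m} T => c * Mtree q lam T) hd n (sq_nonneg lam) hlam2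
      hy0 hy1 (fun k ch => by
        have := hR k ch
        refine this.trans (le_of_eq ?_)
        congr 1
        refine Finset.prod_congr rfl fun v _ => ?_
        ring)
    refine h.trans ?_
    have h3 : d * lam ^ 2 * x n ≤ x n := by nlinarith [hx0 n]
    have h4 : Real.exp (-(x n)) ≤ Real.exp (-(d * lam ^ 2 * x n)) :=
      Real.exp_le_exp.2 (by linarith)
    simp only [hx] at h4 ⊢
    linarith
  have hlim : Tendsto x atTop (𝓝 0) := by
    refine tendsto_zero_of_le (f := fun t => 1 - Real.exp (-t)) (by fun_prop) hx0 hx1 hrec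
      (by simp) ?_
    intro t ht0 _
    have := Real.add_one_lt_exp (x := -t) (by linarith)
    change 1 - Real.exp (-t) < t
    linarith
  have ha0 : ∀ n, 0 ≤ aPoisson q lam d n := fun n =>
    tsum_nonneg fun T => mul_nonneg (poissonWeight_nonneg hd T) (adv_nonneg hq h1 h2 T)
  have hq0 : (2 : ℝ) ≤ q := by exact_mod_cast hq
  have ha : ∀ ε : ℝ, 0 < ε → ∀ n,
      aPoisson q lam d n ≤ ε / 4 + ((q : ℝ) - 1) / (4 * ε * c) * x n := by
    intro ε hε n
    have hs1 : Summable (fun T : GTree n => poissonWeight d T * (c * Mtree q lam T)) :=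
      summable_weight hd n hy0 hy1
    have hs2 : Summable (fun T : GTree n => ε / 4 * poissonWeight d T +
        ((q : ℝ) - 1) / (4 * ε * c) * (poissonWeight d T * (c * Mtree q lam T))) :=
      ((poissonWeight_summable hd n).mul_left _).add (hs1.mul_left _)
    have hle : ∀ T : GTree n, poissonWeight d T * adv q lam T ≤ ε / 4 * poissonWeight d T +
        ((q : ℝ) - 1) / (4 * ε * c) * (poissonWeight d T * (c * Mtree q lam T)) := by
      intro T
      have h3 := mul_le_mul_of_nonneg_left (adv_le hq h1 h2 T hε) (poissonWeight_nonneg hd T)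
      refine h3.trans (le_of_eq ?_)
      field_simp
    have hs3 : Summable (fun T : GTree n => poissonWeight d T * adv q lam T) :=
      Summable.of_nonneg_of_le
        (fun T => mul_nonneg (poissonWeight_nonneg hd T) (adv_nonneg hq h1 h2 T)) hle hs2
    unfold aPoisson
    refine (hs3.tsum_le_tsum hle hs2).trans (le_of_eq ?_)
    rw [((poissonWeight_summable hd n).mul_left _).tsum_add (hs1.mul_left _), tsum_mul_left,
      tsum_mul_left, poissonWeight_tsum hd n, mul_one]
  unfold Nonreconstruction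
  rw [Metric.tendsto_atTop]
  intro ε hε
  have h3 : Tendsto (fun n => ε / 4 + ((q : ℝ) - 1) / (4 * ε * c) * x n) atTop (𝓝 (ε / 4)) := by
    have := (hlim.const_mul (((q : ℝ) - 1) / (4 * ε * c))).const_add (ε / 4)
    rwa [mul_zero, add_zero] at this
  have h4 := h3.eventually_lt_const (show ε / 4 < ε by linarith)
  obtain ⟨N, hN⟩ := eventually_atTop.1 h4
  refine ⟨N, fun n hn => ?_⟩
  rw [Real.dist_eq, sub_zero, abs_of_nonneg (ha0 n)]
  exact (ha ε hε n).trans_lt (hN n hn)

end Vale.Agent.P154.Up
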