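import Vale.Agent.P154.LocChain

/-!
# P154, three states, antiferromagnetic side: local stability on the Poisson tree at criticality
-/

namespace Vale.Agent.P154.Loc

open Finset Filter Topology Vale.Agent.P154 Vale.Agent.P154.Up

/-- a box of ratios -/
structure Bo (Z Y X x y : ℝ) : Prop where
  z : -Z ≤ y
  y : y ≤ Y
  x : x ≤ X

/-- admissible data for the crude step -/
structure Cr (Z Y X Z' Y' X' : ℝ) : Prop where
  Z0 : 0 ≤ Z
  Z1 : Z ≤ 1 / 4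
  Y1 : Y ≤ 1 / 2
  X1 : X ≤ 1 / 4
  YX : 22 / 5 * (Y - Z) + 86 / 5 * X ≤ 8
  Z'0 : 0 ≤ Z'
  Y'0 : 0 ≤ Y'
  X'0 : 0 ≤ X'
  P : Z + (6 - 12 * Z + 5 * Z ^ 2) * (7 / 200) + (19 + 320 * X) * (309 / 1000) *
      (49 / 10000) ≤ 2000 / 1001 * Y'
  Q0 : Y + (-6 - 12 * Y + 18 * X + 7 / 4 * Y ^ 2 - 18 * (X * Y) + 9 / 4 * X ^ 2) * (43 / 2000) +
      (82 + 620 * X) * (309 / 1000) * (1849 / 1000000) ≤ 2000 / 1001 * Z'
  Q1 : Y + (-6 - 12 * Y + 18 * X + 7 / 4 * Y ^ 2 - 18 * (X * Y) + 9 / 4 * X ^ 2) * (7 / 200) +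
      (82 + 620 * X) * (309 / 1000) * (49 / 10000) ≤ 2000 / 1001 * Z'
  V : X + (4 + 8 * Z + 22 / 5 * Z ^ 2 + 43 / 10 * X - 86 / 5 * (X * Z) + 73 / 2 * X ^ 2) *
      (7 / 200) + (32 + 340 * X) * (309 / 1000) * (49 / 10000) ≤ 4000 / 1001 * X'

/-- admissible data for the refined step -/
structure Re (Z Y X Z' Y' X' : ℝ) : Prop where
  Z0 : 0 ≤ Z
  Z1 : Z ≤ 83 / 1000
  Y1 : Y ≤ 171 / 1000
  X1 : X ≤ 98 / 1000
  Z'0 : 0 ≤ Z'
  Y'0 : 0 ≤ Y'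
  X'0 : 0 ≤ X'
  P : Z + (6 - 12 * Z + 5 * Z ^ 2) * (7 / 200) + (-418 / 10 + 144 * X + 867 / 10 * Z) *
      (49 / 60000) + 634 * (568 / 10000) * (343 / 1000000) ≤ 2000 / 1001 * Y'
  Q0 : Y + (-6 - 12 * Y + 18 * X + 7 / 4 * Y ^ 2 - 18 * (X * Y) + 9 / 4 * X ^ 2) * (43 / 2000) +
      (82 + 120 * X - 366 / 10 * Y) * (1849 / 6000000) +
      399 * (568 / 10000) * (43 / 1000) ^ 3 ≤ 2000 / 1001 * Z'
  Q1 : Y + (-6 - 12 * Y + 18 * X + 7 / 4 * Y ^ 2 - 18 * (X * Y) + 9 / 4 * X ^ 2) * (7 / 200) +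
      (82 + 120 * X - 366 / 10 * Y) * (49 / 60000) +
      399 * (568 / 10000) * (7 / 100) ^ 3 ≤ 2000 / 1001 * Z'
  V : X + (4 + 8 * Z + 22 / 5 * Z ^ 2 + 43 / 10 * X - 86 / 5 * (X * Z) + 73 / 2 * X ^ 2) *
      (7 / 200) + (31 + 162 * X - 225 / 10 * Z) * (49 / 60000) +
      314 * (568 / 10000) * (343 / 1000000) ≤ 4000 / 1001 * X'

theorem up1 {κ W M K M' y' Y' : ℝ} (h0 : 0 < κ) (h1 : κ ≤ 1 / 2) (hW : y' * M' ≤ κ * W)
    (hK : W ≤ M * K) (hM : 0 ≤ M) (hr : M ≤ 1001 / 1000 * M') (hM' : 0 < M')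
    (hK' : K = 2000 / 1001 * Y') (hY : 0 ≤ Y') : y' ≤ Y' := by
  have hK0 : 0 ≤ K := by rw [hK']; linarith
  have a1 : κ * W ≤ κ * (M * K) := mul_le_mul_of_nonneg_left hK h0.le
  have a2 : κ * (M * K) ≤ 1 / 2 * (M * K) := mul_le_mul_of_nonneg_right h1 (mul_nonneg hM hK0)
  have a3 : M * K ≤ 1001 / 1000 * M' * K := mul_le_mul_of_nonneg_right hr hK0
  have a4 : y' * M' ≤ Y' * M' := by
    rw [hK'] at a3 a2 a1
    linarith
  exact le_of_mul_le_mul_right a4 hM'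

theorem up2 {κ W M K M' x' X' : ℝ} (h0 : 0 < κ) (h1 : κ ≤ 1 / 2) (hW : x' * M' ≤ κ ^ 2 * W)
    (hK : W ≤ M * K) (hM : 0 ≤ M) (hr : M ≤ 1001 / 1000 * M') (hM' : 0 < M')
    (hK' : K = 4000 / 1001 * X') (hX : 0 ≤ X') : x' ≤ X' := by
  have hK0 : 0 ≤ K := by rw [hK']; linarith
  have hκ : κ ^ 2 ≤ 1 / 4 := by nlinarith
  have a1 : κ ^ 2 * W ≤ κ ^ 2 * (M * K) := mul_le_mul_of_nonneg_left hK (sq_nonneg κ)
  have a2 : κ ^ 2 * (M * K) ≤ 1 / 4 * (M * K) := mul_le_mul_of_nonneg_right hκ (mul_nonneg hM hK0)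
  have a3 : M * K ≤ 1001 / 1000 * M' * K := mul_le_mul_of_nonneg_right hr hK0
  have a4 : x' * M' ≤ X' * M' := by
    rw [hK'] at a3 a2 a1
    linarith
  exact le_of_mul_le_mul_right a4 hM'

section
variable {κ d : ℝ}

/-- the ratios -/
noncomputable def rx (d κ : ℝ) (n : ℕ) : ℝ := κ ^ 2 * (avP d κ gR n / avP d κ gr n)
noncomputable def ry (d κ : ℝ) (n : ℕ) : ℝ := κ * (avP d κ gt n / avP d κ gr n)

/-- regularity at depth `n` -/
structure Rg (d κ : ℝ) (n : ℕ) : Prop where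
  lo : 43 / 1000 ≤ avP d κ gr n
  hi : avP d κ gr n ≤ 7 / 100
  r : avP d κ gr n ≤ 1001 / 1000 * avP d κ gr (n + 1)

theorem rg_pos {n : ℕ} (h : Rg d κ n) : 0 < avP d κ gr (n + 1) := by
  have := h.lo; have := h.r; linarith

theorem st_pois (hd : 0 ≤ d) (h0 : 0 < κ) (h1 : κ ≤ 1 / 2) (n : ℕ) :
    St κ (avP d κ gr n) (avP d κ gt n) (avP d κ gR n) (avP d κ gt n / avP d κ gr n)
      (avP d κ gR n / avP d κ gr n) := st_of_pf h0 h1 (pf_pois hd h0 h1 n)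

theorem ry_mul {n : ℕ} (h : 0 < avP d κ gr n) : ry d κ n * avP d κ gr n = κ * avP d κ gt n := by
  unfold ry; field_simp

theorem rx_mul {n : ℕ} (h : 0 < avP d κ gr n) : rx d κ n * avP d κ gr n = κ ^ 2 * avP d κ gR n := by
  unfold rx; field_simp

theorem stepC (hd : 0 < d) (h0 : 0 < κ) (h1 : κ ≤ 1 / 2) (hdκ : d * κ ^ 2 = 1) {n : ℕ}
    (hr : Rg d κ n) {Z Y X Z' Y' X' : ℝ} (c : Cr Z Y X Z' Y' X')
    (hb : Bo Z Y X (rx d κ n) (ry d κ n)) : Bo Z' Y' X' (rx d κ (n + 1)) (ry d κ (n + 1)) := by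
  have hs := st_pois hd.le h0 h1 n
  have hS : avP d κ gr n = d * (κ ^ 2 * avP d κ gr n) := by
    rw [← mul_assoc, hdκ, one_mul]
  obtain ⟨-, k2, k3, k4⟩ := pois3 hd.le h0 h1 n hs hS
  have om := hs.om
  have hx0 := om.x0
  change 0 ≤ rx d κ n at hx0
  have hA := A3_le hs.M0 hr.hi
  have hM' := rg_pos hr
  have b1 := hb.z; have b2 := hb.y; have b3 := hb.x
  have hM0 : 0 ≤ avP d κ gr n := hs.M0
  refine ⟨?_, ?_, ?_⟩
  · have W := crudeQ (K := 2000 / 1001 * Z') b2 c.Y1 b3 hx0 c.X1 (by linarith [c.Z1]) hr.lo hr.hi hA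
      c.Q0 c.Q1
    have := up1 (y' := - ry d κ (n + 1)) (M' := avP d κ gr (n + 1)) h0 h1 (W := - avP d κ gt (n + 1))
      (by rw [neg_mul, ry_mul hM']; linarith) (k3.trans W) hM0 hr.r hM' rfl c.Z'0
    linarith
  · have W := crudeP (K := 2000 / 1001 * Y') b1 c.Z0 c.Z1 b3 hx0 (b2.trans c.Y1) hM0 hr.hi hA c.P
    exact up1 (y' := ry d κ (n + 1)) (M' := avP d κ gr (n + 1)) h0 h1 (W := avP d κ gt (n + 1))
      (by rw [ry_mul hM']) (k2.trans W) hM0 hr.r hM' rfl c.Y'0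
  · have W := crudeV (K := 4000 / 1001 * X') b1 c.Z0 c.Z1 b3 hx0 b2 c.YX hM0 hr.hi hA c.V
    exact up2 (x' := rx d κ (n + 1)) (M' := avP d κ gr (n + 1)) h0 h1 (W := avP d κ gR (n + 1))
      (by rw [rx_mul hM']) (k4.trans W) hM0 hr.r hM' rfl c.X'0

theorem bx_of {n : ℕ} (om : Om (rx d κ n) (ry d κ n)) {Z Y X : ℝ}
    (hb : Bo Z Y X (rx d κ n) (ry d κ n)) (hZ : Z ≤ 83 / 1000) (hY : Y ≤ 171 / 1000)
    (hX : X ≤ 98 / 1000) : Bx (rx d κ n) (ry d κ n) :=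
  ⟨om.a, hb.x.trans hX, by linarith [hb.z], hb.y.trans hY⟩

theorem stepR (hd : 0 < d) (h0 : 0 < κ) (h1 : κ ≤ 1 / 2) (hdκ : d * κ ^ 2 = 1) {n : ℕ}
    (hr : Rg d κ n) {Z Y X Z' Y' X' : ℝ} (c : Re Z Y X Z' Y' X')
    (hb : Bo Z Y X (rx d κ n) (ry d κ n)) : Bo Z' Y' X' (rx d κ (n + 1)) (ry d κ (n + 1)) := by
  have hs := st_pois hd.le h0 h1 n
  have hS : avP d κ gr n = d * (κ ^ 2 * avP d κ gr n) := by
    rw [← mul_assoc, hdκ, one_mul]
  have om := hs.om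
  have hx0 := om.x0
  change 0 ≤ rx d κ n at hx0
  obtain ⟨-, k2, k3, k4⟩ := pois4 hd.le h0 h1 n hs (bx_of om hb c.Z1 c.Y1 c.X1) hS
  have hA := B4_le hs.M0 hr.hi
  have hM' := rg_pos hr
  have b1 := hb.z; have b2 := hb.y; have b3 := hb.x
  have hM0 : 0 ≤ avP d κ gr n := hs.M0
  refine ⟨?_, ?_, ?_⟩
  · have W := refQ (K := 2000 / 1001 * Z') b2 c.Y1 b3 hx0 c.X1 (by linarith [c.Z1]) hr.lo hr.hi hA
      c.Q0 c.Q1
    have := up1 (y' := - ry d κ (n + 1)) (M' := avP d κ gr (n + 1)) h0 h1 (W := - avP d κ gt (n + 1))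
      (by rw [neg_mul, ry_mul hM']; linarith) (k3.trans W) hM0 hr.r hM' rfl c.Z'0
    linarith
  · have W := refP (K := 2000 / 1001 * Y') b1 c.Z0 c.Z1 b3 hx0 c.X1 (b2.trans c.Y1) hM0 hr.hi hA c.P
    exact up1 (y' := ry d κ (n + 1)) (M' := avP d κ gr (n + 1)) h0 h1 (W := avP d κ gt (n + 1))
      (by rw [ry_mul hM']) (k2.trans W) hM0 hr.r hM' rfl c.Y'0
  · have W := refV (K := 4000 / 1001 * X') b1 c.Z0 c.Z1 b3 hx0 c.X1 (b2.trans c.Y1) hM0 hr.hi hA c.V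
    exact up2 (x' := rx d κ (n + 1)) (M' := avP d κ gr (n + 1)) h0 h1 (W := avP d κ gR (n + 1))
      (by rw [rx_mul hM']) (k4.trans W) hM0 hr.r hM' rfl c.X'0

/-- the chain of boxes -/
theorem chain (hd : 0 < d) (h0 : 0 < κ) (h1 : κ ≤ 1 / 2) (hdκ : d * κ ^ 2 = 1) {n : ℕ}
    (hr : ∀ j < 10, Rg d κ (n + j)) :
    Bo (3 / 1000) (1022 / 10000) (686 / 10000) (rx d κ (n + 10)) (ry d κ (n + 10)) := by
  have om := (st_pois hd.le h0 h1 n).om
  have B0 : Bo (1 / 4) (1 / 2) (1 / 4) (rx d κ n) (ry d κ n) := ⟨by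
    have := om.c; unfold ry; linarith, om.y1, om.b⟩
  have B1' := stepC hd h0 h1 hdκ (hr 0 (by norm_num)) (Z' := 27 / 100) (Y' := 2582 / 10000)
    (X' := 1819 / 10000) (by constructor <;> norm_num) B0
  have B1 : Bo (1 / 4) (2582 / 10000) (1819 / 10000) (rx d κ (n + 1)) (ry d κ (n + 1)) := ⟨by
    have := (st_pois hd.le h0 h1 (n + 1)).om.c; unfold ry; linarith, B1'.y, B1'.x⟩
  have B2 := stepC hd h0 h1 hdκ (hr 1 (by norm_num)) (Z' := 1634 / 10000) (Y' := 2417 / 10000)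
    (X' := 1467 / 10000) (by constructor <;> norm_num) B1
  have B3 := stepC hd h0 h1 hdκ (hr 2 (by norm_num)) (Z' := 1339 / 10000) (Y' := 2049 / 10000)
    (X' := 1241 / 10000) (by constructor <;> norm_num) B2
  have B4 := stepC hd h0 h1 hdκ (hr 3 (by norm_num)) (Z' := 1079 / 10000) (Y' := 1901 / 10000)
    (X' := 1114 / 10000) (by constructor <;> norm_num) B3
  have B5 := stepC hd h0 h1 hdκ (hr 4 (by norm_num)) (Z' := 947 / 10000) (Y' := 1789 / 10000)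
    (X' := 1038 / 10000) (by constructor <;> norm_num) B4
  have B6 := stepC hd h0 h1 hdκ (hr 5 (by norm_num)) (Z' := 861 / 10000) (Y' := 1730 / 10000)
    (X' := 994 / 10000) (by constructor <;> norm_num) B5
  have B7 := stepC hd h0 h1 hdκ (hr 6 (by norm_num)) (Z' := 812 / 10000) (Y' := 1693 / 10000)
    (X' := 968 / 10000) (by constructor <;> norm_num) B6
  have B8 := stepR hd h0 h1 hdκ (hr 7 (by norm_num)) (Z' := 291 / 10000) (Y' := 1270 / 10000)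
    (X' := 814 / 10000) (by constructor <;> norm_num) B7
  have B9 := stepR hd h0 h1 hdκ (hr 8 (by norm_num)) (Z' := 112 / 10000) (Y' := 1086 / 10000)
    (X' := 728 / 10000) (by constructor <;> norm_num) B8
  exact stepR hd h0 h1 hdκ (hr 9 (by norm_num)) (Z' := 3 / 1000) (Y' := 1022 / 10000)
    (X' := 686 / 10000) (by constructor <;> norm_num) B9

theorem stepF (hd : 0 < d) (h0 : 0 < κ) (h1 : κ ≤ 1 / 2) (hdκ : d * κ ^ 2 = 1) {n : ℕ}
    (hr : Rg d κ n) (hb : Bo (3 / 1000) (1022 / 10000) (686 / 10000) (rx d κ n) (ry d κ n)) :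
    avP d κ gr (n + 1) ≤ avP d κ gr n - 1 / 100 * avP d κ gr n ^ 2 := by
  have hs := st_pois hd.le h0 h1 n
  have hS : avP d κ gr n = d * (κ ^ 2 * avP d κ gr n) := by
    rw [← mul_assoc, hdκ, one_mul]
  have om := hs.om
  have hx0 := om.x0
  change 0 ≤ rx d κ n at hx0
  obtain ⟨k1, -, -, -⟩ := pois4 hd.le h0 h1 n hs
    (bx_of om hb (by norm_num) (by norm_num) (by norm_num)) hS
  have hA := B4_le hs.M0 hr.hi
  have b1 := hb.z; have b2 := hb.y; have b3 := hb.x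
  have W := refU (K := -(1 / 100)) b2 (by norm_num) b3 hx0 (by norm_num) (by linarith) hr.lo hr.hi
    hA (by norm_num) (by norm_num)
  have := k1.trans W
  linarith

/-- Local stability, Poisson tree, critical parameters. -/
theorem loc_poisson_crit (hd : 0 < d) (h0 : 0 < κ) (h1 : κ ≤ 1 / 2) (hdκ : d * κ ^ 2 = 1) {N : ℕ}
    (hN : ∑' T : GTree N, poissonWeight d T * Mtree 3 (-κ) T ≤ 7 / 100) :
    Tendsto (fun n => ∑' T : GTree n, poissonWeight d T * Mtree 3 (-κ) T) atTop (𝓝 0) := by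
  by_cases hex : ∃ K, ∑' T : GTree K, poissonWeight d T * Mtree 3 (-κ) T ≤ 43 / 1000
  · obtain ⟨K, hK⟩ := hex
    exact loc_poisson hd h0 h1 hdκ.le hK
  push Not at hex
  have hM : ∀ n, avP d κ gr n = ∑' T : GTree n, poissonWeight d T * Mtree 3 (-κ) T := by
    intro n
    unfold avP Mtree
    refine tsum_congr fun T => ?_
    rw [fn_gr_eq]
  have hanti : Antitone (fun n => avP d κ gr n) := by
    simp only [hM]
    exact antitone_Mpoisson h0.le h1 hd.le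
  simp only [← hM] at hN hex ⊢
  have hbdd : BddBelow (Set.range fun n => avP d κ gr n) :=
    ⟨43 / 1000, by rintro _ ⟨n, rfl⟩; exact (hex n).le⟩
  have hL := tendsto_atTop_ciInf hanti hbdd
  have hLM : ∀ n, (⨅ n, avP d κ gr n) ≤ avP d κ gr n := fun n => ciInf_le hbdd n
  have hL0 : 43 / 1000 ≤ ⨅ n, avP d κ gr n := le_ciInf fun n => (hex n).le
  set L := ⨅ n, avP d κ gr n with hLdef
  have hev := hL.eventually_lt_const (show L < 1001 / 1000 * L by linarith)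
  obtain ⟨N1, hN1⟩ := eventually_atTop.1 hev
  have hrg : ∀ n, max N N1 ≤ n → Rg d κ n := by
    intro n hn
    refine ⟨(hex n).le, (hanti ((le_max_left N N1).trans hn)).trans hN, ?_⟩
    have a1 := hN1 n ((le_max_right N N1).trans hn)
    have a2 := hLM (n + 1)
    linarith
  refine tendsto_of_descent (Φ := fun n => avP d κ gr n) (N := max N N1 + 10) (c := 1 / 100)
    (by norm_num) (fun n => (st_pois hd.le h0 h1 n).M0) hanti
    (fun n => (st_pois hd.le h0 h1 n).M0) (fun n hn => ?_)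
  obtain ⟨m, rfl⟩ : ∃ m, n = m + 10 := ⟨n - 10, by omega⟩
  have hm : max N N1 ≤ m := by omega
  have hc := chain hd h0 h1 hdκ (n := m) (fun j _ => hrg (m + j) (by omega))
  exact stepF hd h0 h1 hdκ (hrg (m + 10) (by omega)) hc

end

end Vale.Agent.P154.Loc
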