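import Vale.Agent.P154.RecTree

/-!
# From the recursion inequality to nonreconstruction on the `d`-ary tree
-/

namespace Vale.Agent.P154.Up

open Finset Filter Topology Vale.Agent.P154

variable {q : ℕ}

theorem obsProb_eq (lam : ℝ) {n : ℕ} (T : GTree n) (x : Obs q T) :
    obsProb q lam T x = mass (lik q lam T x) := by
  unfold obsProb mass
  ring

theorem posterior_eq (hq : 0 < q) (lam : ℝ) {n : ℕ} (T : GTree n) (x : Obs q T) (i : Fin q) :
    posterior q lam T x i = post (lik q lam T x) i := by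
  have h1 : (1 / (q : ℝ)) ≠ 0 := by
    have : (q : ℝ) ≠ 0 := by exact_mod_cast hq.ne'
    exact one_div_ne_zero this
  unfold posterior obsProb post
  rw [mul_div_mul_left _ _ h1]

theorem adv_eq (hq : 0 < q) (lam : ℝ) {n : ℕ} (T : GTree n) :
    adv q lam T = ∑ x, mass (lik q lam T x) *
      (1 / 2 * ∑ i, |post (lik q lam T x) i - 1 / q|) := by
  unfold adv
  simp_rw [obsProb_eq, posterior_eq hq]

theorem mass_nonneg {u : Fin q → ℝ} (hu : ∀ i, 0 ≤ u i) : 0 ≤ mass u :=
  div_nonneg (Finset.sum_nonneg fun i _ => hu i) (Nat.cast_nonneg q)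

theorem tv_le (hq : 2 ≤ q) {u : Fin q → ℝ} (hu : ∀ i, 0 ≤ u i) {ε : ℝ} (hε : 0 < ε) :
    mass u * (1 / 2 * ∑ i, |post u i - 1 / q|) ≤
      ε / 4 * mass u + ((q : ℝ) - 1) / (4 * ε) * Gfun u := by
  have hq0 : (2 : ℝ) ≤ q := by exact_mod_cast hq
  have hq1 : (q : ℝ) ≠ 0 := by linarith
  have hq2 : (q : ℝ) - 1 ≠ 0 := by
    intro h
    linarith
  rw [← mass_mul_rfun hq]
  have hm := mass_nonneg hu
  have hs0 : 0 ≤ ∑ i, u i := Finset.sum_nonneg fun i _ => hu i
  rcases hs0.eq_or_lt with hs | hs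
  · have : mass u = 0 := by
      unfold mass
      rw [← hs, zero_div]
    rw [this]
    simp
  · have hp : ∑ i, post u i = 1 := by
      unfold post
      rw [← Finset.sum_div, div_self hs.ne']
    set t := ∑ i, |post u i - 1 / q| with ht
    have h1 : t ^ 2 ≤ q * ∑ i, (post u i - 1 / q) ^ 2 := by
      have := sq_sum_le_card_mul_sum_sq (s := (univ : Finset (Fin q)))
        (f := fun i => |post u i - 1 / q|)
      rw [Finset.card_univ, Fintype.card_fin] at this
      simpa only [sq_abs] using this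
    have h2 : ∑ i, (post u i - 1 / q) ^ 2 = ∑ i, post u i ^ 2 - 1 / q := by
      have : ∀ i, (post u i - 1 / q) ^ 2 =
          post u i ^ 2 - 2 / q * post u i + (1 / (q : ℝ)) ^ 2 := by
        intro i
        ring
      simp_rw [this, Finset.sum_add_distrib, Finset.sum_sub_distrib, ← Finset.mul_sum, hp]
      simp only [Finset.sum_const, Finset.card_univ, Fintype.card_fin, nsmul_eq_mul]
      field_simp
      ring
    have h3 : t ^ 2 ≤ ((q : ℝ) - 1) * rfun u := by
      refine h1.trans (le_of_eq ?_)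
      rw [h2]
      unfold rfun
      field_simp
    have h4 : 1 / 2 * t ≤ ε / 4 + ((q : ℝ) - 1) / (4 * ε) * rfun u := by
      have h5 : t ≤ ε / 2 + t ^ 2 / (2 * ε) := by
        have : 0 ≤ (t - ε) ^ 2 / (2 * ε) := by positivity
        have e : (t - ε) ^ 2 / (2 * ε) = t ^ 2 / (2 * ε) - t + ε / 2 := by
          field_simp
          ring
        linarith
      have h6 : t ^ 2 / (2 * ε) ≤ ((q : ℝ) - 1) * rfun u / (2 * ε) := by
        gcongr
      have e2 : ((q : ℝ) - 1) / (4 * ε) * rfun u = ((q : ℝ) - 1) * rfun u / (2 * ε) / 2 := by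
        field_simp
        ring
      rw [e2]
      linarith
    have := mul_le_mul_of_nonneg_left h4 hm
    refine this.trans (le_of_eq ?_)
    ring

theorem adv_le (hq : 2 ≤ q) {lam : ℝ} (h1 : -1 / ((q : ℝ) - 1) ≤ lam) (h2 : lam ≤ 1)
    {n : ℕ} (T : GTree n) {ε : ℝ} (hε : 0 < ε) :
    adv q lam T ≤ ε / 4 + ((q : ℝ) - 1) / (4 * ε) * Mtree q lam T := by
  rw [adv_eq (by omega)]
  refine (Finset.sum_le_sum fun x _ => tv_le hq (lik_nonneg hq h1 h2 T x) hε).trans ?_
  rw [Finset.sum_add_distrib, ← Finset.mul_sum, ← Finset.mul_sum,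
    sum_mass_eq_one (by omega) (lik_sum (by omega) lam T), ← Mfun_eq_Gfun hq, mul_one]
  rfl

theorem adv_nonneg (hq : 2 ≤ q) {lam : ℝ} (h1 : -1 / ((q : ℝ) - 1) ≤ lam) (h2 : lam ≤ 1)
    {n : ℕ} (T : GTree n) : 0 ≤ adv q lam T := by
  rw [adv_eq (by omega)]
  refine Finset.sum_nonneg fun x _ => mul_nonneg (mass_nonneg (lik_nonneg hq h1 h2 T x)) ?_
  positivity

/-- A nonnegative sequence with `x (n + 1) ≤ f (x n)` and `f < id` on `(0, 1]` tends to `0`. -/
theorem tendsto_zero_of_le {x : ℕ → ℝ} {f : ℝ → ℝ} (hf : Continuous f)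
    (h0 : ∀ n, 0 ≤ x n) (h1 : ∀ n, x n ≤ 1) (hx : ∀ n, x (n + 1) ≤ f (x n))
    (hf0 : f 0 ≤ 0) (hf1 : ∀ t, 0 < t → t ≤ 1 → f t < t) : Tendsto x atTop (𝓝 0) := by
  have hanti : Antitone x := by
    refine antitone_nat_of_succ_le fun n => ?_
    rcases (h0 n).eq_or_lt with h | h
    · have := hx n
      rw [← h] at this ⊢
      exact this.trans hf0
    · exact (hx n).trans (hf1 _ h (h1 n)).le
  have hbdd : BddBelow (Set.range x) := ⟨0, by rintro _ ⟨n, rfl⟩; exact h0 n⟩
  have hL := tendsto_atTop_ciInf hanti hbdd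
  set L := ⨅ n, x n with hLdef
  have hL0 : 0 ≤ L := ge_of_tendsto' hL h0
  have hL1 : L ≤ 1 := le_of_tendsto' hL h1
  have hfix : L ≤ f L := by
    have e1 : Tendsto (fun n => x (n + 1)) atTop (𝓝 L) := (tendsto_add_atTop_iff_nat 1).2 hL
    have e2 : Tendsto (fun n => f (x n)) atTop (𝓝 (f L)) := (hf.tendsto L).comp hL
    exact le_of_tendsto_of_tendsto' e1 e2 hx
  rcases hL0.eq_or_lt with h | h
  · rw [h]
    exact hL
  · exact absurd (hf1 L h hL1) (not_lt.2 hfix)

theorem pow_bound (d : ℕ) (hd : 2 ≤ d) {t : ℝ} (h0 : 0 ≤ t) (h1 : t ≤ 1) :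
    1 - d * t + t ^ 2 ≤ (1 - t) ^ d := by
  induction d, hd using Nat.le_induction with
  | base => norm_num; nlinarith
  | succ d hd ih =>
    rw [pow_succ]
    have h2 : 0 ≤ 1 - t := by linarith
    have h3 := mul_le_mul_of_nonneg_right ih h2
    refine le_trans ?_ h3
    have hd' : (2 : ℝ) ≤ d := by exact_mod_cast hd
    push_cast
    have : 0 ≤ t ^ 2 * ((d : ℝ) - t) := mul_nonneg (sq_nonneg t) (by linarith)
    nlinarith

theorem dary_zero (d : ℕ) : dary d 0 = GTree.leaf := rfl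

theorem dary_succ (d n : ℕ) : dary d (n + 1) = GTree.node d fun _ => dary d n := rfl

/-- The recursion inequality gives nonreconstruction on the `d`-ary tree. -/
theorem nonreconstruction_dary (hq : 2 ≤ q) {lam c : ℝ} (hc : 0 < c) (hc1 : c ≤ 1)
    (h1 : -1 / ((q : ℝ) - 1) ≤ lam) (h2 : lam ≤ 1) (hR : RecIneq q lam c)
    {d : ℕ} (hd : 2 ≤ d) (hlam : d * lam ^ 2 ≤ 1) : Nonreconstruction (aDary q lam d) := by
  have hd0 : (2 : ℝ) ≤ d := by exact_mod_cast hd
  set M : ℕ → ℝ := fun n => Mtree q lam (dary d n) with hM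
  have hM0 : ∀ n, 0 ≤ M n := fun n => Mtree_nonneg hq h1 h2 _
  have hM1 : ∀ n, M n ≤ 1 := fun n => Mtree_le_one hq h1 h2 _
  have hrec : ∀ n, c * M (n + 1) ≤ 1 - (1 - c * M n / d) ^ d := by
    intro n
    have h := hR d (fun _ => dary d n)
    rw [Finset.prod_const, Finset.card_univ, Fintype.card_fin] at h
    refine le_trans h ?_
    have hcm : c * M n ≤ 1 := by nlinarith [hM0 n, hM1 n]
    have hcm0 : 0 ≤ c * M n := mul_nonneg hc.le (hM0 n)
    have h3 : c * (lam ^ 2 * M n) ≤ c * M n / d := by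
      rw [le_div_iff₀ (by linarith)]
      nlinarith
    have h4 : 0 ≤ 1 - c * M n / d := by
      rw [sub_nonneg, div_le_one (by linarith)]
      linarith
    have h5 : (1 - c * M n / d) ^ d ≤ (1 - c * (lam ^ 2 * M n)) ^ d :=
      pow_le_pow_left₀ h4 (by linarith) d
    simp only [hM] at h5 ⊢
    linarith
  have hlim : Tendsto (fun n => c * M n) atTop (𝓝 0) := by
    refine tendsto_zero_of_le (f := fun t => 1 - (1 - t / d) ^ d) (by fun_prop)
      (fun n => mul_nonneg hc.le (hM0 n)) (fun n => by nlinarith [hM0 n, hM1 n]) hrec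
      (by simp) ?_
    intro t ht0 ht1
    have ht2 : t / d ≤ 1 := by
      rw [div_le_one (by linarith)]
      linarith
    have := pow_bound d hd (t := t / d) (by positivity) ht2
    have e : (d : ℝ) * (t / d) = t := by field_simp
    rw [e] at this
    have hpos : 0 < (t / d) ^ 2 := by positivity
    change 1 - (1 - t / d) ^ d < t
    linarith
  have hlimM : Tendsto M atTop (𝓝 0) := by
    have := hlim.const_mul (1 / c)
    rw [mul_zero] at this
    refine this.congr fun n => ?_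
    field_simp
  unfold Nonreconstruction
  rw [Metric.tendsto_atTop]
  intro ε hε
  have hq0 : (2 : ℝ) ≤ q := by exact_mod_cast hq
  have h3 : Tendsto (fun n => ε / 4 + ((q : ℝ) - 1) / (4 * ε) * M n) atTop (𝓝 (ε / 4)) := by
    have := (hlimM.const_mul (((q : ℝ) - 1) / (4 * ε))).const_add (ε / 4)
    rwa [mul_zero, add_zero] at this
  have h4 := h3.eventually_lt_const (show ε / 4 < ε by linarith)
  obtain ⟨N, hN⟩ := eventually_atTop.1 h4
  refine ⟨N, fun n hn => ?_⟩
  have h5 := adv_nonneg hq h1 h2 (dary d n)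
  have h6 := adv_le hq h1 h2 (dary d n) hε
  have h7 := hN n hn
  unfold aDary
  rw [Real.dist_eq, sub_zero, abs_of_nonneg h5]
  simp only [hM] at h7
  linarith

end Vale.Agent.P154.Up
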