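import Vale.Agent.P154.KSTree

/-!
# Kesten–Stigum lower bound: moments of the census on a fixed tree
-/

namespace Vale.Agent.P154

open Finset

/-- number of vertices at distance `n` from the root -/
noncomputable def numLeaves : {n : ℕ} → GTree n → ℝ
  | _, .leaf => 1
  | _, .node k c => ∑ v : Fin k, numLeaves (c v)

/-- weighted census of the leaf spins -/
noncomputable def census {q : ℕ} (f : Fin q → ℝ) : {n : ℕ} → (T : GTree n) → Obs q T → ℝ
  | _, .leaf, (x : Fin q) => f x
  | _, .node k c, x => ∑ v : Fin k, census f (c v) (x v)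

theorem numLeaves_nonneg : {n : ℕ} → (T : GTree n) → 0 ≤ numLeaves T
  | _, .leaf => zero_le_one
  | _, .node _ c => Finset.sum_nonneg (fun v _ => numLeaves_nonneg (c v))

theorem lik_nonneg {q : ℕ} (hq : 2 ≤ q) {lam : ℝ} (h1 : -1 / ((q : ℝ) - 1) ≤ lam)
    (h2 : lam ≤ 1) : {n : ℕ} → (T : GTree n) → (x : Obs q T) → (i : Fin q) →
    0 ≤ lik q lam T x i
  | _, .leaf, x, i => by
      unfold lik
      split_ifs
      · exact zero_le_one
      · exact le_refl 0
  | _, .node k c, x, i => by
      show 0 ≤ ∏ v : Fin k, ∑ j : Fin q, potts q lam i j * lik q lam (c v) (x v) j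
      apply Finset.prod_nonneg
      intro v _
      apply Finset.sum_nonneg
      intro j _
      exact mul_nonneg (potts_nonneg hq h1 h2 i j) (lik_nonneg hq h1 h2 (c v) (x v) j)

theorem sum_lik {q : ℕ} (hq : 2 ≤ q) (lam : ℝ) : {n : ℕ} → (T : GTree n) → (i : Fin q) →
    ∑ x, lik q lam T x i = 1
  | _, .leaf, i => by
      rw [sum_obs_leaf]
      simp only [lik_leaf]
      simp
  | _, .node k c, i => by
      rw [sum_obs_node]
      simp only [lik_node]
      rw [sum_pi_prod (fun v y => ∑ j : Fin q, potts q lam i j * lik q lam (c v) y j)]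
      apply Finset.prod_eq_one
      intro v _
      rw [Finset.sum_comm]
      simp_rw [← Finset.mul_sum]
      simp_rw [sum_lik hq lam (c v), mul_one]
      exact potts_sum hq lam i

/-- sums over one child against the noised likelihood -/
theorem sum_child {q : ℕ} (lam : ℝ) {n : ℕ} (T : GTree n) (i : Fin q) (F : Obs q T → ℝ) :
    ∑ y, (∑ j : Fin q, potts q lam i j * lik q lam T y j) * F y
      = ∑ j, potts q lam i j * ∑ y, lik q lam T y j * F y := by
  simp_rw [Finset.sum_mul, Finset.mul_sum]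
  rw [Finset.sum_comm]
  simp_rw [mul_assoc]

theorem sum_child_one {q : ℕ} (hq : 2 ≤ q) (lam : ℝ) {n : ℕ} (T : GTree n) (i : Fin q) :
    ∑ y, (∑ j : Fin q, potts q lam i j * lik q lam T y j) = 1 := by
  have := sum_child lam T i (fun _ => 1)
  simp only [mul_one] at this
  rw [this]
  simp_rw [sum_lik hq lam T, mul_one]
  exact potts_sum hq lam i

theorem first_moment {q : ℕ} (hq : 2 ≤ q) (lam : ℝ) (f : Fin q → ℝ) (hf : ∑ i, f i = 0) :
    {n : ℕ} → (T : GTree n) → (i : Fin q) →
    ∑ x, lik q lam T x i * census f T x = numLeaves T * lam ^ n * f i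
  | _, .leaf, i => by
      show ∑ x : Fin q, (if x = i then (1 : ℝ) else 0) * f x = 1 * lam ^ 0 * f i
      simp
  | _, .node (n := n) k c, i => by
      rw [sum_obs_node]
      show ∑ x : ((v : Fin k) → Obs q (c v)),
        (∏ v : Fin k, ∑ j : Fin q, potts q lam i j * lik q lam (c v) (x v) j)
          * (∑ v : Fin k, census f (c v) (x v))
        = (∑ v : Fin k, numLeaves (c v)) * lam ^ (n + 1) * f i
      rw [sum_pi_first (fun v y => ∑ j : Fin q, potts q lam i j * lik q lam (c v) y j)
        (fun v y => census f (c v) y) (fun v => sum_child_one hq lam (c v) i)]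
      rw [Finset.sum_mul, Finset.sum_mul]
      refine Finset.sum_congr rfl (fun v _ => ?_)
      rw [sum_child]
      simp_rw [first_moment hq lam f hf (c v)]
      have : ∀ j, potts q lam i j * (numLeaves (c v) * lam ^ n * f j)
          = (numLeaves (c v) * lam ^ n) * (potts q lam i j * f j) := fun j => by ring
      simp_rw [this]
      rw [← Finset.mul_sum, potts_eigen lam f hf i]
      ring

/-- conditional second moment -/
noncomputable def secondMoment {q : ℕ} (lam : ℝ) (f : Fin q → ℝ) {n : ℕ} (T : GTree n)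
    (i : Fin q) : ℝ :=
  ∑ x, lik q lam T x i * census f T x ^ 2

/-- second moment of the census under the uniform root spin -/
noncomputable def avgSecond {q : ℕ} (lam : ℝ) (f : Fin q → ℝ) {n : ℕ} (T : GTree n) : ℝ :=
  (1 / q) * ∑ i, secondMoment lam f T i

theorem secondMoment_node {q : ℕ} (hq : 2 ≤ q) (lam : ℝ) (f : Fin q → ℝ) (hf : ∑ i, f i = 0)
    (n k : ℕ) (c : Fin k → GTree n) (i : Fin q) :
    secondMoment lam f (.node k c) i =
      (∑ v, ∑ j, potts q lam i j * secondMoment lam f (c v) j)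
        + (lam ^ (n + 1)) ^ 2 * f i ^ 2 * ((∑ v, numLeaves (c v)) ^ 2
          - ∑ v, numLeaves (c v) ^ 2) := by
  unfold secondMoment
  rw [sum_obs_node]
  show ∑ x : ((v : Fin k) → Obs q (c v)),
        (∏ v : Fin k, ∑ j : Fin q, potts q lam i j * lik q lam (c v) (x v) j)
          * (∑ v : Fin k, census f (c v) (x v)) ^ 2 = _
  rw [sum_pi_second (fun v y => ∑ j : Fin q, potts q lam i j * lik q lam (c v) y j)
        (fun v y => census f (c v) y) (fun v => sum_child_one hq lam (c v) i)]
  have h1 : ∀ v, ∑ y, (∑ j : Fin q, potts q lam i j * lik q lam (c v) y j) * census f (c v) y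
      = numLeaves (c v) * (lam ^ (n + 1) * f i) := by
    intro v
    rw [sum_child]
    simp_rw [first_moment hq lam f hf (c v)]
    have : ∀ j, potts q lam i j * (numLeaves (c v) * lam ^ n * f j)
        = (numLeaves (c v) * lam ^ n) * (potts q lam i j * f j) := fun j => by ring
    simp_rw [this]
    rw [← Finset.mul_sum, potts_eigen lam f hf i]
    ring
  simp_rw [h1]
  congr 1
  · refine Finset.sum_congr rfl (fun v _ => ?_)
    rw [sum_child]
  · rw [← Finset.sum_mul]
    simp_rw [mul_pow]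
    rw [← Finset.sum_mul]
    ring

theorem avgSecond_node {q : ℕ} (hq : 2 ≤ q) (lam : ℝ) (f : Fin q → ℝ) (hf : ∑ i, f i = 0)
    (n k : ℕ) (c : Fin k → GTree n) :
    avgSecond lam f (.node k c) =
      (∑ v, avgSecond lam f (c v))
        + (lam ^ (n + 1)) ^ 2 * ((1 / q) * ∑ i, f i ^ 2) * ((∑ v, numLeaves (c v)) ^ 2
          - ∑ v, numLeaves (c v) ^ 2) := by
  unfold avgSecond
  simp_rw [secondMoment_node hq lam f hf n k c]
  rw [Finset.sum_add_distrib, mul_add]
  congr 1
  · rw [Finset.sum_comm, Finset.mul_sum]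
    refine Finset.sum_congr rfl (fun v _ => ?_)
    congr 1
    rw [Finset.sum_comm]
    refine Finset.sum_congr rfl (fun j _ => ?_)
    rw [← Finset.sum_mul, potts_sum' hq lam j, one_mul]
  · rw [← Finset.sum_mul, ← Finset.mul_sum]
    ring

theorem avgSecond_leaf {q : ℕ} (lam : ℝ) (f : Fin q → ℝ) :
    avgSecond lam f .leaf = (1 / q) * ∑ i, f i ^ 2 := by
  unfold avgSecond
  congr 1
  refine Finset.sum_congr rfl (fun i _ => ?_)
  unfold secondMoment
  show ∑ x : Fin q, (if x = i then (1 : ℝ) else 0) * f x ^ 2 = f i ^ 2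
  simp

theorem avgSecond_nonneg {q : ℕ} (hq : 2 ≤ q) {lam : ℝ} (h1 : -1 / ((q : ℝ) - 1) ≤ lam)
    (h2 : lam ≤ 1) (f : Fin q → ℝ) {n : ℕ} (T : GTree n) : 0 ≤ avgSecond lam f T := by
  unfold avgSecond secondMoment
  refine mul_nonneg (by positivity) (Finset.sum_nonneg (fun i _ => Finset.sum_nonneg (fun x _ => ?_)))
  exact mul_nonneg (lik_nonneg hq h1 h2 T x i) (sq_nonneg _)

/-! ### the per-tree inequality -/

/-- total variation distance of the posterior from uniform -/
noncomputable def tv (q : ℕ) (lam : ℝ) {n : ℕ} (T : GTree n) (x : Obs q T) : ℝ :=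
  (1 / 2) * ∑ i, |posterior q lam T x i - 1 / q|

theorem obsProb_nonneg {q : ℕ} (hq : 2 ≤ q) {lam : ℝ} (h1 : -1 / ((q : ℝ) - 1) ≤ lam)
    (h2 : lam ≤ 1) {n : ℕ} (T : GTree n) (x : Obs q T) : 0 ≤ obsProb q lam T x := by
  unfold obsProb
  exact mul_nonneg (by positivity) (Finset.sum_nonneg (fun i _ => lik_nonneg hq h1 h2 T x i))

theorem sum_obsProb {q : ℕ} (hq : 2 ≤ q) (lam : ℝ) {n : ℕ} (T : GTree n) :
    ∑ x, obsProb q lam T x = 1 := by
  have hq' : (2 : ℝ) ≤ q := by exact_mod_cast hq
  unfold obsProb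
  rw [← Finset.mul_sum, Finset.sum_comm]
  simp_rw [sum_lik hq lam T]
  simp
  field_simp

theorem tv_nonneg (q : ℕ) (lam : ℝ) {n : ℕ} (T : GTree n) (x : Obs q T) :
    0 ≤ tv q lam T x := by
  unfold tv
  positivity

theorem tv_le_one {q : ℕ} (hq : 2 ≤ q) {lam : ℝ} (h1 : -1 / ((q : ℝ) - 1) ≤ lam)
    (h2 : lam ≤ 1) {n : ℕ} (T : GTree n) (x : Obs q T) : tv q lam T x ≤ 1 := by
  have hq' : (2 : ℝ) ≤ q := by exact_mod_cast hq
  have hP := obsProb_nonneg hq h1 h2 T x
  have hpost : ∀ i, 0 ≤ posterior q lam T x i := by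
    intro i
    unfold posterior
    exact div_nonneg (mul_nonneg (by positivity) (lik_nonneg hq h1 h2 T x i)) hP
  have hsum : ∑ i, posterior q lam T x i ≤ 1 := by
    unfold posterior
    rw [← Finset.sum_div, ← Finset.mul_sum]
    exact div_self_le_one _
  have h3 : ∑ i, |posterior q lam T x i - 1 / q| ≤ ∑ i : Fin q, (posterior q lam T x i + 1 / q) := by
    refine Finset.sum_le_sum (fun i _ => ?_)
    rw [abs_le]
    have h4 : (0 : ℝ) ≤ 1 / q := by positivity
    have h5 := hpost i
    constructor <;> linarith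
  rw [Finset.sum_add_distrib] at h3
  have h6 : ∑ _i : Fin q, (1 / q : ℝ) = 1 := by
    simp
    field_simp
  unfold tv
  linarith

theorem adv_eq (q : ℕ) (lam : ℝ) {n : ℕ} (T : GTree n) :
    adv q lam T = ∑ x, obsProb q lam T x * tv q lam T x := rfl

theorem adv_nonneg {q : ℕ} (hq : 2 ≤ q) {lam : ℝ} (h1 : -1 / ((q : ℝ) - 1) ≤ lam)
    (h2 : lam ≤ 1) {n : ℕ} (T : GTree n) : 0 ≤ adv q lam T := by
  rw [adv_eq]
  exact Finset.sum_nonneg (fun x _ => mul_nonneg (obsProb_nonneg hq h1 h2 T x) (tv_nonneg q lam T x))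

theorem adv_le_one {q : ℕ} (hq : 2 ≤ q) {lam : ℝ} (h1 : -1 / ((q : ℝ) - 1) ≤ lam)
    (h2 : lam ≤ 1) {n : ℕ} (T : GTree n) : adv q lam T ≤ 1 := by
  rw [adv_eq, ← sum_obsProb hq lam T]
  refine Finset.sum_le_sum (fun x _ => ?_)
  calc obsProb q lam T x * tv q lam T x ≤ obsProb q lam T x * 1 :=
        mul_le_mul_of_nonneg_left (tv_le_one hq h1 h2 T x) (obsProb_nonneg hq h1 h2 T x)
    _ = _ := mul_one _

/-- `lik = q * P * posterior` in a division free form -/
theorem lik_eq {q : ℕ} (hq : 2 ≤ q) {lam : ℝ} (h1 : -1 / ((q : ℝ) - 1) ≤ lam)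
    (h2 : lam ≤ 1) {n : ℕ} (T : GTree n) (x : Obs q T) (i : Fin q) :
    (1 / q) * lik q lam T x i = obsProb q lam T x * posterior q lam T x i := by
  have hq' : (2 : ℝ) ≤ q := by exact_mod_cast hq
  unfold posterior
  by_cases h0 : obsProb q lam T x = 0
  · have h3 : ∑ i, lik q lam T x i = 0 := by
      unfold obsProb at h0
      rcases mul_eq_zero.mp h0 with h | h
      · exfalso
        have : (0 : ℝ) < 1 / q := by positivity
        linarith
      · exact h
    have h4 := (Finset.sum_eq_zero_iff_of_nonneg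
      (fun i _ => lik_nonneg hq h1 h2 T x i)).mp h3 i (Finset.mem_univ i)
    rw [h4, h0]
    simp
  · field_simp

theorem corr_le {q : ℕ} (hq : 2 ≤ q) {lam : ℝ} (h1 : -1 / ((q : ℝ) - 1) ≤ lam)
    (h2 : lam ≤ 1) (f : Fin q → ℝ) (hf : ∑ i, f i = 0) (hf1 : ∀ i, |f i| ≤ 1)
    {n : ℕ} (T : GTree n) (x : Obs q T) :
    |(1 / q) * ∑ i, f i * lik q lam T x i| ≤ 2 * (obsProb q lam T x * tv q lam T x) := by
  have hP := obsProb_nonneg hq h1 h2 T x
  have h3 : (1 / q) * ∑ i, f i * lik q lam T x i
      = obsProb q lam T x * ∑ i, f i * (posterior q lam T x i - 1 / q) := by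
    have h4 : ∑ i, f i * (posterior q lam T x i - 1 / q) = ∑ i, f i * posterior q lam T x i := by
      simp_rw [mul_sub]
      rw [Finset.sum_sub_distrib, ← Finset.sum_mul, hf]
      simp
    rw [h4, Finset.mul_sum, Finset.mul_sum]
    refine Finset.sum_congr rfl (fun i _ => ?_)
    have := lik_eq hq h1 h2 T x i
    calc (1 / q) * (f i * lik q lam T x i) = f i * ((1 / q) * lik q lam T x i) := by ring
      _ = _ := by rw [this]; ring
  rw [h3, abs_mul, abs_of_nonneg hP]
  have h5 : |∑ i, f i * (posterior q lam T x i - 1 / q)| ≤ 2 * tv q lam T x := by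
    unfold tv
    calc |∑ i, f i * (posterior q lam T x i - 1 / q)|
        ≤ ∑ i, |f i * (posterior q lam T x i - 1 / q)| := Finset.abs_sum_le_sum_abs _ _
      _ ≤ ∑ i, |posterior q lam T x i - 1 / q| := by
          refine Finset.sum_le_sum (fun i _ => ?_)
          rw [abs_mul]
          calc |f i| * |posterior q lam T x i - 1 / q|
              ≤ 1 * |posterior q lam T x i - 1 / q| :=
                mul_le_mul_of_nonneg_right (hf1 i) (abs_nonneg _)
            _ = _ := one_mul _
      _ = 2 * ((1 / 2) * ∑ i, |posterior q lam T x i - 1 / q|) := by ring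
  calc obsProb q lam T x * |∑ i, f i * (posterior q lam T x i - 1 / q)|
      ≤ obsProb q lam T x * (2 * tv q lam T x) := mul_le_mul_of_nonneg_left h5 hP
    _ = _ := by ring

/-- The per-tree inequality. -/
theorem tree_ineq {q : ℕ} (hq : 2 ≤ q) {lam : ℝ} (h1 : -1 / ((q : ℝ) - 1) ≤ lam)
    (h2 : lam ≤ 1) (f : Fin q → ℝ) (hf : ∑ i, f i = 0) (hf1 : ∀ i, |f i| ≤ 1)
    {n : ℕ} (T : GTree n) (s : ℝ) (hs : 0 < s) :
    |lam| ^ n * ((1 / q) * ∑ i, f i ^ 2) * numLeaves T
      ≤ avgSecond lam f T / (2 * s) + 2 * s * adv q lam T := by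
  have hZ := numLeaves_nonneg T
  have hphi : (0 : ℝ) ≤ (1 / q) * ∑ i, f i ^ 2 := by positivity
  have e1 : ∑ x, census f T x * ((1 / q) * ∑ i, f i * lik q lam T x i)
      = lam ^ n * ((1 / q) * ∑ i, f i ^ 2) * numLeaves T := by
    have : ∀ x, census f T x * ((1 / q) * ∑ i, f i * lik q lam T x i)
        = ∑ i, (1 / q) * f i * (lik q lam T x i * census f T x) := by
      intro x
      rw [Finset.mul_sum, Finset.mul_sum]
      exact Finset.sum_congr rfl (fun i _ => by ring)
    simp_rw [this]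
    rw [Finset.sum_comm]
    simp_rw [← Finset.mul_sum]
    simp_rw [first_moment hq lam f hf T]
    rw [Finset.mul_sum, Finset.mul_sum, Finset.sum_mul]
    exact Finset.sum_congr rfl (fun i _ => by ring)
  have e2 : |lam| ^ n * ((1 / q) * ∑ i, f i ^ 2) * numLeaves T
      = |∑ x, census f T x * ((1 / q) * ∑ i, f i * lik q lam T x i)| := by
    rw [e1, abs_mul, abs_mul, abs_pow, abs_of_nonneg hphi, abs_of_nonneg hZ]
  have e3 : avgSecond lam f T = ∑ x, obsProb q lam T x * census f T x ^ 2 := by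
    unfold avgSecond secondMoment obsProb
    rw [Finset.sum_comm, Finset.mul_sum]
    refine Finset.sum_congr rfl (fun x _ => ?_)
    rw [← Finset.sum_mul]
    ring
  rw [e2, e3, adv_eq, Finset.sum_div, Finset.mul_sum, ← Finset.sum_add_distrib]
  refine (Finset.abs_sum_le_sum_abs _ _).trans (Finset.sum_le_sum (fun x _ => ?_))
  rw [abs_mul]
  have hP := obsProb_nonneg hq h1 h2 T x
  have ht0 := tv_nonneg q lam T x
  have ht1 := tv_le_one hq h1 h2 T x
  have h5 := corr_le hq h1 h2 f hf hf1 T x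
  have h6 : |census f T x| * |(1 / q) * ∑ i, f i * lik q lam T x i|
      ≤ |census f T x| * (2 * (obsProb q lam T x * tv q lam T x)) :=
    mul_le_mul_of_nonneg_left h5 (abs_nonneg _)
  refine h6.trans ?_
  have h7 : 2 * |census f T x| * tv q lam T x
      ≤ census f T x ^ 2 / (2 * s) + 2 * s * tv q lam T x := by
    have h8 : 2 * |census f T x| * tv q lam T x
        ≤ census f T x ^ 2 / (2 * s) + 2 * s * tv q lam T x ^ 2 := by
      rw [← sub_nonneg]
      have : census f T x ^ 2 / (2 * s) + 2 * s * tv q lam T x ^ 2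
          - 2 * |census f T x| * tv q lam T x
          = (|census f T x| - 2 * s * tv q lam T x) ^ 2 / (2 * s) := by
        rw [← sq_abs (census f T x)]
        field_simp
        ring
      rw [this]
      positivity
    have h9 : tv q lam T x ^ 2 ≤ tv q lam T x := by nlinarith
    nlinarith
  calc |census f T x| * (2 * (obsProb q lam T x * tv q lam T x))
      = obsProb q lam T x * (2 * |census f T x| * tv q lam T x) := by ring
    _ ≤ obsProb q lam T x * (census f T x ^ 2 / (2 * s) + 2 * s * tv q lam T x) :=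
        mul_le_mul_of_nonneg_left h7 hP
    _ = _ := by ring

end Vale.Agent.P154
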