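import Vale.Agent.P154.Model

/-!
# Kesten–Stigum lower bound: computations on a fixed tree
-/

namespace Vale.Agent.P154

open Finset

/-! ### independent products -/

section Prod

variable {k : ℕ} {X : Fin k → Type} [∀ v, Fintype (X v)]

/-- product of the marginal sums -/
theorem sum_pi_prod (L : (v : Fin k) → X v → ℝ) :
    ∑ x : (v : Fin k) → X v, ∏ v, L v (x v) = ∏ v, ∑ y, L v y := by
  classical
  rw [Finset.prod_univ_sum]
  rw [Fintype.piFinset_univ]

theorem sum_pi_prod_one (L g : (v : Fin k) → X v → ℝ) (hL : ∀ v, ∑ y, L v y = 1) (v : Fin k) :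
    ∑ x : (v : Fin k) → X v, (∏ w, L w (x w)) * g v (x v) = ∑ y, L v y * g v y := by
  classical
  have h1 : ∀ x : (v : Fin k) → X v, (∏ w, L w (x w)) * g v (x v)
      = ∏ w, (L w (x w) * (if w = v then g w (x w) else 1)) := by
    intro x
    rw [Finset.prod_mul_distrib]
    congr 1
    rw [Finset.prod_ite_eq']
    simp
  rw [Finset.sum_congr rfl (fun x _ => h1 x)]
  rw [sum_pi_prod (fun w y => L w y * (if w = v then g w y else 1))]
  rw [← Finset.mul_prod_erase Finset.univ _ (Finset.mem_univ v)]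
  have h2 : ∏ w ∈ Finset.univ.erase v, ∑ y, L w y * (if w = v then g w y else 1) = 1 := by
    apply Finset.prod_eq_one
    intro w hw
    have hwv : w ≠ v := (Finset.mem_erase.mp hw).1
    simp [hwv, hL w]
  rw [h2]
  simp

theorem sum_pi_prod_two (L g : (v : Fin k) → X v → ℝ) (hL : ∀ v, ∑ y, L v y = 1)
    (v w : Fin k) (hvw : v ≠ w) :
    ∑ x : (v : Fin k) → X v, (∏ u, L u (x u)) * (g v (x v) * g w (x w))
      = (∑ y, L v y * g v y) * (∑ y, L w y * g w y) := by
  classical
  have h1 : ∀ x : (v : Fin k) → X v, (∏ u, L u (x u)) * (g v (x v) * g w (x w))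
      = ∏ u, (L u (x u) * ((if u = v then g u (x u) else 1) * (if u = w then g u (x u) else 1))) := by
    intro x
    rw [Finset.prod_mul_distrib, Finset.prod_mul_distrib]
    congr 1
    rw [Finset.prod_ite_eq', Finset.prod_ite_eq']
    simp
  rw [Finset.sum_congr rfl (fun x _ => h1 x)]
  rw [sum_pi_prod (fun u y => L u y * ((if u = v then g u y else 1) * (if u = w then g u y else 1)))]
  rw [← Finset.mul_prod_erase Finset.univ _ (Finset.mem_univ v)]
  rw [← Finset.mul_prod_erase (Finset.univ.erase v) _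
    (Finset.mem_erase.mpr ⟨hvw.symm, Finset.mem_univ w⟩)]
  have h2 : ∏ u ∈ (Finset.univ.erase v).erase w, ∑ y, L u y *
      ((if u = v then g u y else 1) * (if u = w then g u y else 1)) = 1 := by
    apply Finset.prod_eq_one
    intro u hu
    have huw : u ≠ w := (Finset.mem_erase.mp hu).1
    have huv : u ≠ v := (Finset.mem_erase.mp (Finset.mem_erase.mp hu).2).1
    simp [huw, huv, hL u]
  rw [h2]
  simp [hvw, hvw.symm]

/-- first moment of a sum of functions of independent variables -/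
theorem sum_pi_first (L g : (v : Fin k) → X v → ℝ) (hL : ∀ v, ∑ y, L v y = 1) :
    ∑ x : (v : Fin k) → X v, (∏ w, L w (x w)) * (∑ v, g v (x v)) = ∑ v, ∑ y, L v y * g v y := by
  simp_rw [Finset.mul_sum]
  rw [Finset.sum_comm]
  refine Finset.sum_congr rfl (fun v _ => ?_)
  exact sum_pi_prod_one L g hL v

/-- second moment of a sum of functions of independent variables -/
theorem sum_pi_second (L g : (v : Fin k) → X v → ℝ) (hL : ∀ v, ∑ y, L v y = 1) :
    ∑ x : (v : Fin k) → X v, (∏ w, L w (x w)) * (∑ v, g v (x v)) ^ 2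
      = (∑ v, ∑ y, L v y * (g v y) ^ 2)
        + ((∑ v, ∑ y, L v y * g v y) ^ 2 - ∑ v, (∑ y, L v y * g v y) ^ 2) := by
  classical
  have h1 : ∀ x : (v : Fin k) → X v, (∏ w, L w (x w)) * (∑ v, g v (x v)) ^ 2
      = ∑ v, ∑ w, (∏ u, L u (x u)) * (g v (x v) * g w (x w)) := by
    intro x
    rw [sq, Finset.sum_mul_sum, Finset.mul_sum]
    simp_rw [Finset.mul_sum]
  rw [Finset.sum_congr rfl (fun x _ => h1 x)]
  rw [Finset.sum_comm]
  have h2 : ∀ v, ∑ x : (v : Fin k) → X v, ∑ w, (∏ u, L u (x u)) * (g v (x v) * g w (x w))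
      = (∑ y, L v y * (g v y) ^ 2) + ((∑ y, L v y * g v y) * (∑ w, ∑ y, L w y * g w y)
        - (∑ y, L v y * g v y) ^ 2) := by
    intro v
    rw [Finset.sum_comm]
    rw [← Finset.add_sum_erase Finset.univ _ (Finset.mem_univ v)]
    have h3 : ∑ x : (v : Fin k) → X v, (∏ u, L u (x u)) * (g v (x v) * g v (x v))
        = ∑ y, L v y * (g v y) ^ 2 := by
      have := sum_pi_prod_one L (fun u y => (g u y) ^ 2) hL v
      simp only [sq] at this ⊢
      exact this
    rw [h3]
    congr 1
    have h4 : ∀ w ∈ Finset.univ.erase v,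
        ∑ x : (v : Fin k) → X v, (∏ u, L u (x u)) * (g v (x v) * g w (x w))
        = (∑ y, L v y * g v y) * (∑ y, L w y * g w y) := by
      intro w hw
      exact sum_pi_prod_two L g hL v w (Finset.mem_erase.mp hw).1.symm
    rw [Finset.sum_congr rfl h4, ← Finset.mul_sum]
    rw [← Finset.add_sum_erase Finset.univ (fun w => ∑ y, L w y * g w y) (Finset.mem_univ v)]
    ring
  rw [Finset.sum_congr rfl (fun v _ => h2 v)]
  rw [Finset.sum_add_distrib, Finset.sum_sub_distrib, ← Finset.sum_mul]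
  ring

end Prod

/-! ### the Potts matrix -/

theorem potts_nonneg {q : ℕ} (hq : 2 ≤ q) {lam : ℝ} (h1 : -1 / ((q : ℝ) - 1) ≤ lam)
    (h2 : lam ≤ 1) (i j : Fin q) : 0 ≤ potts q lam i j := by
  have hq' : (2 : ℝ) ≤ q := by exact_mod_cast hq
  unfold potts
  split_ifs
  · rw [div_le_iff₀ (by linarith)] at h1
    rw [mul_one]
    have : lam + (1 - lam) / q = (1 + (q - 1) * lam) / q := by
      field_simp
      ring
    rw [this]
    apply div_nonneg
    · linarith
    · linarith
  · rw [mul_zero, zero_add]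
    exact div_nonneg (by linarith) (by linarith)

theorem potts_sum {q : ℕ} (hq : 2 ≤ q) (lam : ℝ) (i : Fin q) : ∑ j, potts q lam i j = 1 := by
  have hq' : (2 : ℝ) ≤ q := by exact_mod_cast hq
  unfold potts
  rw [Finset.sum_add_distrib, ← Finset.mul_sum]
  simp
  field_simp
  ring

theorem potts_comm {q : ℕ} (lam : ℝ) (i j : Fin q) : potts q lam i j = potts q lam j i := by
  unfold potts
  simp [eq_comm]

theorem potts_sum' {q : ℕ} (hq : 2 ≤ q) (lam : ℝ) (j : Fin q) : ∑ i, potts q lam i j = 1 := by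
  rw [← potts_sum hq lam j]
  exact Finset.sum_congr rfl (fun i _ => potts_comm lam i j)

theorem potts_eigen {q : ℕ} (lam : ℝ) (f : Fin q → ℝ) (hf : ∑ i, f i = 0) (i : Fin q) :
    ∑ j, potts q lam i j * f j = lam * f i := by
  unfold potts
  simp_rw [add_mul]
  rw [Finset.sum_add_distrib, ← Finset.mul_sum, hf]
  simp

end Vale.Agent.P154
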