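import Vale.Agent.P154.TreeCubic

/-!
# From kernel inequalities to the abstract cubic core

For every number of states: if a function `L` of the posterior satisfies two inequalities for the
symmetrised combination kernel, and behaves well under noise, then `0 ≤ E L` is an invariant of the
abstract core with cubic gain.
-/

namespace Vale.Agent.P154

open Finset Vale.Agent.P154.Up

variable {q : ℕ}

/-- normalised chi-square of a probability vector -/
noncomputable def rr (p : Fin q → ℝ) : ℝ := ((q : ℝ) * ∑ i, p i ^ 2 - 1) / ((q : ℝ) - 1)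

/-- relative weight of the combination of two posteriors -/
noncomputable def overlap (p r : Fin q → ℝ) : ℝ := (q : ℝ) * ∑ i, p i * r i

/-- combination of two posteriors -/
noncomputable def comb (p r : Fin q → ℝ) : Fin q → ℝ := fun i => p i * r i / ∑ j, p j * r j

/-- the combination kernel, averaged over relabellings of the second argument -/
noncomputable def KS (φ : (Fin q → ℝ) → ℝ) (p r : Fin q → ℝ) : ℝ :=
  1 / (Fintype.card (Equiv.Perm (Fin q)) : ℝ) *
    ∑ σ : Equiv.Perm (Fin q), overlap p (fun i => r (σ i)) * φ (comb p (fun i => r (σ i)))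

/-- mean of a function of the posterior -/
noncomputable def Efun {X : Type*} [Fintype X] (φ : (Fin q → ℝ) → ℝ) (u : X → Fin q → ℝ) : ℝ :=
  ∑ x, mass (u x) * φ (post (u x))

theorem Efun_equiv {X Y : Type*} [Fintype X] [Fintype Y] (φ : (Fin q → ℝ) → ℝ) (e : X ≃ Y)
    (u : Y → Fin q → ℝ) : Efun φ (fun x => u (e x)) = Efun φ u := by
  unfold Efun
  exact Equiv.sum_comp e (fun y => mass (u y) * φ (post (u y)))

theorem Mfun_eq_Efun {X : Type*} [Fintype X] (u : X → Fin q → ℝ) : Mfun u = Efun rr u := rfl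

theorem sum_pos' (hq : 0 < q) {w : Fin q → ℝ} (hw : ∀ i, 0 < w i) : 0 < ∑ i, w i :=
  Finset.sum_pos (fun i _ => hw i) ⟨⟨0, hq⟩, mem_univ _⟩

theorem mass_pos' (hq : 0 < q) {w : Fin q → ℝ} (hw : ∀ i, 0 < w i) : 0 < mass w := by
  have h1 := sum_pos' hq hw
  have h2 : (0 : ℝ) < q := by exact_mod_cast hq
  unfold mass
  positivity

theorem post_pos (hq : 0 < q) {w : Fin q → ℝ} (hw : ∀ i, 0 < w i) (i : Fin q) :
    0 < post w i := div_pos (hw i) (sum_pos' hq hw)

theorem sum_post {w : Fin q → ℝ} (hw : (∑ i, w i) ≠ 0) : ∑ i, post w i = 1 := by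
  unfold post
  rw [← Finset.sum_div, div_self hw]

theorem mass_mul (hq : 0 < q) {a b : Fin q → ℝ} (ha : (∑ i, a i) ≠ 0) (hb : (∑ i, b i) ≠ 0) :
    mass (fun i => a i * b i) = mass a * mass b * overlap (post a) (post b) := by
  have h2 : (q : ℝ) ≠ 0 := by exact_mod_cast hq.ne'
  have h3 : ∑ i, post a i * post b i = (∑ i, a i * b i) / ((∑ i, a i) * ∑ i, b i) := by
    rw [Finset.sum_div]
    refine Finset.sum_congr rfl fun i _ => ?_
    unfold post
    rw [div_mul_div_comm]
  unfold overlap mass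
  rw [h3]
  field_simp

theorem post_mul {a b : Fin q → ℝ} (ha : (∑ i, a i) ≠ 0) (hb : (∑ i, b i) ≠ 0) :
    post (fun i => a i * b i) = comb (post a) (post b) := by
  have h3 : ∑ i, post a i * post b i = (∑ i, a i * b i) / ((∑ i, a i) * ∑ i, b i) := by
    rw [Finset.sum_div]
    refine Finset.sum_congr rfl fun i _ => ?_
    unfold post
    rw [div_mul_div_comm]
  funext i
  unfold comb
  rw [h3]
  unfold post
  by_cases h : (∑ i, a i * b i) = 0
  · simp [h]
  · field_simp

theorem mass_perm (w : Fin q → ℝ) (σ : Equiv.Perm (Fin q)) :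
    mass (fun i => w (σ i)) = mass w := by
  unfold mass
  rw [Equiv.sum_comp σ]

theorem post_perm (w : Fin q → ℝ) (σ : Equiv.Perm (Fin q)) :
    post (fun i => w (σ i)) = fun i => post w (σ i) := by
  funext i
  unfold post
  rw [Equiv.sum_comp σ]

theorem sum_sym {Y : Type*} [Fintype Y] {v : Y → Fin q → ℝ} (hv : SymExp v)
    (Φ : (Fin q → ℝ) → ℝ) (σ : Equiv.Perm (Fin q)) :
    ∑ y, mass (v y) * Φ (post (v y)) = ∑ y, mass (v y) * Φ (fun i => post (v y) (σ i)) := by
  obtain ⟨e, he⟩ := hv σ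
  rw [← Equiv.sum_comp e (fun y => mass (v y) * Φ (post (v y)))]
  refine Finset.sum_congr rfl fun y _ => ?_
  have : v (e y) = fun i => v y (σ i) := funext (he y)
  rw [this, mass_perm, post_perm]

theorem sum_sym_avg {Y : Type*} [Fintype Y] {v : Y → Fin q → ℝ} (hv : SymExp v)
    (Φ : (Fin q → ℝ) → ℝ) :
    ∑ y, mass (v y) * Φ (post (v y)) =
      ∑ y, mass (v y) * (1 / (Fintype.card (Equiv.Perm (Fin q)) : ℝ) *
        ∑ σ : Equiv.Perm (Fin q), Φ (fun i => post (v y) (σ i))) := by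
  have hc : (Fintype.card (Equiv.Perm (Fin q)) : ℝ) ≠ 0 := by
    exact_mod_cast Fintype.card_ne_zero
  have h : ∑ σ : Equiv.Perm (Fin q), ∑ y, mass (v y) * Φ (fun i => post (v y) (σ i)) =
      (Fintype.card (Equiv.Perm (Fin q)) : ℝ) * ∑ y, mass (v y) * Φ (post (v y)) := by
    rw [Finset.sum_congr rfl fun σ _ => (sum_sym hv Φ σ).symm]
    simp [Finset.sum_const, Finset.card_univ]
  rw [Finset.sum_comm] at h
  simp_rw [← Finset.mul_sum] at h
  rw [eq_comm, ← mul_right_inj' hc, ← h, Finset.mul_sum]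
  refine Finset.sum_congr rfl fun y _ => ?_
  field_simp

theorem Efun_prod (hq : 0 < q) {X Y : Type*} [Fintype X] [Fintype Y] {u : X → Fin q → ℝ}
    {v : Y → Fin q → ℝ} (hu : GoodExp u) (hv : GoodExp v) (φ : (Fin q → ℝ) → ℝ) :
    Efun φ (prodExp u v) =
      ∑ x, ∑ y, mass (u x) * mass (v y) * KS φ (post (u x)) (post (v y)) := by
  unfold Efun
  rw [Fintype.sum_prod_type]
  refine Finset.sum_congr rfl fun x _ => ?_
  have h1 : ∀ y, mass (prodExp u v (x, y)) * φ (post (prodExp u v (x, y))) =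
      mass (v y) * (fun r => mass (u x) * (overlap (post (u x)) r * φ (comb (post (u x)) r)))
        (post (v y)) := by
    intro y
    have e : prodExp u v (x, y) = fun i => u x i * v y i := rfl
    rw [e, mass_mul hq (sum_pos' hq (hu.pos x)).ne' (sum_pos' hq (hv.pos y)).ne',
      post_mul (sum_pos' hq (hu.pos x)).ne' (sum_pos' hq (hv.pos y)).ne']
    ring
  rw [Finset.sum_congr rfl fun y _ => h1 y]
  refine (sum_sym_avg hv.sym
    (fun r => mass (u x) * (overlap (post (u x)) r * φ (comb (post (u x)) r)))).trans ?_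
  refine Finset.sum_congr rfl fun y _ => ?_
  unfold KS
  simp only [← Finset.mul_sum]
  ring

/-- product of two means as a double sum -/
theorem Efun_mul {X Y : Type*} [Fintype X] [Fintype Y] (u : X → Fin q → ℝ)
    (v : Y → Fin q → ℝ) (φ ψ : (Fin q → ℝ) → ℝ) :
    Efun φ u * Efun ψ v =
      ∑ x, ∑ y, mass (u x) * mass (v y) * (φ (post (u x)) * ψ (post (v y))) := by
  unfold Efun
  rw [Finset.sum_mul_sum]
  refine Finset.sum_congr rfl fun x _ => Finset.sum_congr rfl fun y _ => ?_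
  ring

theorem Efun_nonneg (hq : 0 < q) {X : Type*} [Fintype X] {u : X → Fin q → ℝ}
    (hu : ∀ x i, 0 < u x i) {φ : (Fin q → ℝ) → ℝ}
    (hφ : ∀ p : Fin q → ℝ, (∀ i, 0 < p i) → ∑ i, p i = 1 → 0 ≤ φ p) : 0 ≤ Efun φ u :=
  Finset.sum_nonneg fun x _ => mul_nonneg (mass_pos' hq (hu x)).le
    (hφ _ (post_pos hq (hu x)) (sum_post (sum_pos' hq (hu x)).ne'))

theorem Efun_one (hq : 0 < q) {X : Type*} [Fintype X] {u : X → Fin q → ℝ}
    (hu : ∀ i, ∑ x, u x i = 1) : Efun (fun _ => 1) u = 1 := by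
  unfold Efun
  simp only [mul_one]
  exact sum_mass_eq_one hq hu

/-- Jensen for the square -/
theorem Efun_sq_le (hq : 0 < q) {X : Type*} [Fintype X] {u : X → Fin q → ℝ}
    (hu : GoodExp u) (φ : (Fin q → ℝ) → ℝ) :
    Efun φ u ^ 2 ≤ Efun (fun p => φ p ^ 2) u := by
  have h1 := sum_mass_eq_one hq hu.sum
  set m := Efun φ u with hm
  have h2 : 0 ≤ ∑ x, mass (u x) * (φ (post (u x)) - m) ^ 2 :=
    Finset.sum_nonneg fun x _ => mul_nonneg (mass_pos' hq (hu.pos x)).le (sq_nonneg _)
  have h3 : ∑ x, mass (u x) * (φ (post (u x)) - m) ^ 2 =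
      Efun (fun p => φ p ^ 2) u - 2 * m * Efun φ u + m ^ 2 * ∑ x, mass (u x) := by
    unfold Efun
    rw [Finset.mul_sum, Finset.mul_sum, ← Finset.sum_sub_distrib, ← Finset.sum_add_distrib]
    exact Finset.sum_congr rfl fun x _ => by ring
  rw [h3, h1, ← hm] at h2
  nlinarith

/-- kernel inequalities for one parameter -/
structure KernelCore (q : ℕ) (lam c : ℝ) (L A B : (Fin q → ℝ) → ℝ) : Prop where
  unif : 0 ≤ L (fun _ => 1 / (q : ℝ))
  vertex : ∀ x : Fin q, 0 ≤ L (fun i => if x = i then 1 else 0)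
  noise : ∀ p : Fin q → ℝ, (∀ i, 0 ≤ p i) → ∑ i, p i = 1 →
    lam ^ 3 * L p ≤ L (fun i => lam * p i + (1 - lam) / q)
  A_nonneg : ∀ p : Fin q → ℝ, (∀ i, 0 < p i) → ∑ i, p i = 1 → 0 ≤ A p
  B_nonneg : ∀ p : Fin q → ℝ, (∀ i, 0 < p i) → ∑ i, p i = 1 → 0 ≤ B p
  ineqM : ∀ p r : Fin q → ℝ, (∀ i, 0 < p i) → (∀ i, 0 < r i) → ∑ i, p i = 1 → ∑ i, r i = 1 →
    KS rr p r ≤ rr p + rr r - c * (rr p ^ 2 * rr r + rr p * rr r ^ 2) - (A r * L p + A p * L r)
  ineqL : ∀ p r : Fin q → ℝ, (∀ i, 0 < p i) → (∀ i, 0 < r i) → ∑ i, p i = 1 → ∑ i, r i = 1 →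
    B r * L p + B p * L r ≤ KS L p r

theorem post_chan (hq : 0 < q) (lam : ℝ) {X : Type*} (u : X → Fin q → ℝ) (x : X)
    (hS : (∑ i, u x i) ≠ 0) :
    mass (chan lam u x) = mass (u x) ∧
      post (chan lam u x) = fun i => lam * post (u x) i + (1 - lam) / q := by
  have hq0 : (q : ℝ) ≠ 0 := by exact_mod_cast hq.ne'
  have e1 : ∑ i, chan lam u x i = ∑ i, u x i := by
    simp_rw [chan_eq, Finset.sum_add_distrib, ← Finset.mul_sum]
    simp only [Finset.sum_const, Finset.card_univ, Fintype.card_fin, nsmul_eq_mul]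
    unfold mass
    field_simp
    ring
  refine ⟨?_, ?_⟩
  · unfold mass
    rw [e1]
  · funext i
    unfold post
    rw [e1, chan_eq]
    unfold mass
    field_simp

theorem KernelCore.coreCubic (hq : 2 ≤ q) {lam c : ℝ} (h0 : 0 < lam) (hc : 0 ≤ c)
    {L A B : (Fin q → ℝ) → ℝ} (K : KernelCore q lam c L A B) :
    CoreCubic q lam c (fun X _ u => 0 ≤ Efun L u) := by
  have hq0 : 0 < q := by omega
  have hqr : (0 : ℝ) < q := by exact_mod_cast hq0
  have noise : ∀ (X : Type) [Fintype X] (u : X → Fin q → ℝ), WeakExp u → 0 ≤ Efun L u →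
      0 ≤ Efun L (chan lam u) := by
    intro X _ u hu hL
    have h1 : lam ^ 3 * Efun L u ≤ Efun L (chan lam u) := by
      unfold Efun
      rw [Finset.mul_sum]
      refine Finset.sum_le_sum fun x _ => ?_
      obtain ⟨e1, e2⟩ := post_chan hq0 lam u x (hu.tot x).ne'
      rw [e1, e2]
      have hm : 0 ≤ mass (u x) := by
        have := hu.tot x
        unfold mass
        positivity
      have h3 := K.noise (post (u x)) (fun i => div_nonneg (hu.nonneg x i) (hu.tot x).le)
        (sum_post (hu.tot x).ne')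
      have := mul_le_mul_of_nonneg_left h3 hm
      linarith
    have h2 : 0 ≤ lam ^ 3 * Efun L u := mul_nonneg (pow_nonneg h0.le 3) hL
    linarith
  refine
    { inv_equiv := ?_
      inv_unit := ?_
      inv_leaf := ?_
      inv_chan := ?_
      inv_prod := ?_
      M_prod := ?_ }
  · intro X Y _ _ e u h
    rw [Efun_equiv L e u]
    exact h
  · have h1 : post (fun _ : Fin q => (1 : ℝ)) = fun _ => 1 / (q : ℝ) := by
      funext i
      unfold post
      simp
    have h2 : mass (fun _ : Fin q => (1 : ℝ)) = 1 := by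
      unfold mass
      simp [hqr.ne']
    unfold Efun
    simp only [Finset.univ_unique, Finset.sum_singleton]
    rw [h1, h2, one_mul]
    exact K.unif
  · refine noise (Fin q) (leafExp q) (weakExp_leaf) ?_
    refine Finset.sum_nonneg fun x _ => mul_nonneg ?_ ?_
    · unfold mass leafExp
      simp
    · have : post (leafExp q x) = fun i => if x = i then 1 else 0 := by
        funext i
        unfold post leafExp
        simp
      rw [this]
      exact K.vertex x
  · intro X _ u hu h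
    exact noise X u (hu.weak hq0) h
  · intro X Y _ _ u v hu hv iu iv
    have h1 : Efun L u * Efun B v + Efun B u * Efun L v ≤ Efun L (prodExp u v) := by
      rw [Efun_prod hq0 hu hv, Efun_mul, Efun_mul, ← Finset.sum_add_distrib]
      refine Finset.sum_le_sum fun x _ => ?_
      rw [← Finset.sum_add_distrib]
      refine Finset.sum_le_sum fun y _ => ?_
      have hm : 0 ≤ mass (u x) * mass (v y) :=
        mul_nonneg (mass_pos' hq0 (hu.pos x)).le (mass_pos' hq0 (hv.pos y)).le
      have key := K.ineqL (post (u x)) (post (v y)) (post_pos hq0 (hu.pos x))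
        (post_pos hq0 (hv.pos y)) (sum_post (sum_pos' hq0 (hu.pos x)).ne')
        (sum_post (sum_pos' hq0 (hv.pos y)).ne')
      have := mul_le_mul_of_nonneg_left key hm
      linarith
    have h2 := mul_nonneg iu (Efun_nonneg hq0 hv.pos K.B_nonneg)
    have h3 := mul_nonneg (Efun_nonneg hq0 hu.pos K.B_nonneg) iv
    linarith
  · intro X Y _ _ u v hu hv iu iv
    have hMu : 0 ≤ Mfun u := (hu.weak hq0).Mfun_nonneg hq
    have hMv : 0 ≤ Mfun v := (hv.weak hq0).Mfun_nonneg hq
    have h1 : Mfun (prodExp u v) ≤ Efun rr u * Efun (fun _ => 1) v + Efun (fun _ => 1) u * Efun rr v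
        - c * (Efun (fun p => rr p ^ 2) u * Efun rr v + Efun rr u * Efun (fun p => rr p ^ 2) v)
        - (Efun L u * Efun A v + Efun A u * Efun L v) := by
      rw [Mfun_eq_Efun, Efun_prod hq0 hu hv]
      simp only [Efun_mul]
      simp only [← Finset.sum_add_distrib, ← Finset.sum_sub_distrib, Finset.mul_sum]
      refine Finset.sum_le_sum fun x _ => ?_
      refine Finset.sum_le_sum fun y _ => ?_
      have hm : 0 ≤ mass (u x) * mass (v y) :=
        mul_nonneg (mass_pos' hq0 (hu.pos x)).le (mass_pos' hq0 (hv.pos y)).le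
      have key := K.ineqM (post (u x)) (post (v y)) (post_pos hq0 (hu.pos x))
        (post_pos hq0 (hv.pos y)) (sum_post (sum_pos' hq0 (hu.pos x)).ne')
        (sum_post (sum_pos' hq0 (hv.pos y)).ne')
      have := mul_le_mul_of_nonneg_left key hm
      nlinarith
    rw [Efun_one hq0 hu.sum, Efun_one hq0 hv.sum, mul_one, one_mul, ← Mfun_eq_Efun,
      ← Mfun_eq_Efun] at h1
    have h2 := mul_nonneg iu (Efun_nonneg hq0 hv.pos K.A_nonneg)
    have h3 := mul_nonneg (Efun_nonneg hq0 hu.pos K.A_nonneg) iv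
    have h4 : Mfun u ^ 2 ≤ Efun (fun p => rr p ^ 2) u := Efun_sq_le hq0 hu rr
    have h5 : Mfun v ^ 2 ≤ Efun (fun p => rr p ^ 2) v := Efun_sq_le hq0 hv rr
    have h6 := mul_le_mul_of_nonneg_left (mul_le_mul_of_nonneg_right h4 hMv) hc
    have h7 := mul_le_mul_of_nonneg_left (mul_le_mul_of_nonneg_right h5 hMu) hc
    nlinarith

/-- The exact threshold on both tree models from kernel inequalities. -/
theorem threshold_of_kernel (hq : 2 ≤ q) {c : ℝ} (hc : 0 < c) (hc1 : c ≤ 1)
    {L A B : (Fin q → ℝ) → ℝ}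
    (K : ∀ lam ∈ Set.Ioo (0 : ℝ) 1, KernelCore q lam c L A B)
    (lam : ℝ) (h0 : 0 ≤ lam) (h2 : lam ≤ 1) :
    (∀ d : ℕ, 2 ≤ d →
      (1 < (d : ℝ) * lam ^ 2 → Reconstruction (aDary q lam d)) ∧
      ((d : ℝ) * lam ^ 2 ≤ 1 → Nonreconstruction (aDary q lam d)) ∧
      (Reconstruction (aDary q lam d) ↔ 1 < (d : ℝ) * lam ^ 2)) ∧
    (∀ d : ℝ, 0 < d →
      (1 < d * lam ^ 2 → Reconstruction (aPoisson q lam d)) ∧
      (d * lam ^ 2 ≤ 1 → Nonreconstruction (aPoisson q lam d)) ∧
      (Reconstruction (aPoisson q lam d) ↔ 1 < d * lam ^ 2)) :=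
  threshold_of_cubic hq hc hc1 (fun _ X _ u => 0 ≤ Efun L u)
    (fun lam hl => (K lam hl).coreCubic hq hl.1 hc.le) lam h0 h2

end Vale.Agent.P154
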