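import Vale.Agent.P154.KSMoments
import Vale.Agent.P154.PoissonTree

/-!
# Kesten–Stigum lower bound: `d * lam ^ 2 > 1` implies reconstruction
-/

namespace Vale.Agent.P154

open Finset
open scoped ENNReal

/-! ### elementary real sequences -/

theorem ks_bound {D lam phi : ℝ} (hD : 0 < D) (hK : 1 < D * lam ^ 2) (hphi : 0 < phi)
    (b : ℕ → ℝ) (h0 : b 0 = phi)
    (hs : ∀ n, b (n + 1) ≤ D * b n + ((D * lam) ^ (n + 1)) ^ 2 * phi) (n : ℕ) :
    b n ≤ phi * (D * lam ^ 2) / (D * lam ^ 2 - 1) * ((D * lam) ^ n) ^ 2 := by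
  have hK1 : 0 < D * lam ^ 2 - 1 := by linarith
  induction n with
  | zero =>
    rw [h0]
    simp only [pow_zero, one_pow, mul_one]
    rw [le_div_iff₀ hK1]
    nlinarith
  | succ n ih =>
    refine (hs n).trans ?_
    have h1 : D * b n ≤ D * (phi * (D * lam ^ 2) / (D * lam ^ 2 - 1) * ((D * lam) ^ n) ^ 2) :=
      mul_le_mul_of_nonneg_left ih hD.le
    have h2 : D * (phi * (D * lam ^ 2) / (D * lam ^ 2 - 1) * ((D * lam) ^ n) ^ 2)
        + ((D * lam) ^ (n + 1)) ^ 2 * phi
        = phi * (D * lam ^ 2) / (D * lam ^ 2 - 1) * ((D * lam) ^ (n + 1)) ^ 2 := by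
      field_simp
      ring
    linarith

theorem ks_final {m phi beta b a : ℝ} (hm : 0 < m) (hphi : 0 < phi) (hbeta : 0 < beta)
    (hb : b ≤ beta * m ^ 2) (h : ∀ s : ℝ, 0 < s → m * phi ≤ b / (2 * s) + 2 * s * a) :
    phi ^ 2 / (4 * beta) ≤ a := by
  have hs : 0 < beta * m / phi := by positivity
  have h1 := h _ hs
  have h2 : b / (2 * (beta * m / phi)) ≤ m * phi / 2 := by
    rw [div_le_iff₀ (by positivity)]
    have : m * phi / 2 * (2 * (beta * m / phi)) = beta * m ^ 2 := by
      field_simp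
    rw [this]
    exact hb
  have h3 : m * phi / 2 ≤ 2 * (beta * m / phi) * a := by linarith
  rw [div_le_iff₀ (by positivity)]
  have h4 : m * phi / 2 * (2 * phi / m) ≤ 2 * (beta * m / phi) * a * (2 * phi / m) :=
    mul_le_mul_of_nonneg_right h3 (by positivity)
  have h5 : m * phi / 2 * (2 * phi / m) = phi ^ 2 := by
    field_simp
  have h6 : 2 * (beta * m / phi) * a * (2 * phi / m) = a * (4 * beta) := by
    field_simp
    ring
  linarith

theorem pow_abs_eq (D lam : ℝ) (n : ℕ) :
    ((D * lam) ^ n) ^ 2 = ((D * |lam|) ^ n) ^ 2 := by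
  rw [← pow_mul, ← pow_mul, mul_comm n 2, pow_mul, pow_mul]
  congr 1
  rw [mul_pow, mul_pow, sq_abs]

/-! ### the test function -/

/-- centred indicator of the spin `0` -/
noncomputable def ksf (q : ℕ) (i : Fin q) : ℝ := (if i.val = 0 then 1 else 0) - 1 / q

theorem ksf_sum {q : ℕ} (hq : 2 ≤ q) : ∑ i, ksf q i = 0 := by
  have hq' : (2 : ℝ) ≤ q := by exact_mod_cast hq
  unfold ksf
  rw [Finset.sum_sub_distrib]
  have : NeZero q := ⟨by omega⟩
  have h1 : ∑ i : Fin q, (if i.val = 0 then (1 : ℝ) else 0) = 1 := by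
    rw [Finset.sum_eq_single (0 : Fin q)]
    · simp
    · intro b _ hb
      have : b.val ≠ 0 := fun h => hb (Fin.ext (by simpa using h))
      simp [this]
    · intro h
      exact absurd (Finset.mem_univ _) h
  rw [h1]
  simp

theorem ksf_abs {q : ℕ} (hq : 2 ≤ q) (i : Fin q) : |ksf q i| ≤ 1 := by
  have hq' : (2 : ℝ) ≤ q := by exact_mod_cast hq
  have h1 : (0 : ℝ) < 1 / q := by positivity
  have h2 : (1 : ℝ) / q ≤ 1 := by
    rw [div_le_one (by linarith)]
    linarith
  unfold ksf
  rw [abs_le]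
  split_ifs <;> constructor <;> linarith

theorem ksf_pos {q : ℕ} (hq : 2 ≤ q) : 0 < (1 / (q : ℝ)) * ∑ i, ksf q i ^ 2 := by
  have hq' : (2 : ℝ) ≤ q := by exact_mod_cast hq
  apply mul_pos (by positivity)
  apply Finset.sum_pos'
  · intro i _
    exact sq_nonneg _
  · refine ⟨⟨0, by omega⟩, Finset.mem_univ _, ?_⟩
    unfold ksf
    simp only [if_true]
    have h2 : (1 : ℝ) / q < 1 := by
      rw [div_lt_one (by linarith)]
      linarith
    have : 0 < 1 - 1 / (q : ℝ) := by linarith
    positivity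

/-! ### the `d`-ary tree -/

theorem numLeaves_dary (d n : ℕ) : numLeaves (dary d n) = (d : ℝ) ^ n := by
  induction n with
  | zero => rfl
  | succ n ih =>
    show ∑ _v : Fin d, numLeaves (dary d n) = _
    rw [ih]
    simp [pow_succ, mul_comm]

/-- Kesten–Stigum bound on the `d`-ary tree. -/
theorem ks_dary {q : ℕ} (hq : 2 ≤ q) {lam : ℝ} (h1 : -1 / ((q : ℝ) - 1) ≤ lam)
    (h2 : lam ≤ 1) {d : ℕ} (hd : 1 < (d : ℝ) * lam ^ 2) :
    ∃ ε : ℝ, 0 < ε ∧ ∀ n, ε ≤ aDary q lam d n := by
  have hphi := ksf_pos hq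
  set phi := (1 / (q : ℝ)) * ∑ i, ksf q i ^ 2 with hphidef
  have hD : 0 < (d : ℝ) := by
    rcases Nat.eq_zero_or_pos d with h | h
    · subst h
      simp at hd
      linarith
    · exact_mod_cast h
  have hlam : lam ≠ 0 := by
    rintro rfl
    simp at hd
    linarith
  have hb := ks_bound hD hd hphi (fun n => avgSecond lam (ksf q) (dary d n))
    (by
      show avgSecond lam (ksf q) GTree.leaf = phi
      rw [avgSecond_leaf])
    (by
      intro n
      show avgSecond lam (ksf q) (GTree.node d fun _ => dary d n) ≤ _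
      rw [avgSecond_node hq lam (ksf q) (ksf_sum hq)]
      rw [← hphidef]
      simp only [numLeaves_dary]
      rw [Finset.sum_const, Finset.sum_const, Finset.sum_const, Finset.card_univ, Fintype.card_fin]
      simp only [nsmul_eq_mul]
      have h3 : (lam ^ (n + 1)) ^ 2 * phi * (((d : ℝ) * (d : ℝ) ^ n) ^ 2 - d * ((d : ℝ) ^ n) ^ 2)
          ≤ (lam ^ (n + 1)) ^ 2 * phi * (((d : ℝ) * (d : ℝ) ^ n) ^ 2) := by
        apply mul_le_mul_of_nonneg_left _ (by positivity)
        have : 0 ≤ (d : ℝ) * ((d : ℝ) ^ n) ^ 2 := by positivity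
        linarith
      have h4 : (lam ^ (n + 1)) ^ 2 * phi * (((d : ℝ) * (d : ℝ) ^ n) ^ 2)
          = (((d : ℝ) * lam) ^ (n + 1)) ^ 2 * phi := by ring
      linarith)
  refine ⟨phi ^ 2 / (4 * (phi * (d * lam ^ 2) / (d * lam ^ 2 - 1))), ?_, ?_⟩
  · have : 0 < (d : ℝ) * lam ^ 2 - 1 := by linarith
    positivity
  · intro n
    have hK1 : 0 < (d : ℝ) * lam ^ 2 - 1 := by linarith
    refine ks_final (m := ((d : ℝ) * |lam|) ^ n) (b := avgSecond lam (ksf q) (dary d n))
      (by positivity) hphi (by positivity) ?_ ?_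
    · refine (hb n).trans (le_of_eq ?_)
      rw [pow_abs_eq]
    · intro s hs
      have h3 := tree_ineq hq h1 h2 (ksf q) (ksf_sum hq) (ksf_abs hq) (dary d n) s hs
      rw [numLeaves_dary, ← hphidef] at h3
      show _ ≤ _ + 2 * s * adv q lam (dary d n)
      refine le_trans (le_of_eq ?_) h3
      rw [mul_pow]
      ring

/-! ### the Poisson Galton–Watson tree -/

theorem treeE_numLeaves {d : ℝ} (hd : 0 ≤ d) (n : ℕ) :
    treeE d n (fun T => ENNReal.ofReal (numLeaves T)) = ENNReal.ofReal (d ^ n) := by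
  induction n with
  | zero =>
    rw [treeE_zero]
    simp [numLeaves]
  | succ n ih =>
    rw [treeE_sum_children hd n _ (fun T => ENNReal.ofReal (numLeaves T))]
    · rw [ih, ← ENNReal.ofReal_mul hd]
      congr 1
      ring
    · intro k c
      show ENNReal.ofReal (∑ v, numLeaves (c v)) = _
      rw [ENNReal.ofReal_sum_of_nonneg (fun v _ => numLeaves_nonneg (c v))]

theorem sq_sum_sub {k : ℕ} (z : Fin k → ℝ) :
    (∑ v, z v) ^ 2 - ∑ v, z v ^ 2 = ∑ v, ∑ w ∈ Finset.univ.erase v, z v * z w := by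
  have h : ∀ v, ∑ w ∈ Finset.univ.erase v, z v * z w = z v * (∑ w, z w) - z v ^ 2 := by
    intro v
    rw [← Finset.mul_sum, ← Finset.add_sum_erase Finset.univ z (Finset.mem_univ v)]
    ring
  simp_rw [h]
  rw [Finset.sum_sub_distrib, ← Finset.sum_mul]
  ring

theorem treeE_avgSecond_succ {q : ℕ} (hq : 2 ≤ q) {lam : ℝ} (h1 : -1 / ((q : ℝ) - 1) ≤ lam)
    (h2 : lam ≤ 1) (f : Fin q → ℝ) (hf : ∑ i, f i = 0) {d : ℝ} (hd : 0 ≤ d) (n : ℕ) :
    treeE d (n + 1) (fun T => ENNReal.ofReal (avgSecond lam f T))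
      = ENNReal.ofReal d * treeE d n (fun T => ENNReal.ofReal (avgSecond lam f T))
        + ENNReal.ofReal (((d * lam) ^ (n + 1)) ^ 2 * ((1 / q) * ∑ i, f i ^ 2)) := by
  have hphi : (0 : ℝ) ≤ (1 / q) * ∑ i, f i ^ 2 := by positivity
  set phi := (1 / (q : ℝ)) * ∑ i, f i ^ 2 with hphidef
  have hdec : ∀ T : GTree (n + 1), ENNReal.ofReal (avgSecond lam f T)
      = ENNReal.ofReal (match T with | .node _ c => ∑ v, avgSecond lam f (c v))
        + ENNReal.ofReal ((lam ^ (n + 1)) ^ 2 * phi) * ENNReal.ofReal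
          (match T with
            | .node _ c => ∑ v, ∑ w ∈ Finset.univ.erase v, numLeaves (c v) * numLeaves (c w)) := by
    intro T
    cases T with
    | node k c =>
      simp only
      rw [avgSecond_node hq lam f hf, ← hphidef, sq_sum_sub, ENNReal.ofReal_add, ENNReal.ofReal_mul]
      · positivity
      · exact Finset.sum_nonneg (fun v _ => avgSecond_nonneg hq h1 h2 f (c v))
      · refine mul_nonneg (by positivity) (Finset.sum_nonneg (fun v _ =>
          Finset.sum_nonneg (fun w _ => mul_nonneg (numLeaves_nonneg _) (numLeaves_nonneg _))))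
  simp_rw [hdec]
  rw [treeE_add, treeE_const_mul]
  rw [treeE_sum_children hd n _ (fun T => ENNReal.ofReal (avgSecond lam f T))]
  · congr 1
    rw [treeE_sum_pairs hd n _ (fun T => ENNReal.ofReal (numLeaves T))]
    · rw [treeE_numLeaves hd, ← ENNReal.ofReal_mul hd, ← ENNReal.ofReal_pow (by positivity),
        ← ENNReal.ofReal_mul (by positivity)]
      congr 1
      ring
    · intro k c
      simp only
      rw [ENNReal.ofReal_sum_of_nonneg]
      · refine Finset.sum_congr rfl (fun v _ => ?_)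
        rw [ENNReal.ofReal_sum_of_nonneg]
        · refine Finset.sum_congr rfl (fun w _ => ?_)
          rw [ENNReal.ofReal_mul (numLeaves_nonneg _)]
        · intro w _
          exact mul_nonneg (numLeaves_nonneg _) (numLeaves_nonneg _)
      · intro v _
        exact Finset.sum_nonneg (fun w _ => mul_nonneg (numLeaves_nonneg _) (numLeaves_nonneg _))
  · intro k c
    simp only
    rw [ENNReal.ofReal_sum_of_nonneg (fun v _ => avgSecond_nonneg hq h1 h2 f (c v))]

/-- Kesten–Stigum bound on the Poisson Galton–Watson tree. -/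
theorem ks_poisson {q : ℕ} (hq : 2 ≤ q) {lam : ℝ} (h1 : -1 / ((q : ℝ) - 1) ≤ lam)
    (h2 : lam ≤ 1) {d : ℝ} (hd0 : 0 < d) (hd : 1 < d * lam ^ 2) :
    ∃ ε : ℝ, 0 < ε ∧ ∀ n, ε ≤ aPoisson q lam d n := by
  have hphi := ksf_pos hq
  set phi := (1 / (q : ℝ)) * ∑ i, ksf q i ^ 2 with hphidef
  have hlam : lam ≠ 0 := by
    rintro rfl
    simp at hd
    linarith
  -- the averaged second moment is finite
  have hfin : ∀ n, treeE d n (fun T => ENNReal.ofReal (avgSecond lam (ksf q) T)) ≠ ∞ := by
    intro n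
    induction n with
    | zero =>
      rw [treeE_zero]
      exact ENNReal.ofReal_ne_top
    | succ n ih =>
      rw [treeE_avgSecond_succ hq h1 h2 (ksf q) (ksf_sum hq) hd0.le]
      exact ENNReal.add_ne_top.mpr ⟨ENNReal.mul_ne_top ENNReal.ofReal_ne_top ih,
        ENNReal.ofReal_ne_top⟩
  have hb := ks_bound hd0 hd hphi
    (fun n => (treeE d n (fun T => ENNReal.ofReal (avgSecond lam (ksf q) T))).toReal)
    (by
      rw [treeE_zero, avgSecond_leaf, ← hphidef, ENNReal.toReal_ofReal hphi.le])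
    (by
      intro n
      rw [treeE_avgSecond_succ hq h1 h2 (ksf q) (ksf_sum hq) hd0.le, ← hphidef]
      rw [ENNReal.toReal_add (ENNReal.mul_ne_top ENNReal.ofReal_ne_top (hfin n))
        ENNReal.ofReal_ne_top, ENNReal.toReal_mul, ENNReal.toReal_ofReal hd0.le,
        ENNReal.toReal_ofReal (by positivity)])
  refine ⟨phi ^ 2 / (4 * (phi * (d * lam ^ 2) / (d * lam ^ 2 - 1))), ?_, ?_⟩
  · have : 0 < d * lam ^ 2 - 1 := by linarith
    positivity
  · intro n
    have hK1 : 0 < d * lam ^ 2 - 1 := by linarith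
    refine ks_final (m := (d * |lam|) ^ n)
      (b := (treeE d n (fun T => ENNReal.ofReal (avgSecond lam (ksf q) T))).toReal)
      (by positivity) hphi (by positivity) ?_ ?_
    · refine (hb n).trans (le_of_eq ?_)
      rw [pow_abs_eq]
    · intro s hs
      have h3 : ∀ T : GTree n, ENNReal.ofReal (|lam| ^ n * phi) * ENNReal.ofReal (numLeaves T)
          ≤ ENNReal.ofReal (1 / (2 * s)) * ENNReal.ofReal (avgSecond lam (ksf q) T)
            + ENNReal.ofReal (2 * s) * ENNReal.ofReal (adv q lam T) := by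
        intro T
        have h4 := tree_ineq hq h1 h2 (ksf q) (ksf_sum hq) (ksf_abs hq) T s hs
        rw [← hphidef] at h4
        rw [← ENNReal.ofReal_mul (by positivity), ← ENNReal.ofReal_mul (by positivity),
          ← ENNReal.ofReal_mul (by positivity), ← ENNReal.ofReal_add]
        · apply ENNReal.ofReal_le_ofReal
          refine h4.trans (le_of_eq ?_)
          ring
        · exact mul_nonneg (by positivity) (avgSecond_nonneg hq h1 h2 _ T)
        · exact mul_nonneg (by positivity) (adv_nonneg hq h1 h2 T)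
      have h5 := treeE_mono d n h3
      rw [treeE_add, treeE_const_mul, treeE_const_mul, treeE_const_mul, treeE_numLeaves hd0.le,
        ← ofReal_tsum_weight hd0.le n _ (fun T => adv_nonneg hq h1 h2 T)
          (fun T => adv_le_one hq h1 h2 T)] at h5
      have ha : 0 ≤ ∑' T : GTree n, poissonWeight d T * adv q lam T :=
        tsum_nonneg (fun T => mul_nonneg (poissonWeight_nonneg hd0.le T) (adv_nonneg hq h1 h2 T))
      rw [← ENNReal.ofReal_toReal (hfin n), ← ENNReal.ofReal_mul (by positivity),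
        ← ENNReal.ofReal_mul (by positivity), ← ENNReal.ofReal_mul (by positivity),
        ← ENNReal.ofReal_add (by positivity) (mul_nonneg (by positivity) ha)] at h5
      rw [ENNReal.ofReal_le_ofReal_iff (add_nonneg (by positivity)
        (mul_nonneg (by positivity) ha))] at h5
      have h6 : (d * |lam|) ^ n * phi = |lam| ^ n * phi * d ^ n := by
        rw [mul_pow]
        ring
      rw [h6]
      refine h5.trans (le_of_eq ?_)
      unfold aPoisson
      ring

end Vale.Agent.P154
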