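import Vale.Agent.P154.PExpr

/-!
# A kernel check for nonnegative coefficients with Kronecker encoded inner variables

The variables `X i`, `i < k`, are encoded in one big integer, the remaining ones are treated
explicitly.
-/

namespace Vale.Agent.P154

/-- evaluation of a list over the integers -/
def levZ {α : Type} (e : α → ℤ) (x : ℤ) : List α → ℤ
  | [] => 0
  | c :: l => e c + x * levZ e x l

/-- integer evaluation -/
def kev (κ : ℕ → ℤ) : (n : ℕ) → Pol n → ℤ
  | 0 => fun a => a
  | n + 1 => levZ (kev κ n) (κ n)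

theorem levZ_ladd {α : Type} (e : α → ℤ) (x : ℤ) (f : α → α → α)
    (hf : ∀ a b, e (f a b) = e a + e b) (a b : List α) :
    levZ e x (ladd f a b) = levZ e x a + levZ e x b := by
  induction a generalizing b with
  | nil => simp [ladd, levZ]
  | cons c l ih =>
    cases b with
    | nil => simp [ladd, levZ]
    | cons d m => simp only [ladd, levZ, hf, ih]; ring

theorem kev_padd (κ : ℕ → ℤ) (n : ℕ) (a b : Pol n) :
    kev κ n (padd n a b) = kev κ n a + kev κ n b := by
  induction n with
  | zero => rfl
  | succ n ih => exact levZ_ladd _ _ _ ih a b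

theorem kev_pzero (κ : ℕ → ℤ) (n : ℕ) : kev κ n (pzero n) = 0 := by
  cases n with
  | zero => rfl
  | succ n => rfl

theorem levZ_map_mul {α : Type} (e : α → ℤ) (x : ℤ) (mu : α → α → α)
    (hm : ∀ a b, e (mu a b) = e a * e b) (c : α) (b : List α) :
    levZ e x (b.map (mu c)) = e c * levZ e x b := by
  induction b with
  | nil => simp [levZ]
  | cons d m ih => simp only [List.map, levZ, hm, ih]; ring

theorem levZ_lmul {α : Type} (e : α → ℤ) (x : ℤ) (z : α) (ad mu : α → α → α)
    (hz : e z = 0) (ha : ∀ a b, e (ad a b) = e a + e b)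
    (hm : ∀ a b, e (mu a b) = e a * e b) (a b : List α) :
    levZ e x (lmul z ad mu a b) = levZ e x a * levZ e x b := by
  induction a with
  | nil => simp [lmul, levZ]
  | cons c l ih =>
    simp only [lmul, levZ, levZ_ladd e x ad ha, levZ_map_mul e x mu hm, hz, ih]; ring

theorem kev_pmul (κ : ℕ → ℤ) (n : ℕ) (a b : Pol n) :
    kev κ n (pmul n a b) = kev κ n a * kev κ n b := by
  induction n with
  | zero => rfl
  | succ n ih => exact levZ_lmul _ _ _ _ _ (kev_pzero κ n) (kev_padd κ n) ih a b

theorem levZ_map_neg {α : Type} (e : α → ℤ) (x : ℤ) (ng : α → α)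
    (hn : ∀ a, e (ng a) = - e a) (b : List α) :
    levZ e x (b.map ng) = - levZ e x b := by
  induction b with
  | nil => simp [levZ]
  | cons d m ih => simp only [List.map, levZ, hn, ih]; ring

theorem kev_pneg (κ : ℕ → ℤ) (n : ℕ) (a : Pol n) :
    kev κ n (pneg n a) = - kev κ n a := by
  induction n with
  | zero => rfl
  | succ n ih => exact levZ_map_neg _ _ _ ih a

theorem kev_pconst (κ : ℕ → ℤ) (n : ℕ) (c : ℤ) : kev κ n (pconst n c) = c := by
  induction n with
  | zero => rfl
  | succ n ih =>
    show kev κ n (pconst n c) + κ n * 0 = c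
    rw [ih]; ring

theorem kev_pvar (κ : ℕ → ℤ) (n : ℕ) (i : ℕ) (h : i < n) : kev κ n (pvar n i) = κ i := by
  induction n with
  | zero => omega
  | succ n ih =>
    by_cases hi : i = n
    · subst hi
      have : pvar (i + 1) i = [pzero i, pconst i 1] := by
        show (if i = i then [pzero i, pconst i 1] else [pvar i i]) = _
        rw [if_pos rfl]
      rw [this]
      show kev κ i (pzero i) + κ i * (kev κ i (pconst i 1) + κ i * 0) = κ i
      rw [kev_pzero, kev_pconst]; ring
    · have : pvar (n + 1) i = [pvar n i] := by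
        show (if i = n then [pzero n, pconst n 1] else [pvar n i]) = _
        rw [if_neg hi]
      rw [this]
      show kev κ n (pvar n i) + κ n * 0 = κ i
      rw [ih (by omega)]; ring

/-! ### collapsing the inner variables -/

/-- evaluation of the inner variables -/
def clps (κ : ℕ → ℤ) (k : ℕ) : (n : ℕ) → Pol (k + n) → Pol n
  | 0 => kev κ k
  | n + 1 => List.map (clps κ k n)

theorem map_ladd {α β : Type} (φ : α → β) (f : α → α → α) (g : β → β → β)
    (h : ∀ a b, φ (f a b) = g (φ a) (φ b)) (a b : List α) :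
    List.map φ (ladd f a b) = ladd g (List.map φ a) (List.map φ b) := by
  induction a generalizing b with
  | nil => simp [ladd]
  | cons c l ih =>
    cases b with
    | nil => simp [ladd]
    | cons d m => simp only [ladd, List.map, h, ih]

theorem clps_padd (κ : ℕ → ℤ) (k n : ℕ) (a b : Pol (k + n)) :
    clps κ k n (padd (k + n) a b) = padd n (clps κ k n a) (clps κ k n b) := by
  induction n with
  | zero => exact kev_padd κ k a b
  | succ n ih => exact map_ladd _ _ _ ih a b

theorem clps_pzero (κ : ℕ → ℤ) (k n : ℕ) : clps κ k n (pzero (k + n)) = pzero n := by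
  cases n with
  | zero => exact kev_pzero κ k
  | succ n => rfl

theorem map_lmul {α β : Type} (φ : α → β) (z : α) (z' : β) (ad mu : α → α → α)
    (ad' mu' : β → β → β) (hz : φ z = z') (ha : ∀ a b, φ (ad a b) = ad' (φ a) (φ b))
    (hm : ∀ a b, φ (mu a b) = mu' (φ a) (φ b)) (a b : List α) :
    List.map φ (lmul z ad mu a b) = lmul z' ad' mu' (List.map φ a) (List.map φ b) := by
  induction a with
  | nil => rfl
  | cons c l ih =>
    simp only [lmul, List.map, map_ladd φ ad ad' ha, hz, ih, List.map_map]
    congr 1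
    apply List.map_congr_left
    intro x _
    exact hm c x

theorem clps_pmul (κ : ℕ → ℤ) (k n : ℕ) (a b : Pol (k + n)) :
    clps κ k n (pmul (k + n) a b) = pmul n (clps κ k n a) (clps κ k n b) := by
  induction n with
  | zero => exact kev_pmul κ k a b
  | succ n ih =>
    exact map_lmul _ _ _ _ _ _ _ (clps_pzero κ k n) (clps_padd κ k n) ih a b

theorem map_map_neg {α β : Type} (φ : α → β) (ng : α → α) (ng' : β → β)
    (h : ∀ a, φ (ng a) = ng' (φ a)) (a : List α) :
    List.map φ (List.map ng a) = List.map ng' (List.map φ a) := by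
  rw [List.map_map, List.map_map]
  apply List.map_congr_left
  intro x _
  exact h x

theorem clps_pneg (κ : ℕ → ℤ) (k n : ℕ) (a : Pol (k + n)) :
    clps κ k n (pneg (k + n) a) = pneg n (clps κ k n a) := by
  induction n with
  | zero => exact kev_pneg κ k a
  | succ n ih => exact map_map_neg _ _ _ ih a

theorem clps_pconst (κ : ℕ → ℤ) (k n : ℕ) (c : ℤ) :
    clps κ k n (pconst (k + n) c) = pconst n c := by
  induction n with
  | zero => exact kev_pconst κ k c
  | succ n ih =>
    show [clps κ k n (pconst (k + n) c)] = [pconst n c]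
    rw [ih]

theorem clps_pvar_lt (κ : ℕ → ℤ) (k n i : ℕ) (h : i < k) :
    clps κ k n (pvar (k + n) i) = pconst n (κ i) := by
  induction n with
  | zero => exact kev_pvar κ k i h
  | succ n ih =>
    have : pvar (k + (n + 1)) i = [pvar (k + n) i] := by
      show (if i = k + n then [pzero (k + n), pconst (k + n) 1] else [pvar (k + n) i]) = _
      rw [if_neg (by omega)]
    rw [this]
    show [clps κ k n (pvar (k + n) i)] = [pconst n (κ i)]
    rw [ih]

theorem clps_pvar_ge (κ : ℕ → ℤ) (k n i : ℕ) (h : k ≤ i) (h2 : i < k + n) :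
    clps κ k n (pvar (k + n) i) = pvar n (i - k) := by
  induction n with
  | zero => omega
  | succ n ih =>
    by_cases hi : i = k + n
    · have h1 : pvar (k + (n + 1)) i = [pzero (k + n), pconst (k + n) 1] := by
        show (if i = k + n then [pzero (k + n), pconst (k + n) 1] else [pvar (k + n) i]) = _
        rw [if_pos hi]
      have h3 : pvar (n + 1) (i - k) = [pzero n, pconst n 1] := by
        show (if i - k = n then [pzero n, pconst n 1] else [pvar n (i - k)]) = _
        rw [if_pos (by omega)]
      rw [h1, h3]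
      show [clps κ k n (pzero (k + n)), clps κ k n (pconst (k + n) 1)] = _
      rw [clps_pzero, clps_pconst]
    · have h1 : pvar (k + (n + 1)) i = [pvar (k + n) i] := by
        show (if i = k + n then [pzero (k + n), pconst (k + n) 1] else [pvar (k + n) i]) = _
        rw [if_neg hi]
      have h3 : pvar (n + 1) (i - k) = [pvar n (i - k)] := by
        show (if i - k = n then [pzero n, pconst n 1] else [pvar n (i - k)]) = _
        rw [if_neg (by omega)]
      rw [h1, h3]
      show [clps κ k n (pvar (k + n) i)] = _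
      rw [ih (by omega)]

namespace PE

/-- normal form with the inner variables evaluated -/
def toPolK (κ : ℕ → ℤ) (k n : ℕ) : PE → Pol n
  | X i => bif Nat.blt i k then pconst n (κ i) else pvar n (i - k)
  | C z => pconst n z
  | add a b => padd n (toPolK κ k n a) (toPolK κ k n b)
  | mul a b => pmul n (toPolK κ k n a) (toPolK κ k n b)
  | neg a => pneg n (toPolK κ k n a)
  | pow a j => ppow n (toPolK κ k n a) j

theorem clps_ppow (κ : ℕ → ℤ) (k n : ℕ) (a : Pol (k + n)) (j : ℕ) :
    clps κ k n (ppow (k + n) a j) = ppow n (clps κ k n a) j := by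
  induction j using Nat.strong_induction_on with
  | _ j ih =>
    match j with
    | 0 => exact clps_pconst κ k n 1
    | 1 => rfl
    | j + 2 =>
      rw [ppow, ppow, clps_pmul, ih (j + 1) (by omega)]

theorem clps_toPol (κ : ℕ → ℤ) (k n : ℕ) (e : PE) (h : wf (k + n) e = true) :
    clps κ k n (toPol (k + n) e) = toPolK κ k n e := by
  induction e with
  | X i =>
    have h1 : i < k + n := by simpa [wf] using h
    by_cases hi : i < k
    · have : Nat.blt i k = true := by simpa using hi
      rw [toPol, toPolK, this, cond_true, clps_pvar_lt κ k n i hi]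
    · have : Nat.blt i k = false := by
        rw [Bool.eq_false_iff]
        intro h2
        exact hi (by simpa using h2)
      rw [toPol, toPolK, this, cond_false, clps_pvar_ge κ k n i (by omega) h1]
  | C z => exact clps_pconst κ k n z
  | add a b iha ihb =>
    simp only [wf, Bool.and_eq_true] at h
    rw [toPol, clps_padd, iha h.1, ihb h.2, toPolK]
  | mul a b iha ihb =>
    simp only [wf, Bool.and_eq_true] at h
    rw [toPol, clps_pmul, iha h.1, ihb h.2, toPolK]
  | neg a iha => rw [toPol, clps_pneg, iha h, toPolK]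
  | pow a j iha => rw [toPol, clps_ppow, iha h, toPolK]

end PE

/-! ### norm bound -/

/-- sum of the absolute values of the coefficients -/
def pl1 : (n : ℕ) → Pol n → ℕ
  | 0 => Int.natAbs
  | n + 1 => fun l => (List.map (pl1 n) l).sum

theorem sum_ladd {α : Type} (w : α → ℕ) (f : α → α → α)
    (hf : ∀ a b, w (f a b) ≤ w a + w b) (a b : List α) :
    (List.map w (ladd f a b)).sum ≤ (List.map w a).sum + (List.map w b).sum := by
  induction a generalizing b with
  | nil => simp [ladd]
  | cons c l ih =>
    cases b with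
    | nil => simp [ladd]
    | cons d m =>
      have h1 := hf c d
      have h2 := ih m
      simp only [ladd, List.map, List.sum_cons]
      omega

theorem pl1_padd (n : ℕ) (a b : Pol n) : pl1 n (padd n a b) ≤ pl1 n a + pl1 n b := by
  induction n with
  | zero => exact Int.natAbs_add_le a b
  | succ n ih => exact sum_ladd _ _ ih a b

theorem pl1_pzero (n : ℕ) : pl1 n (pzero n) = 0 := by
  cases n <;> rfl

theorem sum_map_mul {α : Type} (w : α → ℕ) (mu : α → α → α)
    (hm : ∀ a b, w (mu a b) ≤ w a * w b) (c : α) (b : List α) :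
    (List.map w (List.map (mu c) b)).sum ≤ w c * (List.map w b).sum := by
  induction b with
  | nil => simp
  | cons d m ih =>
    have h1 := hm c d
    simp only [List.map, List.sum_cons, Nat.mul_add]
    omega

theorem sum_lmul {α : Type} (w : α → ℕ) (z : α) (ad mu : α → α → α) (hz : w z = 0)
    (ha : ∀ a b, w (ad a b) ≤ w a + w b) (hm : ∀ a b, w (mu a b) ≤ w a * w b)
    (a b : List α) :
    (List.map w (lmul z ad mu a b)).sum ≤ (List.map w a).sum * (List.map w b).sum := by
  induction a with
  | nil => simp [lmul]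
  | cons c l ih =>
    have h1 := sum_ladd w ad ha (b.map (mu c)) (z :: lmul z ad mu l b)
    have h2 := sum_map_mul w mu hm c b
    simp only [List.map, List.sum_cons, hz, Nat.zero_add, Nat.add_mul, lmul] at h1 ⊢
    omega

theorem pl1_pmul (n : ℕ) (a b : Pol n) : pl1 n (pmul n a b) ≤ pl1 n a * pl1 n b := by
  induction n with
  | zero => exact (Int.natAbs_mul a b).le
  | succ n ih => exact sum_lmul _ _ _ _ (pl1_pzero n) (pl1_padd n) ih a b

theorem sum_map_neg {α : Type} (w : α → ℕ) (ng : α → α)
    (hn : ∀ a, w (ng a) = w a) (b : List α) :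
    (List.map w (List.map ng b)).sum = (List.map w b).sum := by
  induction b with
  | nil => rfl
  | cons d m ih => simp only [List.map, List.sum_cons, hn, ih]

theorem pl1_pneg (n : ℕ) (a : Pol n) : pl1 n (pneg n a) = pl1 n a := by
  induction n with
  | zero => exact Int.natAbs_neg a
  | succ n ih => exact sum_map_neg _ _ ih a

theorem pl1_pconst (n : ℕ) (c : ℤ) : pl1 n (pconst n c) = c.natAbs := by
  induction n with
  | zero => rfl
  | succ n ih =>
    show pl1 n (pconst n c) + 0 = _
    rw [ih]; rfl

theorem pl1_pvar (n i : ℕ) : pl1 n (pvar n i) ≤ 1 := by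
  induction n with
  | zero => exact Nat.zero_le _
  | succ n ih =>
    by_cases hi : i = n
    · have h1 : pvar (n + 1) i = [pzero n, pconst n 1] := by
        show (if i = n then [pzero n, pconst n 1] else [pvar n i]) = _
        rw [if_pos hi]
      rw [h1]
      show pl1 n (pzero n) + (pl1 n (pconst n 1) + 0) ≤ 1
      rw [pl1_pzero, pl1_pconst]; rfl
    · have h1 : pvar (n + 1) i = [pvar n i] := by
        show (if i = n then [pzero n, pconst n 1] else [pvar n i]) = _
        rw [if_neg hi]
      rw [h1]
      show pl1 n (pvar n i) + 0 ≤ 1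
      exact ih

/-! ### degree bound for the inner variables -/

/-- all lists have length at most `D + 1` -/
def dgb (D : ℕ) : (n : ℕ) → Pol n → Prop
  | 0 => fun _ => True
  | n + 1 => fun l => (show List (Pol n) from l).length ≤ D + 1 ∧
      ∀ x ∈ (show List (Pol n) from l), dgb D n x

/-- the inner polynomials have lists of length at most `D + 1` -/
def dgo (D k : ℕ) : (n : ℕ) → Pol (k + n) → Prop
  | 0 => dgb D k
  | n + 1 => fun l => ∀ x ∈ (show List (Pol (k + n)) from l), dgo D k n x

theorem mem_ladd {α : Type} (P : α → Prop) (f : α → α → α) (a b : List α)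
    (ha : ∀ x ∈ a, P x) (hb : ∀ x ∈ b, P x)
    (hf : ∀ x ∈ a, ∀ y ∈ b, P (f x y)) : ∀ x ∈ ladd f a b, P x := by
  induction a generalizing b with
  | nil => simpa [ladd] using hb
  | cons c l ih =>
    cases b with
    | nil => simpa [ladd] using ha
    | cons d m =>
      intro x hx
      simp only [ladd, List.mem_cons] at hx
      rcases hx with rfl | hx
      · exact hf _ (by simp) _ (by simp)
      · exact ih m (fun x hx => ha x (by simp [hx])) (fun x hx => hb x (by simp [hx]))
          (fun x hx y hy => hf x (by simp [hx]) y (by simp [hy])) x hx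

theorem length_ladd {α : Type} (f : α → α → α) (a b : List α) :
    (ladd f a b).length = max a.length b.length := by
  induction a generalizing b with
  | nil => simp [ladd]
  | cons c l ih =>
    cases b with
    | nil => simp [ladd]
    | cons d m => simp only [ladd, List.length_cons, ih]; omega

theorem length_lmul {α : Type} (z : α) (ad mu : α → α → α) (a b : List α) (D E : ℕ)
    (ha : a.length ≤ D + 1) (hb : b.length ≤ E + 1) :
    (lmul z ad mu a b).length ≤ D + E + 1 := by
  have key : (lmul z ad mu a b).length + 1 ≤ a.length + (E + 1) ∨ a = [] := by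
    clear ha
    induction a with
    | nil => right; rfl
    | cons c l ih =>
      left
      simp only [lmul, length_ladd, List.length_map, List.length_cons]
      rcases ih with ih | ih
      · omega
      · subst ih
        simp only [lmul, List.length_nil]
        omega
  rcases key with h | h
  · omega
  · subst h
    simp [lmul]

theorem dgb_mono {D E : ℕ} (h : D ≤ E) (n : ℕ) (a : Pol n) (ha : dgb D n a) : dgb E n a := by
  induction n with
  | zero => trivial
  | succ n ih =>
    refine ⟨le_trans ha.1 (by omega), fun x hx => ih x (ha.2 x hx)⟩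

theorem dgb_pzero (D n : ℕ) : dgb D n (pzero n) := by
  cases n with
  | zero => trivial
  | succ n =>
    refine ⟨Nat.zero_le _, ?_⟩
    intro x hx
    exact absurd hx List.not_mem_nil

theorem dgb_padd {D : ℕ} (n : ℕ) (a b : Pol n) (ha : dgb D n a) (hb : dgb D n b) :
    dgb D n (padd n a b) := by
  induction n with
  | zero => trivial
  | succ n ih =>
    refine ⟨?_, ?_⟩
    · refine le_trans (le_of_eq (length_ladd (padd n) a b)) (max_le ha.1 hb.1)
    · exact mem_ladd (dgb D n) (padd n) a b ha.2 hb.2
        (fun x hx y hy => ih x y (ha.2 x hx) (hb.2 y hy))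

theorem mem_lmul {α : Type} (P : α → Prop) (z : α) (ad mu : α → α → α) (hz : P z)
    (had : ∀ x y, P x → P y → P (ad x y)) (a b : List α)
    (hm : ∀ x ∈ a, ∀ y ∈ b, P (mu x y)) : ∀ x ∈ lmul z ad mu a b, P x := by
  induction a with
  | nil => simp [lmul]
  | cons c l ih =>
    have ih' := ih (fun x hx y hy => hm x (by simp [hx]) y hy)
    have h1 : ∀ x ∈ b.map (mu c), P x := by
      intro x hx
      obtain ⟨y, hy, rfl⟩ := List.mem_map.mp hx
      exact hm c (by simp) y hy
    have h2 : ∀ x ∈ z :: lmul z ad mu l b, P x := by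
      intro x hx
      rcases List.mem_cons.mp hx with rfl | hx
      · exact hz
      · exact ih' x hx
    exact mem_ladd P ad _ _ h1 h2 (fun x hx y hy => had x y (h1 x hx) (h2 y hy))

theorem dgb_pmul {D E : ℕ} (n : ℕ) (a b : Pol n) (ha : dgb D n a) (hb : dgb E n b) :
    dgb (D + E) n (pmul n a b) := by
  induction n with
  | zero => trivial
  | succ n ih =>
    refine ⟨?_, ?_⟩
    · exact length_lmul (pzero n) (padd n) (pmul n) a b D E ha.1 hb.1
    · exact mem_lmul (dgb (D + E) n) (pzero n) (padd n) (pmul n) (dgb_pzero _ n)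
        (fun x y hx hy => dgb_padd n x y hx hy) a b
        (fun x hx y hy => ih x y (ha.2 x hx) (hb.2 y hy))

theorem dgb_pneg {D : ℕ} (n : ℕ) (a : Pol n) (ha : dgb D n a) : dgb D n (pneg n a) := by
  induction n with
  | zero => trivial
  | succ n ih =>
    refine ⟨?_, ?_⟩
    · exact le_trans (le_of_eq (List.length_map (as := a) (pneg n))) ha.1
    · intro x hx
      obtain ⟨y, hy, rfl⟩ := List.mem_map.mp hx
      exact ih y (ha.2 y hy)

theorem dgb_pconst (D n : ℕ) (c : ℤ) : dgb D n (pconst n c) := by
  induction n with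
  | zero => trivial
  | succ n ih =>
    refine ⟨?_, ?_⟩
    · show 1 ≤ D + 1
      omega
    · intro x hx
      have : x = pconst n c := List.mem_singleton.mp hx
      rw [this]; exact ih

theorem dgb_pvar (n i : ℕ) : dgb 1 n (pvar n i) := by
  induction n with
  | zero => trivial
  | succ n ih =>
    by_cases hi : i = n
    · have h1 : pvar (n + 1) i = [pzero n, pconst n 1] := by
        show (if i = n then [pzero n, pconst n 1] else [pvar n i]) = _
        rw [if_pos hi]
      rw [h1]
      refine ⟨le_refl 2, ?_⟩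
      intro x hx
      have hx' : x = pzero n ∨ x = pconst n 1 := by
        have hx'' : x ∈ [pzero n, pconst n 1] := hx
        simpa using hx''
      rcases hx' with rfl | rfl
      · exact dgb_pzero _ n
      · exact dgb_pconst _ n 1
    · have h1 : pvar (n + 1) i = [pvar n i] := by
        show (if i = n then [pzero n, pconst n 1] else [pvar n i]) = _
        rw [if_neg hi]
      rw [h1]
      refine ⟨by show 1 ≤ 2; omega, ?_⟩
      intro x hx
      have : x = pvar n i := List.mem_singleton.mp hx
      rw [this]; exact ih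

theorem dgo_mono {D E : ℕ} (h : D ≤ E) (k n : ℕ) (a : Pol (k + n)) (ha : dgo D k n a) :
    dgo E k n a := by
  induction n with
  | zero => exact dgb_mono h k a ha
  | succ n ih => exact fun x hx => ih x (ha x hx)

theorem dgo_pzero (D k n : ℕ) : dgo D k n (pzero (k + n)) := by
  cases n with
  | zero => exact dgb_pzero D k
  | succ n => intro x hx; exact absurd hx List.not_mem_nil

theorem dgo_padd {D : ℕ} (k n : ℕ) (a b : Pol (k + n)) (ha : dgo D k n a)
    (hb : dgo D k n b) : dgo D k n (padd (k + n) a b) := by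
  induction n with
  | zero => exact dgb_padd k a b ha hb
  | succ n ih =>
    exact mem_ladd (dgo D k n) (padd (k + n)) a b ha hb
      (fun x hx y hy => ih x y (ha x hx) (hb y hy))

theorem dgo_pmul {D E : ℕ} (k n : ℕ) (a b : Pol (k + n)) (ha : dgo D k n a)
    (hb : dgo E k n b) : dgo (D + E) k n (pmul (k + n) a b) := by
  induction n with
  | zero => exact dgb_pmul k a b ha hb
  | succ n ih =>
    exact mem_lmul (dgo (D + E) k n) (pzero (k + n)) (padd (k + n)) (pmul (k + n))
        (dgo_pzero _ k n) (fun x y hx hy => dgo_padd k n x y hx hy) a b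
        (fun x hx y hy => ih x y (ha x hx) (hb y hy))

theorem dgo_pneg {D : ℕ} (k n : ℕ) (a : Pol (k + n)) (ha : dgo D k n a) :
    dgo D k n (pneg (k + n) a) := by
  induction n with
  | zero => exact dgb_pneg k a ha
  | succ n ih =>
    intro x hx
    obtain ⟨y, hy, rfl⟩ := List.mem_map.mp hx
    exact ih y (ha y hy)

theorem dgo_pconst (D k n : ℕ) (c : ℤ) : dgo D k n (pconst (k + n) c) := by
  induction n with
  | zero => exact dgb_pconst D k c
  | succ n ih =>
    intro x hx
    have : x = pconst (k + n) c := List.mem_singleton.mp hx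
    rw [this]; exact ih

theorem dgo_pvar_lt (k n i : ℕ) (h : i < k) : dgo 1 k n (pvar (k + n) i) := by
  induction n with
  | zero => exact dgb_pvar k i
  | succ n ih =>
    have h1 : pvar (k + (n + 1)) i = [pvar (k + n) i] := by
      show (if i = k + n then [pzero (k + n), pconst (k + n) 1] else [pvar (k + n) i]) = _
      rw [if_neg (by omega)]
    rw [h1]
    intro x hx
    have : x = pvar (k + n) i := List.mem_singleton.mp hx
    rw [this]; exact ih

theorem dgo_pvar_ge (D k n i : ℕ) (h : k ≤ i) (h2 : i < k + n) :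
    dgo D k n (pvar (k + n) i) := by
  induction n with
  | zero => omega
  | succ n ih =>
    by_cases hi : i = k + n
    · have h1 : pvar (k + (n + 1)) i = [pzero (k + n), pconst (k + n) 1] := by
        show (if i = k + n then [pzero (k + n), pconst (k + n) 1] else [pvar (k + n) i]) = _
        rw [if_pos hi]
      rw [h1]
      intro x hx
      have hx' : x = pzero (k + n) ∨ x = pconst (k + n) 1 := by
        have hx'' : x ∈ [pzero (k + n), pconst (k + n) 1] := hx
        simpa using hx''
      rcases hx' with rfl | rfl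
      · exact dgo_pzero _ k n
      · exact dgo_pconst _ k n 1
    · have h1 : pvar (k + (n + 1)) i = [pvar (k + n) i] := by
        show (if i = k + n then [pzero (k + n), pconst (k + n) 1] else [pvar (k + n) i]) = _
        rw [if_neg hi]
      rw [h1]
      intro x hx
      have : x = pvar (k + n) i := List.mem_singleton.mp hx
      rw [this]; exact ih (by omega)

namespace PE

/-- norm bound -/
def l1 : PE → ℕ
  | X _ => 1
  | C z => Int.natAbs z
  | add a b => l1 a + l1 b
  | mul a b => l1 a * l1 b
  | neg a => l1 a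
  | pow a j => l1 a ^ j

theorem pl1_ppow (n : ℕ) (p : Pol n) (j : ℕ) : pl1 n (ppow n p j) ≤ pl1 n p ^ j := by
  induction j using Nat.strong_induction_on with
  | _ j ih =>
    match j with
    | 0 => rw [ppow, pl1_pconst]; rfl
    | 1 => rw [ppow, pow_one]
    | j + 2 =>
      rw [ppow]
      refine le_trans (pl1_pmul n _ _) ?_
      refine le_trans (Nat.mul_le_mul_left _ (ih (j + 1) (by omega))) (le_of_eq ?_)
      ring

theorem pl1_toPol (n : ℕ) (e : PE) : pl1 n (toPol n e) ≤ l1 e := by
  induction e with
  | X i => exact pl1_pvar n i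
  | C z => exact (pl1_pconst n z).le
  | add a b iha ihb => exact le_trans (pl1_padd n _ _) (Nat.add_le_add iha ihb)
  | mul a b iha ihb => exact le_trans (pl1_pmul n _ _) (Nat.mul_le_mul iha ihb)
  | neg a iha => exact le_trans (pl1_pneg n _).le iha
  | pow a j iha => exact le_trans (pl1_ppow n _ j) (Nat.pow_le_pow_left iha j)

/-- degree bound in the inner variables -/
def dg (k : ℕ) : PE → ℕ
  | X i => bif Nat.blt i k then 1 else 0
  | C _ => 0
  | add a b => max (dg k a) (dg k b)
  | mul a b => dg k a + dg k b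
  | neg a => dg k a
  | pow a j => j * dg k a

theorem dgo_ppow {D : ℕ} (k n : ℕ) (p : Pol (k + n)) (hp : dgo D k n p) (j : ℕ) :
    dgo (j * D) k n (ppow (k + n) p j) := by
  induction j using Nat.strong_induction_on with
  | _ j ih =>
    match j with
    | 0 => exact dgo_pconst _ k n 1
    | 1 => rw [ppow, one_mul]; exact hp
    | j + 2 =>
      rw [ppow]
      have h := dgo_pmul k n p _ hp (ih (j + 1) (by omega))
      have e : D + (j + 1) * D = (j + 2) * D := by ring
      rw [e] at h
      exact h

theorem dgo_toPol (k n : ℕ) (e : PE) (h : wf (k + n) e = true) :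
    dgo (dg k e) k n (toPol (k + n) e) := by
  induction e with
  | X i =>
    have h1 : i < k + n := by simpa [wf] using h
    by_cases hi : i < k
    · have : Nat.blt i k = true := by simpa using hi
      rw [toPol, dg, this, cond_true]
      exact dgo_pvar_lt k n i hi
    · rw [toPol]
      exact dgo_pvar_ge _ k n i (by omega) h1
  | C z => exact dgo_pconst _ k n z
  | add a b iha ihb =>
    simp only [wf, Bool.and_eq_true] at h
    exact dgo_padd k n _ _ (dgo_mono (le_max_left _ _) k n _ (iha h.1))
      (dgo_mono (le_max_right _ _) k n _ (ihb h.2))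
  | mul a b iha ihb =>
    simp only [wf, Bool.and_eq_true] at h
    exact dgo_pmul k n _ _ (iha h.1) (ihb h.2)
  | neg a iha => exact dgo_pneg k n _ (iha h)
  | pow a j iha => exact dgo_ppow k n _ (iha h) j

end PE

/-! ### decoding -/

/-- top bits of `m` digits of `b + 1` bits -/
def msk (b : ℕ) : ℕ → ℕ
  | 0 => 0
  | m + 1 => 2 ^ b + 2 ^ (b + 1) * msk b m

theorem msk_add (b m₁ m₂ : ℕ) :
    msk b (m₁ + m₂) = msk b m₁ + 2 ^ ((b + 1) * m₁) * msk b m₂ := by
  induction m₁ with
  | zero => simp [msk]
  | succ m ih =>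
    have : m + 1 + m₂ = (m + m₂) + 1 := by ring
    rw [this, msk, ih, msk]
    ring

theorem msk_lt (b m : ℕ) : msk b m < 2 ^ ((b + 1) * m) := by
  induction m with
  | zero => simp [msk]
  | succ m ih =>
    have h1 : 2 ^ ((b + 1) * (m + 1)) = 2 ^ (b + 1) * 2 ^ ((b + 1) * m) := by ring
    have h2 : 2 ^ (b + 1) * (msk b m + 1) ≤ 2 ^ (b + 1) * 2 ^ ((b + 1) * m) :=
      Nat.mul_le_mul_left _ ih
    have h3 : 2 ^ b < 2 ^ (b + 1) := Nat.pow_lt_pow_right (by norm_num) (by omega)
    rw [msk, h1]
    rw [Nat.mul_add, Nat.mul_one] at h2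
    omega

theorem msk_closed (b m : ℕ) :
    msk b m = (2 ^ ((b + 1) * m) - 1) * 2 ^ b / (2 ^ (b + 1) - 1) := by
  have h : ∀ m, msk b m * (2 ^ (b + 1) - 1) = (2 ^ ((b + 1) * m) - 1) * 2 ^ b := by
    intro m
    have h0 : 1 ≤ 2 ^ (b + 1) := Nat.one_le_two_pow
    induction m with
    | zero => simp [msk]
    | succ m ih =>
      have h1 : 1 ≤ 2 ^ ((b + 1) * m) := Nat.one_le_two_pow
      have h2 : 1 ≤ 2 ^ ((b + 1) * (m + 1)) := Nat.one_le_two_pow
      zify [h0, h1] at ih
      rw [msk]
      zify [h0, h2]
      have h3 : (2 : ℤ) ^ ((b + 1) * (m + 1)) = 2 ^ (b + 1) * 2 ^ ((b + 1) * m) := by ring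
      rw [h3]
      linear_combination (2 : ℤ) ^ (b + 1) * ih
  have h1 : 0 < 2 ^ (b + 1) - 1 := by
    have : 2 ^ 1 ≤ 2 ^ (b + 1) := Nat.pow_le_pow_right (by norm_num) (by omega)
    omega
  rw [← h m, Nat.mul_div_cancel _ h1]

theorem and_split (b m₁ m₂ V : ℕ) (h : V &&& msk b (m₁ + m₂) = 0) :
    (V % 2 ^ ((b + 1) * m₁)) &&& msk b m₁ = 0 ∧
      (V / 2 ^ ((b + 1) * m₁)) &&& msk b m₂ = 0 := by
  rw [msk_add] at h
  have hp : 0 < 2 ^ ((b + 1) * m₁) := Nat.two_pow_pos _
  constructor
  · have h1 := congrArg (· % 2 ^ ((b + 1) * m₁)) h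
    simp only [Nat.and_mod_two_pow, Nat.zero_mod, Nat.add_mul_mod_self_left,
      Nat.mod_eq_of_lt (msk_lt b m₁)] at h1
    exact h1
  · have h1 := congrArg (· / 2 ^ ((b + 1) * m₁)) h
    simp only [Nat.and_div_two_pow, Nat.zero_div, Nat.add_mul_div_left _ _ hp,
      Nat.div_eq_of_lt (msk_lt b m₁), Nat.zero_add] at h1
    exact h1

theorem top_bit (b t : ℕ) (ht : t < 2 ^ (b + 1)) (h : t &&& 2 ^ b = 0) : t < 2 ^ b := by
  by_contra hc
  have h1 := Nat.testBit_of_two_pow_le_and_two_pow_add_one_gt (by omega : 2 ^ b ≤ t) ht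
  have h2 := congrArg (fun x => x.testBit b) h
  simp only [Nat.testBit_and, Nat.zero_testBit, h1, Bool.true_and, Nat.testBit_two_pow_self]
    at h2
  exact absurd h2 (by simp)

theorem two_mul_lt (b m V : ℕ) (hm : 0 < m) (hV : V < 2 ^ ((b + 1) * m))
    (h : V &&& msk b m = 0) : 2 * V < 2 ^ ((b + 1) * m) := by
  obtain ⟨m, rfl⟩ : ∃ m', m = m' + 1 := ⟨m - 1, by omega⟩
  have h1 := (and_split b m 1 V h).2
  have hp : 0 < 2 ^ ((b + 1) * m) := Nat.two_pow_pos _
  have e1 : msk b 1 = 2 ^ b := by simp [msk]
  have e2 : 2 ^ ((b + 1) * (m + 1)) = 2 ^ ((b + 1) * m) * 2 ^ (b + 1) := by ring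
  rw [e1] at h1
  have h2 : V / 2 ^ ((b + 1) * m) < 2 ^ (b + 1) := by
    rw [Nat.div_lt_iff_lt_mul hp, Nat.mul_comm, ← e2]; exact hV
  have h3 := top_bit b _ h2 h1
  rw [Nat.div_lt_iff_lt_mul hp] at h3
  have e3 : 2 ^ ((b + 1) * (m + 1)) = 2 * (2 ^ b * 2 ^ ((b + 1) * m)) := by ring
  rw [e3]
  omega

/-- the encoding points -/
def kpt (b R : ℕ) (i : ℕ) : ℤ := Int.ofNat (2 ^ ((b + 1) * R ^ i))

/-- all coefficients are nonnegative -/
theorem kev_bound (b R M : ℕ) (hM : 2 * M < 2 ^ (b + 1)) (D : ℕ) (hD : D + 1 ≤ R) (k : ℕ)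
    (c : Pol k) (h1 : dgb D k c) (h2 : pl1 k c ≤ M) :
    2 * (kev (kpt b R) k c).natAbs < 2 ^ ((b + 1) * R ^ k) := by
  induction k with
  | zero =>
    have : (kev (kpt b R) 0 c).natAbs ≤ M := h2
    simp only [pow_zero, mul_one]
    omega
  | succ k ih =>
    have key : ∀ l : List (Pol k), (∀ x ∈ l, dgb D k x) → (List.map (pl1 k) l).sum ≤ M →
        2 * (levZ (kev (kpt b R) k) (kpt b R k) l).natAbs <
          (2 ^ ((b + 1) * R ^ k)) ^ l.length := by
      intro l
      induction l with
      | nil => intro _ _; simp [levZ]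
      | cons x l ihl =>
        intro hx hs
        simp only [List.map, List.sum_cons] at hs
        have a1 := ih x (hx x (by simp)) (by omega)
        have a2 := ihl (fun y hy => hx y (by simp [hy])) (by omega)
        have a3 : (levZ (kev (kpt b R) k) (kpt b R k) (x :: l)).natAbs ≤
            (kev (kpt b R) k x).natAbs + 2 ^ ((b + 1) * R ^ k) *
              (levZ (kev (kpt b R) k) (kpt b R k) l).natAbs := by
          refine le_trans (Int.natAbs_add_le _ _) ?_
          rw [Int.natAbs_mul]
          exact le_refl _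
        generalize hBB : 2 ^ ((b + 1) * R ^ k) = BB at a1 a2 a3 ⊢
        have a4 : BB * (2 * (levZ (kev (kpt b R) k) (kpt b R k) l).natAbs + 1) ≤
            BB * BB ^ l.length := Nat.mul_le_mul_left _ a2
        rw [List.length_cons, pow_succ']
        rw [Nat.mul_add, Nat.mul_one] at a4
        have a5 : BB * (2 * (levZ (kev (kpt b R) k) (kpt b R k) l).natAbs) =
          2 * (BB * (levZ (kev (kpt b R) k) (kpt b R k) l).natAbs) := by ring
        rw [a5] at a4
        omega
    have h3 := key c h1.2 h2
    refine lt_of_lt_of_le h3 ?_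
    have h4 : (show List (Pol k) from c).length ≤ R := le_trans h1.1 hD
    have h5 : 2 ^ ((b + 1) * R ^ (k + 1)) = (2 ^ ((b + 1) * R ^ k)) ^ R := by
      rw [← pow_mul]; ring_nf
    rw [h5]
    exact Nat.pow_le_pow_right (Nat.two_pow_pos _) h4

theorem decode (b R M : ℕ) (hM : 2 * M < 2 ^ (b + 1)) (D : ℕ) (hD : D + 1 ≤ R) (k : ℕ)
    (c : Pol k) (h1 : dgb D k c) (h2 : pl1 k c ≤ M) (V : ℕ)
    (hV : kev (kpt b R) k c = (V : ℤ)) (hm : V &&& msk b (R ^ k) = 0) :
    pnonneg k c = true := by
  have hR : 0 < R := by omega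
  induction k generalizing V with
  | zero =>
    have h : (show ℤ from c) = (V : ℤ) := hV
    have key : ∀ z : ℤ, z = (V : ℤ) → pnonneg 0 z = true := by
      intro z hz
      subst hz
      rfl
    exact key c h
  | succ k ih =>
    have key : ∀ (l : List (Pol k)) (m V : ℕ), l.length ≤ m → (∀ x ∈ l, dgb D k x) →
        (List.map (pl1 k) l).sum ≤ M →
        levZ (kev (kpt b R) k) (kpt b R k) l = (V : ℤ) → V &&& msk b (R ^ k * m) = 0 →
        ∀ x ∈ l, pnonneg k x = true := by
      intro l
      induction l with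
      | nil => intro _ _ _ _ _ _ _ x hx; exact absurd hx List.not_mem_nil
      | cons x l ihl =>
        intro m V hlen hx hs hv hmk
        obtain ⟨m, rfl⟩ : ∃ m', m = m' + 1 := ⟨m - 1, by simp at hlen; omega⟩
        simp only [List.map, List.sum_cons] at hs
        have e1 : R ^ k * (m + 1) = R ^ k + R ^ k * m := by ring
        rw [e1] at hmk
        obtain ⟨s1, s2⟩ := and_split b (R ^ k) (R ^ k * m) V hmk
        have hb := kev_bound b R M hM D hD k x (hx x (by simp)) (by omega)
        have hRk : 0 < R ^ k := Nat.pow_pos hR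
        have hlt := two_mul_lt b (R ^ k) _ hRk (Nat.mod_lt V (Nat.two_pow_pos _)) s1
        have hdm := Nat.div_add_mod V (2 ^ ((b + 1) * R ^ k))
        have hv' : kev (kpt b R) k x + (2 ^ ((b + 1) * R ^ k) : ℕ) *
            levZ (kev (kpt b R) k) (kpt b R k) l = (V : ℤ) := hv
        generalize hBB : 2 ^ ((b + 1) * R ^ k) = BB at *
        generalize hu : kev (kpt b R) k x = u at *
        generalize hL : levZ (kev (kpt b R) k) (kpt b R k) l = L at *
        have hBpos : 0 < BB := by rw [← hBB]; exact Nat.two_pow_pos _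
        have e2 : (V : ℤ) = (BB : ℤ) * ((V / BB : ℕ) : ℤ) + ((V % BB : ℕ) : ℤ) := by
          exact_mod_cast hdm.symm
        have hB0 : (0 : ℤ) < BB := by exact_mod_cast hBpos
        have e3 : (BB : ℤ) * (((V / BB : ℕ) : ℤ) - L) = u - ((V % BB : ℕ) : ℤ) := by
          linear_combination -e2 - hv'
        have e4 : ((V / BB : ℕ) : ℤ) - L = 0 := by
          by_contra hne
          have : (BB : ℤ) ≤ |(BB : ℤ) * (((V / BB : ℕ) : ℤ) - L)| := by
            rw [abs_mul, abs_of_pos hB0]
            have := Int.one_le_abs hne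
            nlinarith
          rw [e3] at this
          have h5 : |u - ((V % BB : ℕ) : ℤ)| ≤ |u| + ((V % BB : ℕ) : ℤ) := by
            refine le_trans (abs_sub _ _) ?_
            rw [abs_of_nonneg (Int.natCast_nonneg (V % BB))]
          have h6 : 2 * |u| < BB := by
            rw [Int.abs_eq_natAbs]
            exact_mod_cast hb
          have h7 : 2 * ((V % BB : ℕ) : ℤ) < BB := by exact_mod_cast hlt
          linarith
        have e5 : L = ((V / BB : ℕ) : ℤ) := by linarith
        have e6 : u = ((V % BB : ℕ) : ℤ) := by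
          rw [e5, sub_self, mul_zero] at e3
          linarith
        intro y hy
        rcases List.mem_cons.mp hy with rfl | hy
        · exact ih y (hx y (by simp)) (by omega) (V % BB) (by rw [hu]; exact e6) s1
        · exact ihl m (V / BB) (by simpa using hlen) (fun z hz => hx z (by simp [hz]))
            (by omega) e5 s2 y hy
    have h3 := key c R V (le_trans h1.1 hD) h1.2 h2 hV (by rw [← pow_succ]; exact hm)
    exact List.all_eq_true.mpr h3

/-- test of one encoded polynomial -/
def okT (msk : ℕ) : ℤ → Bool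
  | Int.ofNat V => Nat.beq (Nat.land V msk) 0
  | Int.negSucc _ => false

/-- test of all coefficients in the outer variables -/
def okA (msk : ℕ) : (n : ℕ) → Pol n → Bool
  | 0 => okT msk
  | n + 1 => fun l => List.all l (okA msk n)

theorem okA_sound (b R M : ℕ) (hM : 2 * M < 2 ^ (b + 1)) (D : ℕ) (hD : D + 1 ≤ R) (k n : ℕ)
    (p : Pol (k + n)) (h1 : dgo D k n p) (h2 : pl1 (k + n) p ≤ M)
    (h3 : okA (msk b (R ^ k)) n (clps (kpt b R) k n p) = true) : pnonneg (k + n) p = true := by
  induction n with
  | zero =>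
    have h4 : okT (msk b (R ^ k)) (kev (kpt b R) k p) = true := h3
    cases hv : kev (kpt b R) k p with
    | ofNat V =>
      rw [hv] at h4
      have h5 : V &&& msk b (R ^ k) = 0 := Nat.eq_of_beq_eq_true h4
      exact decode b R M hM D hD k p h1 h2 V hv h5
    | negSucc V =>
      rw [hv] at h4
      exact absurd h4 (by simp [okT])
  | succ n ih =>
    have h4 : ∀ x ∈ List.map (clps (kpt b R) k n) p, okA (msk b (R ^ k)) n x = true :=
      List.all_eq_true.mp h3
    refine List.all_eq_true.mpr ?_
    intro x hx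
    have h5 : pl1 (k + n) x ≤ M := by
      refine le_trans ?_ h2
      exact List.single_le_sum (fun y _ => Nat.zero_le y) _ (List.mem_map_of_mem hx)
    exact ih x (h1 x hx) h5 (h4 _ (List.mem_map_of_mem hx))

namespace PE

/-- kernel check: all coefficients of `F` are nonnegative. `k` inner and `n` outer variables,
digits of `b + 1` bits, inner degrees less than `R` -/
def kcheck (k n b R : ℕ) (F : PE) : Bool :=
  wf (k + n) F && Nat.blt (2 * l1 F) (2 ^ (b + 1)) && Nat.blt (dg k F) R &&
    okA ((2 ^ ((b + 1) * R ^ k) - 1) * 2 ^ b / (2 ^ (b + 1) - 1)) n (toPolK (kpt b R) k n F)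

theorem den_nonneg_of_kcheck (v : ℕ → ℝ) (k n b R : ℕ) (hv : ∀ i, i < k + n → 0 ≤ v i)
    (F : PE) (h : kcheck k n b R F = true) : 0 ≤ den v F := by
  simp only [kcheck, Bool.and_eq_true, ← msk_closed] at h
  obtain ⟨⟨⟨h1, h2⟩, h3⟩, h4⟩ := h
  have h2' : 2 * l1 F < 2 ^ (b + 1) := by simpa using h2
  have h3' : dg k F < R := by simpa using h3
  rw [← clps_toPol (kpt b R) k n F h1] at h4
  have h5 := okA_sound b R (l1 F) h2' (dg k F) h3' k n (toPol (k + n) F)
    (dgo_toPol k n F h1) (pl1_toPol (k + n) F) h4
  have h6 := pev_nonneg v (k + n) hv _ h5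
  rwa [pev_toPol v (k + n) F h1] at h6

end PE

end Vale.Agent.P154
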