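import Vale.Agent.P154.LocExp

/-!
# P154, three states, antiferromagnetic side: iterated averages
-/

namespace Vale.Agent.P154.Loc

open Finset Vale.Agent.P154 Vale.Agent.P154.Up

/-- bounded function -/
def Bd {α : Type*} (f : α → ℝ) : Prop := ∃ C, ∀ a, |f a| ≤ C

theorem Bd.const {α : Type*} (c : ℝ) : Bd (fun _ : α => c) := ⟨|c|, fun _ => le_rfl⟩

theorem Bd.add {α : Type*} {f g : α → ℝ} (hf : Bd f) (hg : Bd g) : Bd (fun a => f a + g a) := by
  obtain ⟨C, hC⟩ := hf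
  obtain ⟨D, hD⟩ := hg
  exact ⟨C + D, fun a => (abs_add_le _ _).trans (add_le_add (hC a) (hD a))⟩

theorem Bd.mul {α : Type*} {f : α → ℝ} (c : ℝ) (hf : Bd f) : Bd (fun a => c * f a) := by
  obtain ⟨C, hC⟩ := hf
  refine ⟨|c| * C, fun a => ?_⟩
  rw [abs_mul]
  exact mul_le_mul_of_nonneg_left (hC a) (abs_nonneg c)

/-- averaging operator -/
structure IsAvg {α : Type*} (E : (α → ℝ) → ℝ) : Prop where
  add : ∀ f g : α → ℝ, Bd f → Bd g → E (fun a => f a + g a) = E f + E g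
  smul : ∀ (c : ℝ) (f : α → ℝ), Bd f → E (fun a => c * f a) = c * E f
  mono : ∀ f g : α → ℝ, Bd f → Bd g → (∀ a, f a ≤ g a) → E f ≤ E g
  one : E (fun _ => 1) = 1

namespace IsAvg
variable {α : Type*} {E : (α → ℝ) → ℝ} (h : IsAvg E)
include h

theorem const (c : ℝ) : E (fun _ => c) = c := by
  have := h.smul c (fun _ => 1) (Bd.const 1)
  simpa [h.one] using this

theorem lin3 {f1 f2 f3 : α → ℝ} (b1 : Bd f1) (b2 : Bd f2) (b3 : Bd f3) (c0 c1 c2 c3 : ℝ) :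
    E (fun a => c0 + c1 * f1 a + c2 * f2 a + c3 * f3 a) =
      c0 + c1 * E f1 + c2 * E f2 + c3 * E f3 := by
  have e1 := h.add (fun a => c0 + c1 * f1 a + c2 * f2 a) (fun a => c3 * f3 a)
    (((Bd.const c0).add (b1.mul c1)).add (b2.mul c2)) (b3.mul c3)
  have e2 := h.add (fun a => c0 + c1 * f1 a) (fun a => c2 * f2 a)
    ((Bd.const c0).add (b1.mul c1)) (b2.mul c2)
  have e3 := h.add (fun _ => c0) (fun a => c1 * f1 a) (Bd.const c0) (b1.mul c1)
  rw [e1, e2, e3, h.const, h.smul _ _ b1, h.smul _ _ b2, h.smul _ _ b3]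

theorem le_const {f : α → ℝ} (hf : Bd f) {C : ℝ} (hC : ∀ a, f a ≤ C) : E f ≤ C := by
  have := h.mono f (fun _ => C) hf (Bd.const C) hC
  rwa [h.const] at this

theorem const_le {f : α → ℝ} (hf : Bd f) {C : ℝ} (hC : ∀ a, C ≤ f a) : C ≤ E f := by
  have := h.mono (fun _ => C) f (Bd.const C) hf hC
  rwa [h.const] at this

theorem abs_le {f : α → ℝ} {C : ℝ} (hC : ∀ a, |f a| ≤ C) : |E f| ≤ C := by
  rw [_root_.abs_le]
  exact ⟨h.const_le ⟨C, hC⟩ fun a => (_root_.abs_le.1 (hC a)).1,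
    h.le_const ⟨C, hC⟩ fun a => (_root_.abs_le.1 (hC a)).2⟩

end IsAvg

/-- iterated average -/
noncomputable def itE {α : Type*} (E : (α → ℝ) → ℝ) : (k : ℕ) → ((Fin k → α) → ℝ) → ℝ
  | 0, F => F (fun v => v.elim0)
  | k + 1, F => E (fun a => itE E k (fun c => F (Fin.cons a c)))

theorem isAvg_itE {α : Type*} {E : (α → ℝ) → ℝ} (h : IsAvg E) : ∀ k, IsAvg (itE E k) := by
  intro k
  induction k with
  | zero =>
    exact ⟨fun _ _ _ _ => rfl, fun _ _ _ => rfl, fun _ _ _ _ hh => hh _, rfl⟩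
  | succ k ih =>
    have bd : ∀ F : (Fin (k + 1) → α) → ℝ, Bd F →
        Bd (fun a => itE E k (fun c => F (Fin.cons a c))) := by
      intro F ⟨C, hC⟩
      exact ⟨C, fun a => ih.abs_le fun c => hC _⟩
    have bd' : ∀ (F : (Fin (k + 1) → α) → ℝ) (a : α), Bd F →
        Bd (fun c : Fin k → α => F (Fin.cons a c)) := by
      intro F a ⟨C, hC⟩
      exact ⟨C, fun c => hC _⟩
    refine ⟨?_, ?_, ?_, ?_⟩
    · intro f g hf hg
      simp only [itE]
      rw [← h.add _ _ (bd f hf) (bd g hg)]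
      congr 1
      funext a
      exact ih.add _ _ (bd' f a hf) (bd' g a hg)
    · intro c f hf
      simp only [itE]
      rw [← h.smul _ _ (bd f hf)]
      congr 1
      funext a
      exact ih.smul _ _ (bd' f a hf)
    · intro f g hf hg hfg
      simp only [itE]
      exact h.mono _ _ (bd f hf) (bd g hg) fun a => ih.mono _ _ (bd' f a hf) (bd' g a hg)
        fun c => hfg _
    · simp only [itE]
      rw [ih.one, h.one]

/-- a function of six variables, affine in each triple -/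
structure BiAff (b : ℝ → ℝ → ℝ → ℝ → ℝ → ℝ → ℝ) : Prop where
  left : ∀ s u S, ∃ c0 c1 c2 c3 : ℝ, ∀ m t R, b m t R s u S = c0 + c1 * m + c2 * t + c3 * R
  right : ∀ m t R, ∃ c0 c1 c2 c3 : ℝ, ∀ s u S, b m t R s u S = c0 + c1 * s + c2 * u + c3 * S

theorem itE_step {α : Type*} {E : (α → ℝ) → ℝ} (h : IsAvg E) {b : ℝ → ℝ → ℝ → ℝ → ℝ → ℝ → ℝ}
    (hb : BiAff b) {k : ℕ} {G : (Fin (k + 1) → α) → ℝ} (hG : Bd G) {f1 f2 f3 : (Fin k → α) → ℝ}
    {g1 g2 g3 : α → ℝ} (b1 : Bd f1) (b2 : Bd f2) (b3 : Bd f3) (d1 : Bd g1) (d2 : Bd g2)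
    (d3 : Bd g3)
    (hle : ∀ a c, G (Fin.cons a c) ≤ b (f1 c) (f2 c) (f3 c) (g1 a) (g2 a) (g3 a)) :
    itE E (k + 1) G ≤ b (itE E k f1) (itE E k f2) (itE E k f3) (E g1) (E g2) (E g3) := by
  have hk := isAvg_itE h k
  have key : ∀ s u S, itE E k (fun c => b (f1 c) (f2 c) (f3 c) s u S) =
      b (itE E k f1) (itE E k f2) (itE E k f3) s u S := by
    intro s u S
    obtain ⟨c0, c1, c2, c3, hc⟩ := hb.left s u S
    simp only [hc]
    exact hk.lin3 b1 b2 b3 c0 c1 c2 c3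
  obtain ⟨c0, c1, c2, c3, hc⟩ := hb.right (itE E k f1) (itE E k f2) (itE E k f3)
  rw [hc, ← h.lin3 d1 d2 d3]
  simp only [itE]
  refine h.mono _ _ ?_ ?_ ?_
  · obtain ⟨C, hC⟩ := hG
    exact ⟨C, fun a => hk.abs_le fun c => hC _⟩
  · exact (((Bd.const c0).add (d1.mul c1)).add (d2.mul c2)).add (d3.mul c3)
  · intro a
    rw [← hc, ← key]
    refine hk.mono _ _ ?_ ?_ fun c => hle a c
    · obtain ⟨C, hC⟩ := hG
      exact ⟨C, fun c => hC _⟩
    · obtain ⟨e0, e1, e2, e3, he⟩ := hb.left (g1 a) (g2 a) (g3 a)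
      simp only [he]
      exact (((Bd.const e0).add (b1.mul e1)).add (b2.mul e2)).add (b3.mul e3)

theorem biAff_ru : BiAff bru := by
  refine ⟨fun s u S => ⟨s, 1 - s - 2 * u + 5 / 2 * S, - 2 * s + 5 / 2 * u + 5 / 2 * S,
    5 / 2 * s + 5 / 2 * u + 17 / 2 * S, ?_⟩, fun m t R => ⟨m, 1 - m - 2 * t + 5 / 2 * R,
    - 2 * m + 5 / 2 * t + 5 / 2 * R, 5 / 2 * m + 5 / 2 * t + 17 / 2 * R, ?_⟩⟩
  · intro m t R; unfold bru; ring
  · intro s u S; unfold bru; ring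

theorem biAff_rl : BiAff (fun m t _ s u _ => - brl m t s u) := by
  refine ⟨fun s u S => ⟨- s, - (1 - s - 2 * u), 2 * s, 0, ?_⟩, fun m t R =>
    ⟨- m, - (1 - m - 2 * t), 2 * m, 0, ?_⟩⟩
  · intro m t R; unfold brl; ring
  · intro s u S; unfold brl; ring

theorem biAff_tu : BiAff (fun m t _ s u _ => btu m t s u) := by
  refine ⟨fun s u S => ⟨u, 6 * s - 6 * u, 1 - 6 * s + 5 * u, 0, ?_⟩, fun m t R =>
    ⟨t, 6 * m - 6 * t, 1 - 6 * m + 5 * t, 0, ?_⟩⟩
  · intro m t R; unfold btu; ring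
  · intro s u S; unfold btu; ring

theorem biAff_tl : BiAff btl := by
  refine ⟨fun s u S => ⟨- u, - 6 * s + 6 * u + 9 * S, - 1 + 6 * s + 7 / 4 * u + 9 * S,
    9 * s + 9 * u + 9 / 4 * S, ?_⟩, fun m t R => ⟨- t, - 6 * m + 6 * t + 9 * R,
    - 1 + 6 * m + 7 / 4 * t + 9 * R, 9 * m + 9 * t + 9 / 4 * R, ?_⟩⟩
  · intro m t R; unfold btl; ring
  · intro s u S; unfold btl; ring

theorem biAff_Ru : BiAff bRu := by
  refine ⟨fun s u S => ⟨S, 4 * s + 4 * u + 43 / 20 * S, 4 * s + 22 / 5 * u - 43 / 5 * S,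
    1 + 43 / 20 * s - 43 / 5 * u + 73 / 2 * S, ?_⟩, fun m t R => ⟨R, 4 * m + 4 * t + 43 / 20 * R,
    4 * m + 22 / 5 * t - 43 / 5 * R, 1 + 43 / 20 * m - 43 / 5 * t + 73 / 2 * R, ?_⟩⟩
  · intro m t R; unfold bRu; ring
  · intro s u S; unfold bRu; ring

/-! ### products of messages -/

section
variable {X Y : Type*} [Fintype X] [Fintype Y] {u : X → Fin 3 → ℝ} {v : Y → Fin 3 → ℝ}

theorem NExp.prod (hu : NExp u) (hv : NExp v) : NExp (prodExp u v) where
  nonneg p i := mul_nonneg (hu.nonneg _ _) (hv.nonneg _ _)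
  sum i := by
    unfold prodExp
    rw [Fintype.sum_prod_type]
    simp only
    simp_rw [← Finset.mul_sum, hv.sum, mul_one, hu.sum]
  sym := by
    intro g
    obtain ⟨e, he⟩ := hu.sym g
    obtain ⟨f, hf⟩ := hv.sym g
    refine ⟨Equiv.prodCongr e f, fun p i => ?_⟩
    simp only [prodExp, Equiv.prodCongr_apply, Prod.map]
    rw [he, hf]

theorem NExp.comp (e : X ≃ Y) (hv : NExp v) : NExp (fun x => v (e x)) where
  nonneg x i := hv.nonneg _ _
  sum i := by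
    rw [← hv.sum i]
    exact Equiv.sum_comp e (fun y => v y i)
  sym := by
    intro g
    obtain ⟨f, hf⟩ := hv.sym g
    refine ⟨e.trans (f.trans e.symm), fun x i => ?_⟩
    simp [hf]

theorem nExp_unit : NExp (fun (_ : Unit) (_ : Fin 3) => (1 : ℝ)) where
  nonneg _ _ := zero_le_one
  sum _ := by simp
  sym := fun _ => ⟨Equiv.refl _, fun _ _ => rfl⟩

end

theorem piExp_succ {k : ℕ} {X : Fin (k + 1) → Type} (u : ∀ v, X v → Fin 3 → ℝ) :
    piExp u = (fun x => prodExp (piExp (fun v : Fin k => u v.succ)) (u 0)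
      (((Fin.consEquiv X).symm.trans (Equiv.prodComm _ _)) x)) := by
  funext x i
  simp only [piExp, prodExp, Fin.prod_univ_succ]
  rw [mul_comm]
  rfl

theorem piExp_zero {X : Fin 0 → Type} (u : ∀ v, X v → Fin 3 → ℝ) :
    piExp u = (fun x => (fun (_ : Unit) (_ : Fin 3) => (1 : ℝ))
      ((Equiv.ofUnique (∀ v, X v) Unit) x)) := by
  funext x i
  simp [piExp]

theorem nExp_pi : ∀ (k : ℕ) (X : Fin k → Type) [∀ v, Fintype (X v)]
    (u : ∀ v, X v → Fin 3 → ℝ), (∀ v, NExp (u v)) → NExp (piExp u) := by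
  intro k
  induction k with
  | zero =>
    intro X _ u _
    rw [piExp_zero]
    exact nExp_unit.comp (Equiv.ofUnique (∀ v, X v) Unit)
  | succ k ih =>
    intro X _ u hu
    rw [piExp_succ]
    exact ((ih _ _ fun v => hu v.succ).prod (hu 0)).comp _

theorem fn_pi_succ (F : ℝ → ℝ → ℝ → ℝ) {k : ℕ} {X : Fin (k + 1) → Type} [∀ v, Fintype (X v)]
    (u : ∀ v, X v → Fin 3 → ℝ) :
    fn F (piExp u) = fn F (prodExp (piExp (fun v : Fin k => u v.succ)) (u 0)) := by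
  rw [piExp_succ]
  exact fn_equiv F _ _

theorem fn_pi_zero {F : ℝ → ℝ → ℝ → ℝ} (hF : F 1 1 1 = 0) {X : Fin 0 → Type}
    [∀ v, Fintype (X v)] (u : ∀ v, X v → Fin 3 → ℝ) : fn F (piExp u) = 0 := by
  rw [piExp_zero, fn_equiv F (Equiv.ofUnique (∀ v, X v) Unit)
    (fun (_ : Unit) (_ : Fin 3) => (1 : ℝ))]
  unfold fn
  simp [hF]

theorem gr_one : gr 1 1 1 = 0 := by unfold gr wn wD; norm_num
theorem gt_one : gt 1 1 1 = 0 := by unfold gt wt wn wD; norm_num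
theorem gR_one : gR 1 1 1 = 0 := by unfold gR wn wD; norm_num

section
variable {α : Type} {E : (α → ℝ) → ℝ} {X : α → Type} [∀ a, Fintype (X a)]
  (u : ∀ a, X a → Fin 3 → ℝ)

/-- average over `k` independent messages -/
noncomputable def Ak (E : (α → ℝ) → ℝ) (F : ℝ → ℝ → ℝ → ℝ) (k : ℕ) : ℝ :=
  itE E k (fun c => fn F (piExp (fun v => u (c v))))

theorem NExp.abs_gr {Y : Type*} [Fintype Y] {w : Y → Fin 3 → ℝ} (h : NExp w) : |fn gr w| ≤ 1 := by
  have := h.pf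
  rw [abs_le]
  exact ⟨by linarith [this.r0], this.rD⟩

theorem NExp.abs_gt {Y : Type*} [Fintype Y] {w : Y → Fin 3 → ℝ} (h : NExp w) : |fn gt w| ≤ 1 := by
  have := h.pf
  rw [abs_le]
  exact ⟨by linarith [this.tl, this.rD], this.tr.trans this.rD⟩

theorem NExp.abs_gR {Y : Type*} [Fintype Y] {w : Y → Fin 3 → ℝ} (h : NExp w) : |fn gR w| ≤ 1 := by
  have := h.pf
  rw [abs_le]
  exact ⟨by linarith [this.R0], this.Rr.trans this.rD⟩

variable (hE : IsAvg E) (hu : ∀ a, MExp (u a))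
include hE hu

theorem Ak_ru (k : ℕ) : Ak u E gr (k + 1) ≤ bru (Ak u E gr k) (Ak u E gt k) (Ak u E gR k)
    (E fun a => fn gr (u a)) (E fun a => fn gt (u a)) (E fun a => fn gR (u a)) := by
  have hN : ∀ k (c : Fin k → α), NExp (piExp (fun v => u (c v))) :=
    fun k c => nExp_pi k (fun v => X (c v)) (fun v => u (c v)) fun v => (hu (c v)).toNExp
  refine itE_step hE biAff_ru (k := k) (G := fun c => fn gr (piExp (fun v => u (c v))))
    (f1 := fun c => fn gr (piExp (fun v => u (c v)))) (f2 := fun c => fn gt (piExp (fun v => u (c v))))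
    (f3 := fun c => fn gR (piExp (fun v => u (c v)))) (g1 := fun a => fn gr (u a))
    (g2 := fun a => fn gt (u a)) (g3 := fun a => fn gR (u a))
    ⟨1, fun c => (hN _ c).abs_gr⟩ ⟨1, fun c => (hN _ c).abs_gr⟩ ⟨1, fun c => (hN _ c).abs_gt⟩
    ⟨1, fun c => (hN _ c).abs_gR⟩ ⟨1, fun a => (hu a).toNExp.abs_gr⟩
    ⟨1, fun a => (hu a).toNExp.abs_gt⟩ ⟨1, fun a => (hu a).toNExp.abs_gR⟩ fun a c => ?_
  rw [fn_pi_succ]
  exact e_ru (hN k c) (hu a)

theorem Ak_rl (k : ℕ) : brl (Ak u E gr k) (Ak u E gt k) (E fun a => fn gr (u a))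
    (E fun a => fn gt (u a)) ≤ Ak u E gr (k + 1) := by
  have hN : ∀ k (c : Fin k → α), NExp (piExp (fun v => u (c v))) :=
    fun k c => nExp_pi k (fun v => X (c v)) (fun v => u (c v)) fun v => (hu (c v)).toNExp
  have key := itE_step hE biAff_rl (k := k) (G := fun c => -1 * fn gr (piExp (fun v => u (c v))))
    (f1 := fun c => fn gr (piExp (fun v => u (c v)))) (f2 := fun c => fn gt (piExp (fun v => u (c v))))
    (f3 := fun c => fn gR (piExp (fun v => u (c v)))) (g1 := fun a => fn gr (u a))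
    (g2 := fun a => fn gt (u a)) (g3 := fun a => fn gR (u a))
    (Bd.mul (-1) ⟨1, fun c => (hN _ c).abs_gr⟩) ⟨1, fun c => (hN _ c).abs_gr⟩
    ⟨1, fun c => (hN _ c).abs_gt⟩
    ⟨1, fun c => (hN _ c).abs_gR⟩ ⟨1, fun a => (hu a).toNExp.abs_gr⟩
    ⟨1, fun a => (hu a).toNExp.abs_gt⟩ ⟨1, fun a => (hu a).toNExp.abs_gR⟩ (fun a c => by
      rw [fn_pi_succ, neg_one_mul, neg_le_neg_iff]
      exact e_rl (hN k c) (hu a))
  rw [(isAvg_itE hE (k + 1)).smul (-1) _ ⟨1, fun c => (hN _ c).abs_gr⟩] at key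
  unfold Ak
  linarith

theorem Ak_tu (k : ℕ) : Ak u E gt (k + 1) ≤ btu (Ak u E gr k) (Ak u E gt k)
    (E fun a => fn gr (u a)) (E fun a => fn gt (u a)) := by
  have hN : ∀ k (c : Fin k → α), NExp (piExp (fun v => u (c v))) :=
    fun k c => nExp_pi k (fun v => X (c v)) (fun v => u (c v)) fun v => (hu (c v)).toNExp
  refine itE_step hE biAff_tu (k := k) (G := fun c => fn gt (piExp (fun v => u (c v))))
    (f1 := fun c => fn gr (piExp (fun v => u (c v)))) (f2 := fun c => fn gt (piExp (fun v => u (c v))))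
    (f3 := fun c => fn gR (piExp (fun v => u (c v)))) (g1 := fun a => fn gr (u a))
    (g2 := fun a => fn gt (u a)) (g3 := fun a => fn gR (u a))
    ⟨1, fun c => (hN _ c).abs_gt⟩ ⟨1, fun c => (hN _ c).abs_gr⟩ ⟨1, fun c => (hN _ c).abs_gt⟩
    ⟨1, fun c => (hN _ c).abs_gR⟩ ⟨1, fun a => (hu a).toNExp.abs_gr⟩
    ⟨1, fun a => (hu a).toNExp.abs_gt⟩ ⟨1, fun a => (hu a).toNExp.abs_gR⟩ fun a c => ?_
  rw [fn_pi_succ]
  exact e_tu (hN k c) (hu a)

theorem Ak_tl (k : ℕ) : - Ak u E gt (k + 1) ≤ btl (Ak u E gr k) (Ak u E gt k) (Ak u E gR k)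
    (E fun a => fn gr (u a)) (E fun a => fn gt (u a)) (E fun a => fn gR (u a)) := by
  have hN : ∀ k (c : Fin k → α), NExp (piExp (fun v => u (c v))) :=
    fun k c => nExp_pi k (fun v => X (c v)) (fun v => u (c v)) fun v => (hu (c v)).toNExp
  have key := itE_step hE biAff_tl (k := k) (G := fun c => -1 * fn gt (piExp (fun v => u (c v))))
    (f1 := fun c => fn gr (piExp (fun v => u (c v)))) (f2 := fun c => fn gt (piExp (fun v => u (c v))))
    (f3 := fun c => fn gR (piExp (fun v => u (c v)))) (g1 := fun a => fn gr (u a))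
    (g2 := fun a => fn gt (u a)) (g3 := fun a => fn gR (u a))
    (Bd.mul (-1) ⟨1, fun c => (hN _ c).abs_gt⟩) ⟨1, fun c => (hN _ c).abs_gr⟩
    ⟨1, fun c => (hN _ c).abs_gt⟩
    ⟨1, fun c => (hN _ c).abs_gR⟩ ⟨1, fun a => (hu a).toNExp.abs_gr⟩
    ⟨1, fun a => (hu a).toNExp.abs_gt⟩ ⟨1, fun a => (hu a).toNExp.abs_gR⟩ (fun a c => by
      rw [fn_pi_succ, neg_one_mul]
      exact e_tl (hN k c) (hu a))
  rw [(isAvg_itE hE (k + 1)).smul (-1) _ ⟨1, fun c => (hN _ c).abs_gt⟩] at key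
  unfold Ak
  linarith

theorem Ak_Ru (k : ℕ) : Ak u E gR (k + 1) ≤ bRu (Ak u E gr k) (Ak u E gt k) (Ak u E gR k)
    (E fun a => fn gr (u a)) (E fun a => fn gt (u a)) (E fun a => fn gR (u a)) := by
  have hN : ∀ k (c : Fin k → α), NExp (piExp (fun v => u (c v))) :=
    fun k c => nExp_pi k (fun v => X (c v)) (fun v => u (c v)) fun v => (hu (c v)).toNExp
  refine itE_step hE biAff_Ru (k := k) (G := fun c => fn gR (piExp (fun v => u (c v))))
    (f1 := fun c => fn gr (piExp (fun v => u (c v)))) (f2 := fun c => fn gt (piExp (fun v => u (c v))))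
    (f3 := fun c => fn gR (piExp (fun v => u (c v)))) (g1 := fun a => fn gr (u a))
    (g2 := fun a => fn gt (u a)) (g3 := fun a => fn gR (u a))
    ⟨1, fun c => (hN _ c).abs_gR⟩ ⟨1, fun c => (hN _ c).abs_gr⟩ ⟨1, fun c => (hN _ c).abs_gt⟩
    ⟨1, fun c => (hN _ c).abs_gR⟩ ⟨1, fun a => (hu a).toNExp.abs_gr⟩
    ⟨1, fun a => (hu a).toNExp.abs_gt⟩ ⟨1, fun a => (hu a).toNExp.abs_gR⟩ fun a c => ?_
  rw [fn_pi_succ]
  exact e_Ru (hN k c) (hu a)

omit hE hu in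
theorem Ak_zero : Ak u E gr 0 = 0 ∧ Ak u E gt 0 = 0 ∧ Ak u E gR 0 = 0 := by
  refine ⟨?_, ?_, ?_⟩
  · exact fn_pi_zero gr_one _
  · exact fn_pi_zero gt_one _
  · exact fn_pi_zero gR_one _

end

end Vale.Agent.P154.Loc
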