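import Vale.Agent.P154.LocPois4

/-!
# P154, three states, antiferromagnetic side: local stability on the Poisson tree at criticality
-/

namespace Vale.Agent.P154.Loc

open Finset Filter Topology Vale.Agent.P154 Vale.Agent.P154.Up

theorem Q2_eq (x y : ℝ) : Q2 x y = -6 - 12 * y + 18 * x + 7 / 4 * y ^ 2 - 18 * (x * y) +
    9 / 4 * x ^ 2 := by
  unfold Q2 rQ; ring

/-! ### monotonicity of the bounds -/

section
variable {x y X Y Z M K A : ℝ}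

theorem crudeP (hZ : -Z ≤ y) (hZ0 : 0 ≤ Z) (hZ1 : Z ≤ 1 / 4) (hx : x ≤ X) (hx0 : 0 ≤ x)
    (hy : y ≤ 1 / 2) (hM : 0 ≤ M) (hM0 : M ≤ 7 / 100) (hA : A ≤ 309 / 1000 * M ^ 3)
    (hK : Z + (6 - 12 * Z + 5 * Z ^ 2) * (7 / 200) + (19 + 320 * X) * (309 / 1000) *
      (49 / 10000) ≤ K) :
    -y * M + P2 y * (1 * M ^ 2 / 2) + P3 x * A ≤ M * K := by
  have h1 : P3 x * A ≤ P3 x * (309 / 1000 * M ^ 3) :=
    mul_le_mul_of_nonneg_left hA (by unfold P3; linarith)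
  have h2 : -y + P2 y * (M / 2) + P3 x * (309 / 1000 * M ^ 2) ≤ K := by
    refine le_trans ?_ hK
    have a1 : -y + P2 y * (M / 2) ≤ Z + (6 - 12 * Z + 5 * Z ^ 2) * (M / 2) := by
      rw [P2_eq]
      have e : Z + (6 - 12 * Z + 5 * Z ^ 2) * (M / 2) - (-y + (6 + 12 * y + 5 * y ^ 2) * (M / 2)) =
          (y + Z) * (1 - (12 + 5 * (y - Z)) * (M / 2)) := by ring
      have h3 : 0 ≤ 1 - (12 + 5 * (y - Z)) * (M / 2) := by nlinarith
      have := mul_nonneg (by linarith : 0 ≤ y + Z) h3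
      linarith
    have a2 : (6 - 12 * Z + 5 * Z ^ 2) * (M / 2) ≤ (6 - 12 * Z + 5 * Z ^ 2) * (7 / 200) :=
      mul_le_mul_of_nonneg_left (by linarith) (by nlinarith)
    have a3 : P3 x * (309 / 1000 * M ^ 2) ≤ (19 + 320 * X) * (309 / 1000) * (49 / 10000) := by
      unfold P3
      have b1 : M ^ 2 ≤ 49 / 10000 := by nlinarith
      have b2 : (19 + 320 * x) * (309 / 1000 * M ^ 2) ≤ (19 + 320 * X) * (309 / 1000 * (49 / 10000)) :=
        mul_le_mul (by linarith) (by linarith) (by positivity) (by linarith)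
      linarith
    linarith
  have h3 := mul_le_mul_of_nonneg_left h2 hM
  have e : M * (-y + P2 y * (M / 2) + P3 x * (309 / 1000 * M ^ 2)) =
    -y * M + P2 y * (1 * M ^ 2 / 2) + P3 x * (309 / 1000 * M ^ 3) := by ring
  linarith

/-- convexity in `M` -/
theorem conv {a b c : ℝ} (hb : 0 ≤ b) (hc : 0 ≤ c) (h0 : 43 / 1000 ≤ M) (h1 : M ≤ 7 / 100)
    (k0 : a * (43 / 1000) + b * (43 / 1000) ^ 2 + c * (43 / 1000) ^ 3 ≤ K)
    (k1 : a * (7 / 100) + b * (7 / 100) ^ 2 + c * (7 / 100) ^ 3 ≤ K) :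
    a * M + b * M ^ 2 + c * M ^ 3 ≤ K := by
  have p : 0 ≤ (M - 43 / 1000) * (7 / 100 - M) := mul_nonneg (by linarith) (by linarith)
  have p1 := mul_nonneg hb p
  have p2 := mul_nonneg hc (mul_nonneg p (by linarith : 0 ≤ M + 113 / 1000))
  have q0 := mul_le_mul_of_nonneg_left k0 (by linarith : 0 ≤ 7 / 100 - M)
  have q1 := mul_le_mul_of_nonneg_left k1 (by linarith : 0 ≤ M - 43 / 1000)
  nlinarith

theorem crudeQ (hY : y ≤ Y) (hY1 : Y ≤ 1 / 2) (hx : x ≤ X) (hx0 : 0 ≤ x) (hX : X ≤ 1 / 4)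
    (hy : -(1 / 4) ≤ y) (hM : 43 / 1000 ≤ M) (hM0 : M ≤ 7 / 100) (hA : A ≤ 309 / 1000 * M ^ 3)
    (k0 : Y + (-6 - 12 * Y + 18 * X + 7 / 4 * Y ^ 2 - 18 * (X * Y) + 9 / 4 * X ^ 2) * (43 / 2000) +
      (82 + 620 * X) * (309 / 1000) * (1849 / 1000000) ≤ K)
    (k1 : Y + (-6 - 12 * Y + 18 * X + 7 / 4 * Y ^ 2 - 18 * (X * Y) + 9 / 4 * X ^ 2) * (7 / 200) +
      (82 + 620 * X) * (309 / 1000) * (49 / 10000) ≤ K) :
    y * M + Q2 x y * (1 * M ^ 2 / 2) + Q3 x * A ≤ M * K := by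
  have hM1 : 0 ≤ M := by linarith
  have h1 : Q3 x * A ≤ Q3 x * (309 / 1000 * M ^ 3) :=
    mul_le_mul_of_nonneg_left hA (by unfold Q3; linarith)
  have h2 : y + Q2 x y * (M / 2) + Q3 x * (309 / 1000 * M ^ 2) ≤ K := by
    have a1 : y + Q2 x y * (M / 2) ≤ Y + Q2 X Y * (M / 2) := by
      rw [Q2_eq, Q2_eq]
      have e : Y + (-6 - 12 * Y + 18 * X + 7 / 4 * Y ^ 2 - 18 * (X * Y) + 9 / 4 * X ^ 2) * (M / 2) -
          (y + (-6 - 12 * y + 18 * x + 7 / 4 * y ^ 2 - 18 * (x * y) + 9 / 4 * x ^ 2) * (M / 2)) =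
          (X - x) * (18 - 18 * Y + 9 / 4 * (X + x)) * (M / 2) +
          (Y - y) * (1 - (12 + 18 * x - 7 / 4 * (Y + y)) * (M / 2)) := by ring
      have c1 : 0 ≤ (X - x) * (18 - 18 * Y + 9 / 4 * (X + x)) * (M / 2) :=
        mul_nonneg (mul_nonneg (by linarith) (by linarith)) (by linarith)
      have c2 : 0 ≤ 1 - (12 + 18 * x - 7 / 4 * (Y + y)) * (M / 2) := by nlinarith
      have := mul_nonneg (by linarith : 0 ≤ Y - y) c2
      linarith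
    have a3 : Q3 x * (309 / 1000 * M ^ 2) ≤ (82 + 620 * X) * (309 / 1000) * M ^ 2 := by
      unfold Q3
      have b1 : 0 ≤ M ^ 2 := sq_nonneg M
      nlinarith
    have a4 := conv (M := M) (a := Q2 X Y / 2) (b := (82 + 620 * X) * (309 / 1000)) (c := 0)
      (K := K - Y) (by nlinarith) le_rfl hM hM0 (by rw [Q2_eq]; linarith) (by rw [Q2_eq]; linarith)
    linarith
  have h3 := mul_le_mul_of_nonneg_left h2 hM1
  have e : M * (y + Q2 x y * (M / 2) + Q3 x * (309 / 1000 * M ^ 2)) =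
    y * M + Q2 x y * (1 * M ^ 2 / 2) + Q3 x * (309 / 1000 * M ^ 3) := by ring
  linarith

theorem V2_mono (hZ : -Z ≤ y) (hZ1 : Z ≤ 1 / 4) (hx : x ≤ X) (hx0 : 0 ≤ x) (hY : y ≤ Y)
    (hYX : 22 / 5 * (Y - Z) + 86 / 5 * X ≤ 8) : V2 x y ≤ V2 X (-Z) := by
  rw [V2_eq, V2_eq]
  have e : (4 - 8 * (-Z) + 22 / 5 * (-Z) ^ 2 + 43 / 10 * X + 86 / 5 * X * (-Z) + 73 / 2 * X ^ 2) -
      (4 - 8 * y + 22 / 5 * y ^ 2 + 43 / 10 * x + 86 / 5 * x * y + 73 / 2 * x ^ 2) =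
      (X - x) * (43 / 10 + 86 / 5 * y + 73 / 2 * (X + x)) +
      (y + Z) * (8 - 22 / 5 * (y - Z) - 86 / 5 * X) := by ring
  have c1 := mul_nonneg (by linarith : 0 ≤ X - x)
    (by linarith : 0 ≤ 43 / 10 + 86 / 5 * y + 73 / 2 * (X + x))
  have c2 := mul_nonneg (by linarith : 0 ≤ y + Z)
    (by linarith : 0 ≤ 8 - 22 / 5 * (y - Z) - 86 / 5 * X)
  linarith

theorem V2_corner (hZ0 : 0 ≤ Z) (hZ1 : Z ≤ 1 / 4) (hX : 0 ≤ X) : 0 ≤ V2 X (-Z) := by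
  rw [V2_eq]
  have := mul_nonneg hX (by linarith : 0 ≤ 1 / 4 - Z)
  nlinarith [sq_nonneg X, sq_nonneg Z]

theorem crudeV (hZ : -Z ≤ y) (hZ0 : 0 ≤ Z) (hZ1 : Z ≤ 1 / 4) (hx : x ≤ X) (hx0 : 0 ≤ x)
    (hY : y ≤ Y) (hYX : 22 / 5 * (Y - Z) + 86 / 5 * X ≤ 8) (hM : 0 ≤ M) (hM0 : M ≤ 7 / 100)
    (hA : A ≤ 309 / 1000 * M ^ 3)
    (hK : X + (4 + 8 * Z + 22 / 5 * Z ^ 2 + 43 / 10 * X - 86 / 5 * (X * Z) + 73 / 2 * X ^ 2) *
      (7 / 200) + (32 + 340 * X) * (309 / 1000) * (49 / 10000) ≤ K) :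
    x * M + V2 x y * (1 * M ^ 2 / 2) + V3 x * A ≤ M * K := by
  have h1 : V3 x * A ≤ V3 x * (309 / 1000 * M ^ 3) :=
    mul_le_mul_of_nonneg_left hA (by unfold V3; linarith)
  have h2 : x + V2 x y * (M / 2) + V3 x * (309 / 1000 * M ^ 2) ≤ K := by
    refine le_trans ?_ hK
    have a0 := V2_mono hZ hZ1 hx hx0 hY hYX
    have a1 : V2 x y * (M / 2) ≤ V2 X (-Z) * (M / 2) :=
      mul_le_mul_of_nonneg_right a0 (by linarith)
    have a2 : V2 X (-Z) * (M / 2) ≤ V2 X (-Z) * (7 / 200) :=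
      mul_le_mul_of_nonneg_left (by linarith) (V2_corner hZ0 hZ1 (by linarith))
    have a3 : V3 x * (309 / 1000 * M ^ 2) ≤ (32 + 340 * X) * (309 / 1000) * (49 / 10000) := by
      unfold V3
      have b1 : M ^ 2 ≤ 49 / 10000 := by nlinarith
      have b2 : (32 + 340 * x) * (309 / 1000 * M ^ 2) ≤ (32 + 340 * X) * (309 / 1000 * (49 / 10000)) :=
        mul_le_mul (by linarith) (by linarith) (by positivity) (by linarith)
      linarith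
    have a4 : V2 X (-Z) = 4 + 8 * Z + 22 / 5 * Z ^ 2 + 43 / 10 * X - 86 / 5 * (X * Z) +
        73 / 2 * X ^ 2 := by
      rw [V2_eq]; ring
    rw [a4] at a1 a2
    linarith
  have h3 := mul_le_mul_of_nonneg_left h2 hM
  have e : M * (x + V2 x y * (M / 2) + V3 x * (309 / 1000 * M ^ 2)) =
    x * M + V2 x y * (1 * M ^ 2 / 2) + V3 x * (309 / 1000 * M ^ 3) := by ring
  linarith

/-! ### refined bounds -/

theorem refP (hZ : -Z ≤ y) (hZ0 : 0 ≤ Z) (hZ1 : Z ≤ 83 / 1000) (hx : x ≤ X) (hx0 : 0 ≤ x)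
    (hX : X ≤ 98 / 1000)
    (hy : y ≤ 171 / 1000) (hM : 0 ≤ M) (hM0 : M ≤ 7 / 100) (hA : A ≤ 568 / 10000 * M ^ 4)
    (hK : Z + (6 - 12 * Z + 5 * Z ^ 2) * (7 / 200) + (-418 / 10 + 144 * X + 867 / 10 * Z) *
      (49 / 60000) + 634 * (568 / 10000) * (343 / 1000000) ≤ K) :
    -y * M + P2 y * (1 * M ^ 2 / 2) + gP x y * (M ^ 3 / 6) + 634 * A ≤ M * K := by
  have h2 : -y + P2 y * (M / 2) + gP x y * (M ^ 2 / 6) + 634 * (568 / 10000 * M ^ 3) ≤ K := by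
    refine le_trans ?_ hK
    have hM2 : 0 ≤ M ^ 2 := sq_nonneg M
    have hM2' : M ^ 2 ≤ 49 / 10000 := by nlinarith
    have a1 : -y + P2 y * (M / 2) + gP x y * (M ^ 2 / 6) ≤
        Z + (6 - 12 * Z + 5 * Z ^ 2) * (M / 2) + (-418 / 10 + 144 * X + 867 / 10 * Z) *
          (M ^ 2 / 6) := by
      rw [P2_eq]
      unfold gP
      have e : Z + (6 - 12 * Z + 5 * Z ^ 2) * (M / 2) + (-418 / 10 + 144 * X + 867 / 10 * Z) *
          (M ^ 2 / 6) - (-y + (6 + 12 * y + 5 * y ^ 2) * (M / 2) +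
          (-418 / 10 + 144 * x - 867 / 10 * y) * (M ^ 2 / 6)) =
          (y + Z) * (1 - (12 + 5 * (y - Z)) * (M / 2)) + (X - x) * (24 * M ^ 2) +
          (y + Z) * (867 / 60 * M ^ 2) := by ring
      have h3 : 0 ≤ 1 - (12 + 5 * (y - Z)) * (M / 2) := by nlinarith
      have k1 := mul_nonneg (by linarith : 0 ≤ y + Z) h3
      have k2 := mul_nonneg (by linarith : 0 ≤ X - x) (by linarith : 0 ≤ 24 * M ^ 2)
      have k3 := mul_nonneg (by linarith : 0 ≤ y + Z) (by linarith : 0 ≤ 867 / 60 * M ^ 2)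
      linarith
    have a2 : (6 - 12 * Z + 5 * Z ^ 2) * (M / 2) + (-418 / 10 + 144 * X + 867 / 10 * Z) *
          (M ^ 2 / 6) ≤ (6 - 12 * Z + 5 * Z ^ 2) * (7 / 200) +
          (-418 / 10 + 144 * X + 867 / 10 * Z) * (49 / 60000) := by
      have e : (6 - 12 * Z + 5 * Z ^ 2) * (7 / 200) +
          (-418 / 10 + 144 * X + 867 / 10 * Z) * (49 / 60000) -
          ((6 - 12 * Z + 5 * Z ^ 2) * (M / 2) + (-418 / 10 + 144 * X + 867 / 10 * Z) *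
          (M ^ 2 / 6)) = (7 / 100 - M) * ((6 - 12 * Z + 5 * Z ^ 2) / 2 +
          (-418 / 10 + 144 * X + 867 / 10 * Z) * ((7 / 100 + M) / 6)) := by ring
      have h3 : -42 ≤ -418 / 10 + 144 * X + 867 / 10 * Z := by linarith
      have h4 : -42 * ((7 / 100 + M) / 6) ≤ (-418 / 10 + 144 * X + 867 / 10 * Z) *
        ((7 / 100 + M) / 6) := mul_le_mul_of_nonneg_right h3 (by linarith)
      have h5 : 5 ≤ 6 - 12 * Z + 5 * Z ^ 2 := by nlinarith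
      have := mul_nonneg (by linarith : 0 ≤ 7 / 100 - M) (by linarith : 0 ≤
        (6 - 12 * Z + 5 * Z ^ 2) / 2 +
          (-418 / 10 + 144 * X + 867 / 10 * Z) * ((7 / 100 + M) / 6))
      linarith
    have a3 : M ^ 3 ≤ 343 / 1000000 := by
      calc M ^ 3 ≤ (7 / 100) ^ 3 := pow_le_pow_left₀ hM hM0 3
        _ = 343 / 1000000 := by norm_num
    linarith
  have h3 := mul_le_mul_of_nonneg_left h2 hM
  have e : M * (-y + P2 y * (M / 2) + gP x y * (M ^ 2 / 6) + 634 * (568 / 10000 * M ^ 3)) =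
    -y * M + P2 y * (1 * M ^ 2 / 2) + gP x y * (M ^ 3 / 6) + 634 * (568 / 10000 * M ^ 4) := by ring
  linarith

theorem refQ (hY : y ≤ Y) (hY1 : Y ≤ 171 / 1000) (hx : x ≤ X) (hx0 : 0 ≤ x) (hX : X ≤ 98 / 1000)
    (hy : -(83 / 1000) ≤ y) (hM : 43 / 1000 ≤ M) (hM0 : M ≤ 7 / 100)
    (hA : A ≤ 568 / 10000 * M ^ 4)
    (k0 : Y + (-6 - 12 * Y + 18 * X + 7 / 4 * Y ^ 2 - 18 * (X * Y) + 9 / 4 * X ^ 2) * (43 / 2000) +
      (82 + 120 * X - 366 / 10 * Y) * (1849 / 6000000) +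
      399 * (568 / 10000) * (43 / 1000) ^ 3 ≤ K)
    (k1 : Y + (-6 - 12 * Y + 18 * X + 7 / 4 * Y ^ 2 - 18 * (X * Y) + 9 / 4 * X ^ 2) * (7 / 200) +
      (82 + 120 * X - 366 / 10 * Y) * (49 / 60000) +
      399 * (568 / 10000) * (7 / 100) ^ 3 ≤ K) :
    y * M + Q2 x y * (1 * M ^ 2 / 2) + gQ x y * (M ^ 3 / 6) + 399 * A ≤ M * K := by
  have hM1 : 0 ≤ M := by linarith
  have h2 : y + Q2 x y * (M / 2) + gQ x y * (M ^ 2 / 6) + 399 * (568 / 10000 * M ^ 3) ≤ K := by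
    have hM2 : 0 ≤ M ^ 2 := sq_nonneg M
    have hM2' : M ^ 2 ≤ 49 / 10000 := by nlinarith
    have a1 : y + Q2 x y * (M / 2) + gQ x y * (M ^ 2 / 6) ≤
        Y + Q2 X Y * (M / 2) + gQ X Y * (M ^ 2 / 6) := by
      rw [Q2_eq, Q2_eq]
      unfold gQ
      have e : Y + (-6 - 12 * Y + 18 * X + 7 / 4 * Y ^ 2 - 18 * (X * Y) + 9 / 4 * X ^ 2) * (M / 2) +
          (820 / 10 + 120 * X - 366 / 10 * Y) * (M ^ 2 / 6) -
          (y + (-6 - 12 * y + 18 * x + 7 / 4 * y ^ 2 - 18 * (x * y) + 9 / 4 * x ^ 2) * (M / 2) +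
          (820 / 10 + 120 * x - 366 / 10 * y) * (M ^ 2 / 6)) =
          (X - x) * (18 - 18 * Y + 9 / 4 * (X + x)) * (M / 2) + (X - x) * (20 * M ^ 2) +
          (Y - y) * (1 - (12 + 18 * x - 7 / 4 * (Y + y)) * (M / 2) - 61 / 10 * M ^ 2) := by ring
      have c1 : 0 ≤ (X - x) * (18 - 18 * Y + 9 / 4 * (X + x)) * (M / 2) :=
        mul_nonneg (mul_nonneg (by linarith) (by linarith)) (by linarith)
      have c2 : 0 ≤ 1 - (12 + 18 * x - 7 / 4 * (Y + y)) * (M / 2) - 61 / 10 * M ^ 2 := by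
        nlinarith
      have k1 := mul_nonneg (by linarith : 0 ≤ Y - y) c2
      have k2 := mul_nonneg (by linarith : 0 ≤ X - x) (by linarith : 0 ≤ 20 * M ^ 2)
      linarith
    have a4 := conv (M := M) (a := Q2 X Y / 2) (b := gQ X Y / 6) (c := 399 * (568 / 10000))
      (K := K - Y) (by unfold gQ; linarith) (by norm_num) hM hM0
      (by rw [Q2_eq]; unfold gQ; linarith) (by rw [Q2_eq]; unfold gQ; linarith)
    linarith
  have h3 := mul_le_mul_of_nonneg_left h2 hM1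
  have e : M * (y + Q2 x y * (M / 2) + gQ x y * (M ^ 2 / 6) + 399 * (568 / 10000 * M ^ 3)) =
    y * M + Q2 x y * (1 * M ^ 2 / 2) + gQ x y * (M ^ 3 / 6) + 399 * (568 / 10000 * M ^ 4) := by
    ring
  linarith

theorem refV (hZ : -Z ≤ y) (hZ0 : 0 ≤ Z) (hZ1 : Z ≤ 83 / 1000) (hx : x ≤ X) (hx0 : 0 ≤ x)
    (hX : X ≤ 98 / 1000) (hy : y ≤ 171 / 1000) (hM : 0 ≤ M) (hM0 : M ≤ 7 / 100)
    (hA : A ≤ 568 / 10000 * M ^ 4)
    (hK : X + (4 + 8 * Z + 22 / 5 * Z ^ 2 + 43 / 10 * X - 86 / 5 * (X * Z) + 73 / 2 * X ^ 2) *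
      (7 / 200) + (31 + 162 * X - 225 / 10 * Z) * (49 / 60000) +
      314 * (568 / 10000) * (343 / 1000000) ≤ K) :
    x * M + V2 x y * (1 * M ^ 2 / 2) + gV x y * (M ^ 3 / 6) + 314 * A ≤ M * K := by
  have h2 : x + V2 x y * (M / 2) + gV x y * (M ^ 2 / 6) + 314 * (568 / 10000 * M ^ 3) ≤ K := by
    refine le_trans ?_ hK
    have hM2 : 0 ≤ M ^ 2 := sq_nonneg M
    have hM2' : M ^ 2 ≤ 49 / 10000 := by nlinarith
    have a1 : V2 x y * (M / 2) + gV x y * (M ^ 2 / 6) ≤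
        V2 X (-Z) * (M / 2) + gV X (-Z) * (M ^ 2 / 6) := by
      rw [V2_eq, V2_eq]
      unfold gV
      have e : (4 - 8 * (-Z) + 22 / 5 * (-Z) ^ 2 + 43 / 10 * X + 86 / 5 * X * (-Z) +
          73 / 2 * X ^ 2) * (M / 2) + (31 + 162 * X + 225 / 10 * (-Z)) * (M ^ 2 / 6) -
          ((4 - 8 * y + 22 / 5 * y ^ 2 + 43 / 10 * x + 86 / 5 * x * y + 73 / 2 * x ^ 2) * (M / 2) +
          (31 + 162 * x + 225 / 10 * y) * (M ^ 2 / 6)) =
          (X - x) * (43 / 10 + 86 / 5 * y + 73 / 2 * (X + x)) * (M / 2) + (X - x) * (27 * M ^ 2) +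
          (y + Z) * (M * (4 - 11 / 5 * (y - Z) - 43 / 5 * X - 15 / 4 * M)) := by ring
      have c1 : 0 ≤ (X - x) * (43 / 10 + 86 / 5 * y + 73 / 2 * (X + x)) * (M / 2) :=
        mul_nonneg (mul_nonneg (by linarith) (by linarith)) (by linarith)
      have c2 := mul_nonneg (by linarith : 0 ≤ X - x) (by linarith : 0 ≤ 27 * M ^ 2)
      have c3 := mul_nonneg (by linarith : 0 ≤ y + Z) (mul_nonneg hM
        (by linarith : 0 ≤ 4 - 11 / 5 * (y - Z) - 43 / 5 * X - 15 / 4 * M))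
      linarith
    have a2 : V2 X (-Z) * (M / 2) ≤ V2 X (-Z) * (7 / 200) :=
      mul_le_mul_of_nonneg_left (by linarith) (V2_corner hZ0 (by linarith) (by linarith))
    have a3 : gV X (-Z) * (M ^ 2 / 6) ≤ gV X (-Z) * (49 / 60000) :=
      mul_le_mul_of_nonneg_left (by linarith) (by unfold gV; linarith)
    have a5 : M ^ 3 ≤ 343 / 1000000 := by
      calc M ^ 3 ≤ (7 / 100) ^ 3 := pow_le_pow_left₀ hM hM0 3
        _ = 343 / 1000000 := by norm_num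
    have a4 : V2 X (-Z) = 4 + 8 * Z + 22 / 5 * Z ^ 2 + 43 / 10 * X - 86 / 5 * (X * Z) +
        73 / 2 * X ^ 2 := by
      rw [V2_eq]; ring
    have a6 : gV X (-Z) = 31 + 162 * X - 225 / 10 * Z := by unfold gV; ring
    rw [a4, a6] at a1
    rw [a4] at a2
    rw [a6] at a3
    linarith
  have h3 := mul_le_mul_of_nonneg_left h2 hM
  have e : M * (x + V2 x y * (M / 2) + gV x y * (M ^ 2 / 6) + 314 * (568 / 10000 * M ^ 3)) =
    x * M + V2 x y * (1 * M ^ 2 / 2) + gV x y * (M ^ 3 / 6) + 314 * (568 / 10000 * M ^ 4) := by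
    ring
  linarith

/-- the final decrease -/
theorem refU (hY : y ≤ Y) (hY1 : Y ≤ 171 / 1000) (hx : x ≤ X) (hx0 : 0 ≤ x) (hX : X ≤ 98 / 1000)
    (hy : -(83 / 1000) ≤ y) (hM : 43 / 1000 ≤ M) (hM0 : M ≤ 7 / 100)
    (hA : A ≤ 568 / 10000 * M ^ 4)
    (k0 : (-1 + 4 * Y + 5 * X + 5 / 2 * Y ^ 2 - 5 * X * Y + 17 / 2 * X ^ 2) / 2 +
      (-7 / 10 + 107 * X - 724 / 10 * Y) * (43 / 6000) +
      352 * (568 / 10000) * (43 / 1000) ^ 2 ≤ K)
    (k1 : (-1 + 4 * Y + 5 * X + 5 / 2 * Y ^ 2 - 5 * X * Y + 17 / 2 * X ^ 2) / 2 +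
      (-7 / 10 + 107 * X - 724 / 10 * Y) * (7 / 600) +
      352 * (568 / 10000) * (7 / 100) ^ 2 ≤ K) :
    M + U2 x y * (1 * M ^ 2 / 2) + gU x y * (M ^ 3 / 6) + 352 * A ≤ M + M ^ 2 * K := by
  have h2 : U2 x y / 2 + gU x y * (M / 6) + 352 * (568 / 10000 * M ^ 2) ≤ K := by
    have a1 : U2 x y / 2 + gU x y * (M / 6) ≤ U2 X Y / 2 + gU X Y * (M / 6) := by
      rw [U2_eq, U2_eq]
      unfold gU
      have e : (-1 + 4 * Y + 5 * X + 5 / 2 * Y ^ 2 - 5 * X * Y + 17 / 2 * X ^ 2) / 2 +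
          (-7 / 10 + 107 * X - 724 / 10 * Y) * (M / 6) -
          ((-1 + 4 * y + 5 * x + 5 / 2 * y ^ 2 - 5 * x * y + 17 / 2 * x ^ 2) / 2 +
          (-7 / 10 + 107 * x - 724 / 10 * y) * (M / 6)) =
          (X - x) * (5 / 2 - 5 / 2 * Y + 17 / 4 * (X + x) + 107 / 6 * M) +
          (Y - y) * (2 + 5 / 4 * (Y + y) - 5 / 2 * x - 724 / 60 * M) := by ring
      have k2 := mul_nonneg (by linarith : 0 ≤ X - x)
        (by linarith : 0 ≤ 5 / 2 - 5 / 2 * Y + 17 / 4 * (X + x) + 107 / 6 * M)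
      have k3 := mul_nonneg (by linarith : 0 ≤ Y - y)
        (by linarith : 0 ≤ 2 + 5 / 4 * (Y + y) - 5 / 2 * x - 724 / 60 * M)
      linarith
    have a4 := conv (M := M) (a := gU X Y / 6) (b := 352 * (568 / 10000)) (c := 0)
      (K := K - U2 X Y / 2) (by norm_num) le_rfl hM hM0
      (by rw [U2_eq]; unfold gU; linarith) (by rw [U2_eq]; unfold gU; linarith)
    linarith
  have h3 := mul_le_mul_of_nonneg_left h2 (sq_nonneg M)
  have e : M ^ 2 * (U2 x y / 2 + gU x y * (M / 6) + 352 * (568 / 10000 * M ^ 2)) =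
    U2 x y * (1 * M ^ 2 / 2) + gU x y * (M ^ 3 / 6) + 352 * (568 / 10000 * M ^ 4) := by ring
  linarith

end

end Vale.Agent.P154.Loc
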