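import Vale.Agent.P154.LocKer
import Vale.Agent.P154.RecTree

/-!
# P154, three states, antiferromagnetic side: inequalities between functionals of experiments
-/

namespace Vale.Agent.P154.Loc

open Finset Vale.Agent.P154 Vale.Agent.P154.Up

/-- total of a density over an experiment -/
noncomputable def fn (F : ℝ → ℝ → ℝ → ℝ) {X : Type*} [Fintype X] (u : X → Fin 3 → ℝ) : ℝ :=
  ∑ x, F (u x 0) (u x 1) (u x 2)

/-- nonnegative normalised symmetric experiment -/
structure NExp {X : Type*} [Fintype X] (u : X → Fin 3 → ℝ) : Prop where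
  nonneg : ∀ x i, 0 ≤ u x i
  sum : ∀ i, ∑ x, u x i = 1
  sym : SymExp u

/-- a message: no posterior probability above one half -/
structure MExp {X : Type*} [Fintype X] (u : X → Fin 3 → ℝ) : Prop extends NExp u where
  half : ∀ x i, u x i ≤ 1 / 2 * (u x 0 + u x 1 + u x 2)

section
variable {X Y : Type*} [Fintype X] [Fintype Y] {u : X → Fin 3 → ℝ} {v : Y → Fin 3 → ℝ}

theorem NExp.n3 (h : NExp u) (x : X) : N3 (u x 0) (u x 1) (u x 2) :=
  ⟨h.nonneg x 0, h.nonneg x 1, h.nonneg x 2⟩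

theorem MExp.m3 (h : MExp u) (x : X) : M3 (u x 0) (u x 1) (u x 2) :=
  ⟨h.toNExp.n3 x, h.half x 0, h.half x 1, h.half x 2⟩

theorem NExp.fn_wD (h : NExp u) : fn wD u = 1 := by
  unfold fn wD
  rw [← Finset.sum_div, Finset.sum_add_distrib, Finset.sum_add_distrib, h.sum, h.sum, h.sum]
  norm_num

theorem fn_equiv (F : ℝ → ℝ → ℝ → ℝ) (e : X ≃ Y) (v : Y → Fin 3 → ℝ) :
    fn F (fun x => v (e x)) = fn F v :=
  Equiv.sum_comp e (fun y => F (v y 0) (v y 1) (v y 2))

theorem sum_sym6 (hv : SymExp v) (F : ℝ → ℝ → ℝ → ℝ) :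
    ∑ y, F (v y 0) (v y 1) (v y 2) = ∑ y, 1 / 6 * (F (v y 0) (v y 1) (v y 2) +
      F (v y 1) (v y 0) (v y 2) + F (v y 2) (v y 1) (v y 0) + F (v y 0) (v y 2) (v y 1) +
      F (v y 1) (v y 2) (v y 0) + F (v y 2) (v y 0) (v y 1)) := by
  have key : ∀ g : Equiv.Perm (Fin 3),
      ∑ y, F (v y (g 0)) (v y (g 1)) (v y (g 2)) = ∑ y, F (v y 0) (v y 1) (v y 2) := by
    intro g
    obtain ⟨e, he⟩ := hv g
    rw [← Equiv.sum_comp e (fun y => F (v y 0) (v y 1) (v y 2))]
    simp_rw [he]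
  have k1 := key (finRotate 3)
  have k2 := key ((finRotate 3) * (finRotate 3))
  have k3 := key (Equiv.swap 1 2)
  have k4 := key (Equiv.swap 0 2)
  have k5 := key (Equiv.swap 0 1)
  have r0 : (finRotate 3) 0 = 1 := by decide
  have r1 : (finRotate 3) 1 = 2 := by decide
  have r2 : (finRotate 3) 2 = 0 := by decide
  have q0 : (Equiv.swap (1 : Fin 3) 2) 0 = 0 := by decide
  have q1 : (Equiv.swap (1 : Fin 3) 2) 1 = 2 := by decide
  have q2 : (Equiv.swap (1 : Fin 3) 2) 2 = 1 := by decide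
  have s0 : (Equiv.swap (0 : Fin 3) 2) 0 = 2 := by decide
  have s1 : (Equiv.swap (0 : Fin 3) 2) 1 = 1 := by decide
  have s2 : (Equiv.swap (0 : Fin 3) 2) 2 = 0 := by decide
  have t0 : (Equiv.swap (0 : Fin 3) 1) 0 = 1 := by decide
  have t1 : (Equiv.swap (0 : Fin 3) 1) 1 = 0 := by decide
  have t2 : (Equiv.swap (0 : Fin 3) 1) 2 = 2 := by decide
  simp only [Equiv.Perm.mul_apply, r0, r1, r2, q0, q1, q2, s0, s1, s2, t0, t1, t2] at k1 k2 k3 k4 k5
  rw [← Finset.mul_sum]
  simp only [Finset.sum_add_distrib]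
  linarith

theorem fn_prod (F : ℝ → ℝ → ℝ → ℝ) (hv : SymExp v) : fn F (prodExp u v) =
    ∑ x, ∑ y, av F (u x 0) (u x 1) (u x 2) (v y 0) (v y 1) (v y 2) := by
  unfold fn
  rw [Fintype.sum_prod_type]
  refine Finset.sum_congr rfl fun x _ => ?_
  have := sum_sym6 hv (fun a b c => F (u x 0 * a) (u x 1 * b) (u x 2 * c))
  simp only [prodExp]
  rw [this]
  refine Finset.sum_congr rfl fun y _ => ?_
  unfold av
  ring

theorem fn_mul (F G : ℝ → ℝ → ℝ → ℝ) : fn F u * fn G v =
    ∑ x, ∑ y, F (u x 0) (u x 1) (u x 2) * G (v y 0) (v y 1) (v y 2) := by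
  unfold fn
  rw [Finset.sum_mul_sum]

theorem fn_left (F : ℝ → ℝ → ℝ → ℝ) (hv : NExp v) : fn F u =
    ∑ x, ∑ y, F (u x 0) (u x 1) (u x 2) * wD (v y 0) (v y 1) (v y 2) := by
  rw [← fn_mul, hv.fn_wD, mul_one]

theorem fn_right (F : ℝ → ℝ → ℝ → ℝ) (hu : NExp u) : fn F v =
    ∑ x, ∑ y, wD (u x 0) (u x 1) (u x 2) * F (v y 0) (v y 1) (v y 2) := by
  rw [← fn_mul, hu.fn_wD, one_mul]

/-- expand a bilinear expression of functionals as a double sum -/
theorem e_ru (hu : NExp u) (hv : MExp v) : fn gr (prodExp u v) ≤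
    bru (fn gr u) (fn gt u) (fn gR u) (fn gr v) (fn gt v) (fn gR v) := by
  rw [fn_prod gr hv.sym]
  refine (Finset.sum_le_sum fun x _ => Finset.sum_le_sum fun y _ =>
    h_ru (hu.n3 x) (hv.m3 y)).trans (le_of_eq ?_)
  unfold bru
  simp only [fn_mul]
  rw [fn_left gr hv.toNExp (u := u), fn_right gr hu (v := v)]
  simp only [Finset.mul_sum, ← Finset.sum_add_distrib, ← Finset.sum_sub_distrib]
  refine Finset.sum_congr rfl fun x _ => Finset.sum_congr rfl fun y _ => ?_
  ring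

theorem e_rl (hu : NExp u) (hv : MExp v) :
    brl (fn gr u) (fn gt u) (fn gr v) (fn gt v) ≤ fn gr (prodExp u v) := by
  rw [fn_prod gr hv.sym]
  refine le_trans (le_of_eq ?_) (Finset.sum_le_sum fun x _ => Finset.sum_le_sum fun y _ =>
    h_rl (hu.n3 x) (hv.m3 y))
  unfold brl
  simp only [fn_mul]
  rw [fn_left gr hv.toNExp (u := u), fn_right gr hu (v := v)]
  simp only [Finset.mul_sum, ← Finset.sum_add_distrib, ← Finset.sum_sub_distrib]
  refine Finset.sum_congr rfl fun x _ => Finset.sum_congr rfl fun y _ => ?_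
  ring

theorem e_tu (hu : NExp u) (hv : MExp v) : fn gt (prodExp u v) ≤
    btu (fn gr u) (fn gt u) (fn gr v) (fn gt v) := by
  rw [fn_prod gt hv.sym]
  refine (Finset.sum_le_sum fun x _ => Finset.sum_le_sum fun y _ =>
    h_tu (hu.n3 x) (hv.m3 y)).trans (le_of_eq ?_)
  unfold btu
  simp only [fn_mul]
  rw [fn_left gt hv.toNExp (u := u), fn_right gt hu (v := v)]
  simp only [Finset.mul_sum, ← Finset.sum_add_distrib, ← Finset.sum_sub_distrib]
  refine Finset.sum_congr rfl fun x _ => Finset.sum_congr rfl fun y _ => ?_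
  ring

theorem e_tl (hu : NExp u) (hv : MExp v) : - fn gt (prodExp u v) ≤
    btl (fn gr u) (fn gt u) (fn gR u) (fn gr v) (fn gt v) (fn gR v) := by
  rw [fn_prod gt hv.sym]
  simp only [← Finset.sum_neg_distrib]
  refine (Finset.sum_le_sum fun x _ => Finset.sum_le_sum fun y _ =>
    h_tl (hu.n3 x) (hv.m3 y)).trans (le_of_eq ?_)
  unfold btl
  simp only [fn_mul]
  rw [fn_left gt hv.toNExp (u := u), fn_right gt hu (v := v)]
  simp only [Finset.mul_sum, ← Finset.sum_neg_distrib, ← Finset.sum_add_distrib,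
    ← Finset.sum_sub_distrib]
  refine Finset.sum_congr rfl fun x _ => Finset.sum_congr rfl fun y _ => ?_
  ring

theorem e_Ru (hu : NExp u) (hv : MExp v) : fn gR (prodExp u v) ≤
    bRu (fn gr u) (fn gt u) (fn gR u) (fn gr v) (fn gt v) (fn gR v) := by
  rw [fn_prod gR hv.sym]
  refine (Finset.sum_le_sum fun x _ => Finset.sum_le_sum fun y _ =>
    h_Ru (hu.n3 x) (hv.m3 y)).trans (le_of_eq ?_)
  unfold bRu
  simp only [fn_mul]
  rw [fn_left gR hv.toNExp (u := u), fn_right gR hu (v := v)]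
  simp only [Finset.mul_sum, ← Finset.sum_add_distrib, ← Finset.sum_sub_distrib]
  refine Finset.sum_congr rfl fun x _ => Finset.sum_congr rfl fun y _ => ?_
  ring

/-- the relations between the functionals -/
theorem NExp.pf (hu : NExp u) : PF 1 (fn gr u) (fn gt u) (fn gR u) := by
  have h := fun x => pf_of (hu.n3 x)
  have hw := hu.fn_wD
  unfold fn at hw
  refine ⟨Finset.sum_nonneg fun x _ => (h x).r0, ?_, Finset.sum_nonneg fun x _ => (h x).R0, ?_, ?_,
    ?_, ?_, ?_, ?_⟩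
  · rw [← hw]
    exact Finset.sum_le_sum fun x _ => (h x).rD
  · exact Finset.sum_le_sum fun x _ => (h x).Rr
  · exact Finset.sum_le_sum fun x _ => (h x).tr
  · unfold fn
    rw [Finset.sum_div, ← Finset.sum_neg_distrib]
    exact Finset.sum_le_sum fun x _ => (h x).tl
  · unfold fn
    rw [Finset.mul_sum, ← Finset.sum_sub_distrib]
    exact Finset.sum_le_sum fun x _ => (h x).tR
  · intro l
    unfold fn
    rw [Finset.mul_sum, Finset.mul_sum, ← Finset.sum_add_distrib]
    exact Finset.sum_le_sum fun x _ => (h x).cs l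
  · intro l
    rw [← hw]
    unfold fn
    rw [Finset.mul_sum, Finset.mul_sum, ← Finset.sum_sub_distrib]
    exact Finset.sum_le_sum fun x _ => (h x).jen l

theorem fn_gr_eq (u : X → Fin 3 → ℝ) : fn gr u = Mfun u := by
  rw [Mfun_eq_Gfun (by norm_num)]
  refine Finset.sum_congr rfl fun x _ => ?_
  unfold gr Gfun
  simp only [Fin.sum_univ_three]
  unfold wn wD
  push_cast
  by_cases h : u x 0 + u x 1 + u x 2 = 0
  · rw [h]; simp
  · field_simp
    ring

/-! ### the channel -/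

theorem chan3 (lam : ℝ) (x : X) (i : Fin 3) :
    chan lam u x i = lam * u x i + (1 - lam) * wD (u x 0) (u x 1) (u x 2) := by
  rw [chan_eq]
  unfold mass wD
  rw [Fin.sum_univ_three]
  push_cast
  ring

theorem wD_chan (lam : ℝ) (x : X) :
    wD (chan lam u x 0) (chan lam u x 1) (chan lam u x 2) = wD (u x 0) (u x 1) (u x 2) := by
  rw [chan3, chan3, chan3]
  unfold wD
  ring

theorem wn_chan (lam : ℝ) (x : X) :
    wn (chan lam u x 0) (chan lam u x 1) (chan lam u x 2) =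
      lam ^ 2 * wn (u x 0) (u x 1) (u x 2) := by
  rw [chan3, chan3, chan3]
  unfold wn wD
  ring

theorem wt_chan (lam : ℝ) (x : X) :
    wt (chan lam u x 0) (chan lam u x 1) (chan lam u x 2) =
      lam ^ 3 * wt (u x 0) (u x 1) (u x 2) := by
  rw [chan3, chan3, chan3]
  unfold wt wn wD
  ring

theorem fn_gr_chan (lam : ℝ) : fn gr (chan lam u) = lam ^ 2 * fn gr u := by
  unfold fn
  rw [Finset.mul_sum]
  refine Finset.sum_congr rfl fun x _ => ?_
  unfold gr
  rw [wD_chan, wn_chan]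
  ring

theorem fn_gt_chan (lam : ℝ) : fn gt (chan lam u) = lam ^ 3 * fn gt u := by
  unfold fn
  rw [Finset.mul_sum]
  refine Finset.sum_congr rfl fun x _ => ?_
  unfold gt
  rw [wD_chan, wt_chan]
  ring

theorem fn_gR_chan (lam : ℝ) : fn gR (chan lam u) = lam ^ 4 * fn gR u := by
  unfold fn
  rw [Finset.mul_sum]
  refine Finset.sum_congr rfl fun x _ => ?_
  unfold gR
  rw [wD_chan, wn_chan]
  ring

theorem sym_chan (lam : ℝ) (hu : SymExp u) : SymExp (chan lam u) := by
  intro g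
  obtain ⟨e, he⟩ := hu g
  refine ⟨e, fun x i => ?_⟩
  rw [chan_eq, chan_eq, he]
  congr 2
  unfold mass
  congr 1
  simp_rw [he]
  exact Equiv.sum_comp g (fun i => u x i)

theorem NExp.chan {κ : ℝ} (h0 : 0 ≤ κ) (h1 : κ ≤ 1 / 2) (hu : NExp u) : MExp (chan (-κ) u) := by
  have tot : ∀ x, ∀ i, u x i ≤ 3 * wD (u x 0) (u x 1) (u x 2) := by
    intro x i
    have := hu.nonneg x 0; have := hu.nonneg x 1; have := hu.nonneg x 2
    unfold wD
    fin_cases i <;> simp <;> linarith
  have wp : ∀ x, 0 ≤ wD (u x 0) (u x 1) (u x 2) := fun x => by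
    have := hu.nonneg x 0; have := hu.nonneg x 1; have := hu.nonneg x 2
    unfold wD; positivity
  refine ⟨⟨?_, ?_, sym_chan _ hu.sym⟩, ?_⟩
  · intro x i
    rw [chan3]
    have h2 := tot x i
    have h3 := wp x
    nlinarith [hu.nonneg x i]
  · intro i
    unfold Up.chan
    rw [Finset.sum_comm]
    simp_rw [← Finset.mul_sum, hu.sum, mul_one]
    exact sum_potts (by omega) _ i
  · intro x i
    have h4 : Up.chan (-κ) u x 0 + Up.chan (-κ) u x 1 + Up.chan (-κ) u x 2 =
        3 * wD (u x 0) (u x 1) (u x 2) := by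
      rw [← wD_chan (u := u) (-κ) x]
      unfold wD
      ring
    rw [h4, chan3]
    have h3 := wp x
    nlinarith [hu.nonneg x i, mul_nonneg h0 (hu.nonneg x i)]

end

end Vale.Agent.P154.Loc
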