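import Vale.Agent.P154.LocSeq

/-!
# P154, three states, antiferromagnetic side: the final inequalities
-/

namespace Vale.Agent.P154.Loc

section
variable {x y : ℝ}

theorem U2_ge (h : Om x y) : -2 ≤ U2 x y := by
  have h0 := h.x0; have h1 := h.a; have h2 := h.b; have h3 := h.c; have h5 := h.y1
  rw [U2_eq]
  nlinarith [sq_nonneg y, mul_nonneg h0 h0, mul_nonneg h0 (by linarith : 0 ≤ 1 / 2 - y)]

theorem U2_le (h : Om x y) : U2 x y ≤ 4 := by
  have h0 := h.x0; have h1 := h.a; have h2 := h.b; have h3 := h.c; have h5 := h.y1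
  rw [U2_eq]
  nlinarith [sq_nonneg y, mul_nonneg h0 (by linarith : 0 ≤ 1 / 4 - x),
    mul_nonneg h0 (by linarith : 0 ≤ y + 1 / 4)]

theorem P2_ge (y : ℝ) : 6 + 12 * y ≤ P2 y := by
  rw [P2_eq]; nlinarith [sq_nonneg y]

/-- the mixed term -/
noncomputable def gg (M u v y : ℝ) : ℝ := M * (v * (1 + M * u) - u * y)

theorem pos_aux {u v y a : ℝ} (c1 : -1 ≤ u) (c2 : u ≤ 3) (c3 : 3 / 4 ≤ v)
    (c4 : 3 / 2 + 3 * y ≤ v) (hy : -(1 / 4) ≤ y) (ha : 0 ≤ a) (ha' : a ≤ 4 / 25) :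
    0 ≤ v * (1 + a * u) - u * y := by
  rcases le_total 0 u with hu' | hu'
  · have d1 : 0 ≤ v * (a * u) := mul_nonneg (by linarith) (mul_nonneg ha hu')
    rcases le_total 0 y with hy' | hy'
    · have := mul_nonneg hy' (sub_nonneg.2 c2)
      linarith
    · have := mul_nonneg hu' (neg_nonneg.2 hy')
      linarith
  · have d0 : 0 ≤ a * (u + 1) := mul_nonneg ha (by linarith)
    have d1 : 21 / 25 ≤ 1 + a * u := by linarith
    have d2 : 3 / 4 * (21 / 25) ≤ v * (1 + a * u) :=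
      mul_le_mul c3 d1 (by norm_num) (by linarith)
    rcases le_total 0 y with hy' | hy'
    · have := mul_nonneg (neg_nonneg.2 hu') hy'
      linarith
    · have := mul_nonneg (neg_nonneg.2 hy') (by linarith : 0 ≤ u + 1)
      linarith

theorem red_aux1 {u0 v0 U P y M E η : ℝ} (k1 : -1 ≤ u0) (k4 : 0 ≤ v0) (hU : 0 ≤ U) (hP : 0 ≤ P)
    (hUP : 1 / 2 * U ≤ 23 / 25 * P) (h5 : y ≤ 1 / 2) (hM : 0 ≤ M) (hM' : M ≤ 2 / 25)
    (hE : 0 ≤ E) (hη : E ≤ η) :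
    gg M (u0 + E * U) (v0 + E * P) y ≤ gg M (u0 + η * U) (v0 + η * P) y := by
  have e : gg M (u0 + η * U) (v0 + η * P) y - gg M (u0 + E * U) (v0 + E * P) y =
      M * (η - E) * (P * (1 + M * u0) + M * v0 * U - y * U + M * (η + E) * (P * U)) := by
    unfold gg; ring
  have hη0 : 0 ≤ η := hE.trans hη
  have b1 : 0 ≤ M * (η + E) * (P * U) := by positivity
  have b2 : 0 ≤ M * v0 * U := by positivity
  have b0 : 0 ≤ M * (u0 + 1) := mul_nonneg hM (by linarith)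
  have b4 : P * (23 / 25) ≤ P * (1 + M * u0) := mul_le_mul_of_nonneg_left (by linarith) hP
  have b5 : y * U ≤ 1 / 2 * U := mul_le_mul_of_nonneg_right h5 hU
  have := mul_nonneg (mul_nonneg hM (sub_nonneg.2 hη)) (by linarith : 0 ≤ P * (1 + M * u0) +
    M * v0 * U - y * U + M * (η + E) * (P * U))
  linarith

theorem red_aux2 {u v y M m : ℝ} (c1 : -1 ≤ u) (c2 : u ≤ 3) (c3 : 3 / 4 ≤ v)
    (c4 : 3 / 2 + 3 * y ≤ v) (hy : -(1 / 4) ≤ y) (hM : 0 ≤ M) (hm : M ≤ m) (hm' : m ≤ 2 / 25) :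
    gg M u v y ≤ gg m u v y := by
  have e : gg m u v y - gg M u v y = (m - M) * (v * (1 + (m + M) * u) - u * y) := by
    unfold gg; ring
  have := mul_nonneg (sub_nonneg.2 hm) (pos_aux c1 c2 c3 c4 hy (by linarith : 0 ≤ m + M)
    (by linarith))
  linarith

theorem red {θ m η M E : ℝ} (h : Om x y) (hθ : 1 / 2 ≤ θ) (hθ' : θ ≤ 1) (hM : 0 ≤ M) (hm : M ≤ m)
    (hm' : m ≤ 2 / 25) (hE : 0 ≤ E) (hη : E ≤ η) (hη' : η ≤ 1 / 80) :
    0 ≤ (θ * P2 y / 2 + E * P3 x) * (1 + M * (θ * U2 x y / 2 + E * U3 x)) -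
      (θ * U2 x y / 2 + E * U3 x) * y ∧
    gg M (θ * U2 x y / 2 + E * U3 x) (θ * P2 y / 2 + E * P3 x) y ≤
      gg m (θ * U2 x y / 2 + η * U3 x) (θ * P2 y / 2 + η * P3 x) y := by
  have h0 := h.x0; have h2 := h.b; have h3 := h.c; have h5 := h.y1
  have u1 := U2_ge h
  have u2 := U2_le h
  have p1 := P2_ge y
  have hθ0 : 0 ≤ θ := by linarith
  have k1 : -1 ≤ θ * U2 x y / 2 := by
    have := mul_le_mul_of_nonneg_left u1 hθ0
    linarith
  have k2 : θ * U2 x y / 2 ≤ 2 := by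
    have := mul_le_mul_of_nonneg_left u2 hθ0
    linarith
  have k3 : 3 / 2 + 3 * y ≤ θ * P2 y / 2 := by
    have := mul_le_mul_of_nonneg_right hθ (by linarith : 0 ≤ P2 y)
    linarith
  have k4 : 3 / 4 ≤ θ * P2 y / 2 := by linarith
  have hU3 : U3 x = 86 / 10 + 260 * x := rfl
  have hP3 : P3 x = 19 + 320 * x := rfl
  have hU3a : 0 ≤ U3 x := by rw [hU3]; linarith
  have hU3b : U3 x ≤ 736 / 10 := by rw [hU3]; linarith
  have hP3a : 0 ≤ P3 x := by rw [hP3]; linarith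
  have hUP : 1 / 2 * U3 x ≤ 23 / 25 * P3 x := by rw [hU3, hP3]; linarith
  have bd : ∀ e : ℝ, 0 ≤ e → e ≤ 1 / 80 → 0 ≤ e * U3 x ∧ e * U3 x ≤ 1 ∧ 0 ≤ e * P3 x := by
    intro e he he'
    refine ⟨mul_nonneg he hU3a, ?_, mul_nonneg he hP3a⟩
    calc e * U3 x ≤ 1 / 80 * (736 / 10) := mul_le_mul he' hU3b hU3a (by norm_num)
      _ ≤ 1 := by norm_num
  obtain ⟨b1, b2, b3⟩ := bd E hE (hη.trans hη')
  obtain ⟨b4, b5, b6⟩ := bd η (hE.trans hη) hη'
  refine ⟨pos_aux (by linarith) (by linarith) (by linarith) (by linarith) h3 hM (by linarith), ?_⟩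
  exact (red_aux1 k1 (by linarith) hU3a hP3a hUP h5 hM (by linarith) hE hη).trans
    (red_aux2 (by linarith) (by linarith) (by linarith) (by linarith) h3 hM hm hm')

/-- Poisson, `m = 0.043` -/
theorem finC (h : Om x y) : (U2 x y / 2 + 103 / 10000 * U3 x) +
    13 / 100 * (V2 x y / 2 + 103 / 10000 * V3 x) - 148 / 100 * y +
    148 / 300 * gg (43 / 1000) (U2 x y / 2 + 103 / 10000 * U3 x) (P2 y / 2 + 103 / 10000 * P3 x) y +
    1 / 100 ≤ 390 / 43 * x := by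
  have h0 := h.x0; have h1 := h.a; have h2 := h.b; have h3 := h.c; have h5 := h.y1
  rw [U2_eq, V2_eq, P2_eq]
  unfold gg U3 V3 P3
  nlinarith [mul_nonneg h0 (by linarith : 0 ≤ y + 1 / 4), mul_nonneg h0 (sub_nonneg.2 h2),
    mul_nonneg h0 (sub_nonneg.2 h1), mul_nonneg (sq_nonneg y) (by linarith : 0 ≤ y + 1 / 4),
    mul_nonneg (mul_nonneg h0 h0) (by linarith : 0 ≤ y + 1 / 4), sq_nonneg (y - 1 / 12),
    mul_nonneg (mul_nonneg h0 h0) (sub_nonneg.2 h2),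
    mul_nonneg h0 (mul_nonneg (sub_nonneg.2 h1) (sub_nonneg.2 h2)),
    mul_nonneg (mul_nonneg h0 h0) (sub_nonneg.2 h5), mul_nonneg h0 (sub_nonneg.2 h5)]

/-- regular, degree four, `m = 0.07` -/
theorem finA (h : Om x y) : (3 / 4 * U2 x y / 2 + 99 / 20000 * U3 x) +
    14 / 100 * (3 / 4 * V2 x y / 2 + 99 / 20000 * V3 x) - 108 / 100 * y +
    36 / 100 * gg (7 / 100) (3 / 4 * U2 x y / 2 + 99 / 20000 * U3 x)
      (3 / 4 * P2 y / 2 + 99 / 20000 * P3 x) y + 1 / 100 ≤ 6 * x := by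
  have h0 := h.x0; have h1 := h.a; have h2 := h.b; have h3 := h.c; have h5 := h.y1
  rw [U2_eq, V2_eq, P2_eq]
  unfold gg U3 V3 P3
  nlinarith [mul_nonneg h0 (by linarith : 0 ≤ y + 1 / 4), mul_nonneg h0 (sub_nonneg.2 h2),
    mul_nonneg h0 (sub_nonneg.2 h1), mul_nonneg (sq_nonneg y) (by linarith : 0 ≤ y + 1 / 4),
    mul_nonneg (mul_nonneg h0 h0) (by linarith : 0 ≤ y + 1 / 4), sq_nonneg (y - 1 / 12),
    mul_nonneg (mul_nonneg h0 h0) (sub_nonneg.2 h2),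
    mul_nonneg h0 (mul_nonneg (sub_nonneg.2 h1) (sub_nonneg.2 h2)),
    mul_nonneg (mul_nonneg h0 h0) (sub_nonneg.2 h5), mul_nonneg h0 (sub_nonneg.2 h5)]

theorem gg_crude {M u v y : ℝ} (c1 : -1 ≤ u) (c2 : u ≤ 3) (c3 : 0 ≤ v) (hy : -(1 / 4) ≤ y)
    (hy' : y ≤ 1 / 2) (hM : 0 ≤ M) (hM' : M ≤ 23 / 1000) :
    gg M u v y ≤ M * (107 / 100 * v + 3 / 4) := by
  unfold gg
  apply mul_le_mul_of_nonneg_left _ hM
  have h1 : M * u ≤ 7 / 100 := by nlinarith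
  have h2 : v * (1 + M * u) ≤ v * (107 / 100) := mul_le_mul_of_nonneg_left (by linarith) c3
  have h3 : - (u * y) ≤ 3 / 4 := by
    rcases le_total 0 y with h | h
    · nlinarith
    · nlinarith
  linarith

/-- large degree, `m = 0.023` -/
theorem finB {θ : ℝ} (hθ : 4 / 5 ≤ θ) (hθ' : θ ≤ 1) (h : Om x y) :
    (θ * U2 x y / 2 + 8 / 1000 * U3 x) +
    13 / 100 * (θ * V2 x y / 2 + 8 / 1000 * V3 x) - 148 / 100 * θ * y +
    148 / 300 * θ * gg (23 / 1000) (θ * U2 x y / 2 + 8 / 1000 * U3 x)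
      (θ * P2 y / 2 + 8 / 1000 * P3 x) y + 1 / 100 ≤ 390 / 23 * x := by
  have h0 := h.x0; have h1 := h.a; have h2 := h.b; have h3 := h.c; have h5 := h.y1
  have u1 := U2_ge h
  have u2 := U2_le h
  have p1 := P2_ge y
  have hU3 : U3 x = 86 / 10 + 260 * x := rfl
  have hP3 : P3 x = 19 + 320 * x := rfl
  have hV3 : V3 x = 32 + 340 * x := rfl
  have hu1 : -1 ≤ θ * U2 x y / 2 + 8 / 1000 * U3 x := by rw [hU3]; nlinarith
  have hu2 : θ * U2 x y / 2 + 8 / 1000 * U3 x ≤ 3 := by rw [hU3]; nlinarith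
  have hv : 0 ≤ θ * P2 y / 2 + 8 / 1000 * P3 x := by rw [hP3]; nlinarith
  have hv' : θ * P2 y / 2 + 8 / 1000 * P3 x ≤ P2 y / 2 + 8 / 1000 * P3 x := by nlinarith
  have c1 := gg_crude hu1 hu2 hv h3 h5 (by norm_num : (0 : ℝ) ≤ 23 / 1000) le_rfl
  have c2 : θ * gg (23 / 1000) (θ * U2 x y / 2 + 8 / 1000 * U3 x)
      (θ * P2 y / 2 + 8 / 1000 * P3 x) y ≤
      23 / 1000 * (107 / 100 * (P2 y / 2 + 8 / 1000 * P3 x) + 3 / 4) := by
    have e1 : θ * gg (23 / 1000) (θ * U2 x y / 2 + 8 / 1000 * U3 x)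
      (θ * P2 y / 2 + 8 / 1000 * P3 x) y ≤ θ * (23 / 1000 * (107 / 100 * (P2 y / 2 +
        8 / 1000 * P3 x) + 3 / 4)) := mul_le_mul_of_nonneg_left (by linarith) (by linarith)
    have e2 : 0 ≤ 23 / 1000 * (107 / 100 * (P2 y / 2 + 8 / 1000 * P3 x) + 3 / 4) := by
      linarith
    nlinarith
  have c3 : θ * (U2 x y / 2 + 13 / 100 * (V2 x y / 2) - 148 / 100 * y) ≤
      -(24 / 100) * (4 / 5) + 7 * x := by
    have e1 : U2 x y / 2 + 13 / 100 * (V2 x y / 2) - 148 / 100 * y ≤ -(24 / 100) + 7 * x := by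
      rw [U2_eq, V2_eq]
      nlinarith [mul_nonneg h0 (by linarith : 0 ≤ y + 1 / 4), mul_nonneg h0 (sub_nonneg.2 h2)]
    have e2 := mul_le_mul_of_nonneg_left e1 (by linarith : 0 ≤ θ)
    nlinarith
  have c4 : 8 / 1000 * U3 x + 13 / 100 * (8 / 1000 * V3 x) ≤ 103 / 1000 + 5 / 2 * x := by
    rw [hU3, hV3]; linarith
  have c5 : P2 y / 2 + 8 / 1000 * P3 x = 3 + 6 * y + 5 / 2 * y ^ 2 + 152 / 1000 + 256 / 100 * x := by
    rw [P2_eq, hP3]; ring
  rw [c5] at c2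
  nlinarith [sq_nonneg (y - 1 / 100)]

theorem V2_ge (h : Om x y) : 0 ≤ V2 x y := by
  have h0 := h.x0; have h1 := h.a; have h2 := h.b; have h3 := h.c; have h5 := h.y1
  rw [V2_eq]
  nlinarith [mul_nonneg h0 (by linarith : 0 ≤ y + 1 / 4), sq_nonneg y,
    mul_nonneg h0 h0]

/-- admissible constants -/
structure Fin4 (θ β m η c : ℝ) : Prop where
  θ0 : 1 / 2 ≤ θ
  θ1 : θ ≤ 1
  β0 : 1 / 8 ≤ β
  β1 : β ≤ 1 / 4
  m0 : 0 < m
  m1 : m ≤ 2 / 25
  η1 : η ≤ 1 / 80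
  c0 : 0 < c
  main : ∀ x y, Om x y → (θ * U2 x y / 2 + η * U3 x) + β * (θ * V2 x y / 2 + η * V3 x) -
    2 * θ * (1 - 2 * β) * y + 2 / 3 * θ * (1 - 2 * β) * gg m (θ * U2 x y / 2 + η * U3 x)
      (θ * P2 y / 2 + η * P3 x) y + c ≤ 3 * β * x / m

theorem fin4_C : Fin4 1 (13 / 100) (43 / 1000) (103 / 10000) (1 / 100) := by
  refine ⟨by norm_num, by norm_num, by norm_num, by norm_num, by norm_num, by norm_num,
    by norm_num, by norm_num, fun x y h => ?_⟩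
  have := finC h
  rw [one_mul, one_mul, one_mul]
  have e : 3 * (13 / 100) * x / (43 / 1000) = 390 / 43 * x := by ring
  rw [e]
  linarith

theorem fin4_A : Fin4 (3 / 4) (14 / 100) (7 / 100) (99 / 20000) (1 / 100) := by
  refine ⟨by norm_num, by norm_num, by norm_num, by norm_num, by norm_num, by norm_num,
    by norm_num, by norm_num, fun x y h => ?_⟩
  have := finA h
  have e : 3 * (14 / 100) * x / (7 / 100) = 6 * x := by ring
  rw [e]
  linarith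

theorem fin4_B {θ : ℝ} (hθ : 4 / 5 ≤ θ) (hθ' : θ ≤ 1) :
    Fin4 θ (13 / 100) (23 / 1000) (8 / 1000) (1 / 100) := by
  refine ⟨by linarith, hθ', by norm_num, by norm_num, by norm_num, by norm_num,
    by norm_num, by norm_num, fun x y h => ?_⟩
  have := finB hθ hθ' h
  have e : 3 * (13 / 100) * x / (23 / 1000) = 390 / 23 * x := by ring
  rw [e]
  linarith

/-- the polynomial form of the Lyapunov function after one step -/
noncomputable def step (γ β x y u v z S : ℝ) : ℝ :=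
  (S + u * S ^ 2) * (1 + γ * (- y * S + v * S ^ 2)) + β * (x * S + z * S ^ 2)

/-- monotonicity in `S` -/
theorem step_mono {γ β x y u v z S M : ℝ} (hγ : 0 ≤ γ) (hγ' : γ ≤ 1 / 2) (hβ : 0 ≤ β)
    (hx : 0 ≤ x) (hy : -(1 / 4) ≤ y) (hy' : y ≤ 1 / 2) (hu : -1 ≤ u) (hu' : u ≤ 3) (hv : 0 ≤ v)
    (hz : 0 ≤ z) (hS : 0 ≤ S) (hSM : S ≤ M) (hM : M ≤ 2 / 25) :
    step γ β x y u v z S ≤ step γ β x y u v z M := by
  have hMS : 0 ≤ M - S := by linarith
  have e : step γ β x y u v z M - step γ β x y u v z S = (M - S) * (1 + (M + S) * u +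
      γ * (- y * (M + S) + (v - u * y) * (M ^ 2 + M * S + S ^ 2) +
        u * v * ((M + S) * (M ^ 2 + S ^ 2))) + β * (x + z * (M + S))) := by
    unfold step; ring
  have b1 : -(4 / 25) ≤ (M + S) * u := by nlinarith
  have b2 : 0 ≤ β * (x + z * (M + S)) := by
    have : 0 ≤ M + S := by linarith
    positivity
  have hQ : 0 ≤ M ^ 2 + M * S + S ^ 2 := by
    have : 0 ≤ M := by linarith
    positivity
  have hQ' : M ^ 2 + M * S + S ^ 2 ≤ 12 / 625 := by nlinarith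
  have hq : (M + S) * (M ^ 2 + S ^ 2) ≤ 4 / 25 * (M ^ 2 + M * S + S ^ 2) := by
    have h1 : (M + S) * (M ^ 2 + S ^ 2) ≤ 4 / 25 * (M ^ 2 + S ^ 2) :=
      mul_le_mul_of_nonneg_right (by linarith) (by positivity)
    have h2 : 0 ≤ M * S := mul_nonneg (by linarith) hS
    linarith
  have hq0 : 0 ≤ (M + S) * (M ^ 2 + S ^ 2) := mul_nonneg (by linarith) (by positivity)
  have b3 : -(4 / 25) * (v * (M ^ 2 + M * S + S ^ 2)) ≤ u * v * ((M + S) * (M ^ 2 + S ^ 2)) := by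
    have h1 : - (v * ((M + S) * (M ^ 2 + S ^ 2))) ≤ u * v * ((M + S) * (M ^ 2 + S ^ 2)) := by
      have := mul_nonneg (mul_nonneg (by linarith : 0 ≤ u + 1) hv) hq0
      linarith
    have h2 := mul_le_mul_of_nonneg_left hq hv
    linarith
  have b4 : -(3 / 2) ≤ - (u * y) := by
    rcases le_total 0 y with h | h
    · nlinarith
    · nlinarith
  have b5 : -(3 / 2) * (12 / 625) ≤ - (u * y) * (M ^ 2 + M * S + S ^ 2) := by
    have h1 := mul_le_mul_of_nonneg_right b4 hQ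
    linarith
  have b6 : -(2 / 25) ≤ - y * (M + S) := by nlinarith
  have b7 : -(1 / 5) ≤ - y * (M + S) + (v - u * y) * (M ^ 2 + M * S + S ^ 2) +
        u * v * ((M + S) * (M ^ 2 + S ^ 2)) := by
    have := mul_nonneg hv hQ
    linarith
  have b8 : -(1 / 10) ≤ γ * (- y * (M + S) + (v - u * y) * (M ^ 2 + M * S + S ^ 2) +
        u * v * ((M + S) * (M ^ 2 + S ^ 2))) := by
    nlinarith
  have := mul_nonneg hMS (by linarith : 0 ≤ 1 + (M + S) * u +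
      γ * (- y * (M + S) + (v - u * y) * (M ^ 2 + M * S + S ^ 2) +
        u * v * ((M + S) * (M ^ 2 + S ^ 2))) + β * (x + z * (M + S)))
  linarith

theorem comb_alg {γ β c M x y u v z w p K G : ℝ} (hK : γ * (p + y) = K)
    (hG : gg M u v y = G) (h1 : 0 ≤ M ^ 2 * (K - u - β * z - γ * G - c) + β * M * (w - x)) :
    step γ β x y u v z M ≤ M * (1 + γ * (p * M)) + β * (w * M) - c * M ^ 2 := by
  have e : M * (1 + γ * (p * M)) + β * (w * M) - c * M ^ 2 - step γ β x y u v z M =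
      M ^ 2 * (K - u - β * z - γ * G - c) + β * M * (w - x) := by
    rw [← hK, ← hG]
    unfold step gg
    ring
  linarith

theorem comb_s1 {γ β x y u v z S M' T' R' : ℝ} (hγ0 : 0 ≤ γ) (hγ1 : γ ≤ 1 / 2) (β0 : 0 ≤ β)
    (hM' : 0 ≤ M') (hT' : -(1 / 2) ≤ T') (j1 : M' ≤ S + u * S ^ 2)
    (j2 : T' ≤ - y * S + v * S ^ 2) (j3 : R' ≤ x * S + z * S ^ 2) :
    M' * (1 + γ * T') + β * R' ≤ step γ β x y u v z S := by
  unfold step
  have hg0 : 0 ≤ γ * (T' + 1 / 2) := mul_nonneg hγ0 (by linarith)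
  have hg : 0 ≤ 1 + γ * T' := by linarith
  have i1 := mul_le_mul_of_nonneg_right j1 hg
  have i2 := mul_le_mul_of_nonneg_left (mul_le_mul_of_nonneg_left j2 hγ0) (hM'.trans j1)
  have i3 := mul_le_mul_of_nonneg_left j3 β0
  linarith

theorem comb_s2 {γ g β c m M x w K G H u ub z zb : ℝ} (hm : 0 < m) (hM : 0 ≤ M) (hMm : M ≤ m)
    (hβ : 0 ≤ β) (hx : 0 ≤ x) (hw : 3 * x ≤ w - x) (hu : u ≤ ub) (hz : z ≤ zb) (hγ : γ ≤ g)
    (hg : 0 ≤ g) (hG0 : 0 ≤ G) (hGH : G ≤ H)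
    (main : ub + β * zb - K + g * H + c ≤ 3 * β * x / m) :
    0 ≤ M ^ 2 * (K - u - β * z - γ * G - c) + β * M * (w - x) := by
  have h1 : γ * G ≤ g * H := (mul_le_mul_of_nonneg_right hγ hG0).trans
    (mul_le_mul_of_nonneg_left hGH hg)
  have h2 : β * z ≤ β * zb := mul_le_mul_of_nonneg_left hz hβ
  have h3 : -(3 * β * x / m) ≤ K - u - β * z - γ * G - c := by linarith
  have h4 := mul_le_mul_of_nonneg_left h3 (sq_nonneg M)
  have h5 : M ^ 2 * (3 * β * x / m) ≤ M * (3 * β * x) := by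
    have e : M ^ 2 * (3 * β * x / m) = M * (3 * β * x) * (M / m) := by field_simp
    rw [e]
    have : M / m ≤ 1 := (div_le_one hm).2 hMm
    have h6 : 0 ≤ M * (3 * β * x) := by positivity
    have := mul_le_mul_of_nonneg_left this h6
    linarith
  have h6 : M * (3 * β * x) ≤ β * M * (w - x) := by
    have := mul_le_mul_of_nonneg_left hw (mul_nonneg hβ hM)
    linarith
  linarith

/-- one step of the descent -/
theorem combine {θ β m η c : ℝ} (F : Fin4 θ β m η c) {κ M p w S E M' T' R' : ℝ} (hκ : 0 < κ)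
    (hκ' : κ ≤ 1 / 2) (hM : 0 ≤ M) (hMm : M ≤ m) (hS : 0 ≤ S) (hSM : S ≤ M) (hE : 0 ≤ E)
    (hE' : E ≤ η) (h : Om (κ ^ 2 * w) (κ * p))
    (hM' : 0 ≤ M') (hT' : -(1 / 2) ≤ T')
    (k1 : M' ≤ S + U2 (κ ^ 2 * w) (κ * p) * (θ * S ^ 2 / 2) + U3 (κ ^ 2 * w) * (E * S ^ 2))
    (k2 : T' ≤ - (κ * p) * S + P2 (κ * p) * (θ * S ^ 2 / 2) + P3 (κ ^ 2 * w) * (E * S ^ 2))
    (k3 : R' ≤ κ ^ 2 * w * S + V2 (κ ^ 2 * w) (κ * p) * (θ * S ^ 2 / 2) +
      V3 (κ ^ 2 * w) * (E * S ^ 2)) :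
    M' * (1 + 2 * θ * (1 - 2 * β) * κ / (1 + κ) * T') + β * R' ≤
      M * (1 + 2 * θ * (1 - 2 * β) * κ / (1 + κ) * (p * M)) + β * (w * M) - c * M ^ 2 := by
  obtain ⟨θ0, θ1, β0, β1, m0, m1, η1, c0, main⟩ := F
  have hθp : 0 ≤ θ := by linarith
  have hκp : 0 < 1 + κ := by linarith
  have hβ2 : 0 ≤ 1 - 2 * β := by linarith
  have hg0 : 0 ≤ 2 / 3 * θ * (1 - 2 * β) := by positivity
  have hg1 : 2 / 3 * θ * (1 - 2 * β) ≤ 1 / 2 := by
    have : θ * (1 - 2 * β) ≤ 1 * (3 / 4) := mul_le_mul θ1 (by linarith) hβ2 (by norm_num)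
    linarith
  have hγ0 : 0 ≤ 2 * θ * (1 - 2 * β) * κ / (1 + κ) := by positivity
  have hγ1 : 2 * θ * (1 - 2 * β) * κ / (1 + κ) ≤ 2 / 3 * θ * (1 - 2 * β) := by
    rw [div_le_iff₀ hκp]
    have := mul_nonneg hg0 (by linarith : 0 ≤ 1 - 2 * κ)
    linarith
  have hγe : 2 * θ * (1 - 2 * β) * κ / (1 + κ) * (p + κ * p) = 2 * θ * (1 - 2 * β) * (κ * p) := by
    field_simp
  have hw : 3 * (κ ^ 2 * w) ≤ w - κ ^ 2 * w := by
    have hx := h.x0
    have hκ2 : 0 < κ ^ 2 := by positivity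
    have hw0 : 0 ≤ w := nonneg_of_mul_nonneg_right hx hκ2
    have hκ4 : κ ^ 2 ≤ 1 / 4 := by nlinarith
    nlinarith
  generalize 2 * θ * (1 - 2 * β) * κ / (1 + κ) = γ at *
  have main' := main _ _ h
  have hy := h.c
  have hy' := h.y1
  have hx := h.x0
  have hxb := h.b
  have u1 := U2_ge h
  have u2 := U2_le h
  have p1 := P2_ge (κ * p)
  have v1 := V2_ge h
  obtain ⟨r1, r2⟩ := red h θ0 θ1 hM hMm m1 hE hE' η1
  generalize κ ^ 2 * w = x at *
  generalize κ * p = y at *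
  have hU3 : U3 x = 86 / 10 + 260 * x := rfl
  have hP3 : P3 x = 19 + 320 * x := rfl
  have hV3 : V3 x = 32 + 340 * x := rfl
  have hU3a : 0 ≤ U3 x := by rw [hU3]; linarith
  have hU3b : U3 x ≤ 736 / 10 := by rw [hU3]; linarith
  have hP3a : 0 ≤ P3 x := by rw [hP3]; linarith
  have hV3a : 0 ≤ V3 x := by rw [hV3]; linarith
  have hEU : E * U3 x ≤ 1 := by
    calc E * U3 x ≤ 1 / 80 * (736 / 10) := mul_le_mul (hE'.trans η1) hU3b hU3a (by norm_num)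
      _ ≤ 1 := by norm_num
  have hEU0 : 0 ≤ E * U3 x := mul_nonneg hE hU3a
  have hEUη : E * U3 x ≤ η * U3 x := mul_le_mul_of_nonneg_right hE' hU3a
  have hEVη : E * V3 x ≤ η * V3 x := mul_le_mul_of_nonneg_right hE' hV3a
  have t1 := mul_le_mul_of_nonneg_left u1 hθp
  have t2 := mul_le_mul_of_nonneg_left u2 hθp
  have t3 := mul_nonneg hθp (by linarith : 0 ≤ P2 y)
  have t4 := mul_nonneg hE hP3a
  have t5 := mul_nonneg hθp v1
  have t6 := mul_nonneg hE hV3a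
  have s1 := comb_s1 (x := x) (y := y) (u := θ * U2 x y / 2 + E * U3 x)
    (v := θ * P2 y / 2 + E * P3 x) (z := θ * V2 x y / 2 + E * V3 x) (S := S) (R' := R')
    hγ0 (hγ1.trans hg1) (by linarith : 0 ≤ β) hM' hT'
    (by linarith) (by linarith) (by linarith)
  have s2 := step_mono (u := θ * U2 x y / 2 + E * U3 x)
    (v := θ * P2 y / 2 + E * P3 x) (z := θ * V2 x y / 2 + E * V3 x) hγ0 (hγ1.trans hg1)
    (by linarith : 0 ≤ β) hx hy hy' (by linarith) (by linarith)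
    (by linarith) (by linarith) hS hSM (hMm.trans m1)
  refine s1.trans (s2.trans (comb_alg hγe rfl ?_))
  refine comb_s2 m0 hM hMm (by linarith : 0 ≤ β) hx hw (by linarith) (by linarith) hγ1 hg0 ?_ r2
    main'
  unfold gg
  exact mul_nonneg hM r1

end

end Vale.Agent.P154.Loc
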