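import Vale.Agent.P154.LocPoly

/-!
# P154, three states, antiferromagnetic side: homogeneous kernel inequalities
-/

namespace Vale.Agent.P154.Loc

/-- density of the mean of `r` -/
noncomputable def gr (a b c : ℝ) : ℝ := wD a b c * (wn a b c / wD a b c ^ 2)
/-- density of the mean of `t` -/
noncomputable def gt (a b c : ℝ) : ℝ := wD a b c * (wt a b c / wD a b c ^ 3)
/-- density of the mean of `r²` -/
noncomputable def gR (a b c : ℝ) : ℝ := wD a b c * (wn a b c / wD a b c ^ 2) ^ 2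

theorem wD_smul (s a b c : ℝ) : wD (s * a) (s * b) (s * c) = s * wD a b c := by
  unfold wD; ring
theorem wn_smul (s a b c : ℝ) : wn (s * a) (s * b) (s * c) = s ^ 2 * wn a b c := by
  unfold wn wD; ring
theorem wt_smul (s a b c : ℝ) : wt (s * a) (s * b) (s * c) = s ^ 3 * wt a b c := by
  unfold wt wn wD; ring

theorem gr_smul {s : ℝ} (hs : 0 < s) (a b c : ℝ) : gr (s * a) (s * b) (s * c) = s * gr a b c := by
  unfold gr
  rw [wD_smul, wn_smul, mul_pow, mul_div_mul_left _ _ (pow_pos hs 2).ne']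
  ring
theorem gt_smul {s : ℝ} (hs : 0 < s) (a b c : ℝ) : gt (s * a) (s * b) (s * c) = s * gt a b c := by
  unfold gt
  rw [wD_smul, wt_smul, mul_pow, mul_div_mul_left _ _ (pow_pos hs 3).ne']
  ring
theorem gR_smul {s : ℝ} (hs : 0 < s) (a b c : ℝ) : gR (s * a) (s * b) (s * c) = s * gR a b c := by
  unfold gR
  rw [wD_smul, wn_smul, mul_pow, mul_div_mul_left _ _ (pow_pos hs 2).ne']
  ring

theorem gr_zero : gr 0 0 0 = 0 := by unfold gr wD; norm_num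
theorem gt_zero : gt 0 0 0 = 0 := by unfold gt wD; norm_num
theorem gR_zero : gR 0 0 0 = 0 := by unfold gR wD; norm_num

theorem zero_of_wD {a b c : ℝ} (ha : 0 ≤ a) (hb : 0 ≤ b) (hc : 0 ≤ c) (h : wD a b c ≤ 0) :
    a = 0 ∧ b = 0 ∧ c = 0 := by
  unfold wD at h
  refine ⟨?_, ?_, ?_⟩ <;> linarith

section
variable {a b c : ℝ}

theorem q_ru (ha : 0 ≤ a) (hb : 0 ≤ b) (hc : 0 ≤ c) : gr a b c ≤ PKru a b c := by
  by_cases h : 0 < wD a b c
  · exact pt_ru ha hb hc h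
  · obtain ⟨rfl, rfl, rfl⟩ := zero_of_wD ha hb hc (not_lt.1 h)
    rw [gr_zero]; unfold PKru wn wD; norm_num

theorem q_rl (ha : 0 ≤ a) (hb : 0 ≤ b) (hc : 0 ≤ c) : PKrl a b c ≤ gr a b c := by
  by_cases h : 0 < wD a b c
  · exact pt_rl h
  · obtain ⟨rfl, rfl, rfl⟩ := zero_of_wD ha hb hc (not_lt.1 h)
    rw [gr_zero]; unfold PKrl wn wD; norm_num

theorem q_tu (ha : 0 ≤ a) (hb : 0 ≤ b) (hc : 0 ≤ c) (hD2 : wD a b c ≤ 3 / 2)
    (he : a * b * c ≤ 1) : gt a b c ≤ PKtu a b c := by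
  by_cases h : 0 < wD a b c
  · exact pt_tu ha hb hc h hD2 he
  · obtain ⟨rfl, rfl, rfl⟩ := zero_of_wD ha hb hc (not_lt.1 h)
    rw [gt_zero]; unfold PKtu wt wn wD; norm_num

theorem q_tl (ha : 0 ≤ a) (hb : 0 ≤ b) (hc : 0 ≤ c) (hD2 : wD a b c ≤ 3 / 2)
    (he : a * b * c ≤ 1) : - gt a b c ≤ PKtl a b c := by
  by_cases h : 0 < wD a b c
  · exact pt_tl ha hb hc h hD2 he
  · obtain ⟨rfl, rfl, rfl⟩ := zero_of_wD ha hb hc (not_lt.1 h)
    rw [gt_zero]; unfold PKtl wt wn wD; norm_num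

theorem q_Ru (ha : 0 ≤ a) (hb : 0 ≤ b) (hc : 0 ≤ c) (hD2 : wD a b c ≤ 3 / 2) :
    gR a b c ≤ PKRu a b c := by
  by_cases h : 0 < wD a b c
  · exact pt_Ru ha hb hc h hD2
  · obtain ⟨rfl, rfl, rfl⟩ := zero_of_wD ha hb hc (not_lt.1 h)
    rw [gR_zero]; unfold PKRu wt wn wD; norm_num

end

theorem av_le {F G : ℝ → ℝ → ℝ → ℝ} {x1 x2 x3 y1 y2 y3 : ℝ}
    (h : ∀ u v w, (u = y1 ∧ v = y2 ∧ w = y3) ∨ (u = y2 ∧ v = y1 ∧ w = y3) ∨
      (u = y3 ∧ v = y2 ∧ w = y1) ∨ (u = y1 ∧ v = y3 ∧ w = y2) ∨ (u = y2 ∧ v = y3 ∧ w = y1) ∨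
      (u = y3 ∧ v = y1 ∧ w = y2) → F (x1 * u) (x2 * v) (x3 * w) ≤ G (x1 * u) (x2 * v) (x3 * w)) :
    av F x1 x2 x3 y1 y2 y3 ≤ av G x1 x2 x3 y1 y2 y3 := by
  unfold av
  have h1 := h y1 y2 y3 (by simp)
  have h2 := h y2 y1 y3 (by simp)
  have h3 := h y3 y2 y1 (by simp)
  have h4 := h y1 y3 y2 (by simp)
  have h5 := h y2 y3 y1 (by simp)
  have h6 := h y3 y1 y2 (by simp)
  linarith

/-- facts on a vector of mean one -/
structure NV (x1 x2 x3 : ℝ) : Prop where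
  p1 : 0 ≤ x1
  p2 : 0 ≤ x2
  p3 : 0 ≤ x3
  s : x3 = 3 - x1 - x2

theorem NV.wD {x1 x2 x3 : ℝ} (h : NV x1 x2 x3) : wD x1 x2 x3 = 1 := by
  have := h.s
  unfold Loc.wD
  rw [this]; ring

theorem NV.pv {x1 x2 x3 : ℝ} (h : NV x1 x2 x3) : PV (wn x1 x2 x3) (wt x1 x2 x3) := by
  have := pv_of h.p1 h.p2 h.p3 (by rw [h.wD]; norm_num)
  rw [h.wD] at this
  simpa using this

theorem NV.prod {x1 x2 x3 : ℝ} (h : NV x1 x2 x3) : x1 * x2 * x3 ≤ 1 := by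
  have h1 := h.pv
  have h2 := we_eq (a := x1) (b := x2) (c := x3)
  rw [h.wD] at h2
  have := h1.le_r
  have := h1.r0
  linarith

/-- Schur -/
theorem schur3 {x y z : ℝ} (hx : 0 ≤ x) (hy : 0 ≤ y) (hz : 0 ≤ z) :
    0 ≤ x * (x - y) * (x - z) + y * (y - x) * (y - z) + z * (z - x) * (z - y) := by
  have key : ∀ a b c : ℝ, 0 ≤ c → c ≤ b → b ≤ a →
      0 ≤ a * (a - b) * (a - c) + b * (b - a) * (b - c) + c * (c - a) * (c - b) := by
    intro a b c hc h1 h2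
    have e : a * (a - b) * (a - c) + b * (b - a) * (b - c) + c * (c - a) * (c - b) =
      (a - b) ^ 2 * (a + b - c) + c * ((a - c) * (b - c)) := by ring
    rw [e]
    have := mul_nonneg (sq_nonneg (a - b)) (by linarith : 0 ≤ a + b - c)
    have := mul_nonneg hc (mul_nonneg (by linarith : 0 ≤ a - c) (by linarith : 0 ≤ b - c))
    linarith
  rcases le_total x y with h1 | h1 <;> rcases le_total y z with h2 | h2 <;>
    rcases le_total x z with h3 | h3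
  · have := key z y x hx h1 h2; linarith
  · have := key z y x hx h1 h2; linarith
  · have := key y z x hx h3 h2; linarith
  · have := key y x z hz h3 h1; linarith
  · have := key z x y hy h1 h3; linarith
  · have := key x z y hy h2 h3; linarith
  · have := key x y z hz h2 h1; linarith
  · have := key x y z hz h2 h1; linarith

/-- a message vector of mean one -/
structure MV (y1 y2 y3 : ℝ) : Prop extends NV y1 y2 y3 where
  b1 : y1 ≤ 3 / 2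
  b2 : y2 ≤ 3 / 2
  b3 : y3 ≤ 3 / 2

theorem MV.quarter {y1 y2 y3 : ℝ} (h : MV y1 y2 y3) : wn y1 y2 y3 ≤ 1 / 4 := by
  have hs := h.s
  have b1 := h.b1; have b2 := h.b2; have b3 := h.b3
  unfold wn wD
  subst hs
  nlinarith [mul_nonneg (sub_nonneg.2 b1) (sub_nonneg.2 b2),
    mul_nonneg (sub_nonneg.2 b2) (sub_nonneg.2 b3), mul_nonneg (sub_nonneg.2 b1) (sub_nonneg.2 b3)]

theorem MV.tq {y1 y2 y3 : ℝ} (h : MV y1 y2 y3) : wt y1 y2 y3 ≤ wn y1 y2 y3 / 4 := by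
  have hs := h.s
  have h0 := schur3 (sub_nonneg.2 h.b1) (sub_nonneg.2 h.b2) (sub_nonneg.2 h.b3)
  unfold wt wn wD
  subst hs
  nlinarith

/-- the polynomial upper bound for the mean of `r` of a product -/
noncomputable def bru (m t R s u S : ℝ) : ℝ :=
  m + s - m * s - 2 * (t * s + m * u) + 5 / 2 * (t * u) + 5 / 2 * (R * s + m * S) +
    5 / 2 * (t * S + R * u) + 17 / 2 * (R * S)
/-- lower bound, `r` -/
noncomputable def brl (m t s u : ℝ) : ℝ :=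
  m + s - m * s - 2 * (t * s + m * u)
/-- upper bound, `t` -/
noncomputable def btu (m t s u : ℝ) : ℝ :=
  t + u + 6 * (m * s) - 6 * (t * s + m * u) + 5 * (t * u)
/-- upper bound, `-t` -/
noncomputable def btl (m t R s u S : ℝ) : ℝ :=
  - t - u - 6 * (m * s) + 6 * (t * s + m * u) + 7 / 4 * (t * u) + 9 * (R * s + m * S) +
    9 * (t * S + R * u) + 9 / 4 * (R * S)
/-- upper bound, `r²` -/
noncomputable def bRu (m t R s u S : ℝ) : ℝ :=
  R + S + 4 * (m * s) + 4 * (t * s + m * u) + 22 / 5 * (t * u) + 43 / 20 * (R * s + m * S) -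
    43 / 5 * (t * S + R * u) + 73 / 2 * (R * S)

section
variable {x1 x2 x3 y1 y2 y3 : ℝ}

theorem nv_mul_wD (hx : NV x1 x2 x3) {u v w : ℝ}
    (bu : u ≤ 3 / 2) (bv : v ≤ 3 / 2) (bw : w ≤ 3 / 2) :
    wD (x1 * u) (x2 * v) (x3 * w) ≤ 3 / 2 := by
  have h1 := mul_le_mul_of_nonneg_left bu hx.p1
  have h2 := mul_le_mul_of_nonneg_left bv hx.p2
  have h3 := mul_le_mul_of_nonneg_left bw hx.p3
  have hs := hx.s
  unfold wD
  linarith

theorem nv_mul_prod (hx : NV x1 x2 x3) {u v w : ℝ} (hu : 0 ≤ u) (hv : 0 ≤ v) (hw : 0 ≤ w)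
    (h : u * v * w ≤ 1) : (x1 * u) * (x2 * v) * (x3 * w) ≤ 1 := by
  have h1 := hx.prod
  have h0 : 0 ≤ u * v * w := by positivity
  have h2 : 0 ≤ x1 * x2 * x3 := mul_nonneg (mul_nonneg hx.p1 hx.p2) hx.p3
  have : (x1 * u) * (x2 * v) * (x3 * w) = (x1 * x2 * x3) * (u * v * w) := by ring
  rw [this]
  nlinarith

/-- any rearrangement of a message vector -/
theorem MV.perm (hy : MV y1 y2 y3) {u v w : ℝ}
    (h : (u = y1 ∧ v = y2 ∧ w = y3) ∨ (u = y2 ∧ v = y1 ∧ w = y3) ∨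
      (u = y3 ∧ v = y2 ∧ w = y1) ∨ (u = y1 ∧ v = y3 ∧ w = y2) ∨ (u = y2 ∧ v = y3 ∧ w = y1) ∨
      (u = y3 ∧ v = y1 ∧ w = y2)) : 0 ≤ u ∧ 0 ≤ v ∧ 0 ≤ w ∧ u ≤ 3 / 2 ∧ v ≤ 3 / 2 ∧ w ≤ 3 / 2 ∧
        u * v * w ≤ 1 := by
  have p := hy.prod
  have e1 := hy.p1; have e2 := hy.p2; have e3 := hy.p3
  have c1 := hy.b1; have c2 := hy.b2; have c3 := hy.b3
  rcases h with ⟨rfl, rfl, rfl⟩ | ⟨rfl, rfl, rfl⟩ | ⟨rfl, rfl, rfl⟩ | ⟨rfl, rfl, rfl⟩ |
    ⟨rfl, rfl, rfl⟩ | ⟨rfl, rfl, rfl⟩ <;>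
  exact ⟨by assumption, by assumption, by assumption, by assumption, by assumption, by assumption,
    by linarith⟩

theorem n_ru (hx : NV x1 x2 x3) (hy : MV y1 y2 y3) : av gr x1 x2 x3 y1 y2 y3 ≤
    bru (wn x1 x2 x3) (wt x1 x2 x3) (wn x1 x2 x3 ^ 2) (wn y1 y2 y3) (wt y1 y2 y3)
      (wn y1 y2 y3 ^ 2) := by
  refine (av_le fun u v w h => ?_).trans (le_of_eq ((av_PKru hx.s hy.s).trans ?_))
  · obtain ⟨a1, a2, a3, -⟩ := hy.perm h
    exact q_ru (mul_nonneg hx.p1 a1) (mul_nonneg hx.p2 a2) (mul_nonneg hx.p3 a3)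
  · unfold bru; ring

theorem n_rl (hx : NV x1 x2 x3) (hy : MV y1 y2 y3) :
    brl (wn x1 x2 x3) (wt x1 x2 x3) (wn y1 y2 y3) (wt y1 y2 y3) ≤ av gr x1 x2 x3 y1 y2 y3 := by
  refine le_trans (le_of_eq (Eq.trans ?_ (av_PKrl hx.s hy.s).symm)) (av_le fun u v w h => ?_)
  · unfold brl; ring
  · obtain ⟨a1, a2, a3, -⟩ := hy.perm h
    exact q_rl (mul_nonneg hx.p1 a1) (mul_nonneg hx.p2 a2) (mul_nonneg hx.p3 a3)

theorem n_tu (hx : NV x1 x2 x3) (hy : MV y1 y2 y3) : av gt x1 x2 x3 y1 y2 y3 ≤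
    btu (wn x1 x2 x3) (wt x1 x2 x3) (wn y1 y2 y3) (wt y1 y2 y3) := by
  refine (av_le fun u v w h => ?_).trans (le_of_eq ((av_PKtu hx.s hy.s).trans ?_))
  · obtain ⟨a1, a2, a3, c1, c2, c3, p⟩ := hy.perm h
    exact q_tu (mul_nonneg hx.p1 a1) (mul_nonneg hx.p2 a2) (mul_nonneg hx.p3 a3)
      (nv_mul_wD hx c1 c2 c3) (nv_mul_prod hx a1 a2 a3 p)
  · unfold btu; ring

theorem n_tl (hx : NV x1 x2 x3) (hy : MV y1 y2 y3) : av (fun a b c => - gt a b c) x1 x2 x3 y1 y2 y3 ≤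
    btl (wn x1 x2 x3) (wt x1 x2 x3) (wn x1 x2 x3 ^ 2) (wn y1 y2 y3) (wt y1 y2 y3)
      (wn y1 y2 y3 ^ 2) := by
  refine (av_le fun u v w h => ?_).trans (le_of_eq ((av_PKtl hx.s hy.s).trans ?_))
  · obtain ⟨a1, a2, a3, c1, c2, c3, p⟩ := hy.perm h
    exact q_tl (mul_nonneg hx.p1 a1) (mul_nonneg hx.p2 a2) (mul_nonneg hx.p3 a3)
      (nv_mul_wD hx c1 c2 c3) (nv_mul_prod hx a1 a2 a3 p)
  · unfold btl; ring

theorem n_Ru (hx : NV x1 x2 x3) (hy : MV y1 y2 y3) : av gR x1 x2 x3 y1 y2 y3 ≤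
    bRu (wn x1 x2 x3) (wt x1 x2 x3) (wn x1 x2 x3 ^ 2) (wn y1 y2 y3) (wt y1 y2 y3)
      (wn y1 y2 y3 ^ 2) := by
  refine (av_le fun u v w h => ?_).trans ((le_of_eq (av_PKRu hx.s hy.s)).trans ?_)
  · obtain ⟨a1, a2, a3, c1, c2, c3, p⟩ := hy.perm h
    exact q_Ru (mul_nonneg hx.p1 a1) (mul_nonneg hx.p2 a2) (mul_nonneg hx.p3 a3)
      (nv_mul_wD hx c1 c2 c3)
  · have px := hx.pv
    have py := hy.toNV.pv
    have q := hy.tq
    have r0 := px.r0; have s0 := py.r0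
    have t1 := px.schur; have t2 := px.le_r
    have u1 := py.schur
    generalize wn x1 x2 x3 = r at *
    generalize wt x1 x2 x3 = t at *
    generalize wn y1 y2 y3 = s at *
    generalize wt y1 y2 y3 = u at *
    have rs : 0 ≤ r * s := mul_nonneg r0 s0
    have tu : t * u ≤ r * s / 4 := by
      have h1 : 0 ≤ (r - t) * (s / 4 - u) := mul_nonneg (by linarith) (by linarith)
      have h2 : 0 ≤ (t + r / 2) * (s / 4 - u) := mul_nonneg (by linarith) (by linarith)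
      have h3 : 0 ≤ (r - t) * (u + s / 2) := mul_nonneg (by linarith) (by linarith)
      have h4 : 0 ≤ (t + r / 2) * (u + s / 2) := mul_nonneg (by linarith) (by linarith)
      nlinarith
    have k1 : 0 ≤ r * s * (t + r / 2) := mul_nonneg rs (by linarith)
    have k2 : 0 ≤ r * s * (u + s / 2) := mul_nonneg rs (by linarith)
    have k3 : 0 ≤ r * (r * s / 4 - t * u) := mul_nonneg r0 (by linarith)
    have k4 : 0 ≤ s * (r * s / 4 - t * u) := mul_nonneg s0 (by linarith)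
    have k5 : 0 ≤ r * s * s * (t + r / 2) := mul_nonneg (mul_nonneg rs s0) (by linarith)
    have k6 : 0 ≤ r * r * s * (u + s / 2) := mul_nonneg (mul_nonneg (mul_nonneg r0 r0) s0) (by linarith)
    have k7 : 0 ≤ r * s * (r * s / 4 - t * u) := mul_nonneg rs (by linarith)
    unfold bRu
    nlinarith

end

/-! ### homogeneous forms -/

theorem av_smul {F : ℝ → ℝ → ℝ → ℝ} (hF : ∀ s : ℝ, 0 < s → ∀ a b c, F (s * a) (s * b) (s * c) =
    s * F a b c) {A B : ℝ} (hA : 0 < A) (hB : 0 < B) (x1 x2 x3 y1 y2 y3 : ℝ) :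
    av F (A * x1) (A * x2) (A * x3) (B * y1) (B * y2) (B * y3) =
      A * B * av F x1 x2 x3 y1 y2 y3 := by
  have key : ∀ u v w : ℝ, F (A * x1 * (B * u)) (A * x2 * (B * v)) (A * x3 * (B * w)) =
      A * B * F (x1 * u) (x2 * v) (x3 * w) := by
    intro u v w
    rw [← hF (A * B) (mul_pos hA hB)]
    congr 1 <;> ring
  unfold av
  simp only [key]
  ring

theorem av_zero_left {F : ℝ → ℝ → ℝ → ℝ} (hF : F 0 0 0 = 0) (y1 y2 y3 : ℝ) :
    av F 0 0 0 y1 y2 y3 = 0 := by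
  unfold av
  simp [hF]

theorem av_zero_right {F : ℝ → ℝ → ℝ → ℝ} (hF : F 0 0 0 = 0) (x1 x2 x3 : ℝ) :
    av F x1 x2 x3 0 0 0 = 0 := by
  unfold av
  simp [hF]

/-- nonnegative vector -/
structure N3 (a1 a2 a3 : ℝ) : Prop where
  p1 : 0 ≤ a1
  p2 : 0 ≤ a2
  p3 : 0 ≤ a3

/-- nonnegative vector with no entry above one half of the total -/
structure M3 (b1 b2 b3 : ℝ) : Prop extends N3 b1 b2 b3 where
  h1 : b1 ≤ 1 / 2 * (b1 + b2 + b3)
  h2 : b2 ≤ 1 / 2 * (b1 + b2 + b3)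
  h3 : b3 ≤ 1 / 2 * (b1 + b2 + b3)

section
variable {a1 a2 a3 b1 b2 b3 : ℝ}

theorem N3.norm (h : N3 a1 a2 a3) (hp : 0 < wD a1 a2 a3) :
    NV (a1 / wD a1 a2 a3) (a2 / wD a1 a2 a3) (a3 / wD a1 a2 a3) := by
  refine ⟨div_nonneg h.p1 hp.le, div_nonneg h.p2 hp.le, div_nonneg h.p3 hp.le, ?_⟩
  have : wD a1 a2 a3 ≠ 0 := hp.ne'
  field_simp
  unfold wD
  ring

theorem M3.norm (h : M3 b1 b2 b3) (hp : 0 < wD b1 b2 b3) :
    MV (b1 / wD b1 b2 b3) (b2 / wD b1 b2 b3) (b3 / wD b1 b2 b3) := by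
  have hs : b1 + b2 + b3 = 3 * wD b1 b2 b3 := by unfold wD; ring
  have e1 := h.h1; have e2 := h.h2; have e3 := h.h3
  rw [hs] at e1 e2 e3
  refine ⟨h.toN3.norm hp, ?_, ?_, ?_⟩ <;> rw [div_le_iff₀ hp] <;> linarith

theorem gr_norm (hp : 0 < wD a1 a2 a3) : gr a1 a2 a3 = wD a1 a2 a3 *
    wn (a1 / wD a1 a2 a3) (a2 / wD a1 a2 a3) (a3 / wD a1 a2 a3) := by
  have h := wn_smul (1 / wD a1 a2 a3) a1 a2 a3
  rw [one_div_mul_eq_div, one_div_mul_eq_div, one_div_mul_eq_div] at h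
  rw [h]
  unfold gr
  field_simp

theorem gt_norm (hp : 0 < wD a1 a2 a3) : gt a1 a2 a3 = wD a1 a2 a3 *
    wt (a1 / wD a1 a2 a3) (a2 / wD a1 a2 a3) (a3 / wD a1 a2 a3) := by
  have h := wt_smul (1 / wD a1 a2 a3) a1 a2 a3
  rw [one_div_mul_eq_div, one_div_mul_eq_div, one_div_mul_eq_div] at h
  rw [h]
  unfold gt
  field_simp

theorem gR_norm (hp : 0 < wD a1 a2 a3) : gR a1 a2 a3 = wD a1 a2 a3 *
    wn (a1 / wD a1 a2 a3) (a2 / wD a1 a2 a3) (a3 / wD a1 a2 a3) ^ 2 := by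
  have h := wn_smul (1 / wD a1 a2 a3) a1 a2 a3
  rw [one_div_mul_eq_div, one_div_mul_eq_div, one_div_mul_eq_div] at h
  rw [h]
  unfold gR
  field_simp

theorem av_norm {F : ℝ → ℝ → ℝ → ℝ} (hF : ∀ s : ℝ, 0 < s → ∀ a b c, F (s * a) (s * b) (s * c) =
    s * F a b c) (hp : 0 < wD a1 a2 a3) (hq : 0 < wD b1 b2 b3) :
    av F a1 a2 a3 b1 b2 b3 = wD a1 a2 a3 * wD b1 b2 b3 *
      av F (a1 / wD a1 a2 a3) (a2 / wD a1 a2 a3) (a3 / wD a1 a2 a3)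
        (b1 / wD b1 b2 b3) (b2 / wD b1 b2 b3) (b3 / wD b1 b2 b3) := by
  have e : ∀ z : ℝ, wD a1 a2 a3 * (z / wD a1 a2 a3) = z := fun z => by field_simp
  have e' : ∀ z : ℝ, wD b1 b2 b3 * (z / wD b1 b2 b3) = z := fun z => by field_simp
  rw [← av_smul hF hp hq, e, e, e, e', e', e']

/-- the two degenerate cases -/
theorem deg_or (ha : N3 a1 a2 a3) (hb : M3 b1 b2 b3) :
    (0 < wD a1 a2 a3 ∧ 0 < wD b1 b2 b3) ∨ (a1 = 0 ∧ a2 = 0 ∧ a3 = 0) ∨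
      (b1 = 0 ∧ b2 = 0 ∧ b3 = 0) := by
  by_cases h1 : 0 < wD a1 a2 a3
  · by_cases h2 : 0 < wD b1 b2 b3
    · exact Or.inl ⟨h1, h2⟩
    · exact Or.inr (Or.inr (zero_of_wD hb.p1 hb.p2 hb.p3 (not_lt.1 h2)))
  · exact Or.inr (Or.inl (zero_of_wD ha.p1 ha.p2 ha.p3 (not_lt.1 h1)))

theorem wD_zero : wD 0 0 0 = 0 := by unfold wD; norm_num

theorem h_ru (ha : N3 a1 a2 a3) (hb : M3 b1 b2 b3) : av gr a1 a2 a3 b1 b2 b3 ≤
    wD b1 b2 b3 * gr a1 a2 a3 + wD a1 a2 a3 * gr b1 b2 b3 - gr a1 a2 a3 - gr b1 b2 b3 +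
      bru (gr a1 a2 a3) (gt a1 a2 a3) (gR a1 a2 a3) (gr b1 b2 b3) (gt b1 b2 b3)
        (gR b1 b2 b3) := by
  rcases deg_or ha hb with ⟨hp, hq⟩ | ⟨rfl, rfl, rfl⟩ | ⟨rfl, rfl, rfl⟩
  · rw [av_norm (fun s hs => gr_smul hs) hp hq, gr_norm hp, gr_norm hq, gt_norm hp, gt_norm hq,
      gR_norm hp, gR_norm hq]
    refine (mul_le_mul_of_nonneg_left (n_ru (ha.norm hp) (hb.norm hq))
      (mul_pos hp hq).le).trans (le_of_eq ?_)
    unfold bru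
    ring
  · rw [av_zero_left gr_zero, gr_zero, gt_zero, gR_zero, wD_zero]
    unfold bru; apply le_of_eq; ring
  · rw [av_zero_right gr_zero, gr_zero, gt_zero, gR_zero, wD_zero]
    unfold bru; apply le_of_eq; ring

theorem h_rl (ha : N3 a1 a2 a3) (hb : M3 b1 b2 b3) :
    wD b1 b2 b3 * gr a1 a2 a3 + wD a1 a2 a3 * gr b1 b2 b3 - gr a1 a2 a3 - gr b1 b2 b3 +
      brl (gr a1 a2 a3) (gt a1 a2 a3) (gr b1 b2 b3) (gt b1 b2 b3) ≤
    av gr a1 a2 a3 b1 b2 b3 := by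
  rcases deg_or ha hb with ⟨hp, hq⟩ | ⟨rfl, rfl, rfl⟩ | ⟨rfl, rfl, rfl⟩
  · rw [av_norm (fun s hs => gr_smul hs) hp hq, gr_norm hp, gr_norm hq, gt_norm hp, gt_norm hq]
    refine le_trans (le_of_eq ?_) (mul_le_mul_of_nonneg_left (n_rl (ha.norm hp) (hb.norm hq))
      (mul_pos hp hq).le)
    unfold brl
    ring
  · rw [av_zero_left gr_zero, gr_zero, gt_zero, wD_zero]
    unfold brl; apply le_of_eq; ring
  · rw [av_zero_right gr_zero, gr_zero, gt_zero, wD_zero]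
    unfold brl; apply le_of_eq; ring

theorem h_tu (ha : N3 a1 a2 a3) (hb : M3 b1 b2 b3) : av gt a1 a2 a3 b1 b2 b3 ≤
    wD b1 b2 b3 * gt a1 a2 a3 + wD a1 a2 a3 * gt b1 b2 b3 - gt a1 a2 a3 - gt b1 b2 b3 +
      btu (gr a1 a2 a3) (gt a1 a2 a3) (gr b1 b2 b3) (gt b1 b2 b3) := by
  rcases deg_or ha hb with ⟨hp, hq⟩ | ⟨rfl, rfl, rfl⟩ | ⟨rfl, rfl, rfl⟩
  · rw [av_norm (fun s hs => gt_smul hs) hp hq, gr_norm hp, gr_norm hq, gt_norm hp, gt_norm hq]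
    refine (mul_le_mul_of_nonneg_left (n_tu (ha.norm hp) (hb.norm hq))
      (mul_pos hp hq).le).trans (le_of_eq ?_)
    unfold btu
    ring
  · rw [av_zero_left gt_zero, gr_zero, gt_zero, wD_zero]
    unfold btu; apply le_of_eq; ring
  · rw [av_zero_right gt_zero, gr_zero, gt_zero, wD_zero]
    unfold btu; apply le_of_eq; ring

theorem av_neg (F : ℝ → ℝ → ℝ → ℝ) (x1 x2 x3 y1 y2 y3 : ℝ) :
    av (fun a b c => - F a b c) x1 x2 x3 y1 y2 y3 = - av F x1 x2 x3 y1 y2 y3 := by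
  unfold av; ring

theorem h_tl (ha : N3 a1 a2 a3) (hb : M3 b1 b2 b3) : - av gt a1 a2 a3 b1 b2 b3 ≤
    - (wD b1 b2 b3 * gt a1 a2 a3) - wD a1 a2 a3 * gt b1 b2 b3 + gt a1 a2 a3 + gt b1 b2 b3 +
      btl (gr a1 a2 a3) (gt a1 a2 a3) (gR a1 a2 a3) (gr b1 b2 b3) (gt b1 b2 b3)
        (gR b1 b2 b3) := by
  rcases deg_or ha hb with ⟨hp, hq⟩ | ⟨rfl, rfl, rfl⟩ | ⟨rfl, rfl, rfl⟩
  · rw [av_norm (fun s hs => gt_smul hs) hp hq, gr_norm hp, gr_norm hq, gt_norm hp, gt_norm hq,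
      gR_norm hp, gR_norm hq, ← mul_neg, ← av_neg]
    refine (mul_le_mul_of_nonneg_left (n_tl (ha.norm hp) (hb.norm hq))
      (mul_pos hp hq).le).trans (le_of_eq ?_)
    unfold btl
    ring
  · rw [av_zero_left gt_zero, gr_zero, gt_zero, gR_zero, wD_zero]
    unfold btl; apply le_of_eq; ring
  · rw [av_zero_right gt_zero, gr_zero, gt_zero, gR_zero, wD_zero]
    unfold btl; apply le_of_eq; ring

theorem h_Ru (ha : N3 a1 a2 a3) (hb : M3 b1 b2 b3) : av gR a1 a2 a3 b1 b2 b3 ≤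
    wD b1 b2 b3 * gR a1 a2 a3 + wD a1 a2 a3 * gR b1 b2 b3 - gR a1 a2 a3 - gR b1 b2 b3 +
      bRu (gr a1 a2 a3) (gt a1 a2 a3) (gR a1 a2 a3) (gr b1 b2 b3) (gt b1 b2 b3)
        (gR b1 b2 b3) := by
  rcases deg_or ha hb with ⟨hp, hq⟩ | ⟨rfl, rfl, rfl⟩ | ⟨rfl, rfl, rfl⟩
  · rw [av_norm (fun s hs => gR_smul hs) hp hq, gr_norm hp, gr_norm hq, gt_norm hp, gt_norm hq,
      gR_norm hp, gR_norm hq]
    refine (mul_le_mul_of_nonneg_left (n_Ru (ha.norm hp) (hb.norm hq))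
      (mul_pos hp hq).le).trans (le_of_eq ?_)
    unfold bRu
    ring
  · rw [av_zero_left gR_zero, gr_zero, gt_zero, gR_zero, wD_zero]
    unfold bRu; apply le_of_eq; ring
  · rw [av_zero_right gR_zero, gr_zero, gt_zero, gR_zero, wD_zero]
    unfold bRu; apply le_of_eq; ring

/-! ### pointwise relations between the densities -/

/-- pointwise facts -/
structure PF (D r t R : ℝ) : Prop where
  r0 : 0 ≤ r
  rD : r ≤ D
  R0 : 0 ≤ R
  Rr : R ≤ r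
  tr : t ≤ r
  tl : - (r / 2) ≤ t
  tR : R - 3 / 4 * r ≤ t
  cs : ∀ l : ℝ, 2 * l * t ≤ l ^ 2 * r + R
  jen : ∀ l : ℝ, 2 * l * r - l ^ 2 * D ≤ R

theorem pf_of (ha : N3 a1 a2 a3) :
    PF (wD a1 a2 a3) (gr a1 a2 a3) (gt a1 a2 a3) (gR a1 a2 a3) := by
  by_cases hp : 0 < wD a1 a2 a3
  · rw [gr_norm hp, gt_norm hp, gR_norm hp]
    have h := (ha.norm hp).pv
    have c1 := h.r0; have c2 := h.r1; have c3 := h.le_r; have c4 := h.schur
    have c5 := h.lower1; have c6 := h.sq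
    set D := wD a1 a2 a3
    set r := wn (a1 / D) (a2 / D) (a3 / D)
    set t := wt (a1 / D) (a2 / D) (a3 / D)
    refine ⟨by positivity, ?_, by positivity, ?_, ?_, ?_, ?_, ?_, ?_⟩
    · nlinarith [mul_nonneg hp.le (sub_nonneg.2 c2)]
    · nlinarith [mul_nonneg hp.le (mul_nonneg c1 (sub_nonneg.2 c2))]
    · nlinarith [mul_nonneg hp.le (sub_nonneg.2 c3)]
    · nlinarith [mul_nonneg hp.le (sub_nonneg.2 c4)]
    · nlinarith [mul_nonneg hp.le (sub_nonneg.2 c5)]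
    · intro l
      have k : 2 * l * t ≤ l ^ 2 * r + r ^ 2 := by
        have e : (2 * l * t) ^ 2 ≤ (l ^ 2 * r + r ^ 2) ^ 2 := by
          have e1 : (2 * l * t) ^ 2 ≤ 4 * l ^ 2 * r ^ 3 := by
            have := mul_le_mul_of_nonneg_left c6 (by positivity : 0 ≤ 4 * l ^ 2)
            nlinarith
          have e2 : 4 * l ^ 2 * r ^ 3 ≤ (l ^ 2 * r + r ^ 2) ^ 2 := by
            nlinarith [sq_nonneg (l ^ 2 * r - r ^ 2)]
          exact e1.trans e2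
        exact (abs_le_of_sq_le_sq' e (by positivity)).2
      have := mul_le_mul_of_nonneg_left k hp.le
      linarith
    · intro l
      nlinarith [mul_nonneg hp.le (sq_nonneg (l - r))]
  · obtain ⟨rfl, rfl, rfl⟩ := zero_of_wD ha.p1 ha.p2 ha.p3 (not_lt.1 hp)
    rw [gr_zero, gt_zero, gR_zero, wD_zero]
    refine ⟨by norm_num, by norm_num, by norm_num, by norm_num, by norm_num, by norm_num,
      by norm_num, fun l => by norm_num, fun l => by norm_num⟩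

end

end Vale.Agent.P154.Loc
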