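import Vale.Agent.P154.LocTree

/-!
# P154, three states, antiferromagnetic side: local stability of the centre
-/

namespace Vale.Agent.P154.Loc

open Finset Filter Topology Vale.Agent.P154 Vale.Agent.P154.Up

theorem exists_ratio {a S η : ℝ} (h0 : 0 ≤ a) (hη : 0 ≤ η) (h : a ≤ η * S ^ 2) :
    ∃ E, 0 ≤ E ∧ E ≤ η ∧ a = E * S ^ 2 := by
  rcases (sq_nonneg S).eq_or_lt with hS | hS
  · refine ⟨0, le_rfl, hη, ?_⟩
    rw [← hS] at h
    linarith
  · refine ⟨a / S ^ 2, div_nonneg h0 hS.le, ?_, ?_⟩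
    · rw [div_le_iff₀ hS]; exact h
    · exact (div_mul_cancel₀ a hS.ne').symm

/-! ### the regular tree -/

/-- evaluation at the unique point -/
def evU (f : Unit → ℝ) : ℝ := f ()

theorem isAvg_evU : IsAvg evU :=
  ⟨fun _ _ _ _ => rfl, fun _ _ _ => rfl, fun _ _ _ _ h => h (), rfl⟩

theorem itE_evU : ∀ (k : ℕ) (F : (Fin k → Unit) → ℝ), itE evU k F = F (fun _ => ()) := by
  intro k
  induction k with
  | zero =>
    intro F
    exact congrArg F (Subsingleton.elim _ _)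
  | succ k ih =>
    intro F
    simp only [itE]
    rw [show evU (fun a => itE evU k fun c => F (Fin.cons a c)) =
      itE evU k fun c => F (Fin.cons () c) from rfl, ih]

section
variable {κ : ℝ}

noncomputable def Mr (κ : ℝ) (d n : ℕ) : ℝ := fn gr (lik 3 (-κ) (dary d n))
noncomputable def Tr (κ : ℝ) (d n : ℕ) : ℝ := fn gt (lik 3 (-κ) (dary d n))
noncomputable def Rr (κ : ℝ) (d n : ℕ) : ℝ := fn gR (lik 3 (-κ) (dary d n))

theorem Mr_eq (κ : ℝ) (d n : ℕ) : Mr κ d n = Mtree 3 (-κ) (dary d n) := fn_gr_eq _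

theorem st_reg (h0 : 0 < κ) (h1 : κ ≤ 1 / 2) (d n : ℕ) :
    St κ (Mr κ d n) (Tr κ d n) (Rr κ d n) (Tr κ d n / Mr κ d n) (Rr κ d n / Mr κ d n) :=
  st_of_pf h0 h1 (nExp_lik h0.le h1 (dary d n)).pf

theorem reg_bound (h0 : 0 < κ) (h1 : κ ≤ 1 / 2) (d n : ℕ) {p w : ℝ}
    (hs : St κ (Mr κ d n) (Tr κ d n) (Rr κ d n) p w) :
    Mr κ d (n + 1) ≤ e1 (κ ^ 2 * Mr κ d n) d +
      U2 (κ ^ 2 * w) (κ * p) * e2 (κ ^ 2 * Mr κ d n) d + U3 (κ ^ 2 * w) * e3 (κ ^ 2 * Mr κ d n) d ∧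
    Tr κ d (n + 1) ≤ - (κ * p) * e1 (κ ^ 2 * Mr κ d n) d +
      P2 (κ * p) * e2 (κ ^ 2 * Mr κ d n) d + P3 (κ ^ 2 * w) * e3 (κ ^ 2 * Mr κ d n) d ∧
    Rr κ d (n + 1) ≤ κ ^ 2 * w * e1 (κ ^ 2 * Mr κ d n) d +
      V2 (κ ^ 2 * w) (κ * p) * e2 (κ ^ 2 * Mr κ d n) d +
      V3 (κ ^ 2 * w) * e3 (κ ^ 2 * Mr κ d n) d := by
  have key := law_bound (α := Unit) (E := evU) (X := fun _ => Obs 3 (dary d n))
    (u := fun _ => lik 3 (-κ) (dary d n)) isAvg_evU (fun _ => nExp_lik h0.le h1 (dary d n)) h0 h1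
    (M := Mr κ d n) (T := Tr κ d n) (R := Rr κ d n) rfl rfl rfl hs d
  unfold Ak at key
  simp only [itE_evU] at key
  exact key

theorem one_sub_inv_mul {d : ℕ} (hd : 1 ≤ d) (s : ℝ) :
    (1 - 1 / (d : ℝ)) * (d * s) ^ 2 / 2 = (d : ℝ) * (d - 1) / 2 * s ^ 2 := by
  have : (d : ℝ) ≠ 0 := by
    have : (1 : ℝ) ≤ d := by exact_mod_cast hd
    linarith
  field_simp

/-- the descent on the regular tree -/
theorem reg_descent {θ β m η c : ℝ} (F : Fin4 θ β m η c) (hη : 0 ≤ η) (h0 : 0 < κ) (h1 : κ ≤ 1 / 2)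
    {d : ℕ} (hd : 1 ≤ d) (hθ : θ = 1 - 1 / (d : ℝ)) (hdκ : d * κ ^ 2 ≤ 1)
    (he : ∀ s : ℝ, 0 ≤ s → d * s ≤ m → e3 s d ≤ η * (d * s) ^ 2)
    {N : ℕ} (hN : Mr κ d N ≤ m) : Tendsto (fun n => Mr κ d n) atTop (𝓝 0) := by
  set γ := 2 * θ * (1 - 2 * β) * κ / (1 + κ) with hγ
  have hanti : Antitone (fun n => Mr κ d n) := by
    have := antitone_Mdary h0.le h1 d
    simp only [Mr_eq]
    exact this
  have hst := fun n => st_reg h0 h1 d n
  have hd0 : (1 : ℝ) ≤ d := by exact_mod_cast hd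
  have hγ0 : 0 ≤ γ ∧ γ ≤ 1 / 2 := by
    have hκp : 0 < 1 + κ := by linarith
    have q0 := F.θ0; have q1 := F.θ1; have q2 := F.β0; have q3 := F.β1
    have hβ2 : 0 ≤ 1 - 2 * β := by linarith
    have hθ0 : 0 ≤ θ := by linarith
    have hθβ : θ * (1 - 2 * β) ≤ 1 * (3 / 4) := mul_le_mul q1 (by linarith) hβ2 (by norm_num)
    constructor
    · positivity
    · rw [hγ, div_le_iff₀ hκp]
      have := mul_le_mul_of_nonneg_right hθβ h0.le
      linarith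
  have hβ0 : 0 ≤ β := by linarith [F.β0]
  refine tendsto_of_descent (Φ := fun n => Mr κ d n * (1 + γ * Tr κ d n) + β * Rr κ d n)
    (N := N) F.c0 (fun n => (hst n).M0) hanti (fun n => ?_) (fun n hn => ?_)
  · have hs := (nExp_lik h0.le h1 (dary d n)).pf
    have a1 : 0 ≤ Mr κ d n := hs.r0
    have a2 : 0 ≤ Rr κ d n := hs.R0
    have a3 := (hst n).T0
    have a4 : 0 ≤ γ * (Tr κ d n + 1 / 2) := mul_nonneg hγ0.1 (by linarith)
    have a5 := mul_nonneg a1 (by linarith [hγ0.2] : 0 ≤ 1 + γ * Tr κ d n)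
    have a6 := mul_nonneg hβ0 a2
    exact add_nonneg a5 a6
  · have hs := hst n
    obtain ⟨k1, k2, k3⟩ := reg_bound h0 h1 d n hs
    set p := Tr κ d n / Mr κ d n
    set w := Rr κ d n / Mr κ d n
    have hMn : Mr κ d n ≤ m := (hanti hn).trans hN
    have hM0 := hs.M0
    have hs0 : 0 ≤ κ ^ 2 * Mr κ d n := mul_nonneg (sq_nonneg κ) hM0
    have hSM : d * (κ ^ 2 * Mr κ d n) ≤ Mr κ d n := by
      have := mul_le_mul_of_nonneg_right hdκ hM0
      linarith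
    have hS0 : 0 ≤ d * (κ ^ 2 * Mr κ d n) := mul_nonneg (by linarith) hs0
    obtain ⟨E, hE0, hE1, hE2⟩ := exists_ratio (e3_nonneg hs0 d) hη
      (he _ hs0 (hSM.trans hMn))
    have hb := combine F h0 h1 hM0 hMn hS0 hSM hE0 hE1 hs.om (M' := Mr κ d (n + 1))
      (T' := Tr κ d (n + 1)) (R' := Rr κ d (n + 1)) (hst (n + 1)).M0 (hst (n + 1)).T0
      (by rw [← hE2, hθ, one_sub_inv_mul hd, ← e2_eq]; exact k1)
      (by rw [← hE2, hθ, one_sub_inv_mul hd, ← e2_eq]; exact k2)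
      (by rw [← hE2, hθ, one_sub_inv_mul hd, ← e2_eq]; exact k3)
    have eT := hs.eT
    have eR := hs.eR
    rw [← eT, ← eR] at hb
    exact hb

theorem e3_four (s : ℝ) : e3 s 4 = 4 * s ^ 3 + 30 * s ^ 4 := by
  simp only [e3, e2, e1]
  push_cast
  ring

theorem exp_bound_B {z : ℝ} (h0 : 0 ≤ z) (h1 : z ≤ 69 / 100) :
    Real.exp z ≤ 1 + z + 64 / 100 * z ^ 2 := by
  have h := Real.exp_bound' h0 (by linarith : z ≤ 1) (n := 4) (by norm_num)
  simp only [Finset.sum_range_succ, Finset.sum_range_zero, Nat.factorial] at h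
  norm_num at h
  have h2 : z ^ 3 ≤ 69 / 100 * z ^ 2 := by nlinarith [sq_nonneg z]
  have h3 : z ^ 4 ≤ (69 / 100) ^ 2 * z ^ 2 := by nlinarith [sq_nonneg z]
  nlinarith

theorem pow_le_exp {z : ℝ} {d : ℕ} (hd : 1 ≤ d) (h0 : 0 ≤ z) :
    (1 + z / d) ^ d ≤ Real.exp z := by
  have hd0 : (d : ℝ) ≠ 0 := by
    have : (1 : ℝ) ≤ d := by exact_mod_cast hd
    linarith
  have h1 : 1 + z / d ≤ Real.exp (z / d) := by
    have := Real.add_one_le_exp (z / d)
    linarith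
  have h2 : 0 ≤ 1 + z / d := by positivity
  calc (1 + z / d) ^ d ≤ Real.exp (z / d) ^ d := pow_le_pow_left₀ h2 h1 d
    _ = Real.exp z := by
      rw [← Real.exp_nat_mul]
      congr 1
      field_simp

/-- Local stability, `d`-ary tree, `d ≥ 5`. -/
theorem loc_dary_large {d : ℕ} (hd : 5 ≤ d) (h0 : 0 < κ) (h1 : κ ≤ 1 / 2) (hdκ : d * κ ^ 2 ≤ 1)
    {N : ℕ} (hN : Mtree 3 (-κ) (dary d N) ≤ 23 / 1000) :
    Tendsto (fun n => Mtree 3 (-κ) (dary d n)) atTop (𝓝 0) := by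
  simp only [← Mr_eq] at hN ⊢
  have hd5 : (5 : ℝ) ≤ d := by exact_mod_cast hd
  have hθ : 4 / 5 ≤ 1 - 1 / (d : ℝ) := by
    have : 1 / (d : ℝ) ≤ 1 / 5 := one_div_le_one_div_of_le (by norm_num) hd5
    linarith
  have hθ' : 1 - 1 / (d : ℝ) ≤ 1 := by
    have : 0 ≤ 1 / (d : ℝ) := by positivity
    linarith
  refine reg_descent (fin4_B hθ hθ') (by norm_num) h0 h1 (by omega) rfl hdκ ?_ hN
  intro s hs hsm
  have h2 := e3_eq (s := s) d
  have hz0 : 0 ≤ 30 * (d * s) := by positivity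
  have h3 : (1 + 30 * s) ^ d ≤ Real.exp (30 * (d * s)) := by
    have := pow_le_exp (z := 30 * (d * s)) (d := d) (by omega) hz0
    have e : 30 * (d * s) / d = 30 * s := by field_simp
    rwa [e] at this
  have h4 := exp_bound_B hz0 (by linarith)
  have h5 : e2 s d = (1 - 1 / (d : ℝ)) * (d * s) ^ 2 / 2 := by
    rw [one_sub_inv_mul (by omega), e2_eq]
  have h6 : 4 / 5 * (d * s) ^ 2 ≤ (1 - 1 / (d : ℝ)) * (d * s) ^ 2 :=
    mul_le_mul_of_nonneg_right hθ (sq_nonneg _)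
  have h7 : e1 s d = d * s := rfl
  rw [h7] at h2
  nlinarith

/-- Local stability, `d`-ary tree, `d ≤ 4`. -/
theorem loc_dary_small {d : ℕ} (hd2 : 2 ≤ d) (hd : d ≤ 4) (h0 : 0 < κ) (h1 : κ ≤ 1 / 2)
    {N : ℕ} (hN : Mtree 3 (-κ) (dary d N) ≤ 7 / 100) :
    Tendsto (fun n => Mtree 3 (-κ) (dary d n)) atTop (𝓝 0) := by
  have hκ4 : κ ^ 2 ≤ 1 / 4 := by nlinarith
  simp only [← Mr_eq] at hN ⊢
  rcases (show d = 4 ∨ d ≤ 3 by omega) with rfl | hd3
  · have hdκ : ((4 : ℕ) : ℝ) * κ ^ 2 ≤ 1 := by push_cast; linarith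
    refine reg_descent fin4_A (by norm_num) h0 h1 (by norm_num) (by norm_num) hdκ ?_ hN
    intro s hs hsm
    push_cast at hsm ⊢
    rw [e3_four]
    have hs' : s ≤ 7 / 400 := by linarith
    have k1 : s ^ 3 ≤ 7 / 400 * s ^ 2 := by nlinarith [sq_nonneg s]
    have k2 : s ^ 4 ≤ (7 / 400) ^ 2 * s ^ 2 := by nlinarith [sq_nonneg s, mul_nonneg hs (sub_nonneg.2 hs')]
    nlinarith [sq_nonneg s]
  · have hanti : Antitone (fun n => Mr κ d n) := by
      have := antitone_Mdary h0.le h1 d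
      simp only [Mr_eq]
      exact this
    refine tendsto_of_descent (Φ := fun n => Mr κ d n) (N := N) (c := 1 / 10) (by norm_num)
      (fun n => (st_reg h0 h1 d n).M0) hanti (fun n => (st_reg h0 h1 d n).M0) (fun n hn => ?_)
    have hs := st_reg h0 h1 d n
    obtain ⟨k1, -, -⟩ := reg_bound h0 h1 d n hs
    have hMn : Mr κ d n ≤ 7 / 100 := (hanti hn).trans hN
    have hM0 := hs.M0
    have u2 := U2_le hs.om
    have hxb := hs.om.b
    generalize κ ^ 2 * (Rr κ d n / Mr κ d n) = x at *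
    generalize κ * (Tr κ d n / Mr κ d n) = y at *
    have hU3 : U3 x = 86 / 10 + 260 * x := rfl
    have hU3b : U3 x ≤ 736 / 10 := by rw [hU3]; linarith
    have hs0 : 0 ≤ κ ^ 2 * Mr κ d n := mul_nonneg (sq_nonneg κ) hM0
    have hs1 : κ ^ 2 * Mr κ d n ≤ 1 / 4 * Mr κ d n := mul_le_mul_of_nonneg_right hκ4 hM0
    generalize κ ^ 2 * Mr κ d n = s at *
    generalize Mr κ d n = M at *
    have g2 := mul_le_mul_of_nonneg_right u2 (e2_nonneg hs0 d)
    have g3 := mul_le_mul_of_nonneg_right hU3b (e3_nonneg hs0 d)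
    have e2d : e2 s d ≤ 3 * s ^ 2 := by
      rw [e2_eq]
      have : (d : ℝ) ≤ 3 := by exact_mod_cast hd3
      have : (2 : ℝ) ≤ d := by exact_mod_cast hd2
      have : (d : ℝ) * (d - 1) / 2 ≤ 3 := by nlinarith
      exact mul_le_mul_of_nonneg_right this (sq_nonneg s)
    have e3d : e3 s d ≤ s ^ 3 := by
      rcases (show d = 2 ∨ d = 3 by omega) with rfl | rfl
      · simp only [e3, e2, e1]
        push_cast
        have : 0 ≤ s ^ 3 := by positivity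
        linarith
      · simp only [e3, e2, e1]
        push_cast
        apply le_of_eq; ring
    have e1d : e1 s d ≤ 3 * s := by
      unfold e1
      have : (d : ℝ) ≤ 3 := by exact_mod_cast hd3
      exact mul_le_mul_of_nonneg_right this hs0
    have m1 : s ≤ 7 / 400 := by linarith
    have m2 : s ^ 2 ≤ 7 / 400 * s := by nlinarith
    have m3 : s ^ 3 ≤ (7 / 400) ^ 2 * s := by nlinarith [mul_nonneg hs0 hs0]
    have m4 : M ^ 2 ≤ 7 / 100 * M := by nlinarith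
    linarith

end

end Vale.Agent.P154.Loc
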