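import Mathlib

/-!
# P154, three states, antiferromagnetic side: polynomials near the centre

Polynomial majorants of `D r`, `D t`, `D r²` for the combination of two posteriors.
-/

namespace Vale.Agent.P154.Loc

/-- mean -/
noncomputable def wD (a b c : ℝ) : ℝ := (a + b + c) / 3
/-- `D² r` -/
noncomputable def wn (a b c : ℝ) : ℝ := ((a ^ 2 + b ^ 2 + c ^ 2) / 3 - wD a b c ^ 2) / 2
/-- `D³ t` -/
noncomputable def wt (a b c : ℝ) : ℝ := (a * b * c - wD a b c ^ 3 + 3 * wD a b c * wn a b c) / 2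

/-- average over the six relabellings of the second argument -/
noncomputable def av (P : ℝ → ℝ → ℝ → ℝ) (x1 x2 x3 y1 y2 y3 : ℝ) : ℝ :=
  1 / 6 * (P (x1 * y1) (x2 * y2) (x3 * y3) + P (x1 * y2) (x2 * y1) (x3 * y3)
    + P (x1 * y3) (x2 * y2) (x3 * y1) + P (x1 * y1) (x2 * y3) (x3 * y2)
    + P (x1 * y2) (x2 * y3) (x3 * y1) + P (x1 * y3) (x2 * y1) (x3 * y2))

/-- upper polynomial for `r` -/
noncomputable def PKru (a b c : ℝ) : ℝ :=
  wn a b c * (1 - (wD a b c - 1)) + (wD a b c - 1) ^ 2 * (5 / 4 * wn a b c + (wD a b c - 1) ^ 2)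
/-- lower polynomial for `r` -/
noncomputable def PKrl (a b c : ℝ) : ℝ := wn a b c * (1 - (wD a b c - 1))

/-- upper polynomial for `t` -/
noncomputable def PKtu (a b c : ℝ) : ℝ :=
  wt a b c * (1 - 2 * (wD a b c - 1)) + (wD a b c - 1) ^ 2 *
    (3 * wn a b c - (wD a b c - 1) - (wD a b c - 1) ^ 2)

/-- upper polynomial for `-t` -/
noncomputable def PKtl (a b c : ℝ) : ℝ :=
  - (wt a b c * (1 - 2 * (wD a b c - 1))) + (wD a b c - 1) ^ 2 *
    (3 / 2 * wn a b c - 1 / 8 * (wD a b c - 1) - 1 / 8 * (wD a b c - 1) ^ 2)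

/-- upper polynomial for `r²` -/
noncomputable def PKRu (a b c : ℝ) : ℝ :=
  wn a b c ^ 2 * (1 - 3 * (wD a b c - 1)) + (wD a b c - 1) ^ 2 *
    (16 / 5 * wn a b c + 3 * wt a b c + 21 / 10 * (wD a b c - 1) ^ 2)

end Vale.Agent.P154.Loc
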