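import Vale.Agent.P154.LocMain

/-!
# P154, three states, antiferromagnetic side: local stability on the Poisson tree
-/

namespace Vale.Agent.P154.Loc

open Finset Filter Topology Vale.Agent.P154 Vale.Agent.P154.Up

/-! ### weighted averages -/

section
variable {α : Type} {w : α → ℝ}

/-- weighted average -/
noncomputable def avW (w : α → ℝ) (f : α → ℝ) : ℝ := ∑' a, w a * f a

theorem summable_bd (hw0 : ∀ a, 0 ≤ w a) (hw : Summable w) {f : α → ℝ} (hf : Bd f) :
    Summable (fun a => w a * f a) := by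
  obtain ⟨C, hC⟩ := hf
  refine Summable.of_norm_bounded (hw.mul_right C) fun a => ?_
  rw [Real.norm_eq_abs, abs_mul, abs_of_nonneg (hw0 a)]
  exact mul_le_mul_of_nonneg_left (hC a) (hw0 a)

theorem isAvg_avW (hw0 : ∀ a, 0 ≤ w a) (hw : HasSum w 1) : IsAvg (avW w) := by
  refine ⟨?_, ?_, ?_, ?_⟩
  · intro f g hf hg
    unfold avW
    rw [← (summable_bd hw0 hw.summable hf).tsum_add (summable_bd hw0 hw.summable hg)]
    refine tsum_congr fun a => ?_
    ring
  · intro c f hf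
    unfold avW
    rw [← tsum_mul_left]
    refine tsum_congr fun a => ?_
    ring
  · intro f g hf hg h
    exact (summable_bd hw0 hw.summable hf).tsum_le_tsum
      (fun a => mul_le_mul_of_nonneg_left (h a) (hw0 a)) (summable_bd hw0 hw.summable hg)
  · unfold avW
    simp only [mul_one]
    exact hw.tsum_eq

theorem summable_pi (hw0 : ∀ a, 0 ≤ w a) (hw : Summable w) :
    ∀ k, Summable (fun c : Fin k → α => ∏ v, w (c v)) := by
  intro k
  induction k with
  | zero =>
    have : Finite (Fin 0 → α) := inferInstance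
    exact Summable.of_finite
  | succ k ih =>
    rw [← (Fin.consEquiv (fun _ : Fin (k + 1) => α)).summable_iff]
    refine (hw.mul_of_nonneg ih hw0 fun _ => Finset.prod_nonneg fun _ _ => hw0 _).congr fun p => ?_
    simp [Fin.prod_univ_succ, Fin.consEquiv]

theorem summable_pi_bd (hw0 : ∀ a, 0 ≤ w a) (hw : Summable w) (k : ℕ) {G : (Fin k → α) → ℝ}
    (hG : Bd G) : Summable (fun c : Fin k → α => (∏ v, w (c v)) * G c) :=
  summable_bd (fun c => Finset.prod_nonneg fun v _ => hw0 _) (summable_pi hw0 hw k) hG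

theorem avW_pi (hw0 : ∀ a, 0 ≤ w a) (hw : HasSum w 1) : ∀ (k : ℕ) (G : (Fin k → α) → ℝ), Bd G →
    ∑' c : Fin k → α, (∏ v, w (c v)) * G c = itE (avW w) k G := by
  intro k
  induction k with
  | zero =>
    intro G _
    rw [tsum_eq_single (fun v => v.elim0)]
    · simp [itE]
    · intro b hb
      exact absurd (Subsingleton.elim _ _) hb
  | succ k ih =>
    intro G hG
    have hs := summable_pi_bd hw0 hw.summable (k + 1) hG
    have hs' : Summable (fun p : α × (Fin k → α) => (w p.1 * ∏ v, w (p.2 v)) *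
        G (Fin.cons p.1 p.2)) := by
      refine ((Fin.consEquiv (fun _ : Fin (k + 1) => α)).summable_iff.2 hs).congr fun p => ?_
      simp [Fin.prod_univ_succ, Fin.consEquiv]
    have e : ∑' c : Fin (k + 1) → α, (∏ v, w (c v)) * G c =
        ∑' p : α × (Fin k → α), (w p.1 * ∏ v, w (p.2 v)) * G (Fin.cons p.1 p.2) := by
      rw [← (Fin.consEquiv (fun _ : Fin (k + 1) => α)).tsum_eq]
      refine tsum_congr fun p => ?_
      simp [Fin.prod_univ_succ, Fin.consEquiv]
    rw [e, hs'.tsum_prod]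
    simp only [itE]
    show _ = ∑' a, w a * itE (avW w) k (fun c => G (Fin.cons a c))
    refine tsum_congr fun a => ?_
    have hGa : Bd (fun c : Fin k → α => G (Fin.cons a c)) := by
      obtain ⟨C, hC⟩ := hG
      exact ⟨C, fun c => hC _⟩
    rw [← ih _ hGa, ← tsum_mul_left]
    refine tsum_congr fun c => ?_
    ring

end

/-! ### the Poisson law -/

/-- Poisson probabilities -/
noncomputable def pr (d : ℝ) (k : ℕ) : ℝ := Real.exp (-d) * d ^ k / (k.factorial : ℝ)

theorem pr_nonneg {d : ℝ} (hd : 0 ≤ d) (k : ℕ) : 0 ≤ pr d k := by unfold pr; positivity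

theorem pr_sum (d : ℝ) : HasSum (pr d) 1 := pk_hasSum d

theorem pr_succ (d : ℝ) (k : ℕ) : pr d (k + 1) * ((k : ℝ) + 1) = d * pr d k := by
  unfold pr
  rw [Nat.factorial_succ]
  push_cast
  field_simp
  ring

theorem pr_first (d : ℝ) : HasSum (fun k : ℕ => pr d k * (k : ℝ)) d := by
  have h : HasSum (fun k : ℕ => pr d (k + 1) * ((k + 1 : ℕ) : ℝ)) (d * 1) := by
    refine ((pr_sum d).mul_left d).congr_fun fun k => ?_
    push_cast
    exact pr_succ d k
  have := (hasSum_nat_add_iff (f := fun k : ℕ => pr d k * (k : ℝ)) 1).1 h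
  simpa using this

theorem pr_second (d : ℝ) : HasSum (fun k : ℕ => pr d k * ((k : ℝ) * (k - 1) / 2))
    (d ^ 2 / 2) := by
  have h : HasSum (fun k : ℕ => pr d (k + 1) * (((k + 1 : ℕ) : ℝ) * (((k + 1 : ℕ) : ℝ) - 1) / 2))
      (d / 2 * d) := by
    refine ((pr_first d).mul_left (d / 2)).congr_fun fun k => ?_
    have := pr_succ d k
    push_cast
    linear_combination (k : ℝ) / 2 * this
  have := (hasSum_nat_add_iff
    (f := fun k : ℕ => pr d k * ((k : ℝ) * (k - 1) / 2)) 1).1 h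
  have e : d ^ 2 / 2 = d / 2 * d + ∑ i ∈ range 1, pr d i * ((i : ℝ) * (i - 1) / 2) := by
    simp; ring
  rw [e]
  exact this

theorem pr_gen (d t : ℝ) : HasSum (fun k : ℕ => pr d k * t ^ k) (Real.exp (d * (t - 1))) := by
  have h := (NormedSpace.expSeries_div_hasSum_exp (𝔸 := ℝ) (d * t)).mul_left (Real.exp (-d))
  have h2 : Real.exp (-d) * NormedSpace.exp (d * t) = Real.exp (d * (t - 1)) := by
    rw [← Real.exp_eq_exp_ℝ, ← Real.exp_add]
    congr 1
    ring
  rw [h2] at h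
  refine h.congr_fun fun k => ?_
  unfold pr
  rw [mul_pow]
  ring

theorem pr_e1 (d s : ℝ) : HasSum (fun k => pr d k * e1 s k) (d * s) := by
  refine ((pr_first d).mul_right s).congr_fun fun k => ?_
  unfold e1; ring

theorem pr_e2 (d s : ℝ) : HasSum (fun k => pr d k * e2 s k) (1 * (d * s) ^ 2 / 2) := by
  have e : 1 * (d * s) ^ 2 / 2 = d ^ 2 / 2 * s ^ 2 := by ring
  rw [e]
  refine ((pr_second d).mul_right (s ^ 2)).congr_fun fun k => ?_
  rw [e2_eq]; ring

theorem pr_e3 (d s : ℝ) : HasSum (fun k => pr d k * e3 s k)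
    ((Real.exp (30 * (d * s)) - 1 - 30 * (d * s) - 450 * (d * s) ^ 2) / 27000) := by
  have h1 := pr_gen d (1 + 30 * s)
  have h := ((h1.sub (pr_sum d)).sub ((pr_e1 d s).mul_left 30)).sub ((pr_e2 d s).mul_left 900)
  have h' := h.mul_left (1 / 27000)
  have e : 1 / 27000 * (Real.exp (d * (1 + 30 * s - 1)) - 1 - 30 * (d * s) -
      900 * (1 * (d * s) ^ 2 / 2)) =
      (Real.exp (30 * (d * s)) - 1 - 30 * (d * s) - 450 * (d * s) ^ 2) / 27000 := by
    have : d * (1 + 30 * s - 1) = 30 * (d * s) := by ring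
    rw [this]; ring
  rw [e] at h'
  refine h'.congr_fun fun k => ?_
  have := e3_eq (s := s) k
  have h3 : (1 + 30 * s) ^ k - 1 - 30 * e1 s k - 900 * e2 s k = 27000 * e3 s k := by
    linarith
  linear_combination (- (pr d k) / 27000) * h3

/-- the splitting of the Poisson tree at the root -/
theorem pois_split {d : ℝ} (hd : 0 ≤ d) (n : ℕ) {g : GTree (n + 1) → ℝ} (hg : Bd g) :
    HasSum (fun k => pr d k * itE (avW (fun T : GTree n => poissonWeight d T)) k
      (fun c => g (GTree.node k c))) (∑' T : GTree (n + 1), poissonWeight d T * g T) := by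
  have hw0 : ∀ {m : ℕ} (T : GTree m), 0 ≤ poissonWeight d T := fun T => poissonWeight_nonneg hd T
  have hw1 : HasSum (fun T : GTree n => poissonWeight d T) 1 := by
    rw [← poissonWeight_tsum hd n]
    exact (poissonWeight_summable hd n).hasSum
  have hs : Summable (fun T : GTree (n + 1) => poissonWeight d T * g T) :=
    summable_bd hw0 (poissonWeight_summable hd (n + 1)) hg
  have hs' : Summable (fun x : (Σ k : ℕ, (Fin k → GTree n)) =>
      poissonWeight d (GTree.node x.1 x.2) * g (GTree.node x.1 x.2)) :=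
    (GTree.equivSigma n).symm.summable_iff.2 hs
  have h1 : HasSum (fun x : (Σ k : ℕ, (Fin k → GTree n)) =>
      poissonWeight d (GTree.node x.1 x.2) * g (GTree.node x.1 x.2))
      (∑' T : GTree (n + 1), poissonWeight d T * g T) := by
    rw [← (GTree.equivSigma n).symm.tsum_eq]
    exact hs'.hasSum
  refine h1.sigma fun k => ?_
  have hgk : Bd (fun c : Fin k → GTree n => g (GTree.node k c)) := by
    obtain ⟨C, hC⟩ := hg
    exact ⟨C, fun c => hC _⟩
  have hsk := summable_pi_bd (w := fun T : GTree n => poissonWeight d T) hw0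
    (poissonWeight_summable hd n) k hgk
  have e := avW_pi (w := fun T : GTree n => poissonWeight d T) hw0 hw1 k _ hgk
  rw [← e, ← tsum_mul_left]
  have hsk' := hsk.mul_left (pr d k)
  refine hsk'.hasSum.congr_fun fun c => ?_
  show poissonWeight d (GTree.node k c) * g (GTree.node k c) = _
  have : poissonWeight d (GTree.node k c) = pr d k * ∏ v, poissonWeight d (c v) := rfl
  rw [this]
  ring

/-! ### the descent -/

section
variable {κ d : ℝ}

noncomputable def avP (d κ : ℝ) (F : ℝ → ℝ → ℝ → ℝ) (n : ℕ) : ℝ :=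
  ∑' T : GTree n, poissonWeight d T * fn F (lik 3 (-κ) T)

theorem hasSum_weight (hd : 0 ≤ d) (n : ℕ) : HasSum (fun T : GTree n => poissonWeight d T) 1 := by
  rw [← poissonWeight_tsum hd n]
  exact (poissonWeight_summable hd n).hasSum

theorem isAvg_pois (hd : 0 ≤ d) (n : ℕ) : IsAvg (avW (fun T : GTree n => poissonWeight d T)) :=
  isAvg_avW (fun T => poissonWeight_nonneg hd T) (hasSum_weight hd n)

theorem pf_pois (hd : 0 ≤ d) (h0 : 0 < κ) (h1 : κ ≤ 1 / 2) (n : ℕ) :
    PF 1 (avP d κ gr n) (avP d κ gt n) (avP d κ gR n) :=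
  pf_avg (isAvg_pois hd n) (u := fun T : GTree n => lik 3 (-κ) T)
    (fun T => nExp_lik h0.le h1 T)

theorem pois_bound (hd : 0 ≤ d) (h0 : 0 < κ) (h1 : κ ≤ 1 / 2) (n : ℕ) {p w : ℝ}
    (hs : St κ (avP d κ gr n) (avP d κ gt n) (avP d κ gR n) p w) {S A : ℝ}
    (hS : S = d * (κ ^ 2 * avP d κ gr n))
    (hA : A = (Real.exp (30 * S) - 1 - 30 * S - 450 * S ^ 2) / 27000) :
    avP d κ gr (n + 1) ≤ S + U2 (κ ^ 2 * w) (κ * p) * (1 * S ^ 2 / 2) + U3 (κ ^ 2 * w) * A ∧
    avP d κ gt (n + 1) ≤ - (κ * p) * S + P2 (κ * p) * (1 * S ^ 2 / 2) + P3 (κ ^ 2 * w) * A ∧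
    avP d κ gR (n + 1) ≤ κ ^ 2 * w * S + V2 (κ ^ 2 * w) (κ * p) * (1 * S ^ 2 / 2) +
      V3 (κ ^ 2 * w) * A := by
  have key := fun k => law_bound (isAvg_pois hd n) (u := fun T : GTree n => lik 3 (-κ) T)
    (fun T => nExp_lik h0.le h1 T) h0 h1 (M := avP d κ gr n) (T := avP d κ gt n)
    (R := avP d κ gR n) rfl rfl rfl hs k
  have hN : ∀ {m : ℕ} (T : GTree m), NExp (lik 3 (-κ) T) := fun T => nExp_lik h0.le h1 T
  set s := κ ^ 2 * avP d κ gr n with hsdef
  have q1 := pr_e1 d s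
  have q2 := pr_e2 d s
  have q3 := pr_e3 d s
  rw [← hS] at q1 q2 q3
  rw [← hA] at q3
  have comb : ∀ a b c : ℝ, HasSum (fun k => pr d k * (a * e1 s k + b * e2 s k + c * e3 s k))
      (a * S + b * (1 * S ^ 2 / 2) + c * A) := by
    intro a b c
    refine (((q1.mul_left a).add (q2.mul_left b)).add (q3.mul_left c)).congr_fun fun k => ?_
    ring
  have fin : ∀ (F : ℝ → ℝ → ℝ → ℝ) (a b c : ℝ), (∀ {m : ℕ} (T : GTree m),
      |fn F (lik 3 (-κ) T)| ≤ 1) → (∀ k, Ak (fun T : GTree n => chan (-κ) (lik 3 (-κ) T))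
        (avW (fun T : GTree n => poissonWeight d T)) F k ≤
          a * e1 s k + b * e2 s k + c * e3 s k) →
      avP d κ F (n + 1) ≤ a * S + b * (1 * S ^ 2 / 2) + c * A := by
    intro F a b c hF hk
    have h2 := pois_split hd n (g := fun T => fn F (lik 3 (-κ) T)) ⟨1, fun T => hF T⟩
    exact hasSum_le (fun k => mul_le_mul_of_nonneg_left (hk k) (pr_nonneg hd k)) h2 (comb a b c)
  refine ⟨?_, ?_, ?_⟩
  · have := fin gr 1 (U2 (κ ^ 2 * w) (κ * p)) (U3 (κ ^ 2 * w)) (fun T => (hN T).abs_gr)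
      (fun k => by rw [one_mul]; exact (key k).1)
    rwa [one_mul] at this
  · exact fin gt _ _ _ (fun T => (hN T).abs_gt) (fun k => (key k).2.1)
  · exact fin gR _ _ _ (fun T => (hN T).abs_gR) (fun k => (key k).2.2)

theorem exp_bound_C {z : ℝ} (h0 : 0 ≤ z) (h1 : z ≤ 129 / 100) :
    Real.exp z ≤ 1 + z + 809 / 1000 * z ^ 2 := by
  have h := Real.exp_bound' (x := z / 2) (by linarith) (by linarith) (n := 5) (by norm_num)
  simp only [Finset.sum_range_succ, Finset.sum_range_zero, Nat.factorial] at h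
  norm_num at h
  have e : Real.exp z = Real.exp (z / 2) ^ 2 := by
    rw [← Real.exp_nat_mul]; congr 1; push_cast; ring
  rw [e]
  obtain ⟨x, hx⟩ : ∃ x, x = z / 2 := ⟨_, rfl⟩
  have hz : z = 2 * x := by rw [hx]; ring
  rw [← hx] at h ⊢
  have hx0 : 0 ≤ x := by rw [hx]; linarith
  have hx1 : x ≤ 129 / 200 := by rw [hx]; linarith
  have p0 : 0 ≤ Real.exp x := (Real.exp_pos x).le
  have h2 := pow_le_pow_left₀ p0 h 2
  refine h2.trans ?_
  rw [hz]
  have c2 : x ^ 3 ≤ 129 / 200 * x ^ 2 := by nlinarith [sq_nonneg x]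
  have c3 : x ^ 4 ≤ (129 / 200) ^ 2 * x ^ 2 := by nlinarith [sq_nonneg x]
  have c4 : x ^ 5 ≤ (129 / 200) ^ 3 * x ^ 2 := by nlinarith [sq_nonneg x]
  have c5 : x ^ 6 ≤ (129 / 200) ^ 4 * x ^ 2 := by nlinarith [sq_nonneg x]
  have c6 : x ^ 7 ≤ (129 / 200) ^ 5 * x ^ 2 := by nlinarith [sq_nonneg x]
  have c7 : x ^ 8 ≤ (129 / 200) ^ 6 * x ^ 2 := by nlinarith [sq_nonneg x]
  have c8 : x ^ 9 ≤ (129 / 200) ^ 7 * x ^ 2 := by nlinarith [sq_nonneg x]
  have c9 : x ^ 10 ≤ (129 / 200) ^ 8 * x ^ 2 := by nlinarith [sq_nonneg x]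
  nlinarith

/-- Local stability, Poisson tree. -/
theorem loc_poisson (hd : 0 < d) (h0 : 0 < κ) (h1 : κ ≤ 1 / 2) (hdκ : d * κ ^ 2 ≤ 1) {N : ℕ}
    (hN : ∑' T : GTree N, poissonWeight d T * Mtree 3 (-κ) T ≤ 43 / 1000) :
    Tendsto (fun n => ∑' T : GTree n, poissonWeight d T * Mtree 3 (-κ) T) atTop (𝓝 0) := by
  have hM : ∀ n, avP d κ gr n = ∑' T : GTree n, poissonWeight d T * Mtree 3 (-κ) T := by
    intro n
    unfold avP Mtree
    refine tsum_congr fun T => ?_
    rw [fn_gr_eq]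
  have hanti : Antitone (fun n => avP d κ gr n) := by
    simp only [hM]
    exact antitone_Mpoisson h0.le h1 hd.le
  rw [← hM] at hN
  simp only [← hM]
  set γ := 2 * 1 * (1 - 2 * (13 / 100)) * κ / (1 + κ) with hγ
  have hst := fun n => st_of_pf h0 h1 (pf_pois hd.le h0 h1 n)
  have hγ0 : 0 ≤ γ ∧ γ ≤ 1 / 2 := by
    have hκp : 0 < 1 + κ := by linarith
    constructor
    · rw [hγ]; norm_num; positivity
    · rw [hγ, div_le_iff₀ hκp]
      linarith
  refine tendsto_of_descent (Φ := fun n => avP d κ gr n * (1 + γ * avP d κ gt n) +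
    13 / 100 * avP d κ gR n) (N := N) (c := 1 / 100) (by norm_num) (fun n => (hst n).M0) hanti
    (fun n => ?_) (fun n hn => ?_)
  · have hs := pf_pois hd.le h0 h1 n
    have a1 : 0 ≤ avP d κ gr n := hs.r0
    have a2 : 0 ≤ avP d κ gR n := hs.R0
    have a3 := (hst n).T0
    have a4 : 0 ≤ γ * (avP d κ gt n + 1 / 2) := mul_nonneg hγ0.1 (by linarith)
    have a5 := mul_nonneg a1 (by linarith [hγ0.2] : 0 ≤ 1 + γ * avP d κ gt n)
    exact add_nonneg a5 (mul_nonneg (by norm_num) a2)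
  · have hs := hst n
    have hMn : avP d κ gr n ≤ 43 / 1000 := (hanti hn).trans hN
    have hM0 := hs.M0
    have hs0 : 0 ≤ κ ^ 2 * avP d κ gr n := mul_nonneg (sq_nonneg κ) hM0
    have hSM : d * (κ ^ 2 * avP d κ gr n) ≤ avP d κ gr n := by
      have := mul_le_mul_of_nonneg_right hdκ hM0
      linarith
    have hS0 : 0 ≤ d * (κ ^ 2 * avP d κ gr n) := mul_nonneg hd.le hs0
    obtain ⟨k1, k2, k3⟩ := pois_bound hd.le h0 h1 n hs rfl rfl
    have hA0 : 0 ≤ (Real.exp (30 * (d * (κ ^ 2 * avP d κ gr n))) - 1 -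
        30 * (d * (κ ^ 2 * avP d κ gr n)) - 450 * (d * (κ ^ 2 * avP d κ gr n)) ^ 2) / 27000 :=
      hasSum_le (fun k => mul_nonneg (pr_nonneg hd.le k) (e3_nonneg hs0 k)) hasSum_zero
        (pr_e3 d (κ ^ 2 * avP d κ gr n))
    generalize avP d κ gt n / avP d κ gr n = p at *
    generalize avP d κ gR n / avP d κ gr n = w at *
    generalize d * (κ ^ 2 * avP d κ gr n) = S at *
    have hA1 : (Real.exp (30 * S) - 1 - 30 * S - 450 * S ^ 2) / 27000 ≤ 103 / 10000 * S ^ 2 := by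
      have := exp_bound_C (z := 30 * S) (by linarith) (by linarith)
      rw [div_le_iff₀ (by norm_num)]
      nlinarith
    obtain ⟨E, hE0, hE1, hE2⟩ := exists_ratio hA0 (by norm_num) hA1
    rw [hE2] at k1 k2 k3
    have hb := combine fin4_C h0 h1 hM0 hMn hS0 hSM hE0 hE1 hs.om (M' := avP d κ gr (n + 1))
      (T' := avP d κ gt (n + 1)) (R' := avP d κ gR (n + 1)) (hst (n + 1)).M0 (hst (n + 1)).T0
      k1 k2 k3
    have eT := hs.eT
    have eR := hs.eR
    rw [← eT, ← eR] at hb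
    exact hb

end

end Vale.Agent.P154.Loc
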