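import Vale.Agent.P154.LocSeq4
import Vale.Agent.P154.LocPois

/-!
# P154, three states, antiferromagnetic side: one step on the Poisson tree, sharper bounds
-/

namespace Vale.Agent.P154.Loc

open Finset Filter Topology Vale.Agent.P154 Vale.Agent.P154.Up

section
variable {α : Type} {E : (α → ℝ) → ℝ} {X : α → Type} [∀ a, Fintype (X a)]
  {u : ∀ a, X a → Fin 3 → ℝ}

/-- bounds for the product of `k` independent messages -/
theorem law_cmp (hE : IsAvg E) (hu : ∀ a, NExp (u a)) {κ : ℝ} (h0 : 0 < κ) (h1 : κ ≤ 1 / 2)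
    {M T R p w : ℝ} (hM : M = E fun a => fn gr (u a)) (hT : T = E fun a => fn gt (u a))
    (hR : R = E fun a => fn gR (u a)) (hs : St κ M T R p w) {U L P Q V : ℕ → ℝ}
    (hS : Sup (κ ^ 2 * M) (κ ^ 2 * w) (κ * p) U L P Q V) (k : ℕ) :
    Ak (fun a => chan (-κ) (u a)) E gr k ≤ U k ∧
    Ak (fun a => chan (-κ) (u a)) E gt k ≤ P k ∧
    - Ak (fun a => chan (-κ) (u a)) E gt k ≤ Q k ∧
    Ak (fun a => chan (-κ) (u a)) E gR k ≤ V k := by
  have b1 : Bd (fun a => fn gr (u a)) := ⟨1, fun a => (hu a).abs_gr⟩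
  have b2 : Bd (fun a => fn gt (u a)) := ⟨1, fun a => (hu a).abs_gt⟩
  have b3 : Bd (fun a => fn gR (u a)) := ⟨1, fun a => (hu a).abs_gR⟩
  have c1 : (E fun a => fn gr (chan (-κ) (u a))) = κ ^ 2 * M := by
    simp only [fn_gr_chan]
    rw [hE.smul _ _ b1, ← hM]; ring
  have c2 : (E fun a => fn gt (chan (-κ) (u a))) = -(κ * p * (κ ^ 2 * M)) := by
    simp only [fn_gt_chan]
    rw [hE.smul _ _ b2, ← hT, hs.eT]; ring
  have c3 : (E fun a => fn gR (chan (-κ) (u a))) = κ ^ 2 * w * (κ ^ 2 * M) := by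
    simp only [fn_gR_chan]
    rw [hE.smul _ _ b3, ← hR, hs.eR]; ring
  have hm : ∀ a, MExp (chan (-κ) (u a)) := fun a => (hu a).chan h0.le h1
  obtain ⟨z1, z2, z3⟩ := Ak_zero (E := E) (fun a => chan (-κ) (u a))
  have key := seq_cmp (s := κ ^ 2 * M) (mul_nonneg (sq_nonneg κ) hs.M0) hs.om hS
    (m := Ak (fun a => chan (-κ) (u a)) E gr) (t := Ak (fun a => chan (-κ) (u a)) E gt)
    (R := Ak (fun a => chan (-κ) (u a)) E gR) z1 z2 z3
    (fun k => by have := Ak_ru _ hE hm k; rwa [c1, c2, c3] at this)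
    (fun k => by have := Ak_rl _ hE hm k; rwa [c1, c2] at this)
    (fun k => by have := Ak_tu _ hE hm k; rwa [c1, c2] at this)
    (fun k => by have := Ak_tl _ hE hm k; rwa [c1, c2, c3] at this)
    (fun k => by have := Ak_Ru _ hE hm k; rwa [c1, c2, c3] at this) k
  exact ⟨key.1, key.2.2.1, key.2.2.2.1, key.2.2.2.2⟩

end

/-! ### Poisson averages -/

theorem pr_third (d : ℝ) : HasSum (fun k : ℕ => pr d k * ((k : ℝ) * (k - 1) * (k - 2) / 6))
    (d ^ 3 / 6) := by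
  have h : HasSum (fun k : ℕ => pr d (k + 1) * (((k + 1 : ℕ) : ℝ) * (((k + 1 : ℕ) : ℝ) - 1) *
      (((k + 1 : ℕ) : ℝ) - 2) / 6)) (d / 3 * (d ^ 2 / 2)) := by
    refine ((pr_second d).mul_left (d / 3)).congr_fun fun k => ?_
    have := pr_succ d k
    push_cast
    linear_combination (k : ℝ) * (k - 1) / 6 * this
  have := (hasSum_nat_add_iff
    (f := fun k : ℕ => pr d k * ((k : ℝ) * (k - 1) * (k - 2) / 6)) 1).1 h
  have e : d ^ 3 / 6 = d / 3 * (d ^ 2 / 2) +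
      ∑ i ∈ range 1, pr d i * ((i : ℝ) * (i - 1) * (i - 2) / 6) := by
    simp; ring
  rw [e]
  exact this

theorem pr_c3 (d s : ℝ) : HasSum (fun k => pr d k * c3 s k) ((d * s) ^ 3 / 6) := by
  have e : (d * s) ^ 3 / 6 = d ^ 3 / 6 * s ^ 3 := by ring
  rw [e]
  refine ((pr_third d).mul_right (s ^ 3)).congr_fun fun k => ?_
  rw [c3_eq]; ring

/-- the average of `c4` -/
noncomputable def B4 (S : ℝ) : ℝ :=
  (Real.exp (20 * S) - 1 - 20 * S - 200 * S ^ 2 - 8000 / 6 * S ^ 3) / 160000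

/-- the average of `e3` -/
noncomputable def A3 (S : ℝ) : ℝ :=
  (Real.exp (30 * S) - 1 - 30 * S - 450 * S ^ 2) / 27000

theorem pr_c4 (d s : ℝ) : HasSum (fun k => pr d k * c4 s k) (B4 (d * s)) := by
  have h1 := pr_gen d (1 + 20 * s)
  have h := (((h1.sub (pr_sum d)).sub ((pr_e1 d s).mul_left 20)).sub
    ((pr_e2 d s).mul_left 400)).sub ((pr_c3 d s).mul_left 8000)
  have h' := h.mul_left (1 / 160000)
  have e : 1 / 160000 * (Real.exp (d * (1 + 20 * s - 1)) - 1 - 20 * (d * s) -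
      400 * (1 * (d * s) ^ 2 / 2) - 8000 * ((d * s) ^ 3 / 6)) = B4 (d * s) := by
    have : d * (1 + 20 * s - 1) = 20 * (d * s) := by ring
    rw [this]; unfold B4; ring
  rw [e] at h'
  refine h'.congr_fun fun k => ?_
  have := c4_eq (s := s) k
  have h3 : (1 + 20 * s) ^ k - 1 - 20 * e1 s k - 400 * e2 s k - 8000 * c3 s k =
      160000 * c4 s k := by
    linarith
  linear_combination (- (pr d k) / 160000) * h3

/-! ### one step -/

section
variable {κ d : ℝ}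

theorem avP_le (hd : 0 ≤ d) {n : ℕ} {F : ℝ → ℝ → ℝ → ℝ}
    (hF : ∀ {m : ℕ} (T : GTree m), |fn F (lik 3 (-κ) T)| ≤ 1) {sq : ℕ → ℝ} {v : ℝ}
    (hk : ∀ k, Ak (fun T : GTree n => chan (-κ) (lik 3 (-κ) T))
        (avW (fun T : GTree n => poissonWeight d T)) F k ≤ sq k)
    (hv : HasSum (fun k => pr d k * sq k) v) : avP d κ F (n + 1) ≤ v := by
  have h2 := pois_split hd n (g := fun T => fn F (lik 3 (-κ) T)) ⟨1, fun T => hF T⟩
  exact hasSum_le (fun k => mul_le_mul_of_nonneg_left (hk k) (pr_nonneg hd k)) h2 hv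

theorem avP_ge (hd : 0 ≤ d) {n : ℕ} {F : ℝ → ℝ → ℝ → ℝ}
    (hF : ∀ {m : ℕ} (T : GTree m), |fn F (lik 3 (-κ) T)| ≤ 1) {sq : ℕ → ℝ} {v : ℝ}
    (hk : ∀ k, - Ak (fun T : GTree n => chan (-κ) (lik 3 (-κ) T))
        (avW (fun T : GTree n => poissonWeight d T)) F k ≤ sq k)
    (hv : HasSum (fun k => pr d k * sq k) v) : - avP d κ F (n + 1) ≤ v := by
  have h2 := (pois_split hd n (g := fun T => fn F (lik 3 (-κ) T)) ⟨1, fun T => hF T⟩).neg
  refine hasSum_le (fun k => ?_) h2 hv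
  have := mul_le_mul_of_nonneg_left (hk k) (pr_nonneg hd k)
  rw [mul_neg] at this
  exact this

/-- the level-three bounds after one step -/
theorem pois3 (hd : 0 ≤ d) (h0 : 0 < κ) (h1 : κ ≤ 1 / 2) (n : ℕ) {p w : ℝ}
    (hs : St κ (avP d κ gr n) (avP d κ gt n) (avP d κ gR n) p w) {S : ℝ}
    (hS : S = d * (κ ^ 2 * avP d κ gr n)) :
    avP d κ gr (n + 1) ≤ S + U2 (κ ^ 2 * w) (κ * p) * (1 * S ^ 2 / 2) + U3 (κ ^ 2 * w) * A3 S ∧
    avP d κ gt (n + 1) ≤ - (κ * p) * S + P2 (κ * p) * (1 * S ^ 2 / 2) + P3 (κ ^ 2 * w) * A3 S ∧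
    - avP d κ gt (n + 1) ≤ κ * p * S + Q2 (κ ^ 2 * w) (κ * p) * (1 * S ^ 2 / 2) +
      Q3 (κ ^ 2 * w) * A3 S ∧
    avP d κ gR (n + 1) ≤ κ ^ 2 * w * S + V2 (κ ^ 2 * w) (κ * p) * (1 * S ^ 2 / 2) +
      V3 (κ ^ 2 * w) * A3 S := by
  have key := fun k => law_cmp (isAvg_pois hd n) (u := fun T : GTree n => lik 3 (-κ) T)
    (fun T => nExp_lik h0.le h1 T) h0 h1 (M := avP d κ gr n) (T := avP d κ gt n)
    (R := avP d κ gR n) rfl rfl rfl hs (sup3 (mul_nonneg (sq_nonneg κ) hs.M0) hs.om) k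
  have hN : ∀ {m : ℕ} (T : GTree m), NExp (lik 3 (-κ) T) := fun T => nExp_lik h0.le h1 T
  have q1 := pr_e1 d (κ ^ 2 * avP d κ gr n)
  have q2 := pr_e2 d (κ ^ 2 * avP d κ gr n)
  have q3 := pr_e3 d (κ ^ 2 * avP d κ gr n)
  rw [← hS] at q1 q2 q3
  have comb : ∀ a b c : ℝ, HasSum (fun k => pr d k * (a * e1 (κ ^ 2 * avP d κ gr n) k +
      b * e2 (κ ^ 2 * avP d κ gr n) k + c * e3 (κ ^ 2 * avP d κ gr n) k))
      (a * S + b * (1 * S ^ 2 / 2) + c * A3 S) := by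
    intro a b c
    refine (((q1.mul_left a).add (q2.mul_left b)).add (q3.mul_left c)).congr_fun fun k => ?_
    ring
  refine ⟨?_, ?_, ?_, ?_⟩
  · have := comb 1 (U2 (κ ^ 2 * w) (κ * p)) (U3 (κ ^ 2 * w))
    simp only [one_mul] at this ⊢
    exact avP_le hd (fun T => (hN T).abs_gr) (fun k => (key k).1) this
  · exact avP_le hd (fun T => (hN T).abs_gt) (fun k => (key k).2.1) (comb _ _ _)
  · exact avP_ge hd (fun T => (hN T).abs_gt) (fun k => (key k).2.2.1) (comb _ _ _)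
  · exact avP_le hd (fun T => (hN T).abs_gR) (fun k => (key k).2.2.2) (comb _ _ _)

/-- the level-four bounds after one step -/
theorem pois4 (hd : 0 ≤ d) (h0 : 0 < κ) (h1 : κ ≤ 1 / 2) (n : ℕ) {p w : ℝ}
    (hs : St κ (avP d κ gr n) (avP d κ gt n) (avP d κ gR n) p w)
    (hb : Bx (κ ^ 2 * w) (κ * p)) {S : ℝ} (hS : S = d * (κ ^ 2 * avP d κ gr n)) :
    avP d κ gr (n + 1) ≤ S + U2 (κ ^ 2 * w) (κ * p) * (1 * S ^ 2 / 2) +
      gU (κ ^ 2 * w) (κ * p) * (S ^ 3 / 6) + 352 * B4 S ∧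
    avP d κ gt (n + 1) ≤ - (κ * p) * S + P2 (κ * p) * (1 * S ^ 2 / 2) +
      gP (κ ^ 2 * w) (κ * p) * (S ^ 3 / 6) + 634 * B4 S ∧
    - avP d κ gt (n + 1) ≤ κ * p * S + Q2 (κ ^ 2 * w) (κ * p) * (1 * S ^ 2 / 2) +
      gQ (κ ^ 2 * w) (κ * p) * (S ^ 3 / 6) + 399 * B4 S ∧
    avP d κ gR (n + 1) ≤ κ ^ 2 * w * S + V2 (κ ^ 2 * w) (κ * p) * (1 * S ^ 2 / 2) +
      gV (κ ^ 2 * w) (κ * p) * (S ^ 3 / 6) + 314 * B4 S := by
  have key := fun k => law_cmp (isAvg_pois hd n) (u := fun T : GTree n => lik 3 (-κ) T)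
    (fun T => nExp_lik h0.le h1 T) h0 h1 (M := avP d κ gr n) (T := avP d κ gt n)
    (R := avP d κ gR n) rfl rfl rfl hs (sup4 (mul_nonneg (sq_nonneg κ) hs.M0) hb) k
  have hN : ∀ {m : ℕ} (T : GTree m), NExp (lik 3 (-κ) T) := fun T => nExp_lik h0.le h1 T
  have q1 := pr_e1 d (κ ^ 2 * avP d κ gr n)
  have q2 := pr_e2 d (κ ^ 2 * avP d κ gr n)
  have q3 := pr_c3 d (κ ^ 2 * avP d κ gr n)
  have q4 := pr_c4 d (κ ^ 2 * avP d κ gr n)
  rw [← hS] at q1 q2 q3 q4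
  have comb : ∀ a b c e : ℝ, HasSum (fun k => pr d k * (a * e1 (κ ^ 2 * avP d κ gr n) k +
      b * e2 (κ ^ 2 * avP d κ gr n) k + c * c3 (κ ^ 2 * avP d κ gr n) k +
      e * c4 (κ ^ 2 * avP d κ gr n) k))
      (a * S + b * (1 * S ^ 2 / 2) + c * (S ^ 3 / 6) + e * B4 S) := by
    intro a b c e
    refine ((((q1.mul_left a).add (q2.mul_left b)).add (q3.mul_left c)).add
      (q4.mul_left e)).congr_fun fun k => ?_
    ring
  refine ⟨?_, ?_, ?_, ?_⟩
  · have := comb 1 (U2 (κ ^ 2 * w) (κ * p)) (gU (κ ^ 2 * w) (κ * p)) 352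
    simp only [one_mul] at this ⊢
    exact avP_le hd (fun T => (hN T).abs_gr) (fun k => (key k).1) this
  · exact avP_le hd (fun T => (hN T).abs_gt) (fun k => (key k).2.1) (comb _ _ _ _)
  · exact avP_ge hd (fun T => (hN T).abs_gt) (fun k => (key k).2.2.1) (comb _ _ _ _)
  · exact avP_le hd (fun T => (hN T).abs_gR) (fun k => (key k).2.2.2) (comb _ _ _ _)

end

/-! ### tails of the exponential series -/

theorem exp_tail_hasSum (z : ℝ) (k : ℕ) : HasSum (fun n : ℕ => z ^ (n + k) / ((n + k).factorial : ℝ))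
    (Real.exp z - ∑ i ∈ range k, z ^ i / (i.factorial : ℝ)) := by
  have h := NormedSpace.expSeries_div_hasSum_exp (𝔸 := ℝ) z
  rw [← Real.exp_eq_exp_ℝ] at h
  have := (hasSum_nat_add_iff (f := fun n : ℕ => z ^ n / (n.factorial : ℝ)) k
    (g := Real.exp z - ∑ i ∈ range k, z ^ i / (i.factorial : ℝ))).2
  apply this
  rw [sub_add_cancel]
  exact h

theorem exp_tail_mono {z a : ℝ} (h0 : 0 ≤ z) (h1 : z ≤ a) (k : ℕ) :
    (Real.exp z - ∑ i ∈ range k, z ^ i / (i.factorial : ℝ)) * a ^ k ≤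
      (Real.exp a - ∑ i ∈ range k, a ^ i / (i.factorial : ℝ)) * z ^ k := by
  refine hasSum_le (fun n => ?_) ((exp_tail_hasSum z k).mul_right (a ^ k))
    ((exp_tail_hasSum a k).mul_right (z ^ k))
  have h2 : z ^ n ≤ a ^ n := pow_le_pow_left₀ h0 h1 n
  have h3 : 0 ≤ z ^ k * a ^ k / ((n + k).factorial : ℝ) := by
    have : 0 ≤ a := h0.trans h1
    positivity
  have := mul_le_mul_of_nonneg_right h2 h3
  rw [pow_add, pow_add]
  have e1 : z ^ n * z ^ k / ((n + k).factorial : ℝ) * a ^ k =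
      z ^ n * (z ^ k * a ^ k / ((n + k).factorial : ℝ)) := by ring
  have e2 : a ^ n * a ^ k / ((n + k).factorial : ℝ) * z ^ k =
      a ^ n * (z ^ k * a ^ k / ((n + k).factorial : ℝ)) := by ring
  rw [e1, e2]
  exact this

theorem exp_07 : Real.exp (7 / 10) ≤ 2013753 / 1000000 := by
  have h := Real.exp_bound' (x := 7 / 10) (by norm_num) (by norm_num) (n := 9) (by norm_num)
  simp only [Finset.sum_range_succ, Finset.sum_range_zero, Nat.factorial] at h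
  norm_num at h
  linarith

theorem exp_14 : Real.exp (14 / 10) ≤ 40553 / 10000 := by
  have e : Real.exp (14 / 10) = Real.exp (7 / 10) ^ 2 := by
    rw [← Real.exp_nat_mul]; congr 1; norm_num
  rw [e]
  exact (pow_le_pow_left₀ (Real.exp_pos _).le exp_07 2).trans (by norm_num)

theorem exp_21 : Real.exp (21 / 10) ≤ 81664 / 10000 := by
  have e : Real.exp (21 / 10) = Real.exp (7 / 10) ^ 3 := by
    rw [← Real.exp_nat_mul]; congr 1; norm_num
  rw [e]
  exact (pow_le_pow_left₀ (Real.exp_pos _).le exp_07 3).trans (by norm_num)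

theorem A3_nonneg {S : ℝ} (h0 : 0 ≤ S) : 0 ≤ A3 S := by
  have := Real.sum_le_exp_of_nonneg (x := 30 * S) (by linarith) 3
  simp only [Finset.sum_range_succ, Finset.sum_range_zero, Nat.factorial] at this
  unfold A3
  apply div_nonneg _ (by norm_num)
  norm_num at this
  nlinarith

theorem B4_nonneg {S : ℝ} (h0 : 0 ≤ S) : 0 ≤ B4 S := by
  have := Real.sum_le_exp_of_nonneg (x := 20 * S) (by linarith) 4
  simp only [Finset.sum_range_succ, Finset.sum_range_zero, Nat.factorial] at this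
  unfold B4
  apply div_nonneg _ (by norm_num)
  norm_num at this
  nlinarith

theorem A3_le {S : ℝ} (h0 : 0 ≤ S) (h1 : S ≤ 7 / 100) : A3 S ≤ 309 / 1000 * S ^ 3 := by
  have := exp_tail_mono (z := 30 * S) (a := 21 / 10) (by linarith) (by linarith) 3
  simp only [Finset.sum_range_succ, Finset.sum_range_zero, Nat.factorial] at this
  norm_num at this
  have h2 := exp_21
  have h3 : 0 ≤ S ^ 3 := by positivity
  unfold A3
  rw [div_le_iff₀ (by norm_num)]
  nlinarith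

theorem B4_le {S : ℝ} (h0 : 0 ≤ S) (h1 : S ≤ 7 / 100) : B4 S ≤ 568 / 10000 * S ^ 4 := by
  have := exp_tail_mono (z := 20 * S) (a := 14 / 10) (by linarith) (by linarith) 4
  simp only [Finset.sum_range_succ, Finset.sum_range_zero, Nat.factorial] at this
  norm_num at this
  have h2 := exp_14
  have h3 : 0 ≤ S ^ 4 := by positivity
  unfold B4
  rw [div_le_iff₀ (by norm_num)]
  nlinarith

end Vale.Agent.P154.Loc
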