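import Vale.Agent.P154.LocPA

/-!
# P154, three states, antiferromagnetic side: kernel inequalities near the centre

Pointwise bounds for `D r`, `D t`, `D r²` for the combination of two posteriors; all the majorants
touch at `D = 1`, and their averages over the six relabellings are bilinear.
-/

namespace Vale.Agent.P154.Loc


/-- coordinates of a probability vector -/
structure PV (r t : ℝ) : Prop where
  r0 : 0 ≤ r
  r1 : r ≤ 1
  sq : t ^ 2 ≤ r ^ 3
  w : 0 ≤ 1 - 3 * r + 2 * t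

namespace PV
variable {r t : ℝ} (h : PV r t)
include h

theorem le_r : t ≤ r := by
  have h1 : t ^ 2 ≤ r ^ 2 := h.sq.trans (by nlinarith [h.r0, h.r1, sq_nonneg r])
  exact abs_le_of_sq_le_sq' h1 h.r0 |>.2

theorem lower1 : r ^ 2 - 3 / 4 * r ≤ t := by
  have h0 := h.r0; have h1 := h.r1; have h2 := h.sq; have h3 := h.w
  by_cases hr : r ≤ 1 / 4
  · by_contra hc
    push Not at hc
    have h4 : 0 ≤ 3 / 4 * r - r ^ 2 := by nlinarith
    have h5 : (3 / 4 * r - r ^ 2) ^ 2 < t ^ 2 := by nlinarith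
    have h6 : r ^ 3 ≤ (3 / 4 * r - r ^ 2) ^ 2 := by
      have : (3 / 4 * r - r ^ 2) ^ 2 - r ^ 3 = r ^ 2 * ((1 / 4 - r) * (9 / 4 - r)) := by ring
      have h7 : 0 ≤ (1 / 4 - r) * (9 / 4 - r) := mul_nonneg (by linarith) (by linarith)
      nlinarith [sq_nonneg r, mul_nonneg (sq_nonneg r) h7]
    linarith
  · push Not at hr
    nlinarith

theorem lower2 : 2 * r ^ 2 - r ≤ t := by
  have h0 := h.r0; have h1 := h.r1; have h2 := h.sq; have h3 := h.w
  by_cases hr : r ≤ 1 / 4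
  · by_contra hc
    push Not at hc
    have h4 : 0 ≤ r - 2 * r ^ 2 := by nlinarith
    have h5 : (r - 2 * r ^ 2) ^ 2 < t ^ 2 := by nlinarith
    have h6 : r ^ 3 ≤ (r - 2 * r ^ 2) ^ 2 := by
      have : (r - 2 * r ^ 2) ^ 2 - r ^ 3 = r ^ 2 * ((1 - 4 * r) * (1 - r)) := by ring
      have h7 : 0 ≤ (1 - 4 * r) * (1 - r) := mul_nonneg (by linarith) (by linarith)
      nlinarith [sq_nonneg r, mul_nonneg (sq_nonneg r) h7]
    linarith
  · push Not at hr
    nlinarith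

theorem schur : - (r / 2) ≤ t := by
  have h0 := h.r0
  by_cases hr : r ≤ 1 / 4
  · have h1 : t ^ 2 ≤ (r / 2) ^ 2 := h.sq.trans (by nlinarith [mul_nonneg (sq_nonneg r) (by linarith : 0 ≤ 1/4 - r)])
    exact (abs_le_of_sq_le_sq' h1 (by positivity)).1
  · push Not at hr
    have := h.w; linarith

end PV

theorem uni1 {x : ℝ} (h1 : 1 / 15 ≤ x) (h2 : x ≤ 1 / 2) :
    (1 + x) ^ 3 * (3 * x - 1 / 5) ^ 2 ≤ 42 / 5 * x ^ 3 * (4 + 3 * x) := by
  have hx : 0 ≤ x := by linarith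
  by_cases h3 : x ≤ 7 / 20
  · have e : 0 ≤ 35390 * x ^ 3 - 22080 * x ^ 2 + 4320 * x - 160 := by
      nlinarith [mul_nonneg hx (sq_nonneg (x - 1/4)), mul_nonneg (by linarith : 0 ≤ x - 1/15) (sq_nonneg (x - 1/4)), mul_nonneg (by linarith : 0 ≤ x - 1/15) (sq_nonneg (x - 1/5))]
    nlinarith [mul_nonneg (pow_nonneg hx 3) (by linarith : 0 ≤ 7/20 - x), mul_nonneg (pow_nonneg hx 4) (by linarith : 0 ≤ 7/20 - x)]
  · push Not at h3
    by_cases h4 : x ≤ 43 / 100
    · have e : 0 ≤ 8238 * x ^ 3 - 5520 * x ^ 2 + 1080 * x - 40 := by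
        nlinarith [mul_nonneg (by linarith : 0 ≤ x - 7/20) (sq_nonneg (x - 7/20))]
      nlinarith [mul_nonneg (pow_nonneg hx 3) (by linarith : 0 ≤ 43/100 - x), mul_nonneg (pow_nonneg hx 4) (by linarith : 0 ≤ 43/100 - x)]
    · push Not at h4
      have e : 0 ≤ 7610 * x ^ 3 - 5520 * x ^ 2 + 1080 * x - 40 := by
        nlinarith [mul_nonneg (by linarith : 0 ≤ x - 43/100) (sq_nonneg (x - 43/100))]
      nlinarith [mul_nonneg (pow_nonneg hx 3) (by linarith : 0 ≤ 1/2 - x), mul_nonneg (pow_nonneg hx 4) (by linarith : 0 ≤ 1/2 - x)]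

theorem tlG {r t : ℝ} (h0 : 0 ≤ r) (hr : r ≤ 1 / 4) (hsq : t ^ 2 ≤ r ^ 3) :
    0 ≤ 3 * (1 - 3 * r + 2 * t) * (3 / 2 * r + 3 * t) - (3 * r - 2 * t) * (1 / 8 - 3 / 2 * r - 2 * t) := by
  have h1 : - (r / 4 + r ^ 2) ≤ t := by
    have e : t ^ 2 ≤ (r / 4 + r ^ 2) ^ 2 := by nlinarith [mul_nonneg (sq_nonneg r) (sq_nonneg (r - 1/4))]
    exact (abs_le_of_sq_le_sq' e (by positivity)).1
  have h2 : 0 ≤ 37 / 4 - 15 * r + 14 * (t - (r / 4 + r ^ 2)) := by nlinarith
  have h3 : 0 ≤ r * ((r - 1/4) ^ 2 * (14 * r + 29)) := by positivity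
  nlinarith [mul_nonneg (by linarith : 0 ≤ t + (r / 4 + r ^ 2)) h2]

/-- K1u -/
theorem core_ru {D r : ℝ} (hD : 0 ≤ D) (h0 : 0 ≤ r) (h1 : r ≤ 1) :
    0 ≤ (D - 1) ^ 2 + D * r * (5 / 4 * D - 1) := by
  by_cases h : 0 ≤ 5 / 4 * D - 1
  · have := mul_nonneg (mul_nonneg hD h0) h
    nlinarith [sq_nonneg (D - 1)]
  · push Not at h
    have h2 : D * (5 / 4 * D - 1) ≤ D * r * (5 / 4 * D - 1) := by
      have : 0 ≤ D * (1 - r) * (1 - 5 / 4 * D) :=
        mul_nonneg (mul_nonneg hD (by linarith)) (by linarith)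
      nlinarith
    nlinarith [sq_nonneg (3 * (D - 1) + 1)]

/-- K2u : `3 (r - t) ≥ x w` -/
theorem core_tu {D r t : ℝ} (hD2 : D ≤ 3 / 2) (h : PV r t)
    (he : D ^ 3 * (1 - 3 * r + 2 * t) ≤ 1) :
    0 ≤ 3 * (r - t) - (D - 1) * (1 - 3 * r + 2 * t) := by
  have h0 := h.r0; have h1 := h.r1; have h2 := h.le_r; have h3 := h.w
  by_cases hx : D ≤ 1
  · nlinarith [mul_nonneg (by linarith : 0 ≤ 1 - D) h3]
  · push Not at hx
    -- Bernoulli
    have hb : 3 * ((D - 1) * (1 - 3 * r + 2 * t)) ≤ 3 * r - 2 * t := by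
      have : 1 + 3 * (D - 1) ≤ D ^ 3 := by nlinarith [sq_nonneg (D - 1), mul_nonneg (sq_nonneg (D-1)) (by linarith : 0 ≤ D + 2)]
      nlinarith [mul_le_mul_of_nonneg_right this h3]
    by_cases hc : 7 * t ≤ 6 * r
    · nlinarith
    · push Not at hc
      -- near the vertex
      have h4 : (D - 1) * (1 - 3 * r + 2 * t) ≤ 1 / 2 * (1 - 3 * r + 2 * t) :=
        mul_le_mul_of_nonneg_right (by linarith) h3
      have h5 : 8 * t ≤ 9 * r - 1 := by
        by_contra hcon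
        push Not at hcon
        have hr : 36 / 49 ≤ r := by
          have h6 : (6 * r) ^ 2 ≤ (7 * t) ^ 2 := by nlinarith
          have h7 : 36 * r ^ 2 ≤ 49 * r ^ 3 := by nlinarith [h.sq]
          by_contra h8
          push Not at h8
          have hrpos : 0 < r := by
            rcases h0.lt_or_eq with h9 | h9
            · exact h9
            · exfalso
              have : t ^ 2 ≤ 0 := by have := h.sq; rw [← h9] at this; simpa using this
              nlinarith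
          nlinarith [mul_pos (mul_pos hrpos hrpos) (by linarith : 0 < 36 / 49 - r)]
        have h6 : (9 * r - 1) ^ 2 < (8 * t) ^ 2 := by nlinarith
        have h7 : (9 * r - 1) ^ 2 < 64 * r ^ 3 := by nlinarith [h.sq]
        -- 64 r^3 - (9r-1)^2 = (r-1)(64 r^2 - 17 r + 1)
        have h8 : 64 * r ^ 3 - (9 * r - 1) ^ 2 = (r - 1) * (64 * r ^ 2 - 17 * r + 1) := by ring
        nlinarith [mul_nonneg (by linarith : 0 ≤ 1 - r) (by nlinarith : 0 ≤ 64 * r ^ 2 - 17 * r + 1)]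
      linarith

/-- K2l -/
theorem core_tl {D r t : ℝ} (hD : 0 ≤ D) (hD2 : D ≤ 3 / 2) (h : PV r t)
    (he : D ^ 3 * (1 - 3 * r + 2 * t) ≤ 1) :
    0 ≤ 3 / 2 * r + 3 * t + (D - 1) * (3 / 2 * r + 2 * t - 1 / 8) := by
  have h0 := h.r0; have h1 := h.r1; have h2 := h.le_r; have h3 := h.w
  have hs := h.schur; have hl1 := h.lower1; have hl2 := h.lower2; have hsq := h.sq
  by_cases hx : D ≤ 1
  · have h18 : -(1/8) ≤ t := by nlinarith [sq_nonneg (r - 3 / 8), sq_nonneg (r - 1/4)]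
    nlinarith [mul_nonneg hD (by linarith : 0 ≤ 3 / 2 * r + 3 * t), mul_nonneg (by linarith : 0 ≤ 1 - D) (by linarith : 0 ≤ t + 1 / 8)]
  · push Not at hx
    by_cases hc : 0 ≤ 3 / 2 * r + 2 * t - 1 / 8
    · nlinarith [mul_nonneg (by linarith : 0 ≤ D - 1) hc]
    · push Not at hc
      have hr : r ≤ 1 / 4 := by nlinarith
      have hb : 3 * ((D - 1) * (1 - 3 * r + 2 * t)) ≤ 3 * r - 2 * t := by
        have : 1 + 3 * (D - 1) ≤ D ^ 3 := by nlinarith [sq_nonneg (D - 1), mul_nonneg (sq_nonneg (D-1)) (by linarith : 0 ≤ D + 2)]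
        nlinarith [mul_le_mul_of_nonneg_right this h3]
      have hw : 0 < 1 - 3 * r + 2 * t := by
        rcases h3.lt_or_eq with h4 | h4
        · exact h4
        · exfalso; linarith
      have hG := tlG h0 hr hsq
      have hk : (D - 1) * (1 - 3 * r + 2 * t) * (1 / 8 - 3 / 2 * r - 2 * t) * 3 ≤
          (3 * r - 2 * t) * (1 / 8 - 3 / 2 * r - 2 * t) := by
        have := mul_le_mul_of_nonneg_right hb (by linarith : 0 ≤ 1 / 8 - 3 / 2 * r - 2 * t)
        linarith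
      have hfin : 0 ≤ (1 - 3 * r + 2 * t) * (3 / 2 * r + 3 * t + (D - 1) * (3 / 2 * r + 2 * t - 1 / 8)) := by
        nlinarith
      exact nonneg_of_mul_nonneg_right hfin hw

/-- K3u -/
theorem core_Ru {D r t : ℝ} (hD : 0 ≤ D) (hD2 : D ≤ 3 / 2) (h : PV r t) :
    D * r ^ 2 * (6 + 8 * (D - 1) + 3 * (D - 1) ^ 2) ≤
      16 / 5 * (D ^ 2 * r) + 3 * (D ^ 3 * t) + 21 / 10 * (D - 1) ^ 2 := by
  have h0 := h.r0; have h1 := h.r1
  have h4 : D ^ 3 * (2 * r ^ 2 - r) ≤ D ^ 3 * t := mul_le_mul_of_nonneg_left h.lower2 (by positivity)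
  have key : 0 ≤ 21 / 10 * (D - 1) ^ 2 + D ^ 2 * r * (1 / 5 - 3 * (D - 1))
      + r ^ 2 * (D * (D - 1) * (4 + 3 * (D - 1))) := by
    by_cases hx : D ≤ 1
    · -- concave in r
      have e0 : 0 ≤ 21 / 10 * (D - 1) ^ 2 := by positivity
      have e1 : 0 ≤ 21 / 10 * (D - 1) ^ 2 + D ^ 2 * (1 / 5 - 3 * (D - 1))
          + (D * (D - 1) * (4 + 3 * (D - 1))) := by
        have : 21 / 10 * (D - 1) ^ 2 + D ^ 2 * (1 / 5 - 3 * (D - 1))
          + (D * (D - 1) * (4 + 3 * (D - 1))) = 33 / 10 * (D - 1) ^ 2 + 7 / 5 * (D - 1) + 1 / 5 := by ring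
        rw [this]
        nlinarith [sq_nonneg (33 * (D - 1) + 7)]
      have e2 : 0 ≤ r * (1 - r) * (D * (1 - D) * (4 + 3 * (D - 1))) := by
        apply mul_nonneg (mul_nonneg h0 (by linarith))
        apply mul_nonneg (mul_nonneg hD (by linarith)) (by linarith)
      nlinarith [mul_nonneg h0 e1, mul_nonneg (by linarith : 0 ≤ 1 - r) e0]
    · push Not at hx
      by_cases hB : 3 * (D - 1) ≤ 1 / 5
      · have e1 : 0 ≤ D ^ 2 * r * (1 / 5 - 3 * (D - 1)) :=
          mul_nonneg (mul_nonneg (sq_nonneg D) h0) (by linarith)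
        have e2 : 0 ≤ r ^ 2 * (D * (D - 1) * (4 + 3 * (D - 1))) :=
          mul_nonneg (sq_nonneg r) (mul_nonneg (mul_nonneg hD (by linarith)) (by linarith))
        nlinarith [sq_nonneg (D - 1)]
      · push Not at hB
        have u := uni1 (x := D - 1) (by linarith) (by linarith)
        have hA : 0 < D * (D - 1) * (4 + 3 * (D - 1)) :=
          mul_pos (mul_pos (by linarith) (by linarith)) (by linarith)
        have hdisc : (D ^ 2 * (3 * (D - 1) - 1 / 5)) ^ 2 ≤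
            4 * (D * (D - 1) * (4 + 3 * (D - 1))) * (21 / 10 * (D - 1) ^ 2) := by
          have e1 : (D ^ 2 * (3 * (D - 1) - 1 / 5)) ^ 2 = D * ((1 + (D - 1)) ^ 3 * (3 * (D - 1) - 1 / 5) ^ 2) := by
            ring
          have e2 : 4 * (D * (D - 1) * (4 + 3 * (D - 1))) * (21 / 10 * (D - 1) ^ 2)
              = D * (42 / 5 * (D - 1) ^ 3 * (4 + 3 * (D - 1))) := by ring
          rw [e1, e2]
          exact mul_le_mul_of_nonneg_left u hD
        have h5 : 0 ≤ 4 * (D * (D - 1) * (4 + 3 * (D - 1))) * (21 / 10 * (D - 1) ^ 2 + D ^ 2 * r * (1 / 5 - 3 * (D - 1))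
      + r ^ 2 * (D * (D - 1) * (4 + 3 * (D - 1)))) := by
          nlinarith [sq_nonneg (2 * (D * (D - 1) * (4 + 3 * (D - 1))) * r - D ^ 2 * (3 * (D - 1) - 1 / 5))]
        exact nonneg_of_mul_nonneg_right h5 (by linarith)
  nlinarith

/-! ### pointwise inequalities -/

section
variable {a b c : ℝ}

theorem wn_nonneg : 0 ≤ wn a b c := by
  unfold wn wD
  nlinarith [sq_nonneg (a - b), sq_nonneg (b - c), sq_nonneg (c - a)]

theorem wn_le (ha : 0 ≤ a) (hb : 0 ≤ b) (hc : 0 ≤ c) : wn a b c ≤ wD a b c ^ 2 := by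
  unfold wn wD
  nlinarith [mul_nonneg ha hb, mul_nonneg hb hc, mul_nonneg hc ha]

theorem wt_sq : wt a b c ^ 2 ≤ wn a b c ^ 3 := by
  have : wn a b c ^ 3 - wt a b c ^ 2 = ((a - b) * (b - c) * (c - a)) ^ 2 / 108 := by
    unfold wt wn wD
    ring
  nlinarith [sq_nonneg ((a - b) * (b - c) * (c - a))]

theorem we_eq : wD a b c ^ 3 - 3 * (wD a b c * wn a b c) + 2 * wt a b c = a * b * c := by
  unfold wt
  ring

theorem pv_of (ha : 0 ≤ a) (hb : 0 ≤ b) (hc : 0 ≤ c) (hD : 0 < wD a b c) :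
    PV (wn a b c / wD a b c ^ 2) (wt a b c / wD a b c ^ 3) := by
  refine ⟨div_nonneg wn_nonneg (by positivity), ?_, ?_, ?_⟩
  · rw [div_le_one (by positivity)]
    exact wn_le ha hb hc
  · rw [div_pow, div_pow, ← pow_mul, ← pow_mul]
    exact div_le_div_of_nonneg_right wt_sq (by positivity)
  · have h := we_eq (a := a) (b := b) (c := c)
    have e : 1 - 3 * (wn a b c / wD a b c ^ 2) + 2 * (wt a b c / wD a b c ^ 3)
        = a * b * c / wD a b c ^ 3 := by
      rw [← h]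
      field_simp
    rw [e]
    positivity

theorem pt_ru (ha : 0 ≤ a) (hb : 0 ≤ b) (hc : 0 ≤ c) (hD : 0 < wD a b c) :
    wD a b c * (wn a b c / wD a b c ^ 2) ≤ PKru a b c := by
  have h := pv_of ha hb hc hD
  have k := core_ru hD.le h.r0 h.r1
  have e1 : wn a b c = wD a b c ^ 2 * (wn a b c / wD a b c ^ 2) := by field_simp
  set D := wD a b c
  set r := wn a b c / D ^ 2
  have e : PKru a b c - D * r = (D - 1) ^ 2 * ((D - 1) ^ 2 + D * r * (5 / 4 * D - 1)) := by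
    unfold PKru
    rw [e1]
    ring
  have := mul_nonneg (sq_nonneg (D - 1)) k
  linarith

theorem pt_rl (hD : 0 < wD a b c) :
    PKrl a b c ≤ wD a b c * (wn a b c / wD a b c ^ 2) := by
  have h0 : 0 ≤ wn a b c / wD a b c ^ 2 := div_nonneg wn_nonneg (by positivity)
  have e1 : wn a b c = wD a b c ^ 2 * (wn a b c / wD a b c ^ 2) := by field_simp
  set D := wD a b c
  set r := wn a b c / D ^ 2
  have e : D * r - PKrl a b c = D * r * (D - 1) ^ 2 := by
    unfold PKrl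
    rw [e1]
    ring
  have := mul_nonneg (mul_nonneg hD.le h0) (sq_nonneg (D - 1))
  linarith

theorem pt_tu (ha : 0 ≤ a) (hb : 0 ≤ b) (hc : 0 ≤ c) (hD : 0 < wD a b c)
    (hD2 : wD a b c ≤ 3 / 2) (he : a * b * c ≤ 1) :
    wD a b c * (wt a b c / wD a b c ^ 3) ≤ PKtu a b c := by
  have h := pv_of ha hb hc hD
  have h2 := we_eq (a := a) (b := b) (c := c)
  have e1 : wn a b c = wD a b c ^ 2 * (wn a b c / wD a b c ^ 2) := by field_simp
  have e2 : wt a b c = wD a b c ^ 3 * (wt a b c / wD a b c ^ 3) := by field_simp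
  have k := core_tu hD2 h (by
    rw [← h2] at he
    rw [e1, e2] at he
    linarith)
  set D := wD a b c
  set r := wn a b c / D ^ 2
  set t := wt a b c / D ^ 3
  have e : PKtu a b c - D * t = (D - 1) ^ 2 * D * (3 * (r - t) - (D - 1) * (1 - 3 * r + 2 * t)) := by
    unfold PKtu
    rw [e1, e2]
    ring
  have := mul_nonneg (mul_nonneg (sq_nonneg (D - 1)) hD.le) k
  linarith

theorem pt_tl (ha : 0 ≤ a) (hb : 0 ≤ b) (hc : 0 ≤ c) (hD : 0 < wD a b c)
    (hD2 : wD a b c ≤ 3 / 2) (he : a * b * c ≤ 1) :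
    - (wD a b c * (wt a b c / wD a b c ^ 3)) ≤ PKtl a b c := by
  have h := pv_of ha hb hc hD
  have h2 := we_eq (a := a) (b := b) (c := c)
  have e1 : wn a b c = wD a b c ^ 2 * (wn a b c / wD a b c ^ 2) := by field_simp
  have e2 : wt a b c = wD a b c ^ 3 * (wt a b c / wD a b c ^ 3) := by field_simp
  have k := core_tl hD.le hD2 h (by
    rw [← h2] at he
    rw [e1, e2] at he
    linarith)
  set D := wD a b c
  set r := wn a b c / D ^ 2
  set t := wt a b c / D ^ 3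
  have e : PKtl a b c + D * t = (D - 1) ^ 2 * D *
      (3 / 2 * r + 3 * t + (D - 1) * (3 / 2 * r + 2 * t - 1 / 8)) := by
    unfold PKtl
    rw [e1, e2]
    ring
  have := mul_nonneg (mul_nonneg (sq_nonneg (D - 1)) hD.le) k
  linarith

theorem pt_Ru (ha : 0 ≤ a) (hb : 0 ≤ b) (hc : 0 ≤ c) (hD : 0 < wD a b c)
    (hD2 : wD a b c ≤ 3 / 2) :
    wD a b c * (wn a b c / wD a b c ^ 2) ^ 2 ≤ PKRu a b c := by
  have h := pv_of ha hb hc hD
  have e1 : wn a b c = wD a b c ^ 2 * (wn a b c / wD a b c ^ 2) := by field_simp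
  have e2 : wt a b c = wD a b c ^ 3 * (wt a b c / wD a b c ^ 3) := by field_simp
  have k := core_Ru hD.le hD2 h
  set D := wD a b c
  set r := wn a b c / D ^ 2
  set t := wt a b c / D ^ 3
  have e : PKRu a b c - D * r ^ 2 = (D - 1) ^ 2 *
      (16 / 5 * (D ^ 2 * r) + 3 * (D ^ 3 * t) + 21 / 10 * (D - 1) ^ 2
        - D * r ^ 2 * (6 + 8 * (D - 1) + 3 * (D - 1) ^ 2)) := by
    unfold PKRu
    rw [e1, e2]
    ring
  have := mul_nonneg (sq_nonneg (D - 1)) (sub_nonneg.2 k)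
  linarith

end

end Vale.Agent.P154.Loc
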