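import Vale.Agent.P154.LocKer

/-!
# P154, three states, antiferromagnetic side: the comparison system
-/

namespace Vale.Agent.P154.Loc

/-! ### rates -/

noncomputable def rU (x y u l q v : ℝ) : ℝ :=
  (1 - 2 * y) * l + 5 / 2 * x * u + (2 + 5 / 2 * y - 5 / 2 * x) * q +
    (5 / 2 - 5 / 2 * y + 17 / 2 * x) * v
noncomputable def rL (y u p : ℝ) : ℝ := (1 - 2 * y) * u + 2 * p
noncomputable def rP (y u q : ℝ) : ℝ := (6 + 6 * y) * u + (6 + 5 * y) * q
noncomputable def rQ (x y l p v : ℝ) : ℝ :=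
  (6 + 6 * y - 9 * x) * l + (6 - 7 / 4 * y + 9 * x) * p + (9 - 9 * y + 9 / 4 * x) * v
noncomputable def rV (x y u p q v : ℝ) : ℝ :=
  (4 - 4 * y + 43 / 20 * x) * u + (4 - 22 / 5 * y) * p + 43 / 5 * x * q +
    (43 / 20 + 43 / 5 * y + 73 / 2 * x) * v

/-- admissible ratios -/
structure Om (x y : ℝ) : Prop where
  a : y ^ 2 ≤ x
  b : x ≤ 1 / 4
  c : - (1 / 4) ≤ y
  d : 2 * x - 3 / 8 ≤ y

theorem Om.x0 {x y : ℝ} (h : Om x y) : 0 ≤ x := le_trans (sq_nonneg y) h.a
theorem Om.y1 {x y : ℝ} (h : Om x y) : y ≤ 1 / 2 := by nlinarith [h.a, h.b]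

noncomputable def U2 (x y : ℝ) : ℝ := rU x y 1 (-1) y x
noncomputable def L2 (y : ℝ) : ℝ := rL y 1 (-y)
noncomputable def P2 (y : ℝ) : ℝ := rP y 1 y
noncomputable def Q2 (x y : ℝ) : ℝ := rQ x y (-1) (-y) x
noncomputable def V2 (x y : ℝ) : ℝ := rV x y 1 (-y) y x

noncomputable def U3 (x : ℝ) : ℝ := 86 / 10 + 260 * x
noncomputable def L3 (x : ℝ) : ℝ := 125 / 10 + 200 * x
noncomputable def P3 (x : ℝ) : ℝ := 19 + 320 * x
noncomputable def Q3 (x : ℝ) : ℝ := 82 + 620 * x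
noncomputable def V3 (x : ℝ) : ℝ := 32 + 340 * x

section
variable {x y : ℝ}

theorem V2_eq : V2 x y = 4 - 8 * y + 22 / 5 * y ^ 2 + 43 / 10 * x + 86 / 5 * x * y +
    73 / 2 * x ^ 2 := by
  unfold V2 rV; ring

theorem U2_eq : U2 x y = -1 + 4 * y + 5 * x + 5 / 2 * y ^ 2 - 5 * x * y + 17 / 2 * x ^ 2 := by
  unfold U2 rU; ring

theorem P2_eq : P2 y = 6 + 12 * y + 5 * y ^ 2 := by
  unfold P2 rP; ring

theorem d3L (h : Om x y) : rL y (U3 x) (P3 x) ≤ 30 * L3 x := by
  have h0 := h.x0; have h1 := h.a; have h2 := h.b; have h3 := h.c; have h4 := h.d; have h5 := h.y1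
  unfold rL U3 P3 L3
  nlinarith [mul_nonneg h0 (sub_nonneg.2 h2), mul_nonneg h0 (sub_nonneg.2 h1),
    mul_nonneg (sub_nonneg.2 h1) (sub_nonneg.2 h2), mul_nonneg h0 (sub_nonneg.2 h5)]

theorem d3P (h : Om x y) : rP y (U3 x) (Q3 x) ≤ 30 * P3 x := by
  have h0 := h.x0; have h1 := h.a; have h2 := h.b; have h3 := h.c; have h4 := h.d; have h5 := h.y1
  unfold rP U3 Q3 P3
  nlinarith [mul_nonneg h0 (sub_nonneg.2 h2), mul_nonneg h0 (sub_nonneg.2 h1),
    mul_nonneg (sub_nonneg.2 h1) (sub_nonneg.2 h2), mul_nonneg h0 (sub_nonneg.2 h5)]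

theorem d3U (h : Om x y) : rU x y (U3 x) (L3 x) (Q3 x) (V3 x) ≤ 30 * U3 x := by
  have h0 := h.x0; have h1 := h.a; have h2 := h.b; have h3 := h.c; have h4 := h.d; have h5 := h.y1
  unfold rU U3 L3 Q3 V3
  nlinarith [mul_nonneg h0 (sub_nonneg.2 h2), mul_nonneg h0 (sub_nonneg.2 h1),
    mul_nonneg (sub_nonneg.2 h1) (sub_nonneg.2 h2), mul_nonneg h0 (sub_nonneg.2 h5)]

theorem d3Q (h : Om x y) : rQ x y (L3 x) (P3 x) (V3 x) ≤ 30 * Q3 x := by
  have h0 := h.x0; have h1 := h.a; have h2 := h.b; have h3 := h.c; have h4 := h.d; have h5 := h.y1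
  unfold rQ L3 P3 V3 Q3
  nlinarith [mul_nonneg h0 (sub_nonneg.2 h2), mul_nonneg h0 (sub_nonneg.2 h1),
    mul_nonneg (sub_nonneg.2 h1) (sub_nonneg.2 h2), mul_nonneg h0 (sub_nonneg.2 h5)]

theorem d3V (h : Om x y) : rV x y (U3 x) (P3 x) (Q3 x) (V3 x) ≤ 30 * V3 x := by
  have h0 := h.x0; have h1 := h.a; have h2 := h.b; have h3 := h.c; have h4 := h.d; have h5 := h.y1
  unfold rV U3 P3 Q3 V3
  nlinarith [mul_nonneg h0 (sub_nonneg.2 h2), mul_nonneg h0 (sub_nonneg.2 h1),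
    mul_nonneg (sub_nonneg.2 h1) (sub_nonneg.2 h2), mul_nonneg h0 (sub_nonneg.2 h5)]

theorem c3U (h : Om x y) : rU x y (U2 x y) (L2 y) (Q2 x y) (V2 x y) ≤ U3 x := by
  have h0 := h.x0; have h1 := h.a; have h2 := h.b; have h3 := h.c; have h4 := h.d; have h5 := h.y1
  unfold rU U2 L2 Q2 V2 U3 rU rL rQ rV
  nlinarith [mul_nonneg h0 (sub_nonneg.2 h2), mul_nonneg h0 (sub_nonneg.2 h1),
    mul_nonneg (sub_nonneg.2 h1) (sub_nonneg.2 h2), mul_nonneg h0 (sub_nonneg.2 h5)]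

theorem c3P (h : Om x y) : rP y (U2 x y) (Q2 x y) ≤ P3 x := by
  have h0 := h.x0; have h1 := h.a; have h2 := h.b; have h3 := h.c; have h4 := h.d; have h5 := h.y1
  unfold rP U2 Q2 P3 rU rQ
  nlinarith [mul_nonneg h0 (sub_nonneg.2 h2), mul_nonneg h0 (sub_nonneg.2 h1),
    mul_nonneg (sub_nonneg.2 h1) (sub_nonneg.2 h2), mul_nonneg h0 (sub_nonneg.2 h5)]

theorem c3L (h : Om x y) : rL y (U2 x y) (P2 y) ≤ L3 x := by
  have h0 := h.x0; have h1 := h.a; have h2 := h.b; have h3 := h.c; have h4 := h.d; have h5 := h.y1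
  unfold rL U2 P2 L3 rU rP
  nlinarith [mul_nonneg h0 (by linarith : 0 ≤ y + 1 / 4), mul_nonneg h0 (sub_nonneg.2 h2),
    mul_nonneg h0 (sub_nonneg.2 h1), mul_nonneg (sq_nonneg y) (by linarith : 0 ≤ y + 1 / 4),
    mul_nonneg (mul_nonneg h0 h0) (by linarith : 0 ≤ y + 1 / 4), sq_nonneg (y - 1 / 12)]

theorem c3Q (h : Om x y) : rQ x y (L2 y) (P2 y) (V2 x y) ≤ Q3 x := by
  have h0 := h.x0; have h1 := h.a; have h2 := h.b; have h3 := h.c; have h4 := h.d; have h5 := h.y1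
  unfold rQ L2 P2 V2 Q3 rL rP rV
  nlinarith [mul_nonneg h0 (by linarith : 0 ≤ y + 1 / 4), mul_nonneg h0 (sub_nonneg.2 h2),
    mul_nonneg h0 (sub_nonneg.2 h1), mul_nonneg (sq_nonneg y) (by linarith : 0 ≤ y + 1 / 4),
    mul_nonneg (mul_nonneg h0 h0) (by linarith : 0 ≤ y + 1 / 4), sq_nonneg (y + 1 / 14),
    mul_nonneg (mul_nonneg h0 h0) (sub_nonneg.2 h2),
    mul_nonneg h0 (mul_nonneg (sub_nonneg.2 h1) (sub_nonneg.2 h2)),
    mul_nonneg (mul_nonneg h0 h0) (sub_nonneg.2 h5), mul_nonneg h0 (sub_nonneg.2 h5)]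

theorem c3V (h : Om x y) : rV x y (U2 x y) (P2 y) (Q2 x y) (V2 x y) ≤ V3 x := by
  have h0 := h.x0; have h1 := h.a; have h2 := h.b; have h3 := h.c; have h4 := h.d; have h5 := h.y1
  rw [V2_eq]
  unfold rV U2 P2 Q2 V3 rU rP rQ
  nlinarith [mul_nonneg h0 (by linarith : 0 ≤ y + 1 / 4), mul_nonneg h0 (sub_nonneg.2 h2),
    mul_nonneg h0 (sub_nonneg.2 h1), mul_nonneg (sq_nonneg y) (by linarith : 0 ≤ y + 1 / 4),
    mul_nonneg (mul_nonneg h0 h0) (by linarith : 0 ≤ y + 1 / 4), sq_nonneg (y - 1 / 12),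
    mul_nonneg (mul_nonneg h0 h0) (sub_nonneg.2 h2),
    mul_nonneg h0 (mul_nonneg (sub_nonneg.2 h1) (sub_nonneg.2 h2)),
    mul_nonneg (mul_nonneg h0 h0) (sub_nonneg.2 h5), mul_nonneg h0 (sub_nonneg.2 h5)]

end

/-! ### the basis -/

noncomputable def e1 (s : ℝ) (k : ℕ) : ℝ := k * s
noncomputable def e2 (s : ℝ) : ℕ → ℝ
  | 0 => 0
  | k + 1 => e2 s k + s * e1 s k
noncomputable def e3 (s : ℝ) : ℕ → ℝ
  | 0 => 0
  | k + 1 => e3 s k + s * (e2 s k + 30 * e3 s k)

section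
variable {s : ℝ}

theorem e1_succ (k : ℕ) : e1 s (k + 1) = e1 s k + s := by unfold e1; push_cast; ring
theorem e2_succ (k : ℕ) : e2 s (k + 1) = e2 s k + s * e1 s k := rfl
theorem e3_succ (k : ℕ) : e3 s (k + 1) = e3 s k + s * (e2 s k + 30 * e3 s k) := rfl

theorem e1_nonneg (hs : 0 ≤ s) (k : ℕ) : 0 ≤ e1 s k := mul_nonneg (Nat.cast_nonneg k) hs

theorem e2_nonneg (hs : 0 ≤ s) (k : ℕ) : 0 ≤ e2 s k := by
  induction k with
  | zero => exact le_rfl
  | succ k ih => exact add_nonneg ih (mul_nonneg hs (e1_nonneg hs k))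

theorem e3_nonneg (hs : 0 ≤ s) (k : ℕ) : 0 ≤ e3 s k := by
  induction k with
  | zero => exact le_rfl
  | succ k ih =>
    exact add_nonneg ih (mul_nonneg hs (add_nonneg (e2_nonneg hs k) (by linarith)))

theorem e2_eq (k : ℕ) : e2 s k = (k : ℝ) * (k - 1) / 2 * s ^ 2 := by
  induction k with
  | zero => simp [e2]
  | succ k ih =>
    rw [e2_succ, ih]
    unfold e1
    push_cast
    ring

theorem e3_eq (k : ℕ) : (1 + 30 * s) ^ k = 1 + 30 * e1 s k + 900 * e2 s k + 27000 * e3 s k := by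
  induction k with
  | zero => simp [e1, e2, e3]
  | succ k ih =>
    rw [pow_succ, ih, e1_succ, e2_succ, e3_succ]
    ring

end

/-- the comparison theorem -/
theorem seq_bound {s x y : ℝ} (hs : 0 ≤ s) (h : Om x y) {m t R : ℕ → ℝ} (m0 : m 0 = 0)
    (t0 : t 0 = 0) (R0 : R 0 = 0)
    (hru : ∀ k, m (k + 1) ≤ bru (m k) (t k) (R k) s (-(y * s)) (x * s))
    (hrl : ∀ k, brl (m k) (t k) s (-(y * s)) ≤ m (k + 1))
    (htu : ∀ k, t (k + 1) ≤ btu (m k) (t k) s (-(y * s)))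
    (htl : ∀ k, - t (k + 1) ≤ btl (m k) (t k) (R k) s (-(y * s)) (x * s))
    (hRu : ∀ k, R (k + 1) ≤ bRu (m k) (t k) (R k) s (-(y * s)) (x * s)) (k : ℕ) :
    m k ≤ e1 s k + U2 x y * e2 s k + U3 x * e3 s k ∧
    - m k ≤ - e1 s k + L2 y * e2 s k + L3 x * e3 s k ∧
    t k ≤ - y * e1 s k + P2 y * e2 s k + P3 x * e3 s k ∧
    - t k ≤ y * e1 s k + Q2 x y * e2 s k + Q3 x * e3 s k ∧
    R k ≤ x * e1 s k + V2 x y * e2 s k + V3 x * e3 s k := by
  induction k with
  | zero =>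
    rw [m0, t0, R0]
    simp [e1, e2, e3]
  | succ k ih =>
    obtain ⟨iU, iL, iP, iQ, iV⟩ := ih
    have hx0 := h.x0
    have hx1 := h.b
    have hy0 := h.c
    have hy1 := h.y1
    have p2 := mul_nonneg hs (e2_nonneg hs k)
    have p3 := mul_nonneg hs (e3_nonneg hs k)
    have jru := hru k
    have jrl := hrl k
    have jtu := htu k
    have jtl := htl k
    have jRu := hRu k
    rw [e1_succ, e2_succ, e3_succ]
    set a1 := e1 s k
    set a2 := e2 s k
    set a3 := e3 s k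
    set U := a1 + U2 x y * a2 + U3 x * a3 with hU
    set L := - a1 + L2 y * a2 + L3 x * a3 with hL
    set P := - y * a1 + P2 y * a2 + P3 x * a3 with hP
    set Q := y * a1 + Q2 x y * a2 + Q3 x * a3 with hQ
    set V := x * a1 + V2 x y * a2 + V3 x * a3 with hV
    have dU : 0 ≤ s * (U - m k) := mul_nonneg hs (by linarith)
    have dL : 0 ≤ s * (L + m k) := mul_nonneg hs (by linarith)
    have dP : 0 ≤ s * (P - t k) := mul_nonneg hs (by linarith)
    have dQ : 0 ≤ s * (Q + t k) := mul_nonneg hs (by linarith)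
    have dV : 0 ≤ s * (V - R k) := mul_nonneg hs (by linarith)
    refine ⟨?_, ?_, ?_, ?_, ?_⟩
    · have k1 : m (k + 1) ≤ U + s * (1 + rU x y U L Q V) := by
        have q1 := mul_nonneg (by linarith : 0 ≤ 1 - 2 * y) dL
        have q2 := mul_nonneg (by linarith : 0 ≤ 5 / 2 * x) dU
        have q3 := mul_nonneg (by linarith : 0 ≤ 2 + 5 / 2 * y - 5 / 2 * x) dQ
        have q4 := mul_nonneg (by linarith : 0 ≤ 5 / 2 - 5 / 2 * y + 17 / 2 * x) dV
        have e : U + s * (1 + rU x y U L Q V) - bru (m k) (t k) (R k) s (-(y * s)) (x * s) =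
            (U - m k) + (1 - 2 * y) * (s * (L + m k)) + 5 / 2 * x * (s * (U - m k)) +
            (2 + 5 / 2 * y - 5 / 2 * x) * (s * (Q + t k)) +
            (5 / 2 - 5 / 2 * y + 17 / 2 * x) * (s * (V - R k)) := by
          unfold rU bru; ring
        linarith
      have g1 := mul_nonneg p2 (sub_nonneg.2 (c3U h))
      have g2 := mul_nonneg p3 (sub_nonneg.2 (d3U h))
      have e : (a1 + s) + U2 x y * (a2 + s * a1) + U3 x * (a3 + s * (a2 + 30 * a3)) -
          (U + s * (1 + rU x y U L Q V)) =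
          s * a2 * (U3 x - rU x y (U2 x y) (L2 y) (Q2 x y) (V2 x y)) +
          s * a3 * (30 * U3 x - rU x y (U3 x) (L3 x) (Q3 x) (V3 x)) := by
        have e0 : rU x y U L Q V = U2 x y * a1 + rU x y (U2 x y) (L2 y) (Q2 x y) (V2 x y) * a2 +
            rU x y (U3 x) (L3 x) (Q3 x) (V3 x) * a3 := by
          rw [hU, hL, hQ, hV]
          rw [U2]
          unfold rU; ring
        rw [e0, hU]; ring
      linarith
    · have k1 : - m (k + 1) ≤ L + s * (-1 + rL y U P) := by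
        have q1 := mul_nonneg (by linarith : 0 ≤ 1 - 2 * y) dU
        have e : L + s * (-1 + rL y U P) + brl (m k) (t k) s (-(y * s)) =
            (L + m k) + (1 - 2 * y) * (s * (U - m k)) + 2 * (s * (P - t k)) := by
          unfold rL brl; ring
        linarith
      have g1 := mul_nonneg p2 (sub_nonneg.2 (c3L h))
      have g2 := mul_nonneg p3 (sub_nonneg.2 (d3L h))
      have e : - (a1 + s) + L2 y * (a2 + s * a1) + L3 x * (a3 + s * (a2 + 30 * a3)) -
          (L + s * (-1 + rL y U P)) =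
          s * a2 * (L3 x - rL y (U2 x y) (P2 y)) +
          s * a3 * (30 * L3 x - rL y (U3 x) (P3 x)) := by
        have e0 : rL y U P = L2 y * a1 + rL y (U2 x y) (P2 y) * a2 +
            rL y (U3 x) (P3 x) * a3 := by
          rw [hU, hP]
          rw [L2]
          unfold rL; ring
        rw [e0, hL]; ring
      linarith
    · have k1 : t (k + 1) ≤ P + s * (-y + rP y U Q) := by
        have q1 := mul_nonneg (by linarith : 0 ≤ 6 + 6 * y) dU
        have q2 := mul_nonneg (by linarith : 0 ≤ 6 + 5 * y) dQ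
        have e : P + s * (-y + rP y U Q) - btu (m k) (t k) s (-(y * s)) =
            (P - t k) + (6 + 6 * y) * (s * (U - m k)) + (6 + 5 * y) * (s * (Q + t k)) := by
          unfold rP btu; ring
        linarith
      have g1 := mul_nonneg p2 (sub_nonneg.2 (c3P h))
      have g2 := mul_nonneg p3 (sub_nonneg.2 (d3P h))
      have e : - y * (a1 + s) + P2 y * (a2 + s * a1) + P3 x * (a3 + s * (a2 + 30 * a3)) -
          (P + s * (-y + rP y U Q)) =
          s * a2 * (P3 x - rP y (U2 x y) (Q2 x y)) +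
          s * a3 * (30 * P3 x - rP y (U3 x) (Q3 x)) := by
        have e0 : rP y U Q = P2 y * a1 + rP y (U2 x y) (Q2 x y) * a2 +
            rP y (U3 x) (Q3 x) * a3 := by
          rw [hU, hQ]
          rw [P2]
          unfold rP; ring
        rw [e0, hP]; ring
      linarith
    · have k1 : - t (k + 1) ≤ Q + s * (y + rQ x y L P V) := by
        have q1 := mul_nonneg (by linarith : 0 ≤ 6 + 6 * y - 9 * x) dL
        have q2 := mul_nonneg (by linarith : 0 ≤ 6 - 7 / 4 * y + 9 * x) dP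
        have q3 := mul_nonneg (by linarith : 0 ≤ 9 - 9 * y + 9 / 4 * x) dV
        have e : Q + s * (y + rQ x y L P V) - btl (m k) (t k) (R k) s (-(y * s)) (x * s) =
            (Q + t k) + (6 + 6 * y - 9 * x) * (s * (L + m k)) +
            (6 - 7 / 4 * y + 9 * x) * (s * (P - t k)) +
            (9 - 9 * y + 9 / 4 * x) * (s * (V - R k)) := by
          unfold rQ btl; ring
        linarith
      have g1 := mul_nonneg p2 (sub_nonneg.2 (c3Q h))
      have g2 := mul_nonneg p3 (sub_nonneg.2 (d3Q h))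
      have e : y * (a1 + s) + Q2 x y * (a2 + s * a1) + Q3 x * (a3 + s * (a2 + 30 * a3)) -
          (Q + s * (y + rQ x y L P V)) =
          s * a2 * (Q3 x - rQ x y (L2 y) (P2 y) (V2 x y)) +
          s * a3 * (30 * Q3 x - rQ x y (L3 x) (P3 x) (V3 x)) := by
        have e0 : rQ x y L P V = Q2 x y * a1 + rQ x y (L2 y) (P2 y) (V2 x y) * a2 +
            rQ x y (L3 x) (P3 x) (V3 x) * a3 := by
          rw [hL, hP, hV]
          rw [Q2]
          unfold rQ; ring
        rw [e0, hQ]; ring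
      linarith
    · have k1 : R (k + 1) ≤ V + s * (x + rV x y U P Q V) := by
        have q1 := mul_nonneg (by linarith : 0 ≤ 4 - 4 * y + 43 / 20 * x) dU
        have q2 := mul_nonneg (by linarith : 0 ≤ 4 - 22 / 5 * y) dP
        have q3 := mul_nonneg (by linarith : 0 ≤ 43 / 5 * x) dQ
        have q4 := mul_nonneg (by linarith : 0 ≤ 43 / 20 + 43 / 5 * y + 73 / 2 * x) dV
        have e : V + s * (x + rV x y U P Q V) - bRu (m k) (t k) (R k) s (-(y * s)) (x * s) =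
            (V - R k) + (4 - 4 * y + 43 / 20 * x) * (s * (U - m k)) +
            (4 - 22 / 5 * y) * (s * (P - t k)) + 43 / 5 * x * (s * (Q + t k)) +
            (43 / 20 + 43 / 5 * y + 73 / 2 * x) * (s * (V - R k)) := by
          unfold rV bRu; ring
        linarith
      have g1 := mul_nonneg p2 (sub_nonneg.2 (c3V h))
      have g2 := mul_nonneg p3 (sub_nonneg.2 (d3V h))
      have e : x * (a1 + s) + V2 x y * (a2 + s * a1) + V3 x * (a3 + s * (a2 + 30 * a3)) -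
          (V + s * (x + rV x y U P Q V)) =
          s * a2 * (V3 x - rV x y (U2 x y) (P2 y) (Q2 x y) (V2 x y)) +
          s * a3 * (30 * V3 x - rV x y (U3 x) (P3 x) (Q3 x) (V3 x)) := by
        have e0 : rV x y U P Q V = V2 x y * a1 + rV x y (U2 x y) (P2 y) (Q2 x y) (V2 x y) * a2 +
            rV x y (U3 x) (P3 x) (Q3 x) (V3 x) * a3 := by
          rw [hU, hP, hQ, hV]
          rw [V2]
          unfold rV; ring
        rw [e0, hV]; ring
      linarith

end Vale.Agent.P154.Loc
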