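import Vale.Agent.P154.LocSeq

/-!
# P154, three states, antiferromagnetic side: a general comparison theorem and a sharper solution
-/

namespace Vale.Agent.P154.Loc

/-- the small box -/
structure Bx (x y : ℝ) : Prop where
  a : y ^ 2 ≤ x
  b : x ≤ 98 / 1000
  c : - (83 / 1000) ≤ y
  d : y ≤ 171 / 1000

noncomputable def gU (x y : ℝ) : ℝ := -7 / 10 + 107 * x - 724 / 10 * y
noncomputable def gL (x y : ℝ) : ℝ := 114 / 10 + 35 / 10 * x + 288 / 10 * y
noncomputable def gP (x y : ℝ) : ℝ := -418 / 10 + 144 * x - 867 / 10 * y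
noncomputable def gQ (x y : ℝ) : ℝ := 820 / 10 + 120 * x - 366 / 10 * y
noncomputable def gV (x y : ℝ) : ℝ := 31 + 162 * x + 225 / 10 * y

section
variable {x y : ℝ}

theorem b3U (h : Bx x y) : rU x y (U2 x y) (L2 y) (Q2 x y) (V2 x y) ≤ gU x y := by
  have h1 := h.a; have h2 := h.b; have h3 := h.c; have h4 := h.d
  have h0 : 0 ≤ x := (sq_nonneg y).trans h1
  unfold rU U2 L2 Q2 V2 gU rU rL rQ rV
  nlinarith [mul_nonneg h0 (sub_nonneg.2 h2), mul_nonneg (by linarith : 0 ≤ y + 83 / 1000) (sub_nonneg.2 h4),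
    mul_nonneg (by linarith : 0 ≤ y + 83 / 1000) (sub_nonneg.2 h2), mul_nonneg (by linarith : 0 ≤ y + 83 / 1000) h0,
    mul_nonneg (sub_nonneg.2 h4) (sub_nonneg.2 h2), mul_nonneg (sub_nonneg.2 h4) h0]

theorem b3L (h : Bx x y) : rL y (U2 x y) (P2 y) ≤ gL x y := by
  have h1 := h.a; have h2 := h.b; have h3 := h.c; have h4 := h.d
  have h0 : 0 ≤ x := (sq_nonneg y).trans h1
  unfold rL U2 P2 gL rU rP
  nlinarith [mul_nonneg h0 (sub_nonneg.2 h2), mul_nonneg (by linarith : 0 ≤ y + 83 / 1000) (sub_nonneg.2 h4),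
    mul_nonneg (by linarith : 0 ≤ y + 83 / 1000) (sub_nonneg.2 h2), mul_nonneg (by linarith : 0 ≤ y + 83 / 1000) h0,
    mul_nonneg (sub_nonneg.2 h4) (sub_nonneg.2 h2), mul_nonneg (sub_nonneg.2 h4) h0]

theorem b3P (h : Bx x y) : rP y (U2 x y) (Q2 x y) ≤ gP x y := by
  have h1 := h.a; have h2 := h.b; have h3 := h.c; have h4 := h.d
  have h0 : 0 ≤ x := (sq_nonneg y).trans h1
  unfold rP U2 Q2 gP rU rQ
  nlinarith [mul_nonneg h0 (sub_nonneg.2 h2), mul_nonneg (by linarith : 0 ≤ y + 83 / 1000) (sub_nonneg.2 h4),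
    mul_nonneg (by linarith : 0 ≤ y + 83 / 1000) (sub_nonneg.2 h2), mul_nonneg (by linarith : 0 ≤ y + 83 / 1000) h0,
    mul_nonneg (sub_nonneg.2 h4) (sub_nonneg.2 h2), mul_nonneg (sub_nonneg.2 h4) h0]

theorem b3Q (h : Bx x y) : rQ x y (L2 y) (P2 y) (V2 x y) ≤ gQ x y := by
  have h1 := h.a; have h2 := h.b; have h3 := h.c; have h4 := h.d
  have h0 : 0 ≤ x := (sq_nonneg y).trans h1
  have e : gQ x y - rQ x y (L2 y) (P2 y) (V2 x y) = 4 + 273 / 10 * x + 279 / 10 * y -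
      966 / 10 * y ^ 2 + 967 / 20 * y ^ 3 - 2421 / 10 * (x * y) + 999 / 10 * (x * y ^ 2) -
      338175 / 1000 * x ^ 2 + 2898 / 10 * (x ^ 2 * y) - 82125 / 1000 * x ^ 3 := by
    unfold rQ L2 P2 V2 gQ rL rP rV; ring
  have k1 : 0 ≤ y ^ 2 * (y + 83 / 1000) := mul_nonneg (sq_nonneg y) (by linarith)
  have k2 : 0 ≤ x * y ^ 2 := mul_nonneg h0 (sq_nonneg y)
  have k3 : 0 ≤ x ^ 2 * (y + 83 / 1000) := mul_nonneg (sq_nonneg x) (by linarith)
  have k4 : 0 ≤ x ^ 2 * (98 / 1000 - x) := mul_nonneg (sq_nonneg x) (by linarith)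
  have k5 : 0 ≤ x * (98 / 1000 - x) := mul_nonneg h0 (by linarith)
  rcases le_total 0 y with hy | hy
  · have k6 : 0 ≤ y * (98 / 1000 - x) := mul_nonneg hy (by linarith)
    have k7 : 0 ≤ y * (171 / 1000 - y) := mul_nonneg hy (by linarith)
    nlinarith
  · have k6 : 0 ≤ x * (-y) := mul_nonneg h0 (by linarith)
    have k7 : 0 ≤ (-y) * (y + 83 / 1000) := mul_nonneg (by linarith) (by linarith)
    nlinarith

theorem b3V (h : Bx x y) : rV x y (U2 x y) (P2 y) (Q2 x y) (V2 x y) ≤ gV x y := by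
  have h1 := h.a; have h2 := h.b; have h3 := h.c; have h4 := h.d
  have h0 : 0 ≤ x := (sq_nonneg y).trans h1
  have e : gV x y - rV x y (U2 x y) (P2 y) (Q2 x y) (V2 x y) = 24 / 10 - 363 / 10 * y +
      4907 / 50 * y ^ 2 - 146 / 25 * y ^ 3 + 8101 / 200 * x + 8816 / 25 * (x * y) -
      69789 / 200 * (x * y ^ 2) - 17399 / 40 * x ^ 2 - 14843 / 20 * (x ^ 2 * y) -
      10959 / 8 * x ^ 3 := by
    unfold rV U2 P2 Q2 V2 gV rU rP rQ rV; ring
  have k4 : 0 ≤ x ^ 2 * (98 / 1000 - x) := mul_nonneg (sq_nonneg x) (by linarith)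
  rcases le_total 0 y with hy | hy
  · have k1 : 0 ≤ y ^ 2 * (171 / 1000 - y) := mul_nonneg (sq_nonneg y) (by linarith)
    have k2 : 0 ≤ x * y * (171 / 1000 - y) := mul_nonneg (mul_nonneg h0 hy) (by linarith)
    have k3 : 0 ≤ x * y * (98 / 1000 - x) := mul_nonneg (mul_nonneg h0 hy) (by linarith)
    have k5 : 0 ≤ (x - y ^ 2) * (98 / 1000 - x) := mul_nonneg (by linarith) (by linarith)
    have k6 : 0 ≤ y * (x - y ^ 2) := mul_nonneg hy (by linarith)
    nlinarith [sq_nonneg (y - 104 / 1000)]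
  · have k1 : 0 ≤ y ^ 2 * (-y) := mul_nonneg (sq_nonneg y) (by linarith)
    have k2 : 0 ≤ x * (-y) * (y + 83 / 1000) := mul_nonneg (mul_nonneg h0 (by linarith)) (by linarith)
    have k3 : 0 ≤ x ^ 2 * (-y) := mul_nonneg (sq_nonneg x) (by linarith)
    have k5 : 0 ≤ x * (98 / 1000 - x) := mul_nonneg h0 (by linarith)
    have k6 : 0 ≤ (-y) * (98 / 1000 - x) := mul_nonneg (by linarith) (by linarith)
    nlinarith

theorem b4U (h : Bx x y) : rU x y (gU x y) (gL x y) (gQ x y) (gV x y) ≤ 352 := by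
  have h1 := h.a; have h2 := h.b; have h3 := h.c; have h4 := h.d
  have h0 : 0 ≤ x := (sq_nonneg y).trans h1
  unfold rU gU gL gQ gV
  nlinarith [mul_nonneg h0 (sub_nonneg.2 h2), mul_nonneg (by linarith : 0 ≤ y + 83 / 1000) (sub_nonneg.2 h4),
    mul_nonneg (by linarith : 0 ≤ y + 83 / 1000) (sub_nonneg.2 h2), mul_nonneg (by linarith : 0 ≤ y + 83 / 1000) h0,
    mul_nonneg (sub_nonneg.2 h4) (sub_nonneg.2 h2), mul_nonneg (sub_nonneg.2 h4) h0]

theorem b4L (h : Bx x y) : rL y (gU x y) (gP x y) ≤ 85 := by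
  have h1 := h.a; have h2 := h.b; have h3 := h.c; have h4 := h.d
  have h0 : 0 ≤ x := (sq_nonneg y).trans h1
  unfold rL gU gP
  nlinarith [mul_nonneg h0 (sub_nonneg.2 h2), mul_nonneg (by linarith : 0 ≤ y + 83 / 1000) (sub_nonneg.2 h4),
    mul_nonneg (by linarith : 0 ≤ y + 83 / 1000) (sub_nonneg.2 h2), mul_nonneg (by linarith : 0 ≤ y + 83 / 1000) h0,
    mul_nonneg (sub_nonneg.2 h4) (sub_nonneg.2 h2), mul_nonneg (sub_nonneg.2 h4) h0]

theorem b4P (h : Bx x y) : rP y (gU x y) (gQ x y) ≤ 634 := by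
  have h1 := h.a; have h2 := h.b; have h3 := h.c; have h4 := h.d
  have h0 : 0 ≤ x := (sq_nonneg y).trans h1
  unfold rP gU gQ
  nlinarith [mul_nonneg h0 (sub_nonneg.2 h2), mul_nonneg (by linarith : 0 ≤ y + 83 / 1000) (sub_nonneg.2 h4),
    mul_nonneg (by linarith : 0 ≤ y + 83 / 1000) (sub_nonneg.2 h2), mul_nonneg (by linarith : 0 ≤ y + 83 / 1000) h0,
    mul_nonneg (sub_nonneg.2 h4) (sub_nonneg.2 h2), mul_nonneg (sub_nonneg.2 h4) h0]

theorem b4Q (h : Bx x y) : rQ x y (gL x y) (gP x y) (gV x y) ≤ 399 := by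
  have h1 := h.a; have h2 := h.b; have h3 := h.c; have h4 := h.d
  have h0 : 0 ≤ x := (sq_nonneg y).trans h1
  unfold rQ gL gP gV
  nlinarith [mul_nonneg h0 (sub_nonneg.2 h2), mul_nonneg (by linarith : 0 ≤ y + 83 / 1000) (sub_nonneg.2 h4),
    mul_nonneg (by linarith : 0 ≤ y + 83 / 1000) (sub_nonneg.2 h2), mul_nonneg (by linarith : 0 ≤ y + 83 / 1000) h0,
    mul_nonneg (sub_nonneg.2 h4) (sub_nonneg.2 h2), mul_nonneg (sub_nonneg.2 h4) h0]

theorem b4V (h : Bx x y) : rV x y (gU x y) (gP x y) (gQ x y) (gV x y) ≤ 314 := by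
  have h1 := h.a; have h2 := h.b; have h3 := h.c; have h4 := h.d
  have h0 : 0 ≤ x := (sq_nonneg y).trans h1
  unfold rV gU gP gQ gV
  nlinarith [mul_nonneg h0 (sub_nonneg.2 h2), mul_nonneg (by linarith : 0 ≤ y + 83 / 1000) (sub_nonneg.2 h4),
    mul_nonneg (by linarith : 0 ≤ y + 83 / 1000) (sub_nonneg.2 h2), mul_nonneg (by linarith : 0 ≤ y + 83 / 1000) h0,
    mul_nonneg (sub_nonneg.2 h4) (sub_nonneg.2 h2), mul_nonneg (sub_nonneg.2 h4) h0]

theorem b5U (h : Bx x y) : rU x y 352 85 399 314 ≤ 20 * 352 := by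
  have h2 := h.b; have h3 := h.c; have h4 := h.d
  unfold rU; linarith
theorem b5L (h : Bx x y) : rL y 352 634 ≤ 20 * 85 := by
  have h2 := h.b; have h3 := h.c; have h4 := h.d
  unfold rL; linarith
theorem b5P (h : Bx x y) : rP y 352 399 ≤ 20 * 634 := by
  have h2 := h.b; have h3 := h.c; have h4 := h.d
  unfold rP; linarith
theorem b5Q (h : Bx x y) : rQ x y 85 634 314 ≤ 20 * 399 := by
  have h2 := h.b; have h3 := h.c; have h4 := h.d
  unfold rQ; linarith
theorem b5V (h : Bx x y) : rV x y 352 634 399 314 ≤ 20 * 314 := by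
  have h2 := h.b; have h3 := h.c; have h4 := h.d
  unfold rV; linarith
end

/-! ### the general comparison theorem -/

/-- a super-solution of the comparison system -/
structure Sup (s x y : ℝ) (U L P Q V : ℕ → ℝ) : Prop where
  U0 : 0 ≤ U 0
  L0 : 0 ≤ L 0
  P0 : 0 ≤ P 0
  Q0 : 0 ≤ Q 0
  V0 : 0 ≤ V 0
  sU : ∀ k, U k + s * (1 + rU x y (U k) (L k) (Q k) (V k)) ≤ U (k + 1)
  sL : ∀ k, L k + s * (-1 + rL y (U k) (P k)) ≤ L (k + 1)
  sP : ∀ k, P k + s * (-y + rP y (U k) (Q k)) ≤ P (k + 1)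
  sQ : ∀ k, Q k + s * (y + rQ x y (L k) (P k) (V k)) ≤ Q (k + 1)
  sV : ∀ k, V k + s * (x + rV x y (U k) (P k) (Q k) (V k)) ≤ V (k + 1)

theorem seq_cmp {s x y : ℝ} (hs : 0 ≤ s) (h : Om x y) {U L P Q V : ℕ → ℝ}
    (hS : Sup s x y U L P Q V) {m t R : ℕ → ℝ} (m0 : m 0 = 0)
    (t0 : t 0 = 0) (R0 : R 0 = 0)
    (hru : ∀ k, m (k + 1) ≤ bru (m k) (t k) (R k) s (-(y * s)) (x * s))
    (hrl : ∀ k, brl (m k) (t k) s (-(y * s)) ≤ m (k + 1))
    (htu : ∀ k, t (k + 1) ≤ btu (m k) (t k) s (-(y * s)))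
    (htl : ∀ k, - t (k + 1) ≤ btl (m k) (t k) (R k) s (-(y * s)) (x * s))
    (hRu : ∀ k, R (k + 1) ≤ bRu (m k) (t k) (R k) s (-(y * s)) (x * s)) (k : ℕ) :
    m k ≤ U k ∧ - m k ≤ L k ∧ t k ≤ P k ∧ - t k ≤ Q k ∧ R k ≤ V k := by
  induction k with
  | zero =>
    rw [m0, t0, R0]
    have := hS.U0; have := hS.L0; have := hS.P0; have := hS.Q0; have := hS.V0
    simp only [neg_zero]
    exact ⟨hS.U0, hS.L0, hS.P0, hS.Q0, hS.V0⟩
  | succ k ih =>
    obtain ⟨iU, iL, iP, iQ, iV⟩ := ih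
    have hx0 := h.x0
    have hx1 := h.b
    have hy0 := h.c
    have hy1 := h.y1
    have jru := hru k
    have jrl := hrl k
    have jtu := htu k
    have jtl := htl k
    have jRu := hRu k
    have sU := hS.sU k
    have sL := hS.sL k
    have sP := hS.sP k
    have sQ := hS.sQ k
    have sV := hS.sV k
    have dU : 0 ≤ s * (U k - m k) := mul_nonneg hs (by linarith)
    have dL : 0 ≤ s * (L k + m k) := mul_nonneg hs (by linarith)
    have dP : 0 ≤ s * (P k - t k) := mul_nonneg hs (by linarith)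
    have dQ : 0 ≤ s * (Q k + t k) := mul_nonneg hs (by linarith)
    have dV : 0 ≤ s * (V k - R k) := mul_nonneg hs (by linarith)
    refine ⟨?_, ?_, ?_, ?_, ?_⟩
    · have q1 := mul_nonneg (by linarith : 0 ≤ 1 - 2 * y) dL
      have q2 := mul_nonneg (by linarith : 0 ≤ 5 / 2 * x) dU
      have q3 := mul_nonneg (by linarith : 0 ≤ 2 + 5 / 2 * y - 5 / 2 * x) dQ
      have q4 := mul_nonneg (by linarith : 0 ≤ 5 / 2 - 5 / 2 * y + 17 / 2 * x) dV
      have e : U k + s * (1 + rU x y (U k) (L k) (Q k) (V k)) -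
          bru (m k) (t k) (R k) s (-(y * s)) (x * s) =
          (U k - m k) + (1 - 2 * y) * (s * (L k + m k)) + 5 / 2 * x * (s * (U k - m k)) +
          (2 + 5 / 2 * y - 5 / 2 * x) * (s * (Q k + t k)) +
          (5 / 2 - 5 / 2 * y + 17 / 2 * x) * (s * (V k - R k)) := by
        unfold rU bru; ring
      linarith
    · have q1 := mul_nonneg (by linarith : 0 ≤ 1 - 2 * y) dU
      have e : L k + s * (-1 + rL y (U k) (P k)) + brl (m k) (t k) s (-(y * s)) =
          (L k + m k) + (1 - 2 * y) * (s * (U k - m k)) + 2 * (s * (P k - t k)) := by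
        unfold rL brl; ring
      linarith
    · have q1 := mul_nonneg (by linarith : 0 ≤ 6 + 6 * y) dU
      have q2 := mul_nonneg (by linarith : 0 ≤ 6 + 5 * y) dQ
      have e : P k + s * (-y + rP y (U k) (Q k)) - btu (m k) (t k) s (-(y * s)) =
          (P k - t k) + (6 + 6 * y) * (s * (U k - m k)) + (6 + 5 * y) * (s * (Q k + t k)) := by
        unfold rP btu; ring
      linarith
    · have q1 := mul_nonneg (by linarith : 0 ≤ 6 + 6 * y - 9 * x) dL
      have q2 := mul_nonneg (by linarith : 0 ≤ 6 - 7 / 4 * y + 9 * x) dP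
      have q3 := mul_nonneg (by linarith : 0 ≤ 9 - 9 * y + 9 / 4 * x) dV
      have e : Q k + s * (y + rQ x y (L k) (P k) (V k)) -
          btl (m k) (t k) (R k) s (-(y * s)) (x * s) =
          (Q k + t k) + (6 + 6 * y - 9 * x) * (s * (L k + m k)) +
          (6 - 7 / 4 * y + 9 * x) * (s * (P k - t k)) +
          (9 - 9 * y + 9 / 4 * x) * (s * (V k - R k)) := by
        unfold rQ btl; ring
      linarith
    · have q1 := mul_nonneg (by linarith : 0 ≤ 4 - 4 * y + 43 / 20 * x) dU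
      have q2 := mul_nonneg (by linarith : 0 ≤ 4 - 22 / 5 * y) dP
      have q3 := mul_nonneg (by linarith : 0 ≤ 43 / 5 * x) dQ
      have q4 := mul_nonneg (by linarith : 0 ≤ 43 / 20 + 43 / 5 * y + 73 / 2 * x) dV
      have e : V k + s * (x + rV x y (U k) (P k) (Q k) (V k)) -
          bRu (m k) (t k) (R k) s (-(y * s)) (x * s) =
          (V k - R k) + (4 - 4 * y + 43 / 20 * x) * (s * (U k - m k)) +
          (4 - 22 / 5 * y) * (s * (P k - t k)) + 43 / 5 * x * (s * (Q k + t k)) +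
          (43 / 20 + 43 / 5 * y + 73 / 2 * x) * (s * (V k - R k)) := by
        unfold rV bRu; ring
      linarith

/-! ### the two super-solutions -/

noncomputable def c3 (s : ℝ) : ℕ → ℝ
  | 0 => 0
  | k + 1 => c3 s k + s * e2 s k
noncomputable def c4 (s : ℝ) : ℕ → ℝ
  | 0 => 0
  | k + 1 => c4 s k + s * (c3 s k + 20 * c4 s k)

section
variable {s : ℝ}

theorem c3_succ (k : ℕ) : c3 s (k + 1) = c3 s k + s * e2 s k := rfl
theorem c4_succ (k : ℕ) : c4 s (k + 1) = c4 s k + s * (c3 s k + 20 * c4 s k) := rfl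

theorem c3_nonneg (hs : 0 ≤ s) (k : ℕ) : 0 ≤ c3 s k := by
  induction k with
  | zero => exact le_rfl
  | succ k ih => exact add_nonneg ih (mul_nonneg hs (e2_nonneg hs k))

theorem c4_nonneg (hs : 0 ≤ s) (k : ℕ) : 0 ≤ c4 s k := by
  induction k with
  | zero => exact le_rfl
  | succ k ih =>
    exact add_nonneg ih (mul_nonneg hs (add_nonneg (c3_nonneg hs k) (by linarith)))

theorem c3_eq (k : ℕ) : c3 s k = (k : ℝ) * (k - 1) * (k - 2) / 6 * s ^ 3 := by
  induction k with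
  | zero => simp [c3]
  | succ k ih =>
    rw [c3_succ, ih, e2_eq]
    push_cast
    ring

theorem c4_eq (k : ℕ) : (1 + 20 * s) ^ k = 1 + 20 * e1 s k + 400 * e2 s k + 8000 * c3 s k +
    160000 * c4 s k := by
  induction k with
  | zero => simp [e1, e2, c3, c4]
  | succ k ih =>
    rw [pow_succ, ih, e1_succ, e2_succ, c3_succ, c4_succ]
    ring

end

theorem sup3 {s x y : ℝ} (hs : 0 ≤ s) (h : Om x y) : Sup s x y
    (fun k => e1 s k + U2 x y * e2 s k + U3 x * e3 s k)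
    (fun k => - e1 s k + L2 y * e2 s k + L3 x * e3 s k)
    (fun k => - y * e1 s k + P2 y * e2 s k + P3 x * e3 s k)
    (fun k => y * e1 s k + Q2 x y * e2 s k + Q3 x * e3 s k)
    (fun k => x * e1 s k + V2 x y * e2 s k + V3 x * e3 s k) := by
  refine ⟨by simp [e1, e2, e3], by simp [e1, e2, e3], by simp [e1, e2, e3], by simp [e1, e2, e3],
    by simp [e1, e2, e3], ?_, ?_, ?_, ?_, ?_⟩
  all_goals
    intro k
    have p2 := mul_nonneg hs (e2_nonneg hs k)
    have p3 := mul_nonneg hs (e3_nonneg hs k)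
    simp only [e1_succ, e2_succ, e3_succ]
    generalize e1 s k = a1 at *
    generalize e2 s k = a2 at *
    generalize e3 s k = a3 at *
  · have g1 := mul_nonneg p2 (sub_nonneg.2 (c3U h))
    have g2 := mul_nonneg p3 (sub_nonneg.2 (d3U h))
    have e0 : rU x y (a1 + U2 x y * a2 + U3 x * a3) (- a1 + L2 y * a2 + L3 x * a3)
        (y * a1 + Q2 x y * a2 + Q3 x * a3) (x * a1 + V2 x y * a2 + V3 x * a3) =
        U2 x y * a1 + rU x y (U2 x y) (L2 y) (Q2 x y) (V2 x y) * a2 +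
        rU x y (U3 x) (L3 x) (Q3 x) (V3 x) * a3 := by
      rw [U2]
      unfold rU; ring
    rw [e0]
    linarith
  · have g1 := mul_nonneg p2 (sub_nonneg.2 (c3L h))
    have g2 := mul_nonneg p3 (sub_nonneg.2 (d3L h))
    have e0 : rL y (a1 + U2 x y * a2 + U3 x * a3) (- y * a1 + P2 y * a2 + P3 x * a3) =
        L2 y * a1 + rL y (U2 x y) (P2 y) * a2 + rL y (U3 x) (P3 x) * a3 := by
      rw [L2]
      unfold rL; ring
    rw [e0]
    linarith
  · have g1 := mul_nonneg p2 (sub_nonneg.2 (c3P h))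
    have g2 := mul_nonneg p3 (sub_nonneg.2 (d3P h))
    have e0 : rP y (a1 + U2 x y * a2 + U3 x * a3) (y * a1 + Q2 x y * a2 + Q3 x * a3) =
        P2 y * a1 + rP y (U2 x y) (Q2 x y) * a2 + rP y (U3 x) (Q3 x) * a3 := by
      rw [P2]
      unfold rP; ring
    rw [e0]
    linarith
  · have g1 := mul_nonneg p2 (sub_nonneg.2 (c3Q h))
    have g2 := mul_nonneg p3 (sub_nonneg.2 (d3Q h))
    have e0 : rQ x y (- a1 + L2 y * a2 + L3 x * a3) (- y * a1 + P2 y * a2 + P3 x * a3)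
        (x * a1 + V2 x y * a2 + V3 x * a3) =
        Q2 x y * a1 + rQ x y (L2 y) (P2 y) (V2 x y) * a2 + rQ x y (L3 x) (P3 x) (V3 x) * a3 := by
      rw [Q2]
      unfold rQ; ring
    rw [e0]
    linarith
  · have g1 := mul_nonneg p2 (sub_nonneg.2 (c3V h))
    have g2 := mul_nonneg p3 (sub_nonneg.2 (d3V h))
    have e0 : rV x y (a1 + U2 x y * a2 + U3 x * a3) (- y * a1 + P2 y * a2 + P3 x * a3)
        (y * a1 + Q2 x y * a2 + Q3 x * a3) (x * a1 + V2 x y * a2 + V3 x * a3) =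
        V2 x y * a1 + rV x y (U2 x y) (P2 y) (Q2 x y) (V2 x y) * a2 +
        rV x y (U3 x) (P3 x) (Q3 x) (V3 x) * a3 := by
      rw [V2]
      unfold rV; ring
    rw [e0]
    linarith

theorem sup4 {s x y : ℝ} (hs : 0 ≤ s) (h : Bx x y) : Sup s x y
    (fun k => e1 s k + U2 x y * e2 s k + gU x y * c3 s k + 352 * c4 s k)
    (fun k => - e1 s k + L2 y * e2 s k + gL x y * c3 s k + 85 * c4 s k)
    (fun k => - y * e1 s k + P2 y * e2 s k + gP x y * c3 s k + 634 * c4 s k)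
    (fun k => y * e1 s k + Q2 x y * e2 s k + gQ x y * c3 s k + 399 * c4 s k)
    (fun k => x * e1 s k + V2 x y * e2 s k + gV x y * c3 s k + 314 * c4 s k) := by
  refine ⟨by simp [e1, e2, c3, c4], by simp [e1, e2, c3, c4], by simp [e1, e2, c3, c4],
    by simp [e1, e2, c3, c4], by simp [e1, e2, c3, c4], ?_, ?_, ?_, ?_, ?_⟩
  all_goals
    intro k
    have p2 := mul_nonneg hs (e2_nonneg hs k)
    have p3 := mul_nonneg hs (c3_nonneg hs k)
    have p4 := mul_nonneg hs (c4_nonneg hs k)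
    simp only [e1_succ, e2_succ, c3_succ, c4_succ]
    generalize e1 s k = a1 at *
    generalize e2 s k = a2 at *
    generalize c3 s k = a3 at *
    generalize c4 s k = a4 at *
  · have g1 := mul_nonneg p2 (sub_nonneg.2 (b3U h))
    have g2 := mul_nonneg p3 (sub_nonneg.2 (b4U h))
    have g3 := mul_nonneg p4 (sub_nonneg.2 (b5U h))
    have e0 : rU x y (a1 + U2 x y * a2 + gU x y * a3 + 352 * a4)
        (- a1 + L2 y * a2 + gL x y * a3 + 85 * a4)
        (y * a1 + Q2 x y * a2 + gQ x y * a3 + 399 * a4)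
        (x * a1 + V2 x y * a2 + gV x y * a3 + 314 * a4) =
        U2 x y * a1 + rU x y (U2 x y) (L2 y) (Q2 x y) (V2 x y) * a2 +
        rU x y (gU x y) (gL x y) (gQ x y) (gV x y) * a3 + rU x y 352 85 399 314 * a4 := by
      rw [U2]
      unfold rU; ring
    rw [e0]
    linarith
  · have g1 := mul_nonneg p2 (sub_nonneg.2 (b3L h))
    have g2 := mul_nonneg p3 (sub_nonneg.2 (b4L h))
    have g3 := mul_nonneg p4 (sub_nonneg.2 (b5L h))
    have e0 : rL y (a1 + U2 x y * a2 + gU x y * a3 + 352 * a4)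
        (- y * a1 + P2 y * a2 + gP x y * a3 + 634 * a4) =
        L2 y * a1 + rL y (U2 x y) (P2 y) * a2 + rL y (gU x y) (gP x y) * a3 +
        rL y 352 634 * a4 := by
      rw [L2]
      unfold rL; ring
    rw [e0]
    linarith
  · have g1 := mul_nonneg p2 (sub_nonneg.2 (b3P h))
    have g2 := mul_nonneg p3 (sub_nonneg.2 (b4P h))
    have g3 := mul_nonneg p4 (sub_nonneg.2 (b5P h))
    have e0 : rP y (a1 + U2 x y * a2 + gU x y * a3 + 352 * a4)
        (y * a1 + Q2 x y * a2 + gQ x y * a3 + 399 * a4) =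
        P2 y * a1 + rP y (U2 x y) (Q2 x y) * a2 + rP y (gU x y) (gQ x y) * a3 +
        rP y 352 399 * a4 := by
      rw [P2]
      unfold rP; ring
    rw [e0]
    linarith
  · have g1 := mul_nonneg p2 (sub_nonneg.2 (b3Q h))
    have g2 := mul_nonneg p3 (sub_nonneg.2 (b4Q h))
    have g3 := mul_nonneg p4 (sub_nonneg.2 (b5Q h))
    have e0 : rQ x y (- a1 + L2 y * a2 + gL x y * a3 + 85 * a4)
        (- y * a1 + P2 y * a2 + gP x y * a3 + 634 * a4)
        (x * a1 + V2 x y * a2 + gV x y * a3 + 314 * a4) =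
        Q2 x y * a1 + rQ x y (L2 y) (P2 y) (V2 x y) * a2 +
        rQ x y (gL x y) (gP x y) (gV x y) * a3 + rQ x y 85 634 314 * a4 := by
      rw [Q2]
      unfold rQ; ring
    rw [e0]
    linarith
  · have g1 := mul_nonneg p2 (sub_nonneg.2 (b3V h))
    have g2 := mul_nonneg p3 (sub_nonneg.2 (b4V h))
    have g3 := mul_nonneg p4 (sub_nonneg.2 (b5V h))
    have e0 : rV x y (a1 + U2 x y * a2 + gU x y * a3 + 352 * a4)
        (- y * a1 + P2 y * a2 + gP x y * a3 + 634 * a4)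
        (y * a1 + Q2 x y * a2 + gQ x y * a3 + 399 * a4)
        (x * a1 + V2 x y * a2 + gV x y * a3 + 314 * a4) =
        V2 x y * a1 + rV x y (U2 x y) (P2 y) (Q2 x y) (V2 x y) * a2 +
        rV x y (gU x y) (gP x y) (gQ x y) (gV x y) * a3 + rV x y 352 634 399 314 * a4 := by
      rw [V2]
      unfold rV; ring
    rw [e0]
    linarith

end Vale.Agent.P154.Loc
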