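import Vale.Agent.P154.LocAvg
import Vale.Agent.P154.LocFin
import Vale.Agent.P154.PoissonLimit
import Vale.Agent.P154.Antitone

/-!
# P154, three states, antiferromagnetic side: from experiments to trees
-/

namespace Vale.Agent.P154.Loc

open Finset Filter Topology Vale.Agent.P154 Vale.Agent.P154.Up

/-! ### trees -/

theorem nExp_leaf : NExp (leafExp 3) where
  nonneg x i := by unfold leafExp; split_ifs <;> norm_num
  sum i := by simp [leafExp]
  sym := weakExp_leaf.sym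

theorem nExp_lik {κ : ℝ} (h0 : 0 ≤ κ) (h1 : κ ≤ 1 / 2) {n : ℕ} (T : GTree n) :
    NExp (lik 3 (-κ) T) := by
  induction T with
  | leaf => exact nExp_leaf
  | node k ch ih =>
    exact nExp_pi k (fun v => Obs 3 (ch v)) (fun v => chan (-κ) (lik 3 (-κ) (ch v)))
      fun v => ((ih v).chan h0 h1).toNExp

/-! ### the averaged state -/

/-- relations between the three averaged functionals -/
structure St (κ M T R p w : ℝ) : Prop where
  M0 : 0 ≤ M
  M1 : M ≤ 1
  T0 : -(1 / 2) ≤ T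
  eT : T = p * M
  eR : R = w * M
  om : Om (κ ^ 2 * w) (κ * p)

theorem st_of_pf {κ M T R : ℝ} (h0 : 0 < κ) (h1 : κ ≤ 1 / 2) (h : PF 1 M T R) :
    St κ M T R (T / M) (R / M) := by
  rcases h.r0.eq_or_lt with hM | hM
  · have hT : T = 0 := by
      have := h.tr; have := h.tl
      rw [← hM] at *
      linarith
    have hR : R = 0 := le_antisymm (by have := h.Rr; linarith) h.R0
    subst hT hR
    rw [← hM]
    refine ⟨le_rfl, by norm_num, by norm_num, by simp, by simp, ?_⟩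
    simp only [div_zero, mul_zero]
    exact ⟨by norm_num, by norm_num, by norm_num, by norm_num⟩
  · have eT : T = T / M * M := by field_simp
    have eR : R = R / M * M := by field_simp
    have hR1 := h.Rr
    have hR0 := h.R0
    have hT1 := h.tr
    have hT0 := h.tl
    have hTR := h.tR
    have hcs := h.cs (T / M)
    have hM1 := h.rD
    have w1 : R / M ≤ 1 := (div_le_one hM).2 hR1
    have w0 : 0 ≤ R / M := div_nonneg hR0 hM.le
    have p0 : -(1 / 2) ≤ T / M := by rw [le_div_iff₀ hM]; linarith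
    have pw : R / M - 3 / 4 ≤ T / M := by
      rw [sub_le_iff_le_add, div_le_iff₀ hM]
      have : (T / M + 3 / 4) * M = T + 3 / 4 * M := by field_simp
      rw [this]; linarith
    have p2 : (T / M) ^ 2 ≤ R / M := by
      rw [le_div_iff₀ hM]
      have e1 : 2 * (T / M) * T = 2 * ((T / M) ^ 2 * M) := by field_simp
      linarith
    set p := T / M
    set w := R / M
    refine ⟨hM.le, hM1, by linarith, eT, eR, ?_⟩
    have hκ2 : 0 < κ ^ 2 := by positivity
    have hκ4 : κ ^ 2 ≤ 1 / 4 := by nlinarith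
    refine ⟨?_, ?_, ?_, ?_⟩
    · rw [mul_pow]
      exact mul_le_mul_of_nonneg_left p2 hκ2.le
    · nlinarith
    · nlinarith
    · have h3 := mul_le_mul_of_nonneg_left pw h0.le
      have h4 : 0 ≤ (1 - 2 * κ) * (κ * w + 3 / 8) := by
        have : 0 ≤ κ * w := mul_nonneg h0.le w0
        exact mul_nonneg (by linarith) (by linarith)
      nlinarith

section
variable {α : Type} {E : (α → ℝ) → ℝ} {X : α → Type} [∀ a, Fintype (X a)]
  {u : ∀ a, X a → Fin 3 → ℝ}

theorem pf_avg (hE : IsAvg E) (hu : ∀ a, NExp (u a)) :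
    PF 1 (E fun a => fn gr (u a)) (E fun a => fn gt (u a)) (E fun a => fn gR (u a)) := by
  have b1 : Bd (fun a => fn gr (u a)) := ⟨1, fun a => (hu a).abs_gr⟩
  have b2 : Bd (fun a => fn gt (u a)) := ⟨1, fun a => (hu a).abs_gt⟩
  have b3 : Bd (fun a => fn gR (u a)) := ⟨1, fun a => (hu a).abs_gR⟩
  have key : ∀ c0 c1 c2 c3 : ℝ, (∀ a, 0 ≤ c0 + c1 * fn gr (u a) + c2 * fn gt (u a) +
      c3 * fn gR (u a)) → 0 ≤ c0 + c1 * (E fun a => fn gr (u a)) + c2 * (E fun a => fn gt (u a)) +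
        c3 * (E fun a => fn gR (u a)) := by
    intro c0 c1 c2 c3 h
    rw [← hE.lin3 b1 b2 b3]
    exact hE.const_le ((((Bd.const c0).add (b1.mul c1)).add (b2.mul c2)).add (b3.mul c3)) h
  refine ⟨?_, ?_, ?_, ?_, ?_, ?_, ?_, ?_, ?_⟩
  · have := key 0 1 0 0 fun a => by have := (hu a).pf.r0; linarith
    linarith
  · have := key 1 (-1) 0 0 fun a => by have := (hu a).pf.rD; linarith
    linarith
  · have := key 0 0 0 1 fun a => by have := (hu a).pf.R0; linarith
    linarith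
  · have := key 0 1 0 (-1) fun a => by have := (hu a).pf.Rr; linarith
    linarith
  · have := key 0 1 (-1) 0 fun a => by have := (hu a).pf.tr; linarith
    linarith
  · have := key 0 (1 / 2) 1 0 fun a => by have := (hu a).pf.tl; linarith
    linarith
  · have := key 0 (3 / 4) 1 (-1) fun a => by have := (hu a).pf.tR; linarith
    linarith
  · intro l
    have := key 0 (l ^ 2) (-(2 * l)) 1 fun a => by have := (hu a).pf.cs l; linarith
    linarith
  · intro l
    have := key (l ^ 2) (-(2 * l)) 0 1 fun a => by have := (hu a).pf.jen l; linarith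
    linarith

/-- bounds for the product of `k` independent messages -/
theorem law_bound (hE : IsAvg E) (hu : ∀ a, NExp (u a)) {κ : ℝ} (h0 : 0 < κ) (h1 : κ ≤ 1 / 2)
    {M T R p w : ℝ} (hM : M = E fun a => fn gr (u a)) (hT : T = E fun a => fn gt (u a))
    (hR : R = E fun a => fn gR (u a)) (hs : St κ M T R p w) (k : ℕ) :
    Ak (fun a => chan (-κ) (u a)) E gr k ≤ e1 (κ ^ 2 * M) k +
      U2 (κ ^ 2 * w) (κ * p) * e2 (κ ^ 2 * M) k + U3 (κ ^ 2 * w) * e3 (κ ^ 2 * M) k ∧
    Ak (fun a => chan (-κ) (u a)) E gt k ≤ - (κ * p) * e1 (κ ^ 2 * M) k +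
      P2 (κ * p) * e2 (κ ^ 2 * M) k + P3 (κ ^ 2 * w) * e3 (κ ^ 2 * M) k ∧
    Ak (fun a => chan (-κ) (u a)) E gR k ≤ κ ^ 2 * w * e1 (κ ^ 2 * M) k +
      V2 (κ ^ 2 * w) (κ * p) * e2 (κ ^ 2 * M) k + V3 (κ ^ 2 * w) * e3 (κ ^ 2 * M) k := by
  have b1 : Bd (fun a => fn gr (u a)) := ⟨1, fun a => (hu a).abs_gr⟩
  have b2 : Bd (fun a => fn gt (u a)) := ⟨1, fun a => (hu a).abs_gt⟩
  have b3 : Bd (fun a => fn gR (u a)) := ⟨1, fun a => (hu a).abs_gR⟩
  have c1 : (E fun a => fn gr (chan (-κ) (u a))) = κ ^ 2 * M := by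
    simp only [fn_gr_chan]
    rw [hE.smul _ _ b1, ← hM]; ring
  have c2 : (E fun a => fn gt (chan (-κ) (u a))) = -(κ * p * (κ ^ 2 * M)) := by
    simp only [fn_gt_chan]
    rw [hE.smul _ _ b2, ← hT, hs.eT]; ring
  have c3 : (E fun a => fn gR (chan (-κ) (u a))) = κ ^ 2 * w * (κ ^ 2 * M) := by
    simp only [fn_gR_chan]
    rw [hE.smul _ _ b3, ← hR, hs.eR]; ring
  have hm : ∀ a, MExp (chan (-κ) (u a)) := fun a => (hu a).chan h0.le h1
  obtain ⟨z1, z2, z3⟩ := Ak_zero (E := E) (fun a => chan (-κ) (u a))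
  have key := seq_bound (s := κ ^ 2 * M) (mul_nonneg (sq_nonneg κ) hs.M0) hs.om
    (m := Ak (fun a => chan (-κ) (u a)) E gr) (t := Ak (fun a => chan (-κ) (u a)) E gt)
    (R := Ak (fun a => chan (-κ) (u a)) E gR) z1 z2 z3
    (fun k => by have := Ak_ru _ hE hm k; rwa [c1, c2, c3] at this)
    (fun k => by have := Ak_rl _ hE hm k; rwa [c1, c2] at this)
    (fun k => by have := Ak_tu _ hE hm k; rwa [c1, c2] at this)
    (fun k => by have := Ak_tl _ hE hm k; rwa [c1, c2, c3] at this)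
    (fun k => by have := Ak_Ru _ hE hm k; rwa [c1, c2, c3] at this) k
  exact ⟨key.1, key.2.2.1, key.2.2.2.2⟩

end

/-! ### convergence of the descent -/

theorem tendsto_of_descent {M Φ : ℕ → ℝ} {N : ℕ} {c : ℝ} (hc : 0 < c) (hM : ∀ n, 0 ≤ M n)
    (hanti : Antitone M) (hΦ : ∀ n, 0 ≤ Φ n) (h : ∀ n, N ≤ n → Φ (n + 1) ≤ Φ n - c * M n ^ 2) :
    Tendsto M atTop (𝓝 0) := by
  have hbdd : BddBelow (Set.range M) := ⟨0, by rintro _ ⟨n, rfl⟩; exact hM n⟩
  have hL := tendsto_atTop_ciInf hanti hbdd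
  set L := ⨅ n, M n with hLdef
  have hL0 : 0 ≤ L := ge_of_tendsto' hL hM
  have hLM : ∀ n, L ≤ M n := fun n => ciInf_le hbdd n
  rcases hL0.eq_or_lt with h0 | h0
  · rw [h0]; exact hL
  · exfalso
    have hstep : ∀ j : ℕ, Φ (N + j) ≤ Φ N - j * (c * L ^ 2) := by
      intro j
      induction j with
      | zero => simp
      | succ j ih =>
        have h1 := h (N + j) (by omega)
        have h2 : L ^ 2 ≤ M (N + j) ^ 2 := pow_le_pow_left₀ hL0 (hLM _) 2
        have h3 := mul_le_mul_of_nonneg_left h2 hc.le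
        have e : N + (j + 1) = N + j + 1 := by ring
        rw [e]
        push_cast
        linarith
    have hpos : 0 < c * L ^ 2 := by positivity
    obtain ⟨j, hj⟩ := exists_nat_gt (Φ N / (c * L ^ 2))
    rw [div_lt_iff₀ hpos] at hj
    have h1 := hstep j
    have h2 := hΦ (N + j)
    linarith

/-- nonreconstruction on the `d`-ary tree from the decay of the second moment -/
theorem nonrec_dary {q : ℕ} (hq : 2 ≤ q) {lam : ℝ} (h1 : -1 / ((q : ℝ) - 1) ≤ lam) (h2 : lam ≤ 1)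
    {d : ℕ} (hlimM : Tendsto (fun n => Mtree q lam (dary d n)) atTop (𝓝 0)) :
    Nonreconstruction (aDary q lam d) := by
  unfold Nonreconstruction
  rw [Metric.tendsto_atTop]
  intro ε hε
  have h3 : Tendsto (fun n => ε / 4 + ((q : ℝ) - 1) / (4 * ε) * Mtree q lam (dary d n)) atTop
      (𝓝 (ε / 4)) := by
    have := (hlimM.const_mul (((q : ℝ) - 1) / (4 * ε))).const_add (ε / 4)
    rwa [mul_zero, add_zero] at this
  have h4 := h3.eventually_lt_const (show ε / 4 < ε by linarith)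
  obtain ⟨N, hN⟩ := eventually_atTop.1 h4
  refine ⟨N, fun n hn => ?_⟩
  have h5 := adv_nonneg hq h1 h2 (dary d n)
  have h6 := adv_le hq h1 h2 (dary d n) hε
  have h7 := hN n hn
  unfold aDary
  rw [Real.dist_eq, sub_zero, abs_of_nonneg h5]
  linarith

/-- nonreconstruction on the Poisson tree from the decay of the second moment -/
theorem nonrec_poisson {q : ℕ} (hq : 2 ≤ q) {lam : ℝ} (h1 : -1 / ((q : ℝ) - 1) ≤ lam)
    (h2 : lam ≤ 1) {d : ℝ} (hd : 0 ≤ d)
    (hlimM : Tendsto (fun n => ∑' T : GTree n, poissonWeight d T * Mtree q lam T) atTop (𝓝 0)) :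
    Nonreconstruction (aPoisson q lam d) := by
  have ha0 : ∀ n, 0 ≤ aPoisson q lam d n := fun n =>
    tsum_nonneg fun T => mul_nonneg (poissonWeight_nonneg hd T) (adv_nonneg hq h1 h2 T)
  have ha : ∀ ε : ℝ, 0 < ε → ∀ n,
      aPoisson q lam d n ≤ ε / 4 + ((q : ℝ) - 1) / (4 * ε) *
        ∑' T : GTree n, poissonWeight d T * Mtree q lam T := by
    intro ε hε n
    have hs1 : Summable (fun T : GTree n => poissonWeight d T * Mtree q lam T) :=
      summable_weight hd n (Mtree_nonneg hq h1 h2) (Mtree_le_one hq h1 h2)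
    have hs2 : Summable (fun T : GTree n => ε / 4 * poissonWeight d T +
        ((q : ℝ) - 1) / (4 * ε) * (poissonWeight d T * Mtree q lam T)) :=
      ((poissonWeight_summable hd n).mul_left _).add (hs1.mul_left _)
    have hle : ∀ T : GTree n, poissonWeight d T * adv q lam T ≤ ε / 4 * poissonWeight d T +
        ((q : ℝ) - 1) / (4 * ε) * (poissonWeight d T * Mtree q lam T) := by
      intro T
      have h3 := mul_le_mul_of_nonneg_left (adv_le hq h1 h2 T hε) (poissonWeight_nonneg hd T)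
      refine h3.trans (le_of_eq ?_)
      ring
    have hs3 : Summable (fun T : GTree n => poissonWeight d T * adv q lam T) :=
      Summable.of_nonneg_of_le
        (fun T => mul_nonneg (poissonWeight_nonneg hd T) (adv_nonneg hq h1 h2 T)) hle hs2
    unfold aPoisson
    refine (hs3.tsum_le_tsum hle hs2).trans (le_of_eq ?_)
    rw [((poissonWeight_summable hd n).mul_left _).tsum_add (hs1.mul_left _), tsum_mul_left,
      tsum_mul_left, poissonWeight_tsum hd n, mul_one]
  unfold Nonreconstruction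
  rw [Metric.tendsto_atTop]
  intro ε hε
  have h3 : Tendsto (fun n => ε / 4 + ((q : ℝ) - 1) / (4 * ε) *
      ∑' T : GTree n, poissonWeight d T * Mtree q lam T) atTop (𝓝 (ε / 4)) := by
    have := (hlimM.const_mul (((q : ℝ) - 1) / (4 * ε))).const_add (ε / 4)
    rwa [mul_zero, add_zero] at this
  have h4 := h3.eventually_lt_const (show ε / 4 < ε by linarith)
  obtain ⟨N, hN⟩ := eventually_atTop.1 h4
  refine ⟨N, fun n hn => ?_⟩
  rw [Real.dist_eq, sub_zero, abs_of_nonneg (ha0 n)]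
  exact (ha ε hε n).trans_lt (hN n hn)

/-! ### monotonicity in the depth -/

/-- convexity of the density -/
theorem gr_conv {X : Type*} (s : Finset X) {k : X → ℝ} (hk : ∀ x, 0 ≤ k x) {a b c : X → ℝ}
    (ha : ∀ x, 0 ≤ a x) (hb : ∀ x, 0 ≤ b x) (hc : ∀ x, 0 ≤ c x) :
    gr (∑ x ∈ s, a x * k x) (∑ x ∈ s, b x * k x) (∑ x ∈ s, c x * k x) ≤
      ∑ x ∈ s, gr (a x) (b x) (c x) * k x := by
  -- `gr = (a² + b² + c²) / (2 (a + b + c)) - (a + b + c) / 6`
  have form : ∀ a b c : ℝ, 0 ≤ a → 0 ≤ b → 0 ≤ c → ∀ p q r : ℝ,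
      (a * (2 * p) + b * (2 * q) + c * (2 * r) - (a + b + c) * (p ^ 2 + q ^ 2 + r ^ 2)) / 2 -
        (a + b + c) / 6 ≤ gr a b c := by
    intro a b c ha hb hc p q r
    by_cases h : 0 < a + b + c
    · have e : gr a b c = (a ^ 2 + b ^ 2 + c ^ 2) / (2 * (a + b + c)) - (a + b + c) / 6 := by
        unfold gr wn wD
        field_simp
        ring
      rw [e]
      have e2 : (a ^ 2 + b ^ 2 + c ^ 2) / (2 * (a + b + c)) - (a * (2 * p) + b * (2 * q) +
          c * (2 * r) - (a + b + c) * (p ^ 2 + q ^ 2 + r ^ 2)) / 2 =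
          ((a - (a + b + c) * p) ^ 2 + (b - (a + b + c) * q) ^ 2 + (c - (a + b + c) * r) ^ 2) /
            (2 * (a + b + c)) := by
        field_simp
        ring
      have : 0 ≤ ((a - (a + b + c) * p) ^ 2 + (b - (a + b + c) * q) ^ 2 +
        (c - (a + b + c) * r) ^ 2) / (2 * (a + b + c)) := by positivity
      linarith
    · have h1 : a = 0 := by linarith
      have h2 : b = 0 := by linarith
      have h3 : c = 0 := by linarith
      subst h1 h2 h3
      rw [gr_zero]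
      norm_num
  set A := ∑ x ∈ s, a x * k x with hA
  set B := ∑ x ∈ s, b x * k x with hB
  set C := ∑ x ∈ s, c x * k x with hC
  have hA0 : 0 ≤ A := Finset.sum_nonneg fun x _ => mul_nonneg (ha x) (hk x)
  have hB0 : 0 ≤ B := Finset.sum_nonneg fun x _ => mul_nonneg (hb x) (hk x)
  have hC0 : 0 ≤ C := Finset.sum_nonneg fun x _ => mul_nonneg (hc x) (hk x)
  have key : ∀ p q r : ℝ, (A * (2 * p) + B * (2 * q) + C * (2 * r) -
      (A + B + C) * (p ^ 2 + q ^ 2 + r ^ 2)) / 2 - (A + B + C) / 6 ≤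
        ∑ x ∈ s, gr (a x) (b x) (c x) * k x := by
    intro p q r
    have h1 := Finset.sum_le_sum fun x (_ : x ∈ s) =>
      mul_le_mul_of_nonneg_right (form (a x) (b x) (c x) (ha x) (hb x) (hc x) p q r) (hk x)
    refine le_trans (le_of_eq ?_) h1
    rw [hA, hB, hC]
    simp only [Finset.sum_mul, Finset.sum_div, ← Finset.sum_add_distrib, ← Finset.sum_sub_distrib]
    refine Finset.sum_congr rfl fun x _ => ?_
    ring
  by_cases h : 0 < A + B + C
  · refine le_trans (le_of_eq ?_) (key (A / (A + B + C)) (B / (A + B + C)) (C / (A + B + C)))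
    unfold gr wn wD
    field_simp
    ring
  · have h1 : A = 0 := by linarith
    have h2 : B = 0 := by linarith
    have h3 : C = 0 := by linarith
    rw [h1, h2, h3, gr_zero]
    exact Finset.sum_nonneg fun x _ => mul_nonneg (pf_of ⟨ha x, hb x, hc x⟩).r0 (hk x)

theorem lam_adm {κ : ℝ} (h1 : κ ≤ 1 / 2) : -1 / ((3 : ℕ) - 1 : ℝ) ≤ -κ := by
  push_cast
  rw [div_le_iff₀ (by norm_num)]
  linarith

theorem Mtree_trunc {κ : ℝ} (h0 : 0 ≤ κ) (h1 : κ ≤ 1 / 2) {n : ℕ} (T : GTree (n + 1)) :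
    Mtree 3 (-κ) T ≤ Mtree 3 (-κ) (trunc T) := by
  obtain ⟨K, hK0, hK1, hK2⟩ := exists_kernel (q := 3) (by norm_num) (lam_adm h1) (by linarith) n T
  have hN := nExp_lik h0 h1 (trunc T)
  unfold Mtree
  rw [← fn_gr_eq, ← fn_gr_eq]
  unfold fn
  calc ∑ y, gr (lik 3 (-κ) T y 0) (lik 3 (-κ) T y 1) (lik 3 (-κ) T y 2)
      ≤ ∑ y, ∑ x, gr (lik 3 (-κ) (trunc T) x 0) (lik 3 (-κ) (trunc T) x 1)
        (lik 3 (-κ) (trunc T) x 2) * K x y := by
        refine Finset.sum_le_sum fun y _ => ?_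
        rw [hK2 y 0, hK2 y 1, hK2 y 2]
        exact gr_conv _ (fun x => hK0 x y) (fun x => hN.nonneg x 0) (fun x => hN.nonneg x 1)
          (fun x => hN.nonneg x 2)
    _ = ∑ x, gr (lik 3 (-κ) (trunc T) x 0) (lik 3 (-κ) (trunc T) x 1)
        (lik 3 (-κ) (trunc T) x 2) := by
        rw [Finset.sum_comm]
        refine Finset.sum_congr rfl fun x _ => ?_
        rw [← Finset.mul_sum, hK1 x, mul_one]

theorem antitone_Mdary {κ : ℝ} (h0 : 0 ≤ κ) (h1 : κ ≤ 1 / 2) (d : ℕ) :
    Antitone (fun n => Mtree 3 (-κ) (dary d n)) := by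
  apply antitone_nat_of_succ_le
  intro n
  have := Mtree_trunc h0 h1 (dary d (n + 1))
  rwa [trunc_dary d n] at this

theorem antitone_Mpoisson {κ : ℝ} (h0 : 0 ≤ κ) (h1 : κ ≤ 1 / 2) {d : ℝ} (hd : 0 ≤ d) :
    Antitone (fun n => ∑' T : GTree n, poissonWeight d T * Mtree 3 (-κ) T) := by
  have g0 : ∀ {m : ℕ} (T : GTree m), 0 ≤ Mtree 3 (-κ) T := fun T =>
    Mtree_nonneg (by norm_num) (lam_adm h1) (by linarith) T
  have g1 : ∀ {m : ℕ} (T : GTree m), Mtree 3 (-κ) T ≤ 1 := fun T =>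
    Mtree_le_one (by norm_num) (lam_adm h1) (by linarith) T
  apply antitone_nat_of_succ_le
  intro n
  have h3 : treeE d (n + 1) (fun T => ENNReal.ofReal (Mtree 3 (-κ) T))
      ≤ treeE d (n + 1) (fun T => ENNReal.ofReal (Mtree 3 (-κ) (trunc T))) :=
    treeE_mono d (n + 1) (fun T => ENNReal.ofReal_le_ofReal (Mtree_trunc h0 h1 T))
  rw [treeE_trunc hd n (fun T => ENNReal.ofReal (Mtree 3 (-κ) T))] at h3
  rw [← ofReal_tsum_weight hd (n + 1) _ g0 g1, ← ofReal_tsum_weight hd n _ g0 g1] at h3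
  have ha : 0 ≤ ∑' T : GTree n, poissonWeight d T * Mtree 3 (-κ) T :=
    tsum_nonneg (fun T => mul_nonneg (poissonWeight_nonneg hd T) (g0 T))
  exact (ENNReal.ofReal_le_ofReal_iff ha).mp h3

end Vale.Agent.P154.Loc
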