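import Vale.Agent.P154.TreeExp

/-!
# Elementary facts on the chi-square functional `Mfun`
-/

namespace Vale.Agent.P154.Up

open Finset Vale.Agent.P154

variable {q : ℕ}

/-- the density of `Mfun`, written without posterior probabilities -/
noncomputable def Gfun {q : ℕ} (u : Fin q → ℝ) : ℝ :=
  ((q : ℝ) * (∑ i, u i ^ 2) / (∑ i, u i) - ∑ i, u i) / ((q : ℝ) * ((q : ℝ) - 1))

theorem mass_mul_rfun (hq : 2 ≤ q) (u : Fin q → ℝ) : mass u * rfun u = Gfun u := by
  have hq0 : (2 : ℝ) ≤ q := by exact_mod_cast hq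
  have h1 : (q : ℝ) ≠ 0 := by linarith
  have h2 : (q : ℝ) - 1 ≠ 0 := by
    intro h
    linarith
  unfold mass rfun Gfun post
  simp_rw [div_pow]
  rw [← Finset.sum_div]
  by_cases hs : (∑ i, u i) = 0
  · simp [hs]
  · field_simp

theorem Mfun_eq_Gfun (hq : 2 ≤ q) {X : Type*} [Fintype X] (u : X → Fin q → ℝ) :
    Mfun u = ∑ x, Gfun (u x) := by
  unfold Mfun
  simp_rw [mass_mul_rfun hq]

theorem Gfun_nonneg (hq : 2 ≤ q) {u : Fin q → ℝ} (hu : ∀ i, 0 ≤ u i) : 0 ≤ Gfun u := by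
  have hq0 : (2 : ℝ) ≤ q := by exact_mod_cast hq
  unfold Gfun
  have hs0 : 0 ≤ ∑ i, u i := Finset.sum_nonneg fun i _ => hu i
  rcases hs0.eq_or_lt with hs | hs
  · rw [← hs]
    simp
  · apply div_nonneg
    · rw [sub_nonneg, le_div_iff₀ hs]
      have := sq_sum_le_card_mul_sum_sq (s := (univ : Finset (Fin q))) (f := u)
      rw [Finset.card_univ, Fintype.card_fin] at this
      nlinarith
    · exact mul_nonneg (by linarith) (by linarith)

theorem Gfun_le_mass (hq : 2 ≤ q) {u : Fin q → ℝ} (hu : ∀ i, 0 ≤ u i) : Gfun u ≤ mass u := by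
  have hq0 : (2 : ℝ) ≤ q := by exact_mod_cast hq
  unfold Gfun mass
  have hs0 : 0 ≤ ∑ i, u i := Finset.sum_nonneg fun i _ => hu i
  rcases hs0.eq_or_lt with hs | hs
  · rw [← hs]
    simp
  · have h1 : ∑ i, u i ^ 2 ≤ (∑ i, u i) ^ 2 := sum_sq_le_sq_sum_of_nonneg (fun i _ => hu i)
    have h2 : (q : ℝ) * (∑ i, u i ^ 2) / (∑ i, u i) ≤ q * ∑ i, u i := by
      rw [div_le_iff₀ hs]
      nlinarith
    rw [div_le_div_iff₀ (mul_pos (by linarith) (by linarith)) (by linarith)]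
    nlinarith

theorem Gfun_chan (hq : 2 ≤ q) (lam : ℝ) {X : Type*} (u : X → Fin q → ℝ) (x : X)
    (hs : 0 < ∑ i, u x i) : Gfun (chan lam u x) = lam ^ 2 * Gfun (u x) := by
  have hq0 : (2 : ℝ) ≤ q := by exact_mod_cast hq
  have h1 : (q : ℝ) ≠ 0 := by linarith
  have h2 : (q : ℝ) - 1 ≠ 0 := by
    intro h
    linarith
  have e1 : ∑ i, chan lam u x i = ∑ i, u x i := by
    simp_rw [chan_eq, Finset.sum_add_distrib, ← Finset.mul_sum]
    simp only [Finset.sum_const, Finset.card_univ, Fintype.card_fin, nsmul_eq_mul]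
    unfold mass
    field_simp
    ring
  have e2 : ∑ i, chan lam u x i ^ 2 =
      lam ^ 2 * ∑ i, u x i ^ 2 + (1 - lam ^ 2) * (∑ i, u x i) ^ 2 / q := by
    have : ∀ i, chan lam u x i ^ 2 = lam ^ 2 * u x i ^ 2 +
        2 * lam * ((1 - lam) * mass (u x)) * u x i + ((1 - lam) * mass (u x)) ^ 2 := by
      intro i
      rw [chan_eq]
      ring
    simp_rw [this, Finset.sum_add_distrib, ← Finset.mul_sum]
    simp only [Finset.sum_const, Finset.card_univ, Fintype.card_fin, nsmul_eq_mul]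
    unfold mass
    field_simp
    ring
  unfold Gfun
  rw [e1, e2]
  have hs' := hs.ne'
  field_simp
  ring

theorem WeakExp.Mfun_nonneg (hq : 2 ≤ q) {X : Type*} [Fintype X] {u : X → Fin q → ℝ}
    (hu : WeakExp u) : 0 ≤ Mfun u := by
  rw [Mfun_eq_Gfun hq]
  exact Finset.sum_nonneg fun x _ => Gfun_nonneg hq (hu.nonneg x)

theorem sum_mass_eq_one (hq : 0 < q) {X : Type*} [Fintype X] {u : X → Fin q → ℝ}
    (hu : ∀ i, ∑ x, u x i = 1) : ∑ x, mass (u x) = 1 := by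
  have h1 : (q : ℝ) ≠ 0 := by exact_mod_cast hq.ne'
  unfold mass
  rw [← Finset.sum_div, Finset.sum_comm]
  simp_rw [hu]
  simp [h1]

theorem WeakExp.Mfun_le_one (hq : 2 ≤ q) {X : Type*} [Fintype X] {u : X → Fin q → ℝ}
    (hu : WeakExp u) : Mfun u ≤ 1 := by
  rw [Mfun_eq_Gfun hq, ← sum_mass_eq_one (by omega) hu.sum]
  exact Finset.sum_le_sum fun x _ => Gfun_le_mass hq (hu.nonneg x)

theorem WeakExp.Mfun_chan (hq : 2 ≤ q) (lam : ℝ) {X : Type*} [Fintype X] {u : X → Fin q → ℝ}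
    (hu : WeakExp u) : Mfun (chan lam u) = lam ^ 2 * Mfun u := by
  rw [Mfun_eq_Gfun hq, Mfun_eq_Gfun hq, Finset.mul_sum]
  exact Finset.sum_congr rfl fun x _ => Gfun_chan hq lam u x (hu.tot x)

theorem Mfun_equiv {X Y : Type*} [Fintype X] [Fintype Y] (e : X ≃ Y) (u : Y → Fin q → ℝ) :
    Mfun (fun x => u (e x)) = Mfun u := by
  unfold Mfun
  exact Equiv.sum_comp e (fun y => mass (u y) * rfun (u y))

theorem Mfun_unit (hq : 2 ≤ q) : Mfun (fun (_ : Unit) (_ : Fin q) => (1 : ℝ)) = 0 := by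
  have hq0 : (2 : ℝ) ≤ q := by exact_mod_cast hq
  have h1 : (q : ℝ) ≠ 0 := by linarith
  rw [Mfun_eq_Gfun hq]
  simp [Gfun, h1]

/-- Constructor of the interface when the functional is `Mfun`. -/
theorem Core.ofMfun {lam c : ℝ} {Inv : ∀ (X : Type) [Fintype X], (X → Fin q → ℝ) → Prop}
    (hq : 2 ≤ q) (hc1 : c ≤ 1)
    (inv_equiv : ∀ (X Y : Type) [Fintype X] [Fintype Y] (e : X ≃ Y) (u : Y → Fin q → ℝ),
      Inv Y u → Inv X (fun x => u (e x)))
    (inv_unit : Inv Unit (fun _ _ => 1))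
    (inv_leaf : Inv (Fin q) (chan lam (leafExp q)))
    (inv_chan : ∀ (X : Type) [Fintype X] (u : X → Fin q → ℝ), GoodExp u → Inv X u →
      Inv X (chan lam u))
    (inv_prod : ∀ (X Y : Type) [Fintype X] [Fintype Y] (u : X → Fin q → ℝ) (v : Y → Fin q → ℝ),
      GoodExp u → GoodExp v → Inv X u → Inv Y v → Inv (X × Y) (prodExp u v))
    (M_prod : ∀ (X Y : Type) [Fintype X] [Fintype Y] (u : X → Fin q → ℝ) (v : Y → Fin q → ℝ),
      GoodExp u → GoodExp v → Inv X u → Inv Y v →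
      Mfun (prodExp u v) ≤ Mfun u + Mfun v - c * Mfun u * Mfun v) :
    Core q lam c Inv (fun _ _ u => Mfun u) where
  inv_equiv := inv_equiv
  F_equiv _ _ _ _ e u := Mfun_equiv e u
  inv_unit := inv_unit
  F_unit := Mfun_unit hq
  inv_leaf := inv_leaf
  inv_chan := inv_chan
  F_chan _ _ u hu := (hu.Mfun_chan hq lam).le
  F_le _ _ u hu := by
    have h1 := hu.Mfun_nonneg hq
    have h2 := hu.Mfun_le_one hq
    nlinarith
  inv_prod := inv_prod
  F_prod := M_prod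

end Vale.Agent.P154.Up
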