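import Mathlib

/-!
# The Potts broadcast model on trees (definitions)
-/

namespace Vale.Agent.P154

open Finset

/-- Finite plane rooted trees cut at depth `n`: at depth `0` the tree is a single vertex, and a
tree cut at depth `n + 1` is a number `k` of children of the root together with the `k` subtrees
hanging from them, cut at depth `n`. The vertices `GTree.leaf` are the vertices at distance exactly
`n` from the root (a vertex at smaller distance may have `0` children). -/
inductive GTree : ℕ → Type
  | leaf : GTree 0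
  | node {n : ℕ} (k : ℕ) (c : Fin k → GTree n) : GTree (n + 1)

/-- An observation: a spin in `Fin q` for every vertex at distance exactly `n` from the root. -/
def Obs (q : ℕ) : {n : ℕ} → GTree n → Type
  | _, .leaf => Fin q
  | _, .node k c => (v : Fin k) → Obs q (c v)

instance Obs.instFintype (q : ℕ) : {n : ℕ} → (T : GTree n) → Fintype (Obs q T)
  | _, .leaf => inferInstanceAs (Fintype (Fin q))
  | _, .node k c =>
    haveI : ∀ v : Fin k, Fintype (Obs q (c v)) := fun v => Obs.instFintype q (c v)
    inferInstanceAs (Fintype ((v : Fin k) → Obs q (c v)))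

/-- The `q`-state Potts channel: `potts q lam i j` is the probability of `j` given `i`. -/
noncomputable def potts (q : ℕ) (lam : ℝ) (i j : Fin q) : ℝ :=
  lam * (if i = j then 1 else 0) + (1 - lam) / q

/-- Likelihood of the observation `x` given that the root spin is `i`. -/
noncomputable def lik (q : ℕ) (lam : ℝ) : {n : ℕ} → (T : GTree n) → Obs q T → Fin q → ℝ
  | _, .leaf, (x : Fin q), i => if x = i then 1 else 0
  | _, .node k c, x, i => ∏ v : Fin k, ∑ j : Fin q, potts q lam i j * lik q lam (c v) (x v) j

/-- Probability of the observation `x` (uniform root spin). -/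
noncomputable def obsProb (q : ℕ) (lam : ℝ) {n : ℕ} (T : GTree n) (x : Obs q T) : ℝ :=
  (1 / q) * ∑ i, lik q lam T x i

/-- Posterior probability of the root spin being `i` given the observation `x` (Bayes' rule). -/
noncomputable def posterior (q : ℕ) (lam : ℝ) {n : ℕ} (T : GTree n) (x : Obs q T)
    (i : Fin q) : ℝ :=
  (1 / q) * lik q lam T x i / obsProb q lam T x

/-- The expectation over the spins, for a fixed tree `T`, of
`(1/2) ∑ᵢ |Pr(σ_ρ = i | T, σ_{L_n}) - 1/q|`. -/
noncomputable def adv (q : ℕ) (lam : ℝ) {n : ℕ} (T : GTree n) : ℝ :=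
  ∑ x : Obs q T, obsProb q lam T x * ((1 / 2) * ∑ i, |posterior q lam T x i - 1 / q|)

/-- The rooted `d`-ary tree cut at depth `n`. -/
def dary (d : ℕ) : (n : ℕ) → GTree n
  | 0 => .leaf
  | n + 1 => .node d fun _ => dary d n

/-- The probability that the Galton-Watson tree with independent Poisson(`d`) offspring, cut at
depth `n`, is `T`. -/
noncomputable def poissonWeight (d : ℝ) : {n : ℕ} → GTree n → ℝ
  | _, .leaf => 1
  | _, .node k c =>
    Real.exp (-d) * d ^ k / (k.factorial : ℝ) * ∏ v : Fin k, poissonWeight d (c v)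

/-- `a_n` on the `d`-ary tree. -/
noncomputable def aDary (q : ℕ) (lam : ℝ) (d : ℕ) (n : ℕ) : ℝ := adv q lam (dary d n)

/-- `a_n` on the Poisson(`d`) Galton-Watson tree. -/
noncomputable def aPoisson (q : ℕ) (lam : ℝ) (d : ℝ) (n : ℕ) : ℝ :=
  ∑' T : GTree n, poissonWeight d T * adv q lam T

/-- Reconstruction for the (nonincreasing) sequence `a_n`: the limit exists and is positive. -/
def Reconstruction (a : ℕ → ℝ) : Prop := ∃ L : ℝ, 0 < L ∧ Filter.Tendsto a Filter.atTop (nhds L)

/-- Nonreconstruction for the sequence `a_n`: the limit is `0`. -/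
def Nonreconstruction (a : ℕ → ℝ) : Prop := Filter.Tendsto a Filter.atTop (nhds 0)

/-! ### basic unfolding lemmas -/

theorem lik_leaf (q : ℕ) (lam : ℝ) (x : Fin q) (i : Fin q) :
    lik q lam GTree.leaf x i = if x = i then 1 else 0 := rfl

theorem lik_node (q : ℕ) (lam : ℝ) {n k : ℕ} (c : Fin k → GTree n)
    (x : (v : Fin k) → Obs q (c v)) (i : Fin q) :
    lik q lam (GTree.node k c) x i
      = ∏ v : Fin k, ∑ j : Fin q, potts q lam i j * lik q lam (c v) (x v) j := rfl

theorem sum_obs_leaf {q : ℕ} (F : Obs q GTree.leaf → ℝ) : ∑ x, F x = ∑ x : Fin q, F x := rfl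

theorem sum_obs_node {q n k : ℕ} (c : Fin k → GTree n) (F : Obs q (GTree.node k c) → ℝ) :
    ∑ x, F x = ∑ x : ((v : Fin k) → Obs q (c v)), F x := rfl

/-- a tree cut at depth `n+1` is a number of children and the subtrees -/
def GTree.equivSigma (n : ℕ) : GTree (n + 1) ≃ Σ k : ℕ, (Fin k → GTree n) where
  toFun T := match T with
    | .node k c => ⟨k, c⟩
  invFun p := .node p.1 p.2
  left_inv T := by cases T; rfl
  right_inv _ := rfl

instance : Unique (GTree 0) where
  default := .leaf
  uniq T := by cases T; rfl

end Vale.Agent.P154
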