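import Vale.Agent.P154.Kernel

/-!
# Monomial means are diagonal for the symmetrised kernel
-/

namespace Vale.Agent.P154

open Finset Vale.Agent.P154.Up

variable {q : ℕ}

/-- monomial mean -/
noncomputable def mt (α : Fin q → ℕ) (w : Fin q → ℝ) : ℝ :=
  1 / (Fintype.card (Equiv.Perm (Fin q)) : ℝ) *
    ∑ σ : Equiv.Perm (Fin q), ∏ i, w (σ i) ^ α i

theorem card_perm_ne : (Fintype.card (Equiv.Perm (Fin q)) : ℝ) ≠ 0 := by
  exact_mod_cast Fintype.card_ne_zero

/-- monomial means are diagonal -/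
theorem mt_avg (α : Fin q → ℕ) (x y : Fin q → ℝ) :
    1 / (Fintype.card (Equiv.Perm (Fin q)) : ℝ) *
      ∑ τ : Equiv.Perm (Fin q), mt α (fun i => x i * y (τ i)) = mt α x * mt α y := by
  have h1 : ∀ τ σ : Equiv.Perm (Fin q), ∏ i, (x (σ i) * y (τ (σ i))) ^ α i =
      (∏ i, x (σ i) ^ α i) * ∏ i, y ((σ.trans τ) i) ^ α i := by
    intro τ σ
    rw [← Finset.prod_mul_distrib]
    refine Finset.prod_congr rfl fun i _ => ?_
    rw [mul_pow]
    rfl
  have h2 : ∀ σ : Equiv.Perm (Fin q), ∑ τ : Equiv.Perm (Fin q), ∏ i, y ((σ.trans τ) i) ^ α i =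
      ∑ τ : Equiv.Perm (Fin q), ∏ i, y (τ i) ^ α i := by
    intro σ
    refine Fintype.sum_equiv (Equiv.mulRight σ) _ _ fun τ => ?_
    rfl
  unfold mt
  rw [← Finset.mul_sum, Finset.sum_comm]
  simp_rw [h1, ← Finset.mul_sum, h2, ← Finset.sum_mul]
  ring

/-- lower bound for the kernel from a pointwise polynomial minorant -/
theorem KS_ge {ι : Type*} (s : Finset ι) (t : ι → ℝ) (α : ι → Fin q → ℕ)
    (φ : (Fin q → ℝ) → ℝ) (p r : Fin q → ℝ)
    (h : ∀ σ : Equiv.Perm (Fin q),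
      ∑ j ∈ s, t j * mt (α j) (fun i => ((q : ℝ) * p i) * ((q : ℝ) * r (σ i))) ≤
        overlap p (fun i => r (σ i)) * φ (comb p (fun i => r (σ i)))) :
    ∑ j ∈ s, t j * (mt (α j) (fun i => (q : ℝ) * p i) * mt (α j) (fun i => (q : ℝ) * r i)) ≤
      KS φ p r := by
  unfold KS
  have h1 := Finset.sum_le_sum fun (σ : Equiv.Perm (Fin q)) (_ : σ ∈ Finset.univ) => h σ
  have h2 : (0 : ℝ) < 1 / (Fintype.card (Equiv.Perm (Fin q)) : ℝ) := by
    have : (0 : ℝ) < Fintype.card (Equiv.Perm (Fin q)) := by exact_mod_cast Fintype.card_pos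
    positivity
  have h3 := mul_le_mul_of_nonneg_left h1 h2.le
  refine le_trans (le_of_eq ?_) h3
  rw [Finset.sum_comm]
  simp_rw [← Finset.mul_sum]
  rw [Finset.mul_sum]
  refine Finset.sum_congr rfl fun j _ => ?_
  rw [← mt_avg (α j) (fun i => (q : ℝ) * p i) (fun i => (q : ℝ) * r i)]
  ring

/-- upper bound for the kernel from a pointwise polynomial majorant -/
theorem KS_le {ι : Type*} (s : Finset ι) (t : ι → ℝ) (α : ι → Fin q → ℕ)
    (φ : (Fin q → ℝ) → ℝ) (p r : Fin q → ℝ)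
    (h : ∀ σ : Equiv.Perm (Fin q),
        overlap p (fun i => r (σ i)) * φ (comb p (fun i => r (σ i))) ≤
      ∑ j ∈ s, t j * mt (α j) (fun i => ((q : ℝ) * p i) * ((q : ℝ) * r (σ i)))) :
      KS φ p r ≤
    ∑ j ∈ s, t j * (mt (α j) (fun i => (q : ℝ) * p i) * mt (α j) (fun i => (q : ℝ) * r i)) := by
  have h1 := KS_ge s (fun j => - t j) α (fun w => - φ w) p r (fun σ => by
    have := h σ
    simp only [neg_mul, Finset.sum_neg_distrib, mul_neg]
    linarith)
  have h2 : KS (fun w => - φ w) p r = - KS φ p r := by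
    unfold KS
    simp only [mul_neg, Finset.sum_neg_distrib]
  rw [h2] at h1
  simp only [neg_mul, Finset.sum_neg_distrib] at h1
  linarith

end Vale.Agent.P154
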