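import Vale.Agent.P154.KesSti
import Vale.Agent.P154.Antitone

/-!
# `d * lam ^ 2 > 1` implies reconstruction, in terms of limits
-/

namespace Vale.Agent.P154

theorem reconstruction_of_lower {a : ℕ → ℝ} (ha : Antitone a)
    (h : ∃ ε : ℝ, 0 < ε ∧ ∀ n, ε ≤ a n) : Reconstruction a := by
  obtain ⟨ε, hε, hn⟩ := h
  refine ⟨⨅ n, a n, ?_, tendsto_atTop_ciInf ha ⟨ε, ?_⟩⟩
  · exact lt_of_lt_of_le hε (le_ciInf hn)
  · rintro _ ⟨n, rfl⟩
    exact hn n

theorem reconstruction_dary {q : ℕ} (hq : 2 ≤ q) {lam : ℝ} (h1 : -1 / ((q : ℝ) - 1) ≤ lam)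
    (h2 : lam ≤ 1) {d : ℕ} (hd : 1 < (d : ℝ) * lam ^ 2) : Reconstruction (aDary q lam d) :=
  reconstruction_of_lower (antitone_dary hq h1 h2 d) (ks_dary hq h1 h2 hd)

theorem reconstruction_poisson {q : ℕ} (hq : 2 ≤ q) {lam : ℝ} (h1 : -1 / ((q : ℝ) - 1) ≤ lam)
    (h2 : lam ≤ 1) {d : ℝ} (hd0 : 0 < d) (hd : 1 < d * lam ^ 2) :
    Reconstruction (aPoisson q lam d) :=
  reconstruction_of_lower (antitone_poisson hq h1 h2 hd0.le) (ks_poisson hq h1 h2 hd0 hd)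

/-- reconstruction and nonreconstruction exclude each other -/
theorem not_reconstruction_of_non {a : ℕ → ℝ} (h : Nonreconstruction a) : ¬ Reconstruction a := by
  rintro ⟨L, hL, hL'⟩
  exact hL.ne' (tendsto_nhds_unique hL' h)

end Vale.Agent.P154
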