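import Vale.Agent.P154.Core3b

/-!
# Noise preserves the invariant (three states, nonnegative parameter)
-/

namespace Vale.Agent.P154

open Finset Vale.Agent.P154.Up

theorem norm_factsW {u : Fin 3 → ℝ} (hu : ∀ i, 0 ≤ u i) (hS : 0 < ∑ i, u i) :
    (0 ≤ u 0 / ∑ i, u i ∧ 0 ≤ u 1 / ∑ i, u i ∧ 0 ≤ u 2 / ∑ i, u i) ∧
    u 0 / (∑ i, u i) + u 1 / (∑ i, u i) + u 2 / (∑ i, u i) = 1 := by
  have h0 := hu 0
  have h1 := hu 1
  have h2 := hu 2
  have e : (∑ i, u i) = u 0 + u 1 + u 2 := Fin.sum_univ_three u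
  rw [e] at hS ⊢
  refine ⟨⟨by positivity, by positivity, by positivity⟩, ?_⟩
  field_simp

theorem chan_coords {X : Type} (lam : ℝ) (u : X → Fin 3 → ℝ) (x : X) (hS : 0 < ∑ i, u x i) :
    (∑ i, chan lam u x i) = ∑ i, u x i ∧
    ∀ i, chan lam u x i / (∑ j, chan lam u x j) = lam * (u x i / ∑ j, u x j) + (1 - lam) / 3 := by
  have e1 : ∑ i, chan lam u x i = ∑ i, u x i := by
    simp_rw [chan_eq, Finset.sum_add_distrib, ← Finset.mul_sum]
    simp only [Finset.sum_const, Finset.card_univ, Fintype.card_fin, nsmul_eq_mul]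
    unfold mass
    push_cast
    ring
  refine ⟨e1, fun i => ?_⟩
  rw [e1, chan_eq]
  unfold mass
  push_cast
  field_simp

theorem noise_L {X : Type} {lam : ℝ} (h0 : 0 ≤ lam) (h1 : lam ≤ 1) (u : X → Fin 3 → ℝ) (x : X)
    (hu : ∀ i, 0 ≤ u x i) (hS : 0 < ∑ i, u x i) :
    lam ^ 3 * (3 / 2 * rfun (u x) - 1 + qfun (u x)) ≤
      3 / 2 * rfun (chan lam u x) - 1 + qfun (chan lam u x) := by
  obtain ⟨⟨p1, p2, p3⟩, hx⟩ := norm_factsW hu hS
  obtain ⟨es, ec⟩ := chan_coords lam u x hS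
  have hS' : 0 < ∑ i, chan lam u x i := by rw [es]; exact hS
  rw [rfun_eq _ hS, rfun_eq _ hS', qfun_eq, qfun_eq, ec, ec, ec]
  have d := dom_coords p1 p2 p3 hx
  have sq := cq_sq p1 p2 p3
  set a := u x 0 / ∑ i, u x i
  set b := u x 1 / ∑ i, u x i
  set c := u x 2 / ∑ i, u x i
  have hc : c = 1 - a - b := by linarith
  have er : cr (lam * a + (1 - lam) / 3) (lam * b + (1 - lam) / 3) (lam * c + (1 - lam) / 3)
      = lam ^ 2 * cr a b c := by
    rw [hc]; unfold cr; ring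
  have ew : cw (lam * a + (1 - lam) / 3) (lam * b + (1 - lam) / 3) (lam * c + (1 - lam) / 3)
      = 1 - lam ^ 3 * (1 - cw a b c) - 3 * lam ^ 2 * (1 - lam) * cr a b c := by
    rw [hc]; unfold cr cw; ring
  have hp : cr a b c ≤ 1 - cq a b c := by
    have := d.hh
    unfold ch at this; linarith
  have hw : cw a b c = 1 - (1 - cq a b c) * (2 - (1 - cq a b c)) := by
    rw [← sq]; ring
  have key := noise_point h0 h1 d.hr hp hw
  have eq' : cq (lam * a + (1 - lam) / 3) (lam * b + (1 - lam) / 3) (lam * c + (1 - lam) / 3)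
      = Real.sqrt (1 - lam ^ 3 * (1 - cw a b c) - 3 * lam ^ 2 * (1 - lam) * cr a b c) := by
    unfold cq; rw [ew]
  rw [er, eq']
  nlinarith [key]

theorem coreNoise3 : CoreNoise3 := by
  intro lam h0 h1 X _ u hu iu
  unfold Inv3 at iu ⊢
  have key : ∀ w : X → Fin 3 → ℝ, (∀ i, ∑ x, w x i = 1) →
      3 / 2 * Mfun w - 1 + Qfun w
        = ∑ x, mass (w x) * (3 / 2 * rfun (w x) - 1 + qfun (w x)) := by
    intro w hw
    have hm := sum_mass_eq_one (q := 3) (by norm_num) hw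
    have : ∀ x, mass (w x) * (3 / 2 * rfun (w x) - 1 + qfun (w x))
      = 3 / 2 * (mass (w x) * rfun (w x)) - mass (w x) + mass (w x) * qfun (w x) :=
      fun x => by ring
    simp_rw [this, Finset.sum_add_distrib, Finset.sum_sub_distrib, ← Finset.mul_sum, hm]
    unfold Mfun Qfun; ring
  have hc : ∀ i, ∑ x, chan lam u x i = 1 := by
    intro i
    simp_rw [chan_eq, Finset.sum_add_distrib, ← Finset.mul_sum, hu.sum,
      sum_mass_eq_one (q := 3) (by norm_num) hu.sum]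
    ring
  rw [key u hu.sum] at iu
  rw [key _ hc]
  have step : lam ^ 3 * ∑ x, mass (u x) * (3 / 2 * rfun (u x) - 1 + qfun (u x)) ≤
      ∑ x, mass (chan lam u x) * (3 / 2 * rfun (chan lam u x) - 1 + qfun (chan lam u x)) := by
    rw [Finset.mul_sum]
    refine Finset.sum_le_sum fun x _ => ?_
    have em : mass (chan lam u x) = mass (u x) := by
      unfold mass; rw [(chan_coords lam u x (hu.tot x)).1]
    rw [em]
    have hm : 0 ≤ mass (u x) := by
      have := hu.tot x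
      unfold mass; positivity
    have := mul_le_mul_of_nonneg_left (noise_L h0.le h1.le u x (hu.nonneg x) (hu.tot x)) hm
    linarith
  have : 0 ≤ lam ^ 3 * ∑ x, mass (u x) * (3 / 2 * rfun (u x) - 1 + qfun (u x)) := by positivity
  linarith

end Vale.Agent.P154
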