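import Vale.Agent.P154.Core4

/-!
# Noise, uniform and vertex values of the four state potential
-/

namespace Vale.Agent.P154

open PE Finset Vale.Agent.P154.Up Q4C

/-- first Bernstein coefficient of the noise inequality -/
noncomputable def N0 (p : Fin 4 → ℝ) : ℝ := 87 * iv2 p ^ 2 + 18 * iv4 p - 87 * (iv2 p * iv3 p)
  + (10 * iv3 p ^ 2 + 10 * (iv2 p * iv4 p) - 18 * iv2 p ^ 3)
/-- second Bernstein coefficient of the noise inequality -/
noncomputable def N1 (p : Fin 4 → ℝ) : ℝ := 87 * iv2 p ^ 2 + 18 * iv4 p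
  - 3 / 2 * 87 * (iv2 p * iv3 p)
  + 3 / 2 * (10 * iv3 p ^ 2 + 10 * (iv2 p * iv4 p) - 18 * iv2 p ^ 3)
/-- third Bernstein coefficient of the noise inequality -/
noncomputable def N2 (p : Fin 4 → ℝ) : ℝ := 87 * iv2 p ^ 2 + 18 * iv4 p - 2 * 87 * (iv2 p * iv3 p)
  + 3 * (10 * iv3 p ^ 2 + 10 * (iv2 p * iv4 p) - 18 * iv2 p ^ 3)

theorem val_LE0 (p : Fin 4 → ℝ) : val LE0 p = 6 * N0 p := by
  simp only [N0, val, LE0, allR, sumR, mono]
  push_cast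
  ring

theorem val_LE1 (p : Fin 4 → ℝ) : val LE1 p = 6 * N1 p := by
  simp only [N1, val, LE1, allR, sumR, mono]
  push_cast
  ring

theorem val_LE2 (p : Fin 4 → ℝ) : val LE2 p = 6 * N2 p := by
  simp only [N2, val, LE2, allR, sumR, mono]
  push_cast
  ring

/-- nonnegativity of a function of the invariants extends to the boundary -/
theorem nonneg_boundary (f : ℝ → ℝ → ℝ → ℝ) (hf : Continuous fun x : ℝ × ℝ × ℝ => f x.1 x.2.1 x.2.2)
    (h : ∀ p : Fin 4 → ℝ, (∀ i, 0 < p i) → ∑ i, p i = 1 → 0 ≤ f (iv2 p) (iv3 p) (iv4 p))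
    (p : Fin 4 → ℝ) (hp : ∀ i, 0 ≤ p i) (hs : ∑ i, p i = 1) :
    0 ≤ f (iv2 p) (iv3 p) (iv4 p) := by
  have hc : Continuous fun s : ℝ => f (s ^ 2 * iv2 p) (s ^ 3 * iv3 p) (s ^ 4 * iv4 p) :=
    hf.comp (by fun_prop : Continuous fun s : ℝ => (s ^ 2 * iv2 p, s ^ 3 * iv3 p, s ^ 4 * iv4 p))
  have h1 : Filter.Tendsto (fun s : ℝ => f (s ^ 2 * iv2 p) (s ^ 3 * iv3 p) (s ^ 4 * iv4 p))
      (nhdsWithin 1 (Set.Ioo 0 1)) (nhds (f (iv2 p) (iv3 p) (iv4 p))) := by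
    have := hc.tendsto 1
    simp only [one_pow, one_mul] at this
    exact this.mono_left nhdsWithin_le_nhds
  have : (nhdsWithin (1 : ℝ) (Set.Ioo 0 1)).NeBot := by
    rw [← mem_closure_iff_nhdsWithin_neBot, closure_Ioo (by norm_num : (0 : ℝ) ≠ 1)]
    exact ⟨zero_le_one, le_refl _⟩
  refine ge_of_tendsto h1 ?_
  filter_upwards [self_mem_nhdsWithin] with s hs'
  obtain ⟨hs0, hs1⟩ := hs'
  rw [← iv2_noise, ← iv3_noise, ← iv4_noise]
  refine h _ (fun i => ?_) ?_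
  · have := hp i
    have h2 : 0 < (1 - s) / ((4 : ℕ) : ℝ) := by
      have : (0 : ℝ) < 1 - s := by linarith
      positivity
    have h3 : 0 ≤ s * p i := mul_nonneg hs0.le this
    linarith
  · rw [Finset.sum_add_distrib, ← Finset.mul_sum, hs]
    simp
    ring

theorem N0_nonneg (p : Fin 4 → ℝ) (hp : ∀ i, 0 ≤ p i) (hs : ∑ i, p i = 1) : 0 ≤ N0 p := by
  refine nonneg_boundary (fun x y z => 87 * x ^ 2 + 18 * z - 87 * (x * y)
    + (10 * y ^ 2 + 10 * (x * z) - 18 * x ^ 3)) (by fun_prop) (fun p hp hs => ?_) p hp hs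
  have := val_nonneg LE0 4 63 11 (by decide +kernel) kE0 p hp hs
  rw [val_LE0] at this
  unfold N0 at this
  linarith

theorem N1_nonneg (p : Fin 4 → ℝ) (hp : ∀ i, 0 ≤ p i) (hs : ∑ i, p i = 1) : 0 ≤ N1 p := by
  refine nonneg_boundary (fun x y z => 87 * x ^ 2 + 18 * z - 3 / 2 * 87 * (x * y)
    + 3 / 2 * (10 * y ^ 2 + 10 * (x * z) - 18 * x ^ 3)) (by fun_prop) (fun p hp hs => ?_) p hp hs
  have := val_nonneg LE1 4 63 11 (by decide +kernel) kE1 p hp hs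
  rw [val_LE1] at this
  unfold N1 at this
  linarith

theorem N2_nonneg (p : Fin 4 → ℝ) (hp : ∀ i, 0 ≤ p i) (hs : ∑ i, p i = 1) : 0 ≤ N2 p := by
  refine nonneg_boundary (fun x y z => 87 * x ^ 2 + 18 * z - 2 * 87 * (x * y)
    + 3 * (10 * y ^ 2 + 10 * (x * z) - 18 * x ^ 3)) (by fun_prop) (fun p hp hs => ?_) p hp hs
  have := val_nonneg LE2 4 63 11 (by decide +kernel) kE2 p hp hs
  rw [val_LE2] at this
  unfold N2 at this
  linarith

theorem L4_noise (lam : ℝ) (h0 : 0 ≤ lam) (h1 : lam ≤ 1) (p : Fin 4 → ℝ) (hp : ∀ i, 0 ≤ p i)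
    (hs : ∑ i, p i = 1) :
    lam ^ 3 * L4 p ≤ L4 (fun i => lam * p i + (1 - lam) / (4 : ℕ)) := by
  rw [L4_eq, L4_eq, iv2_noise, iv3_noise, iv4_noise]
  have n0 := N0_nonneg p hp hs
  have n1 := N1_nonneg p hp hs
  have n2 := N2_nonneg p hp hs
  unfold N0 at n0
  unfold N1 at n1
  unfold N2 at n2
  have hl : 0 ≤ 1 - lam := by linarith
  have k : 0 ≤ lam ^ 3 * (1 - lam) * ((1 - lam) ^ 2 * (87 * iv2 p ^ 2 + 18 * iv4 p
      - 87 * (iv2 p * iv3 p) + (10 * iv3 p ^ 2 + 10 * (iv2 p * iv4 p) - 18 * iv2 p ^ 3))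
      + 2 * lam * (1 - lam) * (87 * iv2 p ^ 2 + 18 * iv4 p - 3 / 2 * 87 * (iv2 p * iv3 p)
        + 3 / 2 * (10 * iv3 p ^ 2 + 10 * (iv2 p * iv4 p) - 18 * iv2 p ^ 3))
      + lam ^ 2 * (87 * iv2 p ^ 2 + 18 * iv4 p - 2 * 87 * (iv2 p * iv3 p)
        + 3 * (10 * iv3 p ^ 2 + 10 * (iv2 p * iv4 p) - 18 * iv2 p ^ 3))) := by
    have a0 := mul_nonneg (pow_nonneg hl 2) n0
    have a1 := mul_nonneg (mul_nonneg (mul_nonneg (by norm_num : (0 : ℝ) ≤ 2) h0) hl) n1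
    have a2 := mul_nonneg (pow_nonneg h0 2) n2
    exact mul_nonneg (mul_nonneg (pow_nonneg h0 3) hl) (by linarith)
  nlinarith [k]

theorem L4_unif : 0 ≤ L4 (fun _ => 1 / ((4 : ℕ) : ℝ)) := by
  rw [L4_eq]
  simp [iv2, iv3, iv4, cX, cY, cZ]

theorem L4_vertex (x : Fin 4) : 0 ≤ L4 (fun i => if x = i then 1 else 0) := by
  rw [L4_eq]
  fin_cases x <;> simp [iv2, iv3, iv4, cX, cY, cZ] <;> norm_num

/-- kernel inequalities for four states -/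
theorem kernelCore4 (lam : ℝ) (h0 : 0 ≤ lam) (h1 : lam ≤ 1) :
    KernelCore 4 lam (1 / 200) L4 A4 B4 where
  unif := L4_unif
  vertex := L4_vertex
  noise := L4_noise lam h0 h1
  A_nonneg := A4_nonneg
  B_nonneg := B4_nonneg
  ineqM := ineqM4
  ineqL := ineqL4

end Vale.Agent.P154
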