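import Vale.Agent.P154.Kron

/-!
# Polynomial identities by reflection
-/

namespace Vale.Agent.P154

theorem lev_zero {α : Type} (e : α → ℝ) (x : ℝ) (l : List α) (h : ∀ c ∈ l, e c = 0) :
    lev e x l = 0 := by
  induction l with
  | nil => rfl
  | cons c l ih =>
    rw [lev, h c (by simp), ih fun c hc => h c (by simp [hc])]
    ring

theorem pev_zero_of (v : ℕ → ℝ) (n : ℕ) (p : Pol n) (h : pnonneg n p = true)
    (h' : pnonneg n (pneg n p) = true) : pev v n p = 0 := by
  induction n with
  | zero =>
    have key : ∀ z : ℤ, pnonneg 0 z = true → pnonneg 0 (Int.neg z) = true → z = 0 := by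
      intro z hz hz'
      match z, hz, hz' with
      | Int.ofNat 0, _, _ => rfl
      | Int.ofNat (m + 1), _, h2 =>
        have h3 : pnonneg 0 (Int.negSucc m) = true := h2
        exact absurd h3 (by simp [pnonneg])
    have : p = (0 : ℤ) := key p h h'
    subst this
    simp [pev]
  | succ n ih =>
    have h1 := List.all_eq_true.1 h
    have h2 := List.all_eq_true.1 h'
    exact lev_zero _ _ _ fun c hc => ih c (h1 c hc) (h2 _ (List.mem_map_of_mem hc))

namespace PE

theorem pnonneg_of_kcheck (k b R : ℕ) (F : PE) (h : kcheck k 0 b R F = true) :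
    pnonneg (k + 0) (toPol (k + 0) F) = true := by
  simp only [kcheck, Bool.and_eq_true, ← msk_closed] at h
  obtain ⟨⟨⟨h1, h2⟩, h3⟩, h4⟩ := h
  have h2' : 2 * l1 F < 2 ^ (b + 1) := by simpa using h2
  have h3' : dg k F < R := by simpa using h3
  rw [← clps_toPol (kpt b R) k 0 F h1] at h4
  exact okA_sound b R (l1 F) h2' (dg k F) h3' k 0 (toPol (k + 0) F)
    (dgo_toPol k 0 F h1) (pl1_toPol (k + 0) F) h4

/-- the check of an identity -/
def kzero (k b R : ℕ) (F G : PE) : Bool :=
  kcheck k 0 b R (F - G) && kcheck k 0 b R (-(F - G))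

theorem eq_of_kzero (v : ℕ → ℝ) (k b R : ℕ) (F G : PE) (h : kzero k b R F G = true) :
    den v F = den v G := by
  simp only [kzero, Bool.and_eq_true] at h
  have h1 := pnonneg_of_kcheck k b R _ h.1
  have h2 := pnonneg_of_kcheck k b R _ h.2
  have h3 := pev_zero_of v (k + 0) _ h1 h2
  have hw : wf (k + 0) (F - G) = true := by
    have := h.1
    simp only [kcheck, Bool.and_eq_true] at this
    exact this.1.1.1
  rw [pev_toPol v (k + 0) _ hw, den_sub] at h3
  linarith

end PE

end Vale.Agent.P154
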