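import Vale.Agent.P154.Refl

/-!
# Polynomial expressions and the reflection principle
-/

namespace Vale.Agent.P154

/-- polynomial expressions with integer coefficients -/
inductive PE where
  | X : ℕ → PE
  | C : ℤ → PE
  | add : PE → PE → PE
  | mul : PE → PE → PE
  | neg : PE → PE
  | pow : PE → ℕ → PE

namespace PE

instance : Add PE := ⟨PE.add⟩
instance : Mul PE := ⟨PE.mul⟩
instance : Neg PE := ⟨PE.neg⟩
instance : Sub PE := ⟨fun a b => PE.add a (PE.neg b)⟩
instance : Pow PE ℕ := ⟨PE.pow⟩
instance (n : ℕ) : OfNat PE n := ⟨PE.C n⟩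

/-- real value -/
noncomputable def den (v : ℕ → ℝ) : PE → ℝ
  | X i => v i
  | C z => z
  | add a b => den v a + den v b
  | mul a b => den v a * den v b
  | neg a => - den v a
  | pow a k => den v a ^ k

/-- iterated product -/
def ppow (n : ℕ) (p : Pol n) : ℕ → Pol n
  | 0 => pconst n 1
  | 1 => p
  | k + 2 => pmul n p (ppow n p (k + 1))

/-- normal form -/
def toPol (n : ℕ) : PE → Pol n
  | X i => pvar n i
  | C z => pconst n z
  | add a b => padd n (toPol n a) (toPol n b)
  | mul a b => pmul n (toPol n a) (toPol n b)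
  | neg a => pneg n (toPol n a)
  | pow a k => ppow n (toPol n a) k

/-- all variables have index `< n` -/
def wf (n : ℕ) : PE → Bool
  | X i => Nat.blt i n
  | C _ => true
  | add a b => wf n a && wf n b
  | mul a b => wf n a && wf n b
  | neg a => wf n a
  | pow a _ => wf n a

theorem pev_ppow (v : ℕ → ℝ) (n : ℕ) (p : Pol n) (k : ℕ) :
    pev v n (ppow n p k) = pev v n p ^ k := by
  induction k using Nat.strong_induction_on with
  | _ k ih =>
    match k with
    | 0 => simp [ppow, pev_pconst]
    | 1 => simp [ppow]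
    | k + 2 =>
      have := ih (k + 1) (by omega)
      rw [ppow, pev_pmul, this]; ring

theorem pev_toPol (v : ℕ → ℝ) (n : ℕ) (e : PE) (h : wf n e = true) :
    pev v n (toPol n e) = den v e := by
  induction e with
  | X i => exact pev_pvar v n i (by simpa [wf] using h)
  | C z => exact pev_pconst v n z
  | add a b iha ihb =>
    simp only [wf, Bool.and_eq_true] at h
    rw [toPol, pev_padd, iha h.1, ihb h.2, den]
  | mul a b iha ihb =>
    simp only [wf, Bool.and_eq_true] at h
    rw [toPol, pev_pmul, iha h.1, ihb h.2, den]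
  | neg a iha => rw [toPol, pev_pneg, iha h, den]
  | pow a k iha => rw [toPol, pev_ppow, iha h, den]

/-- the check: `F - G` has nonnegative coefficients -/
def check (n : ℕ) (F G : PE) : Bool :=
  wf n F && wf n G && pnonneg n (padd n (toPol n F) (pneg n (toPol n G)))

theorem le_of_check (v : ℕ → ℝ) (n : ℕ) (hv : ∀ i, i < n → 0 ≤ v i) (F G : PE)
    (h : check n F G = true) : den v G ≤ den v F := by
  simp only [check, Bool.and_eq_true] at h
  have := pev_nonneg v n hv _ h.2
  rw [pev_padd, pev_pneg, pev_toPol v n F h.1.1, pev_toPol v n G h.1.2] at this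
  linarith

@[simp] theorem den_add (v : ℕ → ℝ) (a b : PE) : den v (a + b) = den v a + den v b := rfl
@[simp] theorem den_sub (v : ℕ → ℝ) (a b : PE) : den v (a - b) = den v a - den v b :=
  (sub_eq_add_neg _ _).symm
@[simp] theorem den_mul (v : ℕ → ℝ) (a b : PE) : den v (a * b) = den v a * den v b := rfl
@[simp] theorem den_neg (v : ℕ → ℝ) (a : PE) : den v (-a) = - den v a := rfl
@[simp] theorem den_pow (v : ℕ → ℝ) (a : PE) (k : ℕ) : den v (a ^ k) = den v a ^ k := rfl
@[simp] theorem den_X (v : ℕ → ℝ) (i : ℕ) : den v (X i) = v i := rfl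
@[simp] theorem den_C (v : ℕ → ℝ) (z : ℤ) : den v (C z) = z := rfl
theorem den_ofNat (v : ℕ → ℝ) (n : ℕ) :
    den v (no_index (OfNat.ofNat n : PE)) = ((OfNat.ofNat n : ℕ) : ℝ) := by
  show (((n : ℕ) : ℤ) : ℝ) = _
  push_cast
  rfl

end PE

end Vale.Agent.P154
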