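import Vale.Agent.P154.Poly

/-!
# The pointwise inequalities for two posteriors
-/

namespace Vale.Agent.P154

/-- `r`-coordinate of `(x1,x2,x3)` (sum one) -/
def cr (x y z : ℝ) : ℝ := 1 - 3 * (x * y + y * z + z * x)
/-- `w = q²` coordinate -/
def cw (x y z : ℝ) : ℝ := 27 * (x * y * z)
/-- `q` coordinate -/
noncomputable def cq (x y z : ℝ) : ℝ := Real.sqrt (cw x y z)
/-- `h` coordinate -/
noncomputable def ch (x y z : ℝ) : ℝ := 1 - cr x y z - cq x y z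

theorem cw_nonneg {x y z : ℝ} (hx : 0 ≤ x) (hy : 0 ≤ y) (hz : 0 ≤ z) : 0 ≤ cw x y z := by
  unfold cw; positivity

theorem cq_sq {x y z : ℝ} (hx : 0 ≤ x) (hy : 0 ≤ y) (hz : 0 ≤ z) :
    cq x y z ^ 2 = cw x y z := Real.sq_sqrt (cw_nonneg hx hy hz)

theorem AA_eq {x y z : ℝ} (hx : 0 ≤ x) (hy : 0 ≤ y) (hz : 0 ≤ z) :
    AA (cq x y z) (ch x y z) (cr x y z) = 1 - cr x y z - cw x y z := by
  have := cq_sq hx hy hz
  unfold AA ch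
  rw [← this]; ring

/-- Schur's inequality -/
theorem schur3 {x y z : ℝ} (hx : 0 ≤ x) (hy : 0 ≤ y) (hz : 0 ≤ z) (hs : x + y + z = 1) :
    0 ≤ 1 - 4 * (x * y + y * z + z * x) + 9 * (x * y * z) := by
  have key : ∀ a b c : ℝ, 0 ≤ a → 0 ≤ b → 0 ≤ c → a ≥ b → b ≥ c →
      0 ≤ a * (a - b) * (a - c) + b * (b - a) * (b - c) + c * (c - a) * (c - b) := by
    intro a b c ha hb hc h1 h2
    have e1 : 0 ≤ (a - b) * (a * (a - c) - b * (b - c)) := by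
      apply mul_nonneg (by linarith)
      have : b * (b - c) ≤ a * (a - c) := by
        apply mul_le_mul h1 (by linarith) (by linarith) ha
      linarith
    have e2 : 0 ≤ c * ((a - c) * (b - c)) := by
      apply mul_nonneg hc; apply mul_nonneg <;> linarith
    nlinarith
  have e : 1 - 4 * (x * y + y * z + z * x) + 9 * (x * y * z)
      = x * (x - y) * (x - z) + y * (y - x) * (y - z) + z * (z - x) * (z - y) := by
    have : z = 1 - x - y := by linarith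
    subst this; ring
  rw [e]
  rcases le_total x y with h1 | h1 <;> rcases le_total y z with h2 | h2 <;>
    rcases le_total x z with h3 | h3
  · have := key z y x hz hy hx h2 h1; linarith
  · have := key z y x hz hy hx h2 h1; linarith
  · have := key y z x hy hz hx h2 h3; linarith
  · have := key y x z hy hx hz h1 h3; linarith
  · have := key z x y hz hx hy h3 h1; linarith
  · have := key x z y hx hz hy h3 h2; linarith
  · have := key x y z hx hy hz h1 h2; linarith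
  · have := key x y z hx hy hz h1 h2; linarith

theorem dom_coords {x y z : ℝ} (hx : 0 ≤ x) (hy : 0 ≤ y) (hz : 0 ≤ z) (hs : x + y + z = 1) :
    Dom (cq x y z) (ch x y z) (cr x y z) := by
  have hw := cw_nonneg hx hy hz
  refine ⟨Real.sqrt_nonneg _, ?_, ?_, ?_, ?_, ?_⟩
  · have h0 : 0 ≤ 3 * (x * y + y * z + z * x) := by positivity
    have : cq x y z ≤ 3 * (x * y + y * z + z * x) := by
      apply Real.sqrt_le_iff.mpr ⟨h0, ?_⟩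
      unfold cw
      have e : (3 * (x * y + y * z + z * x)) ^ 2 - 27 * (x * y * z)
          = 9 * ((x * y + y * z + z * x) ^ 2 - 3 * (x * y * z) * (x + y + z)) := by
        rw [hs]; ring
      nlinarith [sq_nonneg (x * y - y * z), sq_nonneg (y * z - z * x), sq_nonneg (z * x - x * y)]
    unfold ch cr; linarith
  · unfold cr
    have e : 1 - 3 * (x * y + y * z + z * x) = (x + y + z) ^ 2 - 3 * (x * y + y * z + z * x) := by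
      rw [hs]; ring
    nlinarith [sq_nonneg (x - y), sq_nonneg (y - z), sq_nonneg (z - x)]
  · unfold ch; ring
  · rw [AA_eq hx hy hz]
    have e : 4 * cr x y z ^ 3 - (1 - cr x y z - cw x y z - 2 * cr x y z) ^ 2
        = 27 * ((x - y) * (y - z) * (z - x)) ^ 2 := by
      have : z = 1 - x - y := by linarith
      subst this; unfold cr cw; ring
    nlinarith [sq_nonneg ((x - y) * (y - z) * (z - x))]
  · rw [AA_eq hx hy hz]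
    have := schur3 hx hy hz hs
    unfold cr cw; linarith

/-- `27 e₂(x*y)` -/
def cP (x1 x2 x3 y1 y2 y3 : ℝ) : ℝ :=
  27 * (x1 * y1 * (x2 * y2) + x2 * y2 * (x3 * y3) + x3 * y3 * (x1 * y1))
/-- `3 ⟨x,y⟩` -/
def cD (x1 x2 x3 y1 y2 y3 : ℝ) : ℝ := 3 * (x1 * y1 + x2 * y2 + x3 * y3)

section
variable (x1 x2 x3 y1 y2 y3 : ℝ)

/-- product over the rotations -/
noncomputable def uP : ℝ := cD x1 x2 x3 y1 y2 y3 * cD x1 x2 x3 y2 y3 y1 * cD x1 x2 x3 y3 y1 y2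
/-- product over the reflections -/
noncomputable def uM : ℝ := cD x1 x2 x3 y1 y3 y2 * cD x1 x2 x3 y3 y2 y1 * cD x1 x2 x3 y2 y1 y3

/-- the numerator `V` -/
noncomputable def cV : ℝ := (1 - cr x1 x2 x3) ^ 2 * (1 - cr y1 y2 y3) ^ 2
  + cw x1 x2 x3 * (1 - cr y1 y2 y3) * cr y1 y2 y3
  + cw y1 y2 y3 * (1 - cr x1 x2 x3) * cr x1 x2 x3

/-- the half sum `U` -/
noncomputable def cU : ℝ := cw x1 x2 x3 + cw y1 y2 y3 - cw x1 x2 x3 * cw y1 y2 y3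
  + 3 / 2 * ((1 - cr x1 x2 x3 - cw x1 x2 x3) * (1 - cr y1 y2 y3 - cw y1 y2 y3))

variable {x1 x2 x3 y1 y2 y3}

theorem uP_add_uM (hx : x1 + x2 + x3 = 1) (hy : y1 + y2 + y3 = 1) :
    uP x1 x2 x3 y1 y2 y3 + uM x1 x2 x3 y1 y2 y3 = 2 * cU x1 x2 x3 y1 y2 y3 := by
  have hx' : x3 = 1 - x1 - x2 := by linarith
  have hy' : y3 = 1 - y1 - y2 := by linarith
  subst hx' hy'
  unfold uP uM cU cD cw cr; ring

theorem uP_sub_uM :
    (uP x1 x2 x3 y1 y2 y3 - uM x1 x2 x3 y1 y2 y3) ^ 2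
      = (27 * ((x1 - x2) * (x2 - x3) * (x3 - x1)) * ((y1 - y2) * (y2 - y3) * (y3 - y1))) ^ 2 := by
  have : uP x1 x2 x3 y1 y2 y3 - uM x1 x2 x3 y1 y2 y3
      = 27 * ((x1 - x2) * (x2 - x3) * (x3 - x1)) * ((y1 - y2) * (y2 - y3) * (y3 - y1))
    ∨ uP x1 x2 x3 y1 y2 y3 - uM x1 x2 x3 y1 y2 y3
      = -(27 * ((x1 - x2) * (x2 - x3) * (x3 - x1)) * ((y1 - y2) * (y2 - y3) * (y3 - y1))) := by
    left; unfold uP uM cD; ring
  rcases this with h | h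
  · rw [h]
  · rw [h]; ring

theorem disc_eq (hx : x1 + x2 + x3 = 1) :
    4 * cr x1 x2 x3 ^ 3 - (1 - cr x1 x2 x3 - cw x1 x2 x3 - 2 * cr x1 x2 x3) ^ 2
      = 27 * ((x1 - x2) * (x2 - x3) * (x3 - x1)) ^ 2 := by
  have hx' : x3 = 1 - x1 - x2 := by linarith
  subst hx'
  unfold cw cr; ring

theorem V_rot (hx : x1 + x2 + x3 = 1) (hy : y1 + y2 + y3 = 1) :
    cP x1 x2 x3 y1 y2 y3 * cD x1 x2 x3 y2 y3 y1 * cD x1 x2 x3 y3 y1 y2
    + cP x1 x2 x3 y2 y3 y1 * cD x1 x2 x3 y3 y1 y2 * cD x1 x2 x3 y1 y2 y3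
    + cP x1 x2 x3 y3 y1 y2 * cD x1 x2 x3 y1 y2 y3 * cD x1 x2 x3 y2 y3 y1
      = 3 * cV x1 x2 x3 y1 y2 y3 := by
  have hx' : x3 = 1 - x1 - x2 := by linarith
  have hy' : y3 = 1 - y1 - y2 := by linarith
  subst hx' hy'
  unfold cP cV cD cw cr; ring

theorem V_ref (hx : x1 + x2 + x3 = 1) (hy : y1 + y2 + y3 = 1) :
    cP x1 x2 x3 y1 y3 y2 * cD x1 x2 x3 y3 y2 y1 * cD x1 x2 x3 y2 y1 y3
    + cP x1 x2 x3 y3 y2 y1 * cD x1 x2 x3 y2 y1 y3 * cD x1 x2 x3 y1 y3 y2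
    + cP x1 x2 x3 y2 y1 y3 * cD x1 x2 x3 y1 y3 y2 * cD x1 x2 x3 y3 y2 y1
      = 3 * cV x1 x2 x3 y1 y2 y3 := by
  have hx' : x3 = 1 - x1 - x2 := by linarith
  have hy' : y3 = 1 - y1 - y2 := by linarith
  subst hx' hy'
  unfold cP cV cD cw cr; ring

end

/-- sum over the six relabellings of the second vector -/
noncomputable def S6 (f : ℝ → ℝ → ℝ → ℝ) (a b c : ℝ) : ℝ :=
  f a b c + f b c a + f c a b + f a c b + f c b a + f b a c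

section
variable {x1 x2 x3 y1 y2 y3 : ℝ}

theorem cD_pos (h1 : 0 < x1) (h2 : 0 < x2) (h3 : 0 < x3) (k1 : 0 < y1) (k2 : 0 < y2)
    (k3 : 0 < y3) : 0 < cD x1 x2 x3 y1 y2 y3 := by unfold cD; positivity

theorem S6_D (hx : x1 + x2 + x3 = 1) (hy : y1 + y2 + y3 = 1) :
    S6 (cD x1 x2 x3) y1 y2 y3 = 6 := by
  have hx' : x3 = 1 - x1 - x2 := by linarith
  have hy' : y3 = 1 - y1 - y2 := by linarith
  subst hx' hy'
  unfold S6 cD; ring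

/-- the average of `P/D` -/
theorem S6_PD (h1 : 0 < x1) (h2 : 0 < x2) (h3 : 0 < x3) (k1 : 0 < y1) (k2 : 0 < y2)
    (k3 : 0 < y3) (hx : x1 + x2 + x3 = 1) (hy : y1 + y2 + y3 = 1) :
    S6 (fun a b c => cP x1 x2 x3 a b c / cD x1 x2 x3 a b c) y1 y2 y3
      = 3 * cV x1 x2 x3 y1 y2 y3 / uP x1 x2 x3 y1 y2 y3
        + 3 * cV x1 x2 x3 y1 y2 y3 / uM x1 x2 x3 y1 y2 y3 := by
  have d1 := cD_pos h1 h2 h3 k1 k2 k3
  have d2 := cD_pos h1 h2 h3 k2 k3 k1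
  have d3 := cD_pos h1 h2 h3 k3 k1 k2
  have d4 := cD_pos h1 h2 h3 k1 k3 k2
  have d5 := cD_pos h1 h2 h3 k3 k2 k1
  have d6 := cD_pos h1 h2 h3 k2 k1 k3
  rw [← V_rot hx hy]
  conv_rhs => rw [V_rot hx hy, ← V_rot hx hy]
  have e1 : (cP x1 x2 x3 y1 y2 y3 * cD x1 x2 x3 y2 y3 y1 * cD x1 x2 x3 y3 y1 y2
    + cP x1 x2 x3 y2 y3 y1 * cD x1 x2 x3 y3 y1 y2 * cD x1 x2 x3 y1 y2 y3
    + cP x1 x2 x3 y3 y1 y2 * cD x1 x2 x3 y1 y2 y3 * cD x1 x2 x3 y2 y3 y1)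
      / uP x1 x2 x3 y1 y2 y3 = cP x1 x2 x3 y1 y2 y3 / cD x1 x2 x3 y1 y2 y3
      + cP x1 x2 x3 y2 y3 y1 / cD x1 x2 x3 y2 y3 y1
      + cP x1 x2 x3 y3 y1 y2 / cD x1 x2 x3 y3 y1 y2 := by
    unfold uP; field_simp
  have e2 : (cP x1 x2 x3 y1 y2 y3 * cD x1 x2 x3 y2 y3 y1 * cD x1 x2 x3 y3 y1 y2
    + cP x1 x2 x3 y2 y3 y1 * cD x1 x2 x3 y3 y1 y2 * cD x1 x2 x3 y1 y2 y3
    + cP x1 x2 x3 y3 y1 y2 * cD x1 x2 x3 y1 y2 y3 * cD x1 x2 x3 y2 y3 y1)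
      / uM x1 x2 x3 y1 y2 y3 = cP x1 x2 x3 y1 y3 y2 / cD x1 x2 x3 y1 y3 y2
      + cP x1 x2 x3 y3 y2 y1 / cD x1 x2 x3 y3 y2 y1
      + cP x1 x2 x3 y2 y1 y3 / cD x1 x2 x3 y2 y1 y3 := by
    rw [V_rot hx hy, ← V_ref hx hy]
    unfold uM; field_simp
  rw [e1, e2]
  unfold S6; ring

theorem uP_pos (h1 : 0 < x1) (h2 : 0 < x2) (h3 : 0 < x3) (k1 : 0 < y1) (k2 : 0 < y2)
    (k3 : 0 < y3) : 0 < uP x1 x2 x3 y1 y2 y3 := by
  have d1 := cD_pos h1 h2 h3 k1 k2 k3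
  have d2 := cD_pos h1 h2 h3 k2 k3 k1
  have d3 := cD_pos h1 h2 h3 k3 k1 k2
  unfold uP; positivity

theorem uM_pos (h1 : 0 < x1) (h2 : 0 < x2) (h3 : 0 < x3) (k1 : 0 < y1) (k2 : 0 < y2)
    (k3 : 0 < y3) : 0 < uM x1 x2 x3 y1 y2 y3 := by
  have d4 := cD_pos h1 h2 h3 k1 k3 k2
  have d5 := cD_pos h1 h2 h3 k3 k2 k1
  have d6 := cD_pos h1 h2 h3 k2 k1 k3
  unfold uM; positivity

theorem cV_nonneg (h1 : 0 < x1) (h2 : 0 < x2) (h3 : 0 < x3) (k1 : 0 < y1) (k2 : 0 < y2)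
    (k3 : 0 < y3) (hx : x1 + x2 + x3 = 1) (hy : y1 + y2 + y3 = 1) :
    0 ≤ cV x1 x2 x3 y1 y2 y3 := by
  have a := (dom_coords h1.le h2.le h3.le hx).hr
  have b := (dom_coords k1.le k2.le k3.le hy).hr
  have a1 : 0 ≤ 1 - cr x1 x2 x3 := by unfold cr; ring_nf; positivity
  have b1 : 0 ≤ 1 - cr y1 y2 y3 := by unfold cr; ring_nf; positivity
  have a2 := cw_nonneg h1.le h2.le h3.le
  have b2 := cw_nonneg k1.le k2.le k3.le
  unfold cV; positivity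

/-- the mean of `r` after combining -/
noncomputable def Kr (x1 x2 x3 y1 y2 y3 : ℝ) : ℝ :=
  1 / 6 * S6 (fun a b c => cD x1 x2 x3 a b c - cP x1 x2 x3 a b c / cD x1 x2 x3 a b c) y1 y2 y3

theorem Kr_eq (h1 : 0 < x1) (h2 : 0 < x2) (h3 : 0 < x3) (k1 : 0 < y1) (k2 : 0 < y2)
    (k3 : 0 < y3) (hx : x1 + x2 + x3 = 1) (hy : y1 + y2 + y3 = 1) :
    Kr x1 x2 x3 y1 y2 y3 = 1 - 1 / 2 * (cV x1 x2 x3 y1 y2 y3 / uP x1 x2 x3 y1 y2 y3
        + cV x1 x2 x3 y1 y2 y3 / uM x1 x2 x3 y1 y2 y3) := by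
  have e1 := S6_D hx hy
  have e2 := S6_PD h1 h2 h3 k1 k2 k3 hx hy
  have : Kr x1 x2 x3 y1 y2 y3 = 1 / 6 * (S6 (cD x1 x2 x3) y1 y2 y3
      - S6 (fun a b c => cP x1 x2 x3 a b c / cD x1 x2 x3 a b c) y1 y2 y3) := by
    unfold Kr S6; ring
  rw [this, e1, e2]; ring

/-- first pointwise inequality -/
theorem Kr_le (h1 : 0 < x1) (h2 : 0 < x2) (h3 : 0 < x3) (k1 : 0 < y1) (k2 : 0 < y2)
    (k3 : 0 < y3) (hx : x1 + x2 + x3 = 1) (hy : y1 + y2 + y3 = 1) :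
    Kr x1 x2 x3 y1 y2 y3 ≤ cr x1 x2 x3 + cr y1 y2 y3 - cr x1 x2 x3 * cr y1 y2 y3
      + 19 / 20 * (cr y1 y2 y3 * ch x1 x2 x3 + cr x1 x2 x3 * ch y1 y2 y3) := by
  have hP := uP_pos h1 h2 h3 k1 k2 k3
  have hM := uM_pos h1 h2 h3 k1 k2 k3
  have hV := cV_nonneg h1 h2 h3 k1 k2 k3 hx hy
  have hU := uP_add_uM hx hy
  have dx := dom_coords h1.le h2.le h3.le hx
  have dy := dom_coords k1.le k2.le k3.le hy
  have key := polyI dx dy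
  rw [AA_eq h1.le h2.le h3.le, AA_eq k1.le k2.le k3.le, cq_sq h1.le h2.le h3.le,
    cq_sq k1.le k2.le k3.le] at key
  have ex : cq x1 x2 x3 + ch x1 x2 x3 = 1 - cr x1 x2 x3 := by unfold ch; ring
  have ey : cq y1 y2 y3 + ch y1 y2 y3 = 1 - cr y1 y2 y3 := by unfold ch; ring
  rw [ex, ey] at key
  rw [Kr_eq h1 h2 h3 k1 k2 k3 hx hy]
  have hUpos : 0 < cU x1 x2 x3 y1 y2 y3 := by linarith
  have conv : cV x1 x2 x3 y1 y2 y3 / cU x1 x2 x3 y1 y2 y3 ≤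
      1 / 2 * (cV x1 x2 x3 y1 y2 y3 / uP x1 x2 x3 y1 y2 y3
        + cV x1 x2 x3 y1 y2 y3 / uM x1 x2 x3 y1 y2 y3) := by
    have e : cU x1 x2 x3 y1 y2 y3 = (uP x1 x2 x3 y1 y2 y3 + uM x1 x2 x3 y1 y2 y3) / 2 := by
      linarith
    rw [e]
    have : 1 / 2 * (cV x1 x2 x3 y1 y2 y3 / uP x1 x2 x3 y1 y2 y3
        + cV x1 x2 x3 y1 y2 y3 / uM x1 x2 x3 y1 y2 y3)
        - cV x1 x2 x3 y1 y2 y3 / ((uP x1 x2 x3 y1 y2 y3 + uM x1 x2 x3 y1 y2 y3) / 2)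
        = cV x1 x2 x3 y1 y2 y3 * (uP x1 x2 x3 y1 y2 y3 - uM x1 x2 x3 y1 y2 y3) ^ 2
          / (2 * uP x1 x2 x3 y1 y2 y3 * uM x1 x2 x3 y1 y2 y3
            * (uP x1 x2 x3 y1 y2 y3 + uM x1 x2 x3 y1 y2 y3)) := by
      field_simp; ring
    have nn : 0 ≤ cV x1 x2 x3 y1 y2 y3 * (uP x1 x2 x3 y1 y2 y3 - uM x1 x2 x3 y1 y2 y3) ^ 2
          / (2 * uP x1 x2 x3 y1 y2 y3 * uM x1 x2 x3 y1 y2 y3
            * (uP x1 x2 x3 y1 y2 y3 + uM x1 x2 x3 y1 y2 y3)) := by positivity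
    linarith
  have main : (1 - cr x1 x2 x3) * (1 - cr y1 y2 y3)
      - 19 / 20 * (cr y1 y2 y3 * ch x1 x2 x3 + cr x1 x2 x3 * ch y1 y2 y3)
      ≤ cV x1 x2 x3 y1 y2 y3 / cU x1 x2 x3 y1 y2 y3 := by
    rw [le_div_iff₀ hUpos]
    unfold cV cU
    linarith [key]
  linarith [conv, main]

/-- one term of the mean of `q` after combining -/
theorem q_term {W D : ℝ} (hD : 0 < D) (hW : 0 ≤ W) :
    W * ((3 - D) / 2) ≤ D * Real.sqrt (W ^ 2 / D ^ 3) := by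
  have hs := Real.sq_sqrt hD.le
  have hsp := Real.sqrt_pos.mpr hD
  set t := Real.sqrt D with ht
  have e : Real.sqrt (W ^ 2 / D ^ 3) = W / t ^ 3 := by
    rw [Real.sqrt_eq_iff_mul_self_eq (by positivity) (by positivity)]
    rw [← hs]; field_simp
  rw [e, ← hs]
  have : t ^ 2 * (W / t ^ 3) = W * (1 / t) := by field_simp
  rw [this]
  apply mul_le_mul_of_nonneg_left _ hW
  rw [le_div_iff₀ hsp]
  nlinarith [mul_nonneg (sq_nonneg (t - 1)) (by positivity : (0 : ℝ) ≤ t + 2)]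

/-- the mean of `q` after combining -/
noncomputable def Kq (x1 x2 x3 y1 y2 y3 : ℝ) : ℝ :=
  1 / 6 * S6 (fun a b c => cD x1 x2 x3 a b c *
    Real.sqrt ((cq x1 x2 x3 * cq a b c) ^ 2 / cD x1 x2 x3 a b c ^ 3)) y1 y2 y3

theorem Kq_ge (h1 : 0 < x1) (h2 : 0 < x2) (h3 : 0 < x3) (k1 : 0 < y1) (k2 : 0 < y2)
    (k3 : 0 < y3) (hx : x1 + x2 + x3 = 1) (hy : y1 + y2 + y3 = 1) :
    cq x1 x2 x3 * cq y1 y2 y3 ≤ Kq x1 x2 x3 y1 y2 y3 := by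
  have e2 : cq y2 y3 y1 = cq y1 y2 y3 := by unfold cq cw; ring_nf
  have e3 : cq y3 y1 y2 = cq y1 y2 y3 := by unfold cq cw; ring_nf
  have e4 : cq y1 y3 y2 = cq y1 y2 y3 := by unfold cq cw; ring_nf
  have e5 : cq y3 y2 y1 = cq y1 y2 y3 := by unfold cq cw; ring_nf
  have e6 : cq y2 y1 y3 = cq y1 y2 y3 := by unfold cq cw; ring_nf
  have hW : 0 ≤ cq x1 x2 x3 * cq y1 y2 y3 :=
    mul_nonneg (Real.sqrt_nonneg _) (Real.sqrt_nonneg _)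
  have t1 := q_term (cD_pos h1 h2 h3 k1 k2 k3) hW
  have t2 := q_term (cD_pos h1 h2 h3 k2 k3 k1) hW
  have t3 := q_term (cD_pos h1 h2 h3 k3 k1 k2) hW
  have t4 := q_term (cD_pos h1 h2 h3 k1 k3 k2) hW
  have t5 := q_term (cD_pos h1 h2 h3 k3 k2 k1) hW
  have t6 := q_term (cD_pos h1 h2 h3 k2 k1 k3) hW
  have sD := S6_D hx hy
  unfold Kq S6
  unfold S6 at sD
  simp only [e2, e3, e4, e5, e6]
  have tot : cq x1 x2 x3 * cq y1 y2 y3 = 1 / 6 *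
      (cq x1 x2 x3 * cq y1 y2 y3 * ((18 - (cD x1 x2 x3 y1 y2 y3 + cD x1 x2 x3 y2 y3 y1
        + cD x1 x2 x3 y3 y1 y2 + cD x1 x2 x3 y1 y3 y2 + cD x1 x2 x3 y3 y2 y1
        + cD x1 x2 x3 y2 y1 y3)) / 2)) := by
    rw [sD]; ring
  refine tot.le.trans ?_
  linarith [t1, t2, t3, t4, t5, t6]

theorem alg_prod {P M U X Y a b : ℝ} (h : P + M = 2 * U) (h2 : (P - M) ^ 2 = (27 * a * b) ^ 2)
    (hX : X = 27 * a ^ 2) (hY : Y = 27 * b ^ 2) : P * M = U ^ 2 - 1 / 4 * (X * Y) := by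
  subst hX hY
  linear_combination ((P + M) + 2 * U) / 4 * h - h2 / 4

theorem alg_main {E V U P M X : ℝ} (hP : 0 < P) (hM : 0 < M) (h : P + M = 2 * U)
    (hPM : P * M = U ^ 2 - 1 / 4 * X) (key : 0 ≤ E * (U ^ 2 - 1 / 4 * X) - 3 / 2 * (V * U)) :
    3 / 2 * (1 / 2 * (V / P + V / M)) ≤ E := by
  have e : 1 / 2 * (V / P + V / M) = V * U / (P * M) := by
    have e : U = (P + M) / 2 := by linarith
    rw [e]; field_simp; ring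
  rw [e, ← mul_div_assoc, div_le_iff₀ (by positivity), hPM]
  linarith

/-- second pointwise inequality -/
theorem Kinv_ge (h1 : 0 < x1) (h2 : 0 < x2) (h3 : 0 < x3) (k1 : 0 < y1) (k2 : 0 < y2)
    (k3 : 0 < y3) (hx : x1 + x2 + x3 = 1) (hy : y1 + y2 + y3 = 1) :
    (cr x1 x2 x3 / 2 - ch x1 x2 x3) * ((2 * cw y1 y2 y3 + (1 - cr y1 y2 y3)) / 3)
      + (cr y1 y2 y3 / 2 - ch y1 y2 y3) * ((2 * cw x1 x2 x3 + (1 - cr x1 x2 x3)) / 3)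
      ≤ 3 / 2 * Kr x1 x2 x3 y1 y2 y3 - 1 + Kq x1 x2 x3 y1 y2 y3 := by
  have hP := uP_pos h1 h2 h3 k1 k2 k3
  have hM := uM_pos h1 h2 h3 k1 k2 k3
  have hU := uP_add_uM hx hy
  have hq := Kq_ge h1 h2 h3 k1 k2 k3 hx hy
  have dx := dom_coords h1.le h2.le h3.le hx
  have dy := dom_coords k1.le k2.le k3.le hy
  have hprod := alg_prod hU (uP_sub_uM (x1 := x1) (x2 := x2) (x3 := x3) (y1 := y1) (y2 := y2)
    (y3 := y3)) (disc_eq hx) (disc_eq hy)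
  have key := polyII dx dy
  rw [AA_eq h1.le h2.le h3.le, AA_eq k1.le k2.le k3.le, cq_sq h1.le h2.le h3.le,
    cq_sq k1.le k2.le k3.le] at key
  have ex : cq x1 x2 x3 + ch x1 x2 x3 = 1 - cr x1 x2 x3 := by unfold ch; ring
  have ey : cq y1 y2 y3 + ch y1 y2 y3 = 1 - cr y1 y2 y3 := by unfold ch; ring
  rw [ex, ey] at key
  have main := alg_main (V := cV x1 x2 x3 y1 y2 y3) hP hM hU hprod key
  rw [Kr_eq h1 h2 h3 k1 k2 k3 hx hy]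
  linarith

end

end Vale.Agent.P154
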