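import Vale.Agent.P154.CertI
import Vale.Agent.P154.CertII

/-!
# The two polynomial inequalities
-/

namespace Vale.Agent.P154

/-- the polynomial `a - w` in the coordinates `(q,h,r)` -/
def AA (q h r : ℝ) : ℝ := h * (1 + q) + q * r

/-- the domain of the coordinates `(q,h,r)` of a posterior -/
structure Dom (q h r : ℝ) : Prop where
  hq : 0 ≤ q
  hh : 0 ≤ h
  hr : 0 ≤ r
  sum : q + h + r = 1
  disc : (AA q h r - 2 * r) ^ 2 ≤ 4 * r ^ 3
  tA : AA q h r ≤ 3 * r

theorem Dom.abs {q h r : ℝ} (d : Dom q h r) {t : ℝ} (ht : 0 < t) :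
    |AA q h r - 2 * r| ≤ t * r + r ^ 2 / t := by
  have h0 : 0 ≤ t * r + r ^ 2 / t := by have := d.hr; positivity
  apply abs_le_of_sq_le_sq _ h0
  refine d.disc.trans ?_
  have : (t * r + r ^ 2 / t) ^ 2 - 4 * r ^ 3 = (t * r - r ^ 2 / t) ^ 2 := by
    field_simp; ring
  nlinarith [sq_nonneg (t * r - r ^ 2 / t)]

theorem Dom.up {q h r : ℝ} (d : Dom q h r) {t : ℝ} (ht : 0 < t) :
    0 ≤ (2 + t) * r + r ^ 2 / t - AA q h r := by
  have := (abs_le.mp (d.abs ht)).2; linarith

theorem Dom.lo {q h r : ℝ} (d : Dom q h r) {t : ℝ} (ht : 0 < t) :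
    0 ≤ AA q h r - (2 - t) * r + r ^ 2 / t := by
  have := (abs_le.mp (d.abs ht)).1; linarith

/-- valuation of the six variables -/
def vv (q h r Q k s : ℝ) : ℕ → ℝ
  | 0 => q
  | 1 => h
  | 2 => r
  | 3 => Q
  | 4 => k
  | _ => s

theorem vv_nonneg {q h r Q k s : ℝ} (d : Dom q h r) (d' : Dom Q k s) :
    ∀ i, i < 6 → 0 ≤ vv q h r Q k s i := by
  intro i hi
  match i, hi with
  | 0, _ => exact d.hq
  | 1, _ => exact d.hh
  | 2, _ => exact d.hr
  | 3, _ => exact d'.hq
  | 4, _ => exact d'.hh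
  | 5, _ => exact d'.hr

set_option maxHeartbeats 2000000 in
set_option linter.unusedSimpArgs false in
open PE in
theorem polyI {q h r Q k s : ℝ} (d : Dom q h r) (d' : Dom Q k s) :
    0 ≤ r*s*(q^2*(Q + k) + Q^2*(q + h))
      + 19/20*(q^2 + Q^2 - q^2*Q^2 + 3/2*(AA q h r*AA Q k s))*(s*h + r*k)
      - 1/2*(q + h)*(Q + k)*(AA q h r*AA Q k s) := by
  set v := vv q h r Q k s with hv
  have e0 : den v CertI.q = q := rfl
  have e1 : den v CertI.h = h := rfl
  have e2 : den v CertI.r = r := rfl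
  have e3 : den v CertI.Q = Q := rfl
  have e4 : den v CertI.k = k := rfl
  have e5 : den v CertI.s = s := rfl
  have ee : den v CertI.e = 1 := by simp only [CertI.e, den_add, e0, e1, e2]; exact d.sum
  have eE : den v CertI.E = 1 := by simp only [CertI.E, den_add, e3, e4, e5]; exact d'.sum
  have eA : den v CertI.A = AA q h r := by simp only [CertI.A, den_add, den_mul, e0, e1, e2, ee, AA]
  have eB : den v CertI.B = AA Q k s := by simp only [CertI.B, den_add, den_mul, e3, e4, e5, eE, AA]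
  have fTz : 0 ≤ den v CertI.Tz := by
    simp only [CertI.Tz, den_add, den_sub, den_mul, den_pow, den_ofNat, Nat.cast_ofNat, Nat.cast_one, e0, e1, e2, e3, e4, e5, ee, eE, eA, eB]
    have := d.tA; linarith
  have fTy : 0 ≤ den v CertI.Ty := by
    simp only [CertI.Ty, den_add, den_sub, den_mul, den_pow, den_ofNat, Nat.cast_ofNat, Nat.cast_one, e0, e1, e2, e3, e4, e5, ee, eE, eA, eB]
    have := d'.tA; linarith
  have fDz : 0 ≤ den v CertI.Dz := by
    simp only [CertI.Dz, den_add, den_sub, den_mul, den_pow, den_ofNat, Nat.cast_ofNat, Nat.cast_one, e0, e1, e2, e3, e4, e5, ee, eE, eA, eB]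
    have := d.disc; linarith
  have fDy : 0 ≤ den v CertI.Dy := by
    simp only [CertI.Dy, den_add, den_sub, den_mul, den_pow, den_ofNat, Nat.cast_ofNat, Nat.cast_one, e0, e1, e2, e3, e4, e5, ee, eE, eA, eB]
    have := d'.disc; linarith
  have fP14z : 0 ≤ den v CertI.P14z := by
    simp only [CertI.P14z, den_add, den_sub, den_mul, den_pow, den_ofNat, Nat.cast_ofNat, Nat.cast_one, e0, e1, e2, e3, e4, e5, ee, eE, eA, eB]
    have := d.up (t := (1/4)) (by norm_num); linarith
  have fP14y : 0 ≤ den v CertI.P14y := by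
    simp only [CertI.P14y, den_add, den_sub, den_mul, den_pow, den_ofNat, Nat.cast_ofNat, Nat.cast_one, e0, e1, e2, e3, e4, e5, ee, eE, eA, eB]
    have := d'.up (t := (1/4)) (by norm_num); linarith
  have fP12z : 0 ≤ den v CertI.P12z := by
    simp only [CertI.P12z, den_add, den_sub, den_mul, den_pow, den_ofNat, Nat.cast_ofNat, Nat.cast_one, e0, e1, e2, e3, e4, e5, ee, eE, eA, eB]
    have := d.up (t := (1/2)) (by norm_num); linarith
  have fP12y : 0 ≤ den v CertI.P12y := by
    simp only [CertI.P12y, den_add, den_sub, den_mul, den_pow, den_ofNat, Nat.cast_ofNat, Nat.cast_one, e0, e1, e2, e3, e4, e5, ee, eE, eA, eB]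
    have := d'.up (t := (1/2)) (by norm_num); linarith
  have fN14z : 0 ≤ den v CertI.N14z := by
    simp only [CertI.N14z, den_add, den_sub, den_mul, den_pow, den_ofNat, Nat.cast_ofNat, Nat.cast_one, e0, e1, e2, e3, e4, e5, ee, eE, eA, eB]
    have := d.lo (t := (1/4)) (by norm_num); linarith
  have fN14y : 0 ≤ den v CertI.N14y := by
    simp only [CertI.N14y, den_add, den_sub, den_mul, den_pow, den_ofNat, Nat.cast_ofNat, Nat.cast_one, e0, e1, e2, e3, e4, e5, ee, eE, eA, eB]
    have := d'.lo (t := (1/4)) (by norm_num); linarith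
  have fN12z : 0 ≤ den v CertI.N12z := by
    simp only [CertI.N12z, den_add, den_sub, den_mul, den_pow, den_ofNat, Nat.cast_ofNat, Nat.cast_one, e0, e1, e2, e3, e4, e5, ee, eE, eA, eB]
    have := d.lo (t := (1/2)) (by norm_num); linarith
  have fN12y : 0 ≤ den v CertI.N12y := by
    simp only [CertI.N12y, den_add, den_sub, den_mul, den_pow, den_ofNat, Nat.cast_ofNat, Nat.cast_one, e0, e1, e2, e3, e4, e5, ee, eE, eA, eB]
    have := d'.lo (t := (1/2)) (by norm_num); linarith
  have fN1z : 0 ≤ den v CertI.N1z := by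
    simp only [CertI.N1z, den_add, den_sub, den_mul, den_pow, den_ofNat, Nat.cast_ofNat, Nat.cast_one, e0, e1, e2, e3, e4, e5, ee, eE, eA, eB]
    have := d.lo (t := 1) (by norm_num); linarith
  have fN1y : 0 ≤ den v CertI.N1y := by
    simp only [CertI.N1y, den_add, den_sub, den_mul, den_pow, den_ofNat, Nat.cast_ofNat, Nat.cast_one, e0, e1, e2, e3, e4, e5, ee, eE, eA, eB]
    have := d'.lo (t := 1) (by norm_num); linarith
  have hq := d.hq; have hh := d.hh; have hr := d.hr; have hQ := d'.hq; have hk := d'.hh; have hs := d'.hr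
  have nA : 0 ≤ den v CertI.A := by rw [eA, AA]; positivity
  have nB : 0 ≤ den v CertI.B := by rw [eB, AA]; positivity
  have n0 : 0 ≤ den v CertI.q := hq
  have n1 : 0 ≤ den v CertI.h := hh
  have n2 : 0 ≤ den v CertI.r := hr
  have n3 : 0 ≤ den v CertI.Q := hQ
  have n4 : 0 ≤ den v CertI.k := hk
  have n5 : 0 ≤ den v CertI.s := hs
  have g0 : 0 ≤ den v CertI.G0 := by
    simp only [CertI.G0, den_add, den_mul, den_pow, den_ofNat, Nat.cast_ofNat, Nat.cast_one]
    positivity
  have g1 : 0 ≤ den v CertI.G1 := by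
    simp only [CertI.G1, den_add, den_mul, den_pow, den_ofNat, Nat.cast_ofNat, Nat.cast_one]
    positivity
  have g2 : 0 ≤ den v CertI.G2 := by
    simp only [CertI.G2, den_add, den_mul, den_pow, den_ofNat, Nat.cast_ofNat, Nat.cast_one]
    positivity
  have g3 : 0 ≤ den v CertI.G3 := by
    simp only [CertI.G3, den_add, den_mul, den_pow, den_ofNat, Nat.cast_ofNat, Nat.cast_one]
    positivity
  have g4 : 0 ≤ den v CertI.G4 := by
    simp only [CertI.G4, den_add, den_mul, den_pow, den_ofNat, Nat.cast_ofNat, Nat.cast_one]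
    positivity
  have gG : 0 ≤ den v CertI.G := by
    simp only [CertI.G, den_add]
    positivity
  have key := le_of_check v 6 (vv_nonneg d d') CertI.F CertI.G CertI.check_eq
  have hF : den v CertI.F = 1600 * (r*s*(q^2*(Q + k) + Q^2*(q + h))
      + 19/20*(q^2 + Q^2 - q^2*Q^2 + 3/2*(AA q h r*AA Q k s))*(s*h + r*k)
      - 1/2*(q + h)*(Q + k)*(AA q h r*AA Q k s)) := by
    simp only [CertI.F, CertI.U2, den_add, den_sub, den_mul, den_pow, den_ofNat, Nat.cast_ofNat, Nat.cast_one, e0, e1, e2, e3, e4, e5, ee, eE, eA, eB]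
    ring
  linarith

set_option maxHeartbeats 2000000 in
set_option linter.unusedSimpArgs false in
open PE in
theorem polyII {q h r Q k s : ℝ} (d : Dom q h r) (d' : Dom Q k s) :
    0 ≤ (1/2 + q*Q - (r/2 - h)*((2*Q^2 + (Q + k))/3) - (s/2 - k)*((2*q^2 + (q + h))/3))
        * ((q^2 + Q^2 - q^2*Q^2 + 3/2*(AA q h r*AA Q k s))^2
          - 1/4*((4*r^3 - (AA q h r - 2*r)^2)*(4*s^3 - (AA Q k s - 2*s)^2)))
      - 3/2*(((q + h)^2*(Q + k)^2 + q^2*(Q + k)*s + Q^2*(q + h)*r)
        *(q^2 + Q^2 - q^2*Q^2 + 3/2*(AA q h r*AA Q k s))) := by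
  set v := vv q h r Q k s with hv
  have e0 : den v CertII.q = q := rfl
  have e1 : den v CertII.h = h := rfl
  have e2 : den v CertII.r = r := rfl
  have e3 : den v CertII.Q = Q := rfl
  have e4 : den v CertII.k = k := rfl
  have e5 : den v CertII.s = s := rfl
  have ee : den v CertII.e = 1 := by simp only [CertII.e, den_add, e0, e1, e2]; exact d.sum
  have eE : den v CertII.E = 1 := by simp only [CertII.E, den_add, e3, e4, e5]; exact d'.sum
  have eA : den v CertII.A = AA q h r := by simp only [CertII.A, den_add, den_mul, e0, e1, e2, ee, AA]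
  have eB : den v CertII.B = AA Q k s := by simp only [CertII.B, den_add, den_mul, e3, e4, e5, eE, AA]
  have fTz : 0 ≤ den v CertII.Tz := by
    simp only [CertII.Tz, den_add, den_sub, den_mul, den_pow, den_ofNat, Nat.cast_ofNat, Nat.cast_one, e0, e1, e2, e3, e4, e5, ee, eE, eA, eB]
    have := d.tA; linarith
  have fTy : 0 ≤ den v CertII.Ty := by
    simp only [CertII.Ty, den_add, den_sub, den_mul, den_pow, den_ofNat, Nat.cast_ofNat, Nat.cast_one, e0, e1, e2, e3, e4, e5, ee, eE, eA, eB]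
    have := d'.tA; linarith
  have fDz : 0 ≤ den v CertII.Dz := by
    simp only [CertII.Dz, den_add, den_sub, den_mul, den_pow, den_ofNat, Nat.cast_ofNat, Nat.cast_one, e0, e1, e2, e3, e4, e5, ee, eE, eA, eB]
    have := d.disc; linarith
  have fDy : 0 ≤ den v CertII.Dy := by
    simp only [CertII.Dy, den_add, den_sub, den_mul, den_pow, den_ofNat, Nat.cast_ofNat, Nat.cast_one, e0, e1, e2, e3, e4, e5, ee, eE, eA, eB]
    have := d'.disc; linarith
  have fP13z : 0 ≤ den v CertII.P13z := by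
    simp only [CertII.P13z, den_add, den_sub, den_mul, den_pow, den_ofNat, Nat.cast_ofNat, Nat.cast_one, e0, e1, e2, e3, e4, e5, ee, eE, eA, eB]
    have := d.up (t := (1/3)) (by norm_num); linarith
  have fP13y : 0 ≤ den v CertII.P13y := by
    simp only [CertII.P13y, den_add, den_sub, den_mul, den_pow, den_ofNat, Nat.cast_ofNat, Nat.cast_one, e0, e1, e2, e3, e4, e5, ee, eE, eA, eB]
    have := d'.up (t := (1/3)) (by norm_num); linarith
  have fP1z : 0 ≤ den v CertII.P1z := by
    simp only [CertII.P1z, den_add, den_sub, den_mul, den_pow, den_ofNat, Nat.cast_ofNat, Nat.cast_one, e0, e1, e2, e3, e4, e5, ee, eE, eA, eB]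
    have := d.up (t := 1) (by norm_num); linarith
  have fP1y : 0 ≤ den v CertII.P1y := by
    simp only [CertII.P1y, den_add, den_sub, den_mul, den_pow, den_ofNat, Nat.cast_ofNat, Nat.cast_one, e0, e1, e2, e3, e4, e5, ee, eE, eA, eB]
    have := d'.up (t := 1) (by norm_num); linarith
  have fN13z : 0 ≤ den v CertII.N13z := by
    simp only [CertII.N13z, den_add, den_sub, den_mul, den_pow, den_ofNat, Nat.cast_ofNat, Nat.cast_one, e0, e1, e2, e3, e4, e5, ee, eE, eA, eB]
    have := d.lo (t := (1/3)) (by norm_num); linarith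
  have fN13y : 0 ≤ den v CertII.N13y := by
    simp only [CertII.N13y, den_add, den_sub, den_mul, den_pow, den_ofNat, Nat.cast_ofNat, Nat.cast_one, e0, e1, e2, e3, e4, e5, ee, eE, eA, eB]
    have := d'.lo (t := (1/3)) (by norm_num); linarith
  have fN23z : 0 ≤ den v CertII.N23z := by
    simp only [CertII.N23z, den_add, den_sub, den_mul, den_pow, den_ofNat, Nat.cast_ofNat, Nat.cast_one, e0, e1, e2, e3, e4, e5, ee, eE, eA, eB]
    have := d.lo (t := (2/3)) (by norm_num); linarith
  have fN23y : 0 ≤ den v CertII.N23y := by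
    simp only [CertII.N23y, den_add, den_sub, den_mul, den_pow, den_ofNat, Nat.cast_ofNat, Nat.cast_one, e0, e1, e2, e3, e4, e5, ee, eE, eA, eB]
    have := d'.lo (t := (2/3)) (by norm_num); linarith
  have fN1z : 0 ≤ den v CertII.N1z := by
    simp only [CertII.N1z, den_add, den_sub, den_mul, den_pow, den_ofNat, Nat.cast_ofNat, Nat.cast_one, e0, e1, e2, e3, e4, e5, ee, eE, eA, eB]
    have := d.lo (t := 1) (by norm_num); linarith
  have fN1y : 0 ≤ den v CertII.N1y := by
    simp only [CertII.N1y, den_add, den_sub, den_mul, den_pow, den_ofNat, Nat.cast_ofNat, Nat.cast_one, e0, e1, e2, e3, e4, e5, ee, eE, eA, eB]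
    have := d'.lo (t := 1) (by norm_num); linarith
  have hq := d.hq; have hh := d.hh; have hr := d.hr; have hQ := d'.hq; have hk := d'.hh; have hs := d'.hr
  have nA : 0 ≤ den v CertII.A := by rw [eA, AA]; positivity
  have nB : 0 ≤ den v CertII.B := by rw [eB, AA]; positivity
  have n0 : 0 ≤ den v CertII.q := hq
  have n1 : 0 ≤ den v CertII.h := hh
  have n2 : 0 ≤ den v CertII.r := hr
  have n3 : 0 ≤ den v CertII.Q := hQ
  have n4 : 0 ≤ den v CertII.k := hk
  have n5 : 0 ≤ den v CertII.s := hs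
  have g0 : 0 ≤ den v CertII.G0 := by
    simp only [CertII.G0, den_add, den_mul, den_pow, den_ofNat, Nat.cast_ofNat, Nat.cast_one]
    positivity
  have g1 : 0 ≤ den v CertII.G1 := by
    simp only [CertII.G1, den_add, den_mul, den_pow, den_ofNat, Nat.cast_ofNat, Nat.cast_one]
    positivity
  have g2 : 0 ≤ den v CertII.G2 := by
    simp only [CertII.G2, den_add, den_mul, den_pow, den_ofNat, Nat.cast_ofNat, Nat.cast_one]
    positivity
  have g3 : 0 ≤ den v CertII.G3 := by
    simp only [CertII.G3, den_add, den_mul, den_pow, den_ofNat, Nat.cast_ofNat, Nat.cast_one]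
    positivity
  have g4 : 0 ≤ den v CertII.G4 := by
    simp only [CertII.G4, den_add, den_mul, den_pow, den_ofNat, Nat.cast_ofNat, Nat.cast_one]
    positivity
  have gG : 0 ≤ den v CertII.G := by
    simp only [CertII.G, den_add]
    positivity
  have key := le_of_check v 6 (vv_nonneg d d') CertII.F CertII.G CertII.check_eq
  have hF : den v CertII.F = 3600 * ((1/2 + q*Q - (r/2 - h)*((2*Q^2 + (Q + k))/3) - (s/2 - k)*((2*q^2 + (q + h))/3))
        * ((q^2 + Q^2 - q^2*Q^2 + 3/2*(AA q h r*AA Q k s))^2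
          - 1/4*((4*r^3 - (AA q h r - 2*r)^2)*(4*s^3 - (AA Q k s - 2*s)^2)))
      - 3/2*(((q + h)^2*(Q + k)^2 + q^2*(Q + k)*s + Q^2*(q + h)*r)
        *(q^2 + Q^2 - q^2*Q^2 + 3/2*(AA q h r*AA Q k s)))) := by
    simp only [CertII.F, CertII.U2, CertII.V, CertII.I4, CertII.J4, CertII.E6, den_add, den_sub, den_mul, den_pow, den_ofNat, Nat.cast_ofNat, Nat.cast_one, e0, e1, e2, e3, e4, e5, ee, eE, eA, eB]
    ring
  linarith

end Vale.Agent.P154
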