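import Vale.Agent.P154.Q4GD
import Vale.Agent.P154.MtB
import Vale.Agent.P154.MtC
import Vale.Agent.P154.MtD
import Vale.Agent.P154.Q4II

/-!
# Four states: second inequality, bridge to the kernel check
-/

namespace Vale.Agent.P154.Q4G

open PE Finset Vale.Agent.P154.Up

set_option maxHeartbeats 0

theorem den_FII (v : ℕ → ℝ) (E E' x2 x3 x4 y2 y3 y4 : ℝ)
    (h1 : den v Q4II.e1 = E) (h2 : den v Q4II.e2 = E ^ 2 * (3 / 8 * x2))
    (h3 : den v Q4II.e3 = E ^ 3 * (1 / 16 * x3)) (h4 : den v Q4II.e4 = E ^ 4 * (1 / 256 * x4))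
    (k1 : den v Q4II.f1 = E') (k2 : den v Q4II.f2 = E' ^ 2 * (3 / 8 * y2))
    (k3 : den v Q4II.f3 = E' ^ 3 * (1 / 16 * y3)) (k4 : den v Q4II.f4 = E' ^ 4 * (1 / 256 * y4))
    (p r : Fin 4 → ℝ) (hps : ∑ i, p i = 1) (hrs : ∑ i, r i = 1)
    (hx2 : g2 p = x2) (hx3 : g3 p = x3) (hx4 : g4 p = x4)
    (hy2 : g2 r = y2) (hy3 : g3 r = y3) (hy4 : g4 r = y4) :
    den v Q4II.F = E ^ 9 * E' ^ 9 *
     (972000 * (tb 966367641600 LII (fun i => 4 * p i) (fun i => 4 * r i)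
       - (BB r * LL p + BB p * LL r))) := by
  have a1 := el1_sc 4 hps
  have a2 := el2_sc 4 hps
  have a3 := el3_sc 4 hps
  have a4 := el4_sc 4 hps
  have b1 := el1_sc 4 hrs
  have b2 := el2_sc 4 hrs
  have b3 := el3_sc 4 hrs
  have b4 := el4_sc 4 hrs
  simp only [tb, LII, sumR, mm, mt_four, mtE_0000, mtE_1000, mtE_1100, mtE_2000, mtE_1110, mtE_2100, mtE_3000, mtE_1111, mtE_2110, mtE_2200, mtE_3100, mtE_4000, mtE_2111, mtE_2210, mtE_3110, mtE_3200, mtE_4100, mtE_5000, mtE_2211, mtE_2220, mtE_3111, mtE_3210, mtE_3300, mtE_4110, mtE_4200, mtE_5100, mtE_6000, mtE_2221, mtE_3211, mtE_3220, mtE_3310, mtE_4111, mtE_4210, mtE_4300, mtE_5110, mtE_5200, mtE_6100, mtE_7000, mtE_2222, mtE_3221, mtE_3311, mtE_3320, mtE_4211, mtE_4220, mtE_4310, mtE_4400, mtE_5111, mtE_5210, mtE_5300, mtE_6110, mtE_6200, mtE_7100, mtE_8000, mtE_3222, mtE_3321, mtE_3330, mtE_4221,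 mtE_4311, mtE_4320, mtE_4410, mtE_5211, mtE_5220, mtE_5310, mtE_5400, mtE_6111, mtE_6210, mtE_6300, mtE_7110, mtE_7200, mtE_8100, mtE_9000, a1, a2, a3, a4, b1, b2, b3, b4, BB, LL, iv2_g,
    iv3_g, iv4_g, hx2, hx3, hx4, hy2, hy3, hy4]
  simp only [Q4II.F, Q4II.g0, Q4II.g1, Q4II.g2, Q4II.g3, Q4II.g4, Q4II.g5, Q4II.g6, Q4II.g7, Q4II.g8, Q4II.g9, Q4II.g10, Q4II.g11, Q4II.g12, Q4II.g13, Q4II.g14, Q4II.g15, Q4II.g16, Q4II.g17, den_add, den_mul, den_pow, den_C, h1, h2, h3, h4, k1, k2, k3, k4]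
  push_cast
  ring

end Vale.Agent.P154.Q4G
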