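import Vale.Agent.P154.Q4GD
import Vale.Agent.P154.Q4S

/-!
# Four states: positivity of the quotient and of the multipliers
-/

namespace Vale.Agent.P154.Q4G

open PE Finset Vale.Agent.P154.Up

theorem den_one' (v : ℕ → ℝ) : den v (1 : PE) = 1 := by
  rw [den_ofNat]; norm_num

set_option maxHeartbeats 0 in
theorem den_FS (v : ℕ → ℝ) (E x2 x3 x4 D T : ℝ) (l h d : ℤ)
    (h1 : den v Q4S.e1 = E) (h2 : den v Q4S.e2 = E ^ 2 * (3 / 8 * x2))
    (h3 : den v Q4S.e3 = E ^ 3 * (1 / 16 * x3)) (h4 : den v Q4S.e4 = E ^ 4 * (1 / 256 * x4))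
    (hl : (l : ℝ) + h * den v Q4S.t = D * T) (hT : (d : ℝ) * (1 + den v Q4S.t) = T) :
    den v (Q4S.F l h d) = E ^ 9 * T ^ 7 * (44236800 * SS D x2 x3 x4) := by
  simp only [Q4S.F, Q4S.s0, Q4S.s1, Q4S.s2, Q4S.s3, Q4S.s4, Q4S.s5, Q4S.s6, Q4S.s7, den_add,
    den_mul, den_pow, den_C, den_one', h1, h2, h3, h4, hl, hT, SS]
  push_cast
  ring

theorem den_MA (v : ℕ → ℝ) (E : ℝ) (p : Fin 4 → ℝ)
    (h1 : den v Q4S.e1 = E) (h2 : den v Q4S.e2 = E ^ 2 * (3 / 8 * g2 p))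
    (h3 : den v Q4S.e3 = E ^ 3 * (1 / 16 * g3 p))
    (h4 : den v Q4S.e4 = E ^ 4 * (1 / 256 * g4 p)) :
    den v Q4S.MA = E ^ 9 * (135 * AA p) := by
  simp only [Q4S.MA, den_add, den_mul, den_pow, den_C, h1, h2, h3, h4, AA, iv2_g, iv3_g, iv4_g]
  push_cast
  ring

theorem den_MB (v : ℕ → ℝ) (E : ℝ) (p : Fin 4 → ℝ)
    (h1 : den v Q4S.e1 = E) (h2 : den v Q4S.e2 = E ^ 2 * (3 / 8 * g2 p))
    (h3 : den v Q4S.e3 = E ^ 3 * (1 / 16 * g3 p))
    (h4 : den v Q4S.e4 = E ^ 4 * (1 / 256 * g4 p)) :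
    den v Q4S.MB = E ^ 9 * (540 * BB p) := by
  simp only [Q4S.MB, den_add, den_mul, den_pow, den_C, h1, h2, h3, h4, BB, iv2_g, iv3_g, iv4_g]
  push_cast
  ring

theorem den_es (v : ℕ → ℝ) {a b c : ℝ} (ha : 0 ≤ a) (hb : 0 ≤ b) (hc : 0 ≤ c) (h0 : v 0 = a)
    (h1 : v 1 = b) (h2 : v 2 = c) :
    den v Q4S.e1 = a + 2 * b + 3 * c + 4 ∧
    den v Q4S.e2 = (a + 2 * b + 3 * c + 4) ^ 2 * (3 / 8 * g2 (sv a b c)) ∧
    den v Q4S.e3 = (a + 2 * b + 3 * c + 4) ^ 3 * (1 / 16 * g3 (sv a b c)) ∧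
    den v Q4S.e4 = (a + 2 * b + 3 * c + 4) ^ 4 * (1 / 256 * g4 (sv a b c)) := by
  have eA0 : den v Q4S.A0 = a + b + c + 1 := by
    simp only [Q4S.A0, Q4S.a, Q4S.b, Q4S.c, den_add, den_X, den_one', h0, h1, h2]
  have eA1 : den v Q4S.A1 = b + c + 1 := by
    simp only [Q4S.A1, Q4S.b, Q4S.c, den_add, den_X, den_one', h1, h2]
  have eA2 : den v Q4S.A2 = c + 1 := by
    simp only [Q4S.A2, Q4S.c, den_add, den_X, den_one', h2]
  refine ⟨?_, ?_, ?_, ?_⟩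
  · simp only [Q4S.e1, Q4S.a, Q4S.b, Q4S.c, den_add, den_mul, den_X, den_ofNat, h0, h1, h2]
    norm_num
  · rw [← sv_e2 ha hb hc]; simp only [Q4S.e2, den_add, den_mul, eA0, eA1, eA2]
  · rw [← sv_e3 ha hb hc]; simp only [Q4S.e3, den_add, den_mul, eA0, eA1, eA2]
  · rw [← sv_e4 ha hb hc]; simp only [Q4S.e4, den_mul, eA0, eA1, eA2]

theorem SS_piece {l h d : ℤ} {bb : ℕ} (hk : kcheck 3 1 bb 10 (Q4S.F l h d) = true)
    (hd : 0 < d) {D a b c : ℝ} (h1 : (l : ℝ) ≤ d * D) (h2 : (d : ℝ) * D < h)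
    (ha : 0 ≤ a) (hb : 0 ≤ b) (hc : 0 ≤ c) :
    0 ≤ SS D (g2 (sv a b c)) (g3 (sv a b c)) (g4 (sv a b c)) := by
  have hd' : (0 : ℝ) < d := by exact_mod_cast hd
  have hu : 0 < (h : ℝ) - d * D := by linarith
  have ht0 : 0 ≤ (d * D - l) / (h - d * D) := div_nonneg (by linarith) hu.le
  have h0 := den_nonneg_of_kcheck (v8 a b c ((d * D - l) / (h - d * D)) 0 0 0 0) 3 1 bb 10
    (fun i _ => v8_nonneg ha hb hc ht0 (le_refl _) (le_refl _) (le_refl _) (le_refl _) i)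
    (Q4S.F l h d) hk
  obtain ⟨e1, e2, e3, e4⟩ := den_es (v8 a b c ((d * D - l) / (h - d * D)) 0 0 0 0) ha hb hc
    rfl rfl rfl
  have et : den (v8 a b c ((d * D - l) / (h - d * D)) 0 0 0 0) Q4S.t =
      (d * D - l) / (h - d * D) := rfl
  have k1 : (l : ℝ) + h * ((d * D - l) / (h - d * D)) =
      D * (d * (1 + (d * D - l) / (h - d * D))) := by
    field_simp
    ring
  rw [den_FS _ _ _ _ _ D _ l h d e1 e2 e3 e4 (by rw [et]; exact k1) (by rw [et])] at h0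
  have hE : 0 < (a + 2 * b + 3 * c + 4) ^ 9 *
      (d * (1 + (d * D - l) / (h - d * D))) ^ 7 := by positivity
  exact nonneg_of_mul_nonneg_right (nonneg_of_mul_nonneg_right h0 hE) (by norm_num)

theorem SS_sv {D a b c : ℝ} (h0 : 0 ≤ D) (h4 : D < 4) (ha : 0 ≤ a) (hb : 0 ≤ b) (hc : 0 ≤ c) :
    0 ≤ SS D (g2 (sv a b c)) (g3 (sv a b c)) (g4 (sv a b c)) := by
  rcases lt_or_ge D (1 / 2) with h | h
  · exact SS_piece Q4S.check_0_1_2 (by norm_num) (by push_cast; linarith)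
      (by push_cast; linarith) ha hb hc
  rcases lt_or_ge D 1 with h' | h'
  · exact SS_piece Q4S.check_1_2_2 (by norm_num) (by push_cast; linarith)
      (by push_cast; linarith) ha hb hc
  rcases lt_or_ge D (3 / 2) with h'' | h''
  · exact SS_piece Q4S.check_2_3_2 (by norm_num) (by push_cast; linarith)
      (by push_cast; linarith) ha hb hc
  rcases lt_or_ge D 2 with h3 | h3
  · exact SS_piece Q4S.check_3_4_2 (by norm_num) (by push_cast; linarith)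
      (by push_cast; linarith) ha hb hc
  rcases lt_or_ge D 3 with h5 | h5
  · exact SS_piece Q4S.check_2_3_1 (by norm_num) (by push_cast; linarith)
      (by push_cast; linarith) ha hb hc
  · exact SS_piece Q4S.check_3_4_1 (by norm_num) (by push_cast; linarith)
      (by push_cast; linarith) ha hb hc

theorem AA_sv {a b c : ℝ} (ha : 0 ≤ a) (hb : 0 ≤ b) (hc : 0 ≤ c) : 0 ≤ AA (sv a b c) := by
  have h0 := den_nonneg_of_kcheck (v8 a b c 0 0 0 0 0) 3 0 41 10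
    (fun i _ => v8_nonneg ha hb hc (le_refl _) (le_refl _) (le_refl _) (le_refl _) (le_refl _) i)
    Q4S.MA Q4S.check_MA
  obtain ⟨e1, e2, e3, e4⟩ := den_es (v8 a b c 0 0 0 0 0) ha hb hc rfl rfl rfl
  rw [den_MA _ _ (sv a b c) e1 e2 e3 e4] at h0
  have hE : 0 < (a + 2 * b + 3 * c + 4) ^ 9 := by positivity
  exact nonneg_of_mul_nonneg_right (nonneg_of_mul_nonneg_right h0 hE) (by norm_num)

theorem BB_sv {a b c : ℝ} (ha : 0 ≤ a) (hb : 0 ≤ b) (hc : 0 ≤ c) : 0 ≤ BB (sv a b c) := by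
  have h0 := den_nonneg_of_kcheck (v8 a b c 0 0 0 0 0) 3 0 46 10
    (fun i _ => v8_nonneg ha hb hc (le_refl _) (le_refl _) (le_refl _) (le_refl _) (le_refl _) i)
    Q4S.MB Q4S.check_MB
  obtain ⟨e1, e2, e3, e4⟩ := den_es (v8 a b c 0 0 0 0 0) ha hb hc rfl rfl rfl
  rw [den_MB _ _ (sv a b c) e1 e2 e3 e4] at h0
  have hE : 0 < (a + 2 * b + 3 * c + 4) ^ 9 := by positivity
  exact nonneg_of_mul_nonneg_right (nonneg_of_mul_nonneg_right h0 hE) (by norm_num)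

theorem AA_nonneg (p : Fin 4 → ℝ) (hp : ∀ i, 0 < p i) (hs : ∑ i, p i = 1) : 0 ≤ AA p := by
  refine sorted_reduction_one (fun p => 0 ≤ AA p) (fun p s h => ?_) ?_ p hp hs
  · rw [AA_perm] at h
    exact h
  · intro a b c d ha hb hc hd hs
    rw [srt_eq_sv hd hs]
    exact AA_sv (div_nonneg ha hd.le) (div_nonneg hb hd.le) (div_nonneg hc hd.le)

theorem BB_nonneg (p : Fin 4 → ℝ) (hp : ∀ i, 0 < p i) (hs : ∑ i, p i = 1) : 0 ≤ BB p := by
  refine sorted_reduction_one (fun p => 0 ≤ BB p) (fun p s h => ?_) ?_ p hp hs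
  · rw [BB_perm] at h
    exact h
  · intro a b c d ha hb hc hd hs
    rw [srt_eq_sv hd hs]
    exact BB_sv (div_nonneg ha hd.le) (div_nonneg hb hd.le) (div_nonneg hc hd.le)

theorem SS_nonneg {D : ℝ} (h0 : 0 ≤ D) (h4 : D < 4) (p : Fin 4 → ℝ) (hp : ∀ i, 0 < p i)
    (hs : ∑ i, p i = 1) : 0 ≤ SS D (g2 p) (g3 p) (g4 p) := by
  refine sorted_reduction_one (fun p => 0 ≤ SS D (g2 p) (g3 p) (g4 p)) (fun p s h => ?_) ?_ p
    hp hs
  · rw [g2_perm, g3_perm, g4_perm] at h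
    exact h
  · intro a b c d ha hb hc hd hs
    rw [srt_eq_sv hd hs]
    exact SS_sv h0 h4 (div_nonneg ha hd.le) (div_nonneg hb hd.le) (div_nonneg hc hd.le)

end Vale.Agent.P154.Q4G
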