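import Vale.Agent.P154.Q4GIc
import Vale.Agent.P154.Q4GIIc

/-!
# Four states: the kernel core for every nonnegative parameter
-/

namespace Vale.Agent.P154.Q4G

open Finset Vale.Agent.P154.Up

theorem LL_unif : 0 ≤ LL (fun _ => 1 / ((4 : ℕ) : ℝ)) := by
  unfold LL iv2 iv3 iv4 cX cY cZ
  norm_num

theorem LL_vertex (x : Fin 4) : 0 ≤ LL (fun i => if x = i then 1 else 0) := by
  unfold LL iv2 iv3 iv4 cX cY cZ
  fin_cases x <;> simp <;> norm_num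

theorem abs_cX_le {p : Fin 4 → ℝ} (h : ∀ i, 0 ≤ p i) (hs : ∑ i, p i = 1) : cX p ^ 2 ≤ 1 := by
  rw [Fin.sum_univ_four] at hs
  have h0 := h 0
  have h1 := h 1
  have h2 := h 2
  have h3 := h 3
  unfold cX
  nlinarith [mul_nonneg (add_nonneg h0 h1) (add_nonneg h2 h3)]

theorem abs_cY_le {p : Fin 4 → ℝ} (h : ∀ i, 0 ≤ p i) (hs : ∑ i, p i = 1) : cY p ^ 2 ≤ 1 := by
  rw [Fin.sum_univ_four] at hs
  have h0 := h 0
  have h1 := h 1
  have h2 := h 2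
  have h3 := h 3
  unfold cY
  nlinarith [mul_nonneg (add_nonneg h0 h2) (add_nonneg h1 h3)]

theorem abs_cZ_le {p : Fin 4 → ℝ} (h : ∀ i, 0 ≤ p i) (hs : ∑ i, p i = 1) : cZ p ^ 2 ≤ 1 := by
  rw [Fin.sum_univ_four] at hs
  have h0 := h 0
  have h1 := h 1
  have h2 := h 2
  have h3 := h 3
  unfold cZ
  nlinarith [mul_nonneg (add_nonneg h0 h3) (add_nonneg h1 h2)]

theorem iv4_ge {p : Fin 4 → ℝ} (h : ∀ i, 0 ≤ p i) (hs : ∑ i, p i = 1) :
    3 * iv3 p ^ 2 ≤ iv4 p := by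
  have hx := abs_cX_le h hs
  have hy := abs_cY_le h hs
  have hz := abs_cZ_le h hs
  have a1 := sq_nonneg (cX p * cY p)
  have a2 := sq_nonneg (cY p * cZ p)
  have a3 := sq_nonneg (cZ p * cX p)
  have b1 := mul_le_mul_of_nonneg_left hz a1
  have b2 := mul_le_mul_of_nonneg_left hx a2
  have b3 := mul_le_mul_of_nonneg_left hy a3
  unfold iv3 iv4
  nlinarith

theorem LL_noise {lam : ℝ} (h0 : 0 ≤ lam) (h1 : lam ≤ 1) (p : Fin 4 → ℝ) (h : ∀ i, 0 ≤ p i)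
    (hs : ∑ i, p i = 1) :
    lam ^ 3 * LL p ≤ LL (fun i => lam * p i + (1 - lam) / (4 : ℕ)) := by
  unfold LL
  rw [iv2_noise, iv3_noise, iv4_noise]
  have hQ := iv4_ge h hs
  have key : 0 ≤ 19 / 20 * iv2 p ^ 2 + 21 / 200 * iv4 p
      - 51 / 100 * (1 + lam) * (iv2 p * iv3 p) := by
    have h2 : 0 ≤ 19 / 20 * iv2 p ^ 2 + 63 / 200 * iv3 p ^ 2
      - 51 / 100 * (1 + lam) * (iv2 p * iv3 p) := by
      have h3 : 0 ≤ (iv2 p - 51 / 190 * (1 + lam) * iv3 p) ^ 2 := sq_nonneg _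
      have h4 : (1 + lam) ^ 2 ≤ 4 := by nlinarith
      have h5 := mul_le_mul_of_nonneg_right h4 (sq_nonneg (iv3 p))
      nlinarith [sq_nonneg (iv3 p)]
    linarith
  have h6 : 0 ≤ lam ^ 3 * (1 - lam) := mul_nonneg (pow_nonneg h0 3) (by linarith)
  have h7 := mul_nonneg h6 key
  nlinarith

theorem kernelCore_four {lam : ℝ} (h0 : 0 < lam) (h1 : lam < 1) :
    KernelCore 4 lam (1 / 100) LL AA BB where
  unif := LL_unif
  vertex := LL_vertex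
  noise := LL_noise h0.le h1.le
  A_nonneg := AA_nonneg
  B_nonneg := BB_nonneg
  ineqM := ineqM_four
  ineqL := ineqL_four

end Vale.Agent.P154.Q4G
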