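import Vale.Agent.P154.Bern4b
import Vale.Agent.P154.MtA

/-!
# Four states: from elementary symmetric functions to the invariants
-/

namespace Vale.Agent.P154.Q4G

open PE Finset Vale.Agent.P154.Up

/-- list of coefficients of monomial means -/
abbrev TL := List (Ex × ℤ)

/-- polynomial in the monomial means -/
noncomputable def tv (N : ℝ) (L : TL) (w : Fin 4 → ℝ) : ℝ :=
  1 / N * sumR (fun e => (e.2 : ℝ) * mm e.1 w) L

/-- bilinear form in the monomial means -/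
noncomputable def tb (N : ℝ) (L : TL) (x y : Fin 4 → ℝ) : ℝ :=
  1 / N * sumR (fun e => (e.2 : ℝ) * (mm e.1 x * mm e.1 y)) L

theorem tv_eq (N : ℝ) (L : TL) (w : Fin 4 → ℝ) : tv N L w = ∑ j : Fin L.length,
    (1 / N * (L[j].2 : ℝ)) * mt ![(L[j]).1.1, (L[j]).1.2.1, (L[j]).1.2.2.1, (L[j]).1.2.2.2] w := by
  rw [tv, sumR_eq, ← Fin.sum_univ_fun_getElem, Finset.mul_sum]
  refine Finset.sum_congr rfl fun j _ => ?_
  rw [mul_assoc]
  rfl

theorem tb_eq (N : ℝ) (L : TL) (x y : Fin 4 → ℝ) : tb N L x y = ∑ j : Fin L.length,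
    (1 / N * (L[j].2 : ℝ)) * (mt ![(L[j]).1.1, (L[j]).1.2.1, (L[j]).1.2.2.1, (L[j]).1.2.2.2] x *
      mt ![(L[j]).1.1, (L[j]).1.2.1, (L[j]).1.2.2.1, (L[j]).1.2.2.2] y) := by
  rw [tb, sumR_eq, ← Fin.sum_univ_fun_getElem, Finset.mul_sum]
  refine Finset.sum_congr rfl fun j _ => ?_
  rw [mul_assoc]
  rfl

theorem tb_le_KS (N : ℝ) (L : TL) (φ : (Fin 4 → ℝ) → ℝ) (p r : Fin 4 → ℝ)
    (h : ∀ σ : Equiv.Perm (Fin 4),
      tv N L (fun i => (4 * p i) * (4 * r (σ i))) ≤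
        overlap p (fun i => r (σ i)) * φ (comb p (fun i => r (σ i)))) :
    tb N L (fun i => 4 * p i) (fun i => 4 * r i) ≤ KS φ p r := by
  have h4 : ((4 : ℕ) : ℝ) = 4 := by norm_num
  have := KS_ge (q := 4) Finset.univ (fun j : Fin L.length => (1 / N * (L[j].2 : ℝ)))
    (fun j => ![(L[j]).1.1, (L[j]).1.2.1, (L[j]).1.2.2.1, (L[j]).1.2.2.2]) φ p r (fun σ => by
      have h1 := h σ
      rw [tv_eq] at h1
      rw [h4]
      exact h1)
  rw [h4] at this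
  rw [tb_eq]
  exact this

theorem KS_le_tb (N : ℝ) (L : TL) (φ : (Fin 4 → ℝ) → ℝ) (p r : Fin 4 → ℝ)
    (h : ∀ σ : Equiv.Perm (Fin 4),
      overlap p (fun i => r (σ i)) * φ (comb p (fun i => r (σ i))) ≤
        tv N L (fun i => (4 * p i) * (4 * r (σ i)))) :
    KS φ p r ≤ tb N L (fun i => 4 * p i) (fun i => 4 * r i) := by
  have h4 : ((4 : ℕ) : ℝ) = 4 := by norm_num
  have := KS_le (q := 4) Finset.univ (fun j : Fin L.length => (1 / N * (L[j].2 : ℝ)))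
    (fun j => ![(L[j]).1.1, (L[j]).1.2.1, (L[j]).1.2.2.1, (L[j]).1.2.2.2]) φ p r (fun σ => by
      have h1 := h σ
      rw [tv_eq] at h1
      rw [h4]
      exact h1)
  rw [h4] at this
  rw [tb_eq]
  exact this

/-- `8/3` times the second elementary symmetric function -/
noncomputable def g2 (p : Fin 4 → ℝ) : ℝ := 1 - iv2 p
/-- `16` times the third elementary symmetric function -/
noncomputable def g3 (p : Fin 4 → ℝ) : ℝ := 1 - 3 * iv2 p + 2 * iv3 p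
/-- `256` times the fourth elementary symmetric function -/
noncomputable def g4 (p : Fin 4 → ℝ) : ℝ :=
  1 - 6 * iv2 p + 9 * iv2 p ^ 2 + 8 * iv3 p - 4 * iv4 p

theorem iv2_g (p : Fin 4 → ℝ) : iv2 p = 1 - g2 p := by unfold g2; ring
theorem iv3_g (p : Fin 4 → ℝ) : iv3 p = 1 - 3 / 2 * g2 p + 1 / 2 * g3 p := by
  unfold g2 g3; ring
theorem iv4_g (p : Fin 4 → ℝ) :
    iv4 p = 3 - 6 * g2 p + g3 p + 9 / 4 * g2 p ^ 2 - 1 / 4 * g4 p := by
  unfold g2 g3 g4; ring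

theorem el1_sc (c : ℝ) {p : Fin 4 → ℝ} (h : ∑ i, p i = 1) :
    el1 (c * p 0) (c * p 1) (c * p 2) (c * p 3) = c := by
  rw [Fin.sum_univ_four] at h
  unfold el1
  linear_combination c * h

theorem el2_sc (c : ℝ) {p : Fin 4 → ℝ} (h : ∑ i, p i = 1) :
    el2 (c * p 0) (c * p 1) (c * p 2) (c * p 3) = c ^ 2 * (3 / 8 * g2 p) := by
  rw [Fin.sum_univ_four] at h
  have h3 : p 3 = 1 - p 0 - p 1 - p 2 := by linarith
  unfold el2 g2 iv2 cX cY cZ
  rw [h3]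
  ring

theorem el3_sc (c : ℝ) {p : Fin 4 → ℝ} (h : ∑ i, p i = 1) :
    el3 (c * p 0) (c * p 1) (c * p 2) (c * p 3) = c ^ 3 * (1 / 16 * g3 p) := by
  rw [Fin.sum_univ_four] at h
  have h3 : p 3 = 1 - p 0 - p 1 - p 2 := by linarith
  unfold el3 g3 iv2 iv3 cX cY cZ
  rw [h3]
  ring

theorem el4_sc (c : ℝ) {p : Fin 4 → ℝ} (h : ∑ i, p i = 1) :
    el4 (c * p 0) (c * p 1) (c * p 2) (c * p 3) = c ^ 4 * (1 / 256 * g4 p) := by
  rw [Fin.sum_univ_four] at h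
  have h3 : p 3 = 1 - p 0 - p 1 - p 2 := by linarith
  unfold el4 g4 iv2 iv3 iv4 cX cY cZ
  rw [h3]
  ring

theorem sum_sv {a b c : ℝ} (ha : 0 ≤ a) (hb : 0 ≤ b) (hc : 0 ≤ c) : ∑ i, sv a b c i = 1 := by
  have h0 : a + 2 * b + 3 * c + 4 ≠ 0 := by positivity
  rw [Fin.sum_univ_four]
  simp only [sv, Matrix.cons_val_zero, Matrix.cons_val_one, Matrix.cons_val]
  field_simp
  ring

theorem sv_pos {a b c : ℝ} (ha : 0 ≤ a) (hb : 0 ≤ b) (hc : 0 ≤ c) (i : Fin 4) :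
    0 < sv a b c i := by
  have h0 : 0 < a + 2 * b + 3 * c + 4 := by positivity
  refine div_pos ?_ h0
  fin_cases i
  · simp only [Fin.zero_eta, Matrix.cons_val_zero]; positivity
  · simp only [Fin.mk_one, Matrix.cons_val_one, Matrix.cons_val_zero]; positivity
  · simp only [Fin.reduceFinMk, Matrix.cons_val]; positivity
  · simp only [Fin.reduceFinMk, Matrix.cons_val]; positivity

theorem sc_sv {a b c : ℝ} (ha : 0 ≤ a) (hb : 0 ≤ b) (hc : 0 ≤ c) :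
    (a + 2 * b + 3 * c + 4) * sv a b c 0 = a + b + c + 1 ∧
    (a + 2 * b + 3 * c + 4) * sv a b c 1 = b + c + 1 ∧
    (a + 2 * b + 3 * c + 4) * sv a b c 2 = c + 1 ∧
    (a + 2 * b + 3 * c + 4) * sv a b c 3 = 1 := by
  have h0 : a + 2 * b + 3 * c + 4 ≠ 0 := by positivity
  refine ⟨?_, ?_, ?_, ?_⟩
  · simp only [sv, Matrix.cons_val_zero]; field_simp
  · simp only [sv, Matrix.cons_val_one, Matrix.cons_val_zero]; field_simp
  · simp only [sv, Matrix.cons_val]; field_simp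
  · simp only [sv, Matrix.cons_val]; field_simp

theorem sv_e2 {a b c : ℝ} (ha : 0 ≤ a) (hb : 0 ≤ b) (hc : 0 ≤ c) :
    (a + b + c + 1) * (b + c + 1) + (a + b + c + 1) * (c + 1) + (b + c + 1) * (c + 1)
      + (a + b + c + 1) + (b + c + 1) + (c + 1) =
      (a + 2 * b + 3 * c + 4) ^ 2 * (3 / 8 * g2 (sv a b c)) := by
  obtain ⟨h0, h1, h2, h3⟩ := sc_sv ha hb hc
  rw [← el2_sc _ (sum_sv ha hb hc), h0, h1, h2, h3, el2]
  ring

theorem sv_e3 {a b c : ℝ} (ha : 0 ≤ a) (hb : 0 ≤ b) (hc : 0 ≤ c) :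
    (a + b + c + 1) * (b + c + 1) * (c + 1) + (a + b + c + 1) * (b + c + 1)
      + (a + b + c + 1) * (c + 1) + (b + c + 1) * (c + 1) =
      (a + 2 * b + 3 * c + 4) ^ 3 * (1 / 16 * g3 (sv a b c)) := by
  obtain ⟨h0, h1, h2, h3⟩ := sc_sv ha hb hc
  rw [← el3_sc _ (sum_sv ha hb hc), h0, h1, h2, h3, el3]
  ring

theorem sv_e4 {a b c : ℝ} (ha : 0 ≤ a) (hb : 0 ≤ b) (hc : 0 ≤ c) :
    (a + b + c + 1) * (b + c + 1) * (c + 1) =
      (a + 2 * b + 3 * c + 4) ^ 4 * (1 / 256 * g4 (sv a b c)) := by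
  obtain ⟨h0, h1, h2, h3⟩ := sc_sv ha hb hc
  rw [← el4_sc _ (sum_sv ha hb hc), h0, h1, h2, h3, el4]
  ring

/-- the product of two posteriors as a multiple of their combination -/
theorem prod_comb {p r : Fin 4 → ℝ} (hp : ∀ i, 0 < p i) (hr : ∀ i, 0 < r i)
    (hps : ∑ i, p i = 1) (hrs : ∑ i, r i = 1) :
    0 < overlap p r ∧ overlap p r < 4 ∧ (∀ i, 0 < comb p r i) ∧ ∑ i, comb p r i = 1 ∧
      ∀ i, (4 * p i) * (4 * r i) = 4 * overlap p r * comb p r i := by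
  have hs : 0 < ∑ j, p j * r j :=
    Finset.sum_pos (fun i _ => mul_pos (hp i) (hr i)) ⟨0, mem_univ _⟩
  have hlt : ∑ j, p j * r j < 1 := by
    rw [← hrs]
    refine Finset.sum_lt_sum_of_nonempty ⟨0, mem_univ _⟩ fun i _ => ?_
    have h1 : p i < 1 := by
      rw [← hps]
      have h2 : ∃ j : Fin 4, j ≠ i := exists_ne i
      obtain ⟨j, hj⟩ := h2
      exact Finset.single_lt_sum hj (mem_univ i) (mem_univ j) (hp j) fun k _ _ => (hp k).le
    have h2 := hr i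
    nlinarith
  refine ⟨?_, ?_, fun i => ?_, ?_, fun i => ?_⟩
  · unfold overlap; positivity
  · unfold overlap; push_cast; linarith
  · unfold comb; exact div_pos (mul_pos (hp i) (hr i)) hs
  · unfold comb
    rw [← Finset.sum_div, div_self hs.ne']
  · unfold overlap comb
    push_cast
    field_simp

end Vale.Agent.P154.Q4G
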