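import Vale.Agent.P154.Q4GD
import Vale.Agent.P154.MtB
import Vale.Agent.P154.MtC
import Vale.Agent.P154.Q4I

/-!
# Four states: first inequality
-/

namespace Vale.Agent.P154.Q4G

open PE Finset Vale.Agent.P154.Up

set_option maxHeartbeats 0

theorem tvI_eq (D : ℝ) (z w : Fin 4 → ℝ) (hw : ∑ i, w i = 1) (hz : ∀ i, z i = 4 * D * w i) :
    tv 204800 LI z = D - D ^ 2 * g2 w * tauI D := by
  have h1 : el1 (z 0) (z 1) (z 2) (z 3) = 4 * D := by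
    rw [hz, hz, hz, hz, el1_sc (4 * D) hw]
  have h2 : el2 (z 0) (z 1) (z 2) (z 3) = (4 * D) ^ 2 * (3 / 8 * g2 w) := by
    rw [hz, hz, hz, hz, el2_sc (4 * D) hw]
  have h3 : el3 (z 0) (z 1) (z 2) (z 3) = (4 * D) ^ 3 * (1 / 16 * g3 w) := by
    rw [hz, hz, hz, hz, el3_sc (4 * D) hw]
  have h4 : el4 (z 0) (z 1) (z 2) (z 3) = (4 * D) ^ 4 * (1 / 256 * g4 w) := by
    rw [hz, hz, hz, hz, el4_sc (4 * D) hw]
  simp only [tv, LI, sumR, mm, mt_four, mtE_1000, mtE_1100, mtE_1110, mtE_2100, mtE_1111, mtE_2110, mtE_2200, mtE_3100, mtE_2111, mtE_2210, mtE_3110, mtE_3200, mtE_4100, mtE_2211, mtE_2220, mtE_3111, mtE_3210, mtE_3300, mtE_4110, mtE_4200, mtE_5100, mtE_2221, mtE_3211, mtE_3220, mtE_3310, mtE_4111, mtE_4210, mtE_4300, mtE_5110, mtE_5200, mtE_6100, h1, h2, h3, h4, tauI]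
  push_cast
  ring

/-- majorant -/
theorem boundI {p r : Fin 4 → ℝ} (hp : ∀ i, 0 < p i) (hr : ∀ i, 0 < r i)
    (hps : ∑ i, p i = 1) (hrs : ∑ i, r i = 1) :
    KS rr p r ≤ tb 204800 LI (fun i => 4 * p i) (fun i => 4 * r i) := by
  refine KS_le_tb _ _ _ _ _ fun σ => ?_
  have hrs' : ∑ i, r (σ i) = 1 := by rw [Equiv.sum_comp σ r, hrs]
  obtain ⟨h0, -, hw0, hw1, hz⟩ := prod_comb hp (fun i => hr (σ i)) hps hrs'
  rw [tvI_eq (overlap p fun i => r (σ i)) _ _ hw1 hz, rr_four hw1, iv2_g]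
  have hg : 0 ≤ g2 (comb p fun i => r (σ i)) := by
    have h1 := el2_sc 1 hw1
    have h2 : 0 ≤ el2 (1 * comb p (fun i => r (σ i)) 0) (1 * comb p (fun i => r (σ i)) 1)
        (1 * comb p (fun i => r (σ i)) 2) (1 * comb p (fun i => r (σ i)) 3) := by
      have h0 := hw0 0
      have h1 := hw0 1
      have h2 := hw0 2
      have h3 := hw0 3
      unfold el2
      positivity
    rw [h1] at h2
    linarith
  have ht := tauI_le (overlap p fun i => r (σ i))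
  have h5 : 0 ≤ (overlap p fun i => r (σ i)) * g2 (comb p fun i => r (σ i)) *
      (1 - (overlap p fun i => r (σ i)) * tauI (overlap p fun i => r (σ i))) :=
    mul_nonneg (mul_nonneg h0.le hg) (by linarith)
  nlinarith

theorem den_FI (v : ℕ → ℝ) (E E' x2 x3 x4 y2 y3 y4 : ℝ)
    (h1 : den v Q4I.e1 = E) (h2 : den v Q4I.e2 = E ^ 2 * (3 / 8 * x2))
    (h3 : den v Q4I.e3 = E ^ 3 * (1 / 16 * x3)) (h4 : den v Q4I.e4 = E ^ 4 * (1 / 256 * x4))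
    (k1 : den v Q4I.f1 = E') (k2 : den v Q4I.f2 = E' ^ 2 * (3 / 8 * y2))
    (k3 : den v Q4I.f3 = E' ^ 3 * (1 / 16 * y3)) (k4 : den v Q4I.f4 = E' ^ 4 * (1 / 256 * y4))
    (p r : Fin 4 → ℝ) (hps : ∑ i, p i = 1) (hrs : ∑ i, r i = 1)
    (hx2 : g2 p = x2) (hx3 : g3 p = x3) (hx4 : g4 p = x4)
    (hy2 : g2 r = y2) (hy3 : g3 r = y3) (hy4 : g4 r = y4) :
    den v Q4I.F = E ^ 9 * E' ^ 9 *
     (121500 * (iv2 p + iv2 r - tb 204800 LI (fun i => 4 * p i) (fun i => 4 * r i)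
      - 1 / 100 * (iv2 p ^ 2 * iv2 r + iv2 p * iv2 r ^ 2) - (AA r * LL p + AA p * LL r))) := by
  have a1 := el1_sc 4 hps
  have a2 := el2_sc 4 hps
  have a3 := el3_sc 4 hps
  have a4 := el4_sc 4 hps
  have b1 := el1_sc 4 hrs
  have b2 := el2_sc 4 hrs
  have b3 := el3_sc 4 hrs
  have b4 := el4_sc 4 hrs
  simp only [tb, LI, sumR, mm, mt_four, mtE_1000, mtE_1100, mtE_1110, mtE_2100, mtE_1111, mtE_2110, mtE_2200, mtE_3100, mtE_2111, mtE_2210, mtE_3110, mtE_3200, mtE_4100, mtE_2211, mtE_2220, mtE_3111, mtE_3210, mtE_3300, mtE_4110, mtE_4200, mtE_5100, mtE_2221, mtE_3211, mtE_3220, mtE_3310, mtE_4111, mtE_4210, mtE_4300, mtE_5110, mtE_5200, mtE_6100, a1, a2, a3, a4, b1, b2, b3, b4, AA, LL, iv2_g,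
    iv3_g, iv4_g, hx2, hx3, hx4, hy2, hy3, hy4]
  simp only [Q4I.F, Q4I.g0, Q4I.g1, Q4I.g2, Q4I.g3, Q4I.g4, Q4I.g5, Q4I.g6, Q4I.g7, Q4I.g8,
    Q4I.g9, Q4I.g10, den_add, den_mul, den_pow, den_C, h1, h2, h3, h4, k1, k2, k3, k4]
  push_cast
  ring


end Vale.Agent.P154.Q4G
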