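import Vale.Agent.P154.Q4GD
import Vale.Agent.P154.MtB
import Vale.Agent.P154.MtC
import Vale.Agent.P154.MtD

/-!
# Four states: pointwise minorant
-/

namespace Vale.Agent.P154.Q4G

open PE Finset Vale.Agent.P154.Up

set_option maxHeartbeats 0

theorem tvII_eq (D : ℝ) (z w : Fin 4 → ℝ) (hw : ∑ i, w i = 1) (hz : ∀ i, z i = 4 * D * w i) :
    tv 966367641600 LII z = D * LL w - (D - 1) ^ 2 * SS D (g2 w) (g3 w) (g4 w) := by
  have h1 : el1 (z 0) (z 1) (z 2) (z 3) = 4 * D := by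
    rw [hz, hz, hz, hz, el1_sc (4 * D) hw]
  have h2 : el2 (z 0) (z 1) (z 2) (z 3) = (4 * D) ^ 2 * (3 / 8 * g2 w) := by
    rw [hz, hz, hz, hz, el2_sc (4 * D) hw]
  have h3 : el3 (z 0) (z 1) (z 2) (z 3) = (4 * D) ^ 3 * (1 / 16 * g3 w) := by
    rw [hz, hz, hz, hz, el3_sc (4 * D) hw]
  have h4 : el4 (z 0) (z 1) (z 2) (z 3) = (4 * D) ^ 4 * (1 / 256 * g4 w) := by
    rw [hz, hz, hz, hz, el4_sc (4 * D) hw]
  simp only [tv, LII, sumR, mm, mt_four, mtE_0000, mtE_1000, mtE_1100, mtE_2000, mtE_1110, mtE_2100, mtE_3000, mtE_1111, mtE_2110, mtE_2200, mtE_3100, mtE_4000, mtE_2111, mtE_2210, mtE_3110, mtE_3200, mtE_4100, mtE_5000, mtE_2211, mtE_2220, mtE_3111, mtE_3210, mtE_3300, mtE_4110, mtE_4200, mtE_5100, mtE_6000, mtE_2221, mtE_3211, mtE_3220, mtE_3310, mtE_4111, mtE_4210, mtE_4300, mtE_5110, mtE_5200, mtE_6100, mtE_7000, mtE_2222, mtE_3221, mtE_3311, mtE_3320, mtE_4211,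 mtE_4220, mtE_4310, mtE_4400, mtE_5111, mtE_5210, mtE_5300, mtE_6110, mtE_6200, mtE_7100, mtE_8000, mtE_3222, mtE_3321, mtE_3330, mtE_4221, mtE_4311, mtE_4320, mtE_4410, mtE_5211, mtE_5220, mtE_5310, mtE_5400, mtE_6111, mtE_6210, mtE_6300, mtE_7110, mtE_7200, mtE_8100, mtE_9000, h1, h2, h3, h4, LL, SS, iv2_g, iv3_g, iv4_g]
  push_cast
  ring

end Vale.Agent.P154.Q4G
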