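import Vale.Agent.P154.Q4GI

/-!
# Four states: first inequality, conclusion
-/

namespace Vale.Agent.P154.Q4G

open PE Finset Vale.Agent.P154.Up

theorem den_e_I {a b c x y z : ℝ} (ha : 0 ≤ a) (hb : 0 ≤ b) (hc : 0 ≤ c) (hx : 0 ≤ x)
    (hy : 0 ≤ y) (hz : 0 ≤ z) :
    0 ≤ iv2 (sv a b c) + iv2 (sv x y z)
      - tb 204800 LI (fun i => 4 * sv a b c i) (fun i => 4 * sv x y z i)
      - 1 / 100 * (iv2 (sv a b c) ^ 2 * iv2 (sv x y z) + iv2 (sv a b c) * iv2 (sv x y z) ^ 2)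
      - (AA (sv x y z) * LL (sv a b c) + AA (sv a b c) * LL (sv x y z)) := by
  set v := v8 x y z a b c 0 0 with hv
  have h0 := den_nonneg_of_kcheck v 3 3 87 10 (fun i _ => v8_nonneg hx hy hz ha hb hc
    (le_refl _) (le_refl _) i) _ Q4I.check
  have e1 : den v Q4I.e1 = a + 2 * b + 3 * c + 4 := by
    simp only [Q4I.e1, Q4I.a, Q4I.b, Q4I.c, den_add, den_mul, den_X, den_ofNat, hv, v8]
    norm_num
  have eA0 : den v Q4I.A0 = a + b + c + 1 := by
    simp only [Q4I.A0, Q4I.a, Q4I.b, Q4I.c, den_add, den_X, den_ofNat, hv, v8]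
    norm_num
  have eA1 : den v Q4I.A1 = b + c + 1 := by
    simp only [Q4I.A1, Q4I.b, Q4I.c, den_add, den_X, den_ofNat, hv, v8]
    norm_num
  have eA2 : den v Q4I.A2 = c + 1 := by
    simp only [Q4I.A2, Q4I.c, den_add, den_X, den_ofNat, hv, v8]
    norm_num
  have f1 : den v Q4I.f1 = x + 2 * y + 3 * z + 4 := by
    simp only [Q4I.f1, Q4I.p, Q4I.q, Q4I.r, den_add, den_mul, den_X, den_ofNat, hv, v8]
    norm_num
  have eB0 : den v Q4I.B0 = x + y + z + 1 := by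
    simp only [Q4I.B0, Q4I.p, Q4I.q, Q4I.r, den_add, den_X, den_ofNat, hv, v8]
    norm_num
  have eB1 : den v Q4I.B1 = y + z + 1 := by
    simp only [Q4I.B1, Q4I.q, Q4I.r, den_add, den_X, den_ofNat, hv, v8]
    norm_num
  have eB2 : den v Q4I.B2 = z + 1 := by
    simp only [Q4I.B2, Q4I.r, den_add, den_X, den_ofNat, hv, v8]
    norm_num
  have h := den_FI v _ _ (g2 (sv a b c)) (g3 (sv a b c)) (g4 (sv a b c)) (g2 (sv x y z))
    (g3 (sv x y z)) (g4 (sv x y z)) e1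
    (by rw [← sv_e2 ha hb hc]; simp only [Q4I.e2, den_add, den_mul, eA0, eA1, eA2])
    (by rw [← sv_e3 ha hb hc]; simp only [Q4I.e3, den_add, den_mul, eA0, eA1, eA2])
    (by rw [← sv_e4 ha hb hc]; simp only [Q4I.e4, den_mul, eA0, eA1, eA2])
    f1
    (by rw [← sv_e2 hx hy hz]; simp only [Q4I.f2, den_add, den_mul, eB0, eB1, eB2])
    (by rw [← sv_e3 hx hy hz]; simp only [Q4I.f3, den_add, den_mul, eB0, eB1, eB2])
    (by rw [← sv_e4 hx hy hz]; simp only [Q4I.f4, den_mul, eB0, eB1, eB2])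
    (sv a b c) (sv x y z) (sum_sv ha hb hc) (sum_sv hx hy hz) rfl rfl rfl rfl rfl rfl
  rw [h] at h0
  have hE : 0 < (a + 2 * b + 3 * c + 4) ^ 9 * (x + 2 * y + 3 * z + 4) ^ 9 := by positivity
  exact nonneg_of_mul_nonneg_right (nonneg_of_mul_nonneg_right h0 hE) (by norm_num)

theorem aux_le {K T a c m : ℝ} (h1 : K ≤ T) (h2 : 0 ≤ a - T - c - m) : K ≤ a - c - m := by
  linarith

theorem ineqM_four (p r : Fin 4 → ℝ) (hp : ∀ i, 0 < p i) (hr : ∀ i, 0 < r i)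
    (hps : ∑ i, p i = 1) (hrs : ∑ i, r i = 1) :
    KS rr p r ≤ rr p + rr r - 1 / 100 * (rr p ^ 2 * rr r + rr p * rr r ^ 2)
      - (AA r * LL p + AA p * LL r) := by
  refine sorted_reduction (fun p r => KS rr p r ≤ rr p + rr r
    - 1 / 100 * (rr p ^ 2 * rr r + rr p * rr r ^ 2) - (AA r * LL p + AA p * LL r))
    (fun p r s t h => ?_) ?_ p r hp hr hps hrs
  · rw [KS_perm rr rr_perm, rr_perm, rr_perm, AA_perm, AA_perm, LL_perm, LL_perm] at h
    exact h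
  · intro a b c d a' b' c' d' ha hb hc hd ha' hb' hc' hd' hs hs'
    rw [srt_eq_sv hd hs, srt_eq_sv hd' hs']
    have h1 := div_nonneg ha hd.le
    have h2 := div_nonneg hb hd.le
    have h3 := div_nonneg hc hd.le
    have h4 := div_nonneg ha' hd'.le
    have h5 := div_nonneg hb' hd'.le
    have h6 := div_nonneg hc' hd'.le
    have k1 := boundI (sv_pos h1 h2 h3) (sv_pos h4 h5 h6) (sum_sv h1 h2 h3) (sum_sv h4 h5 h6)
    have k2 := den_e_I h1 h2 h3 h4 h5 h6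
    rw [rr_four (sum_sv h1 h2 h3), rr_four (sum_sv h4 h5 h6)]
    exact aux_le k1 k2

end Vale.Agent.P154.Q4G
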