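import Mathlib

/-!
# A small kernel-computable polynomial arithmetic

`Pol n` is the type of integer polynomials in `n` variables in nested dense form.
-/

namespace Vale.Agent.P154

/-- nested dense polynomials over the integers -/
def Pol : ℕ → Type
  | 0 => ℤ
  | n + 1 => List (Pol n)

/-- pointwise addition of lists -/
def ladd {α : Type} (f : α → α → α) : List α → List α → List α
  | [], b => b
  | a, [] => a
  | x :: a, y :: b => f x y :: ladd f a b

/-- addition -/
def padd : (n : ℕ) → Pol n → Pol n → Pol n
  | 0 => fun a b => Int.add a b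
  | n + 1 => ladd (padd n)

/-- zero -/
def pzero : (n : ℕ) → Pol n
  | 0 => (0 : ℤ)
  | _ + 1 => []

/-- list multiplication -/
def lmul {α : Type} (z : α) (ad mu : α → α → α) : List α → List α → List α
  | [], _ => []
  | x :: a, b => ladd ad (b.map (mu x)) (z :: lmul z ad mu a b)

/-- multiplication -/
def pmul : (n : ℕ) → Pol n → Pol n → Pol n
  | 0 => fun a b => Int.mul a b
  | n + 1 => lmul (pzero n) (padd n) (pmul n)

/-- negation -/
def pneg : (n : ℕ) → Pol n → Pol n
  | 0 => fun a => Int.neg a
  | n + 1 => fun a => List.map (pneg n) a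

/-- constants -/
def pconst : (n : ℕ) → ℤ → Pol n
  | 0 => fun c => c
  | n + 1 => fun c => [pconst n c]

/-- variable number `i`; the outermost variable of `Pol (n+1)` has number `n` -/
def pvar : (n : ℕ) → ℕ → Pol n
  | 0 => fun _ => (0 : ℤ)
  | n + 1 => fun i => if i = n then [pzero n, pconst n 1] else [pvar n i]

/-- all coefficients are nonnegative -/
def pnonneg : (n : ℕ) → Pol n → Bool
  | 0 => fun a => match a with
    | Int.ofNat _ => true
    | Int.negSucc _ => false
  | n + 1 => fun a => List.all a (pnonneg n)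

/-- evaluation of a list -/
noncomputable def lev {α : Type} (e : α → ℝ) (x : ℝ) : List α → ℝ
  | [] => 0
  | c :: l => e c + x * lev e x l

/-- evaluation -/
noncomputable def pev (v : ℕ → ℝ) : (n : ℕ) → Pol n → ℝ
  | 0 => fun a => @Int.cast ℝ _ a
  | n + 1 => lev (pev v n) (v n)

theorem lev_ladd {α : Type} (e : α → ℝ) (x : ℝ) (f : α → α → α)
    (hf : ∀ a b, e (f a b) = e a + e b) (a b : List α) :
    lev e x (ladd f a b) = lev e x a + lev e x b := by
  induction a generalizing b with
  | nil => simp [ladd, lev]
  | cons c l ih =>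
    cases b with
    | nil => simp [ladd, lev]
    | cons d m => simp only [ladd, lev, hf, ih]; ring

theorem pev_padd (v : ℕ → ℝ) (n : ℕ) (a b : Pol n) :
    pev v n (padd n a b) = pev v n a + pev v n b := by
  induction n with
  | zero =>
    exact Int.cast_add (R := ℝ) a b
  | succ n ih => exact lev_ladd _ _ _ ih a b

theorem pev_pzero (v : ℕ → ℝ) (n : ℕ) : pev v n (pzero n) = 0 := by
  cases n with
  | zero => exact Int.cast_zero (R := ℝ)
  | succ n => rfl

theorem lev_map_mul {α : Type} (e : α → ℝ) (x : ℝ) (mu : α → α → α)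
    (hm : ∀ a b, e (mu a b) = e a * e b) (c : α) (b : List α) :
    lev e x (b.map (mu c)) = e c * lev e x b := by
  induction b with
  | nil => simp [lev]
  | cons d m ih => simp only [List.map, lev, hm, ih]; ring

theorem lev_lmul {α : Type} (e : α → ℝ) (x : ℝ) (z : α) (ad mu : α → α → α)
    (hz : e z = 0) (ha : ∀ a b, e (ad a b) = e a + e b)
    (hm : ∀ a b, e (mu a b) = e a * e b) (a b : List α) :
    lev e x (lmul z ad mu a b) = lev e x a * lev e x b := by
  induction a with
  | nil => simp [lmul, lev]
  | cons c l ih =>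
    simp only [lmul, lev, lev_ladd e x ad ha, lev_map_mul e x mu hm, hz, ih]; ring

theorem pev_pmul (v : ℕ → ℝ) (n : ℕ) (a b : Pol n) :
    pev v n (pmul n a b) = pev v n a * pev v n b := by
  induction n with
  | zero => exact Int.cast_mul (α := ℝ) a b
  | succ n ih => exact lev_lmul _ _ _ _ _ (pev_pzero v n) (pev_padd v n) ih a b

theorem lev_map_neg {α : Type} (e : α → ℝ) (x : ℝ) (ng : α → α)
    (hn : ∀ a, e (ng a) = - e a) (b : List α) :
    lev e x (b.map ng) = - lev e x b := by
  induction b with
  | nil => simp [lev]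
  | cons d m ih => simp only [List.map, lev, hn, ih]; ring

theorem pev_pneg (v : ℕ → ℝ) (n : ℕ) (a : Pol n) :
    pev v n (pneg n a) = - pev v n a := by
  induction n with
  | zero => exact Int.cast_neg (R := ℝ) a
  | succ n ih => exact lev_map_neg _ _ _ ih a

theorem pev_pconst (v : ℕ → ℝ) (n : ℕ) (c : ℤ) : pev v n (pconst n c) = c := by
  induction n with
  | zero =>
    show @Int.cast ℝ _ c = c
    rfl
  | succ n ih =>
    show pev v n (pconst n c) + v n * 0 = c
    rw [ih]; ring

theorem pev_pvar (v : ℕ → ℝ) (n : ℕ) (i : ℕ) (h : i < n) : pev v n (pvar n i) = v i := by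
  induction n with
  | zero => omega
  | succ n ih =>
    by_cases hi : i = n
    · subst hi
      have e : pvar (i + 1) i = (show Pol (i + 1) from [pzero i, pconst i 1]) :=
        if_pos (rfl : i = i)
      refine (congrArg (pev v (i + 1)) e).trans ?_
      show pev v i (pzero i) + v i * (pev v i (pconst i 1) + v i * 0) = v i
      rw [pev_pzero, pev_pconst]; push_cast; ring
    · have e : pvar (n + 1) i = (show Pol (n + 1) from [pvar n i]) := if_neg hi
      refine (congrArg (pev v (n + 1)) e).trans ?_
      show pev v n (pvar n i) + v n * 0 = v i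
      rw [ih (by omega)]; ring

theorem lev_nonneg {α : Type} (e : α → ℝ) (x : ℝ) (hx : 0 ≤ x) (l : List α)
    (h : ∀ a ∈ l, 0 ≤ e a) : 0 ≤ lev e x l := by
  induction l with
  | nil => exact le_refl _
  | cons c l ih =>
    have h1 : 0 ≤ e c := h c (by simp)
    have h2 : 0 ≤ lev e x l := ih (fun a ha => h a (by simp [ha]))
    exact add_nonneg h1 (mul_nonneg hx h2)

theorem pev_nonneg (v : ℕ → ℝ) (n : ℕ) (hv : ∀ i, i < n → 0 ≤ v i) (p : Pol n)
    (h : pnonneg n p = true) : 0 ≤ pev v n p := by
  induction n with
  | zero =>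
    have key : ∀ z : ℤ, pnonneg 0 z = true → (0 : ℝ) ≤ (z : ℝ) := by
      intro z hz
      cases z with
      | ofNat m => simp
      | negSucc m => exact absurd hz (by simp [pnonneg])
    exact key p h
  | succ n ih =>
    refine lev_nonneg _ _ (hv n (by omega)) _ ?_
    intro a ha
    have h' : ∀ a ∈ (show List (Pol n) from p), pnonneg n a = true := List.all_eq_true.mp h
    exact ih (fun i hi => hv i (by omega)) a (h' a ha)

end Vale.Agent.P154
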