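import Vale.Agent.P154.PoissonLimit
import Vale.Agent.P154.Recon

/-!
# A variant of the tree side with a cubic gain, and subcritical Poisson trees
-/

namespace Vale.Agent.P154.Up

open Finset Filter Topology Vale.Agent.P154
open scoped ENNReal

variable {q : ℕ}

/-- The abstract interface with a cubic gain. -/
structure CoreCubic (q : ℕ) (lam c : ℝ)
    (Inv : ∀ (X : Type) [Fintype X], (X → Fin q → ℝ) → Prop) : Prop where
  inv_equiv : ∀ (X Y : Type) [Fintype X] [Fintype Y] (e : X ≃ Y) (u : Y → Fin q → ℝ),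
    Inv Y u → Inv X (fun x => u (e x))
  inv_unit : Inv Unit (fun _ _ => 1)
  inv_leaf : Inv (Fin q) (chan lam (leafExp q))
  inv_chan : ∀ (X : Type) [Fintype X] (u : X → Fin q → ℝ), GoodExp u → Inv X u →
    Inv X (chan lam u)
  inv_prod : ∀ (X Y : Type) [Fintype X] [Fintype Y] (u : X → Fin q → ℝ) (v : Y → Fin q → ℝ),
    GoodExp u → GoodExp v → Inv X u → Inv Y v → Inv (X × Y) (prodExp u v)
  M_prod : ∀ (X Y : Type) [Fintype X] [Fintype Y] (u : X → Fin q → ℝ) (v : Y → Fin q → ℝ),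
    GoodExp u → GoodExp v → Inv X u → Inv Y v →
    Mfun (prodExp u v) ≤ Mfun u + Mfun v - c * Mfun u * Mfun v * (Mfun u + Mfun v)

/-- the function that linearises the cubic gain -/
noncomputable def psi (c x : ℝ) : ℝ := x + c / 3 * x ^ 3

theorem psi_mono {c : ℝ} (hc : 0 ≤ c) {x y : ℝ} (h0 : 0 ≤ x) (h : x ≤ y) :
    psi c x ≤ psi c y := by
  unfold psi
  have : x ^ 3 ≤ y ^ 3 := pow_le_pow_left₀ h0 h 3
  have := mul_le_mul_of_nonneg_left this (show 0 ≤ c / 3 by positivity)
  linarith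

theorem psi_prod {c : ℝ} (hc : 0 ≤ c) (hc1 : c ≤ 1) {x y m : ℝ} (hx : 0 ≤ x) (hy : 0 ≤ y)
    (hx1 : x ≤ 1) (hy1 : y ≤ 1) (hm : 0 ≤ m) (h : m ≤ x + y - c * x * y * (x + y)) :
    psi c m ≤ psi c x + psi c y := by
  have hcxy : c * x * y ≤ 1 := by
    have h1 : x * y ≤ 1 := by nlinarith
    have h2 : 0 ≤ x * y := mul_nonneg hx hy
    nlinarith
  have hcxy0 : 0 ≤ c * x * y := mul_nonneg (mul_nonneg hc hx) hy
  have h1 : psi c m ≤ psi c (x + y - c * x * y * (x + y)) := psi_mono hc hm h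
  have h2 : (x + y - c * x * y * (x + y)) ^ 3 ≤ (x + y) ^ 3 := by
    refine pow_le_pow_left₀ (hm.trans h) ?_ 3
    have : 0 ≤ c * x * y * (x + y) := mul_nonneg hcxy0 (by linarith)
    linarith
  have h3 := mul_le_mul_of_nonneg_left h2 (show 0 ≤ c / 3 by positivity)
  unfold psi at h1 ⊢
  have h4 : (x + y) ^ 3 = x ^ 3 + y ^ 3 + 3 * (x * y * (x + y)) := by ring
  rw [h4] at h3
  nlinarith

variable {lam c : ℝ} {Inv : ∀ (X : Type) [Fintype X], (X → Fin q → ℝ) → Prop}

theorem CoreCubic.pi (C : CoreCubic q lam c Inv) (hq : 2 ≤ q) (hc : 0 ≤ c) (hc1 : c ≤ 1) :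
    ∀ (k : ℕ) (X : Fin k → Type) [∀ v, Fintype (X v)] (u : ∀ v, X v → Fin q → ℝ),
      (∀ v, GoodExp (u v)) → (∀ v, Inv _ (u v)) →
      GoodExp (piExp u) ∧ Inv _ (piExp u) ∧
        psi c (Mfun (piExp u)) ≤ ∑ v, psi c (Mfun (u v)) := by
  intro k
  induction k with
  | zero =>
    intro X _ u hg hi
    let e : (∀ v, X v) ≃ Unit := Equiv.ofUnique _ _
    have h1 : piExp u = (fun x => (fun (_ : Unit) (_ : Fin q) => (1 : ℝ)) (e x)) := by
      funext x i
      simp [piExp]
    refine ⟨?_, ?_, ?_⟩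
    · rw [h1]
      exact (goodExp_unit q).comp e
    · rw [h1]
      exact C.inv_equiv _ _ e _ C.inv_unit
    · rw [h1, Mfun_equiv e (fun (_ : Unit) (_ : Fin q) => (1 : ℝ)), Mfun_unit hq]
      simp [psi]
  | succ k ih =>
    intro X _ u hg hi
    obtain ⟨g1, i1, f1⟩ := ih (fun v => X v.succ) (fun v => u v.succ) (fun v => hg _) (fun v => hi _)
    let e : (∀ v, X v) ≃ X 0 × (∀ v : Fin k, X v.succ) := (Fin.consEquiv X).symm
    have h1 : piExp u = (fun x => prodExp (u 0) (piExp (fun v : Fin k => u v.succ)) (e x)) := by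
      funext x i
      simp only [piExp, prodExp, e, Fin.prod_univ_succ]
      rfl
    refine ⟨?_, ?_, ?_⟩
    · rw [h1]
      exact ((hg 0).prod g1).comp e
    · rw [h1]
      exact C.inv_equiv _ _ e _ (C.inv_prod _ _ _ _ (hg 0) g1 (hi 0) i1)
    · rw [h1, Mfun_equiv e]
      have h2 := C.M_prod _ _ _ _ (hg 0) g1 (hi 0) i1
      rw [Fin.sum_univ_succ]
      have w0 := (hg 0).weak (q := q) (by omega)
      have w1 := g1.weak (q := q) (by omega)
      have w2 := ((hg 0).prod g1).weak (q := q) (by omega)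
      have h3 := psi_prod hc hc1 (w0.Mfun_nonneg hq) (w1.Mfun_nonneg hq) (w0.Mfun_le_one hq)
        (w1.Mfun_le_one hq) (w2.Mfun_nonneg hq) h2
      linarith

theorem CoreCubic.tree (C : CoreCubic q lam c Inv) (hq : 2 ≤ q) (hc : 0 ≤ c) (hc1 : c ≤ 1)
    (h1 : -1 / ((q : ℝ) - 1) < lam) (h2 : lam < 1) {n : ℕ} (T : GTree n) :
    WeakExp (lik q lam T) ∧ Inv (Obs q T) (chan lam (lik q lam T)) := by
  induction T with
  | leaf => exact ⟨weakExp_leaf, C.inv_leaf⟩
  | node k ch ih =>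
    obtain ⟨g, i, -⟩ := C.pi hq hc hc1 k (fun v => Obs q (ch v))
      (fun v => chan lam (lik q lam (ch v))) (fun v => (ih v).1.chan_good hq h1 h2)
      (fun v => (ih v).2)
    exact ⟨g.weak (by omega), C.inv_chan _ _ g i⟩

/-- The cubic recursion inequality. -/
def RecCubic (q : ℕ) (lam c : ℝ) : Prop :=
  ∀ {n : ℕ} (k : ℕ) (ch : Fin k → GTree n),
    psi c (Mtree q lam (GTree.node k ch)) ≤ ∑ v, psi c (lam ^ 2 * Mtree q lam (ch v))

theorem CoreCubic.recCubic (C : CoreCubic q lam c Inv) (hq : 2 ≤ q) (hc : 0 ≤ c) (hc1 : c ≤ 1)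
    (h1 : -1 / ((q : ℝ) - 1) < lam) (h2 : lam < 1) : RecCubic q lam c := by
  intro n k ch
  obtain ⟨g, i, f⟩ := C.pi hq hc hc1 k (fun v => Obs q (ch v))
    (fun v => chan lam (lik q lam (ch v)))
    (fun v => (C.tree hq hc hc1 h1 h2 (ch v)).1.chan_good hq h1 h2)
    (fun v => (C.tree hq hc hc1 h1 h2 (ch v)).2)
  refine le_trans f (le_of_eq ?_)
  refine Finset.sum_congr rfl fun v _ => ?_
  rw [(C.tree hq hc hc1 h1 h2 (ch v)).1.Mfun_chan hq lam]
  rfl

/-- At the end points of an interval of parameters, the recursion survives by continuity. -/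
theorem recCubic_closure (hq : 2 ≤ q) {c a b : ℝ} (hab : a < b)
    (ha : -1 / ((q : ℝ) - 1) ≤ a) (hb : b ≤ 1)
    (h : ∀ lam ∈ Set.Ioo a b, RecCubic q lam c) : ∀ lam ∈ Set.Icc a b, RecCubic q lam c := by
  intro lam0 h0 n k ch
  have hsub : Set.Ioo a b ⊆ Set.Icc (-1 / ((q : ℝ) - 1)) 1 := fun t ht =>
    ⟨ha.trans ht.1.le, ht.2.le.trans hb⟩
  have hmem : lam0 ∈ Set.Icc (-1 / ((q : ℝ) - 1)) 1 := ⟨ha.trans h0.1, h0.2.trans hb⟩
  have hcl : lam0 ∈ closure (Set.Ioo a b) := by
    rw [closure_Ioo hab.ne]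
    exact h0
  have hpsi : ∀ f : ℝ → ℝ, ContinuousWithinAt f (Set.Ioo a b) lam0 →
      ContinuousWithinAt (fun t => psi c (f t)) (Set.Ioo a b) lam0 := by
    intro f hf
    unfold psi
    exact hf.add (continuousWithinAt_const.mul (hf.pow 3))
  refine ContinuousWithinAt.closure_le (f := fun lam => psi c (Mtree q lam (GTree.node k ch)))
    (g := fun lam => ∑ v, psi c (lam ^ 2 * Mtree q lam (ch v))) hcl ?_ ?_
    (fun lam hlam => h lam hlam k ch)
  · exact hpsi _ ((continuousWithinAt_Mtree hq hmem _).mono hsub)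
  · refine tendsto_finsetSum _ fun v _ => hpsi _ ?_
    refine ContinuousWithinAt.mul ?_ ((continuousWithinAt_Mtree hq hmem _).mono hsub)
    exact (continuous_pow 2).continuousWithinAt

/-- A nonnegative sequence with a cubic decrement tends to `0`. -/
theorem tendsto_zero_of_cubic {x z : ℕ → ℝ} {a b : ℝ} (ha : 0 ≤ a) (hb : b < a)
    (hx : ∀ n, 0 ≤ x n) (hz : ∀ n, 0 ≤ z n) (hxz : ∀ n, x n ^ 3 ≤ z n)
    (h : ∀ n, x (n + 1) + a * z (n + 1) ≤ x n + b * z n) : Tendsto x atTop (𝓝 0) := by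
  set A : ℕ → ℝ := fun n => x n + a * z n with hA
  have hstep : ∀ n, A (n + 1) + (a - b) * z n ≤ A n := by
    intro n
    have := h n
    simp only [hA]
    linarith
  have hA0 : ∀ n, 0 ≤ A n := fun n => add_nonneg (hx n) (mul_nonneg ha (hz n))
  have hanti : Antitone A := antitone_nat_of_succ_le fun n => by
    have h1 := hstep n
    have h2 := mul_nonneg (sub_nonneg.2 hb.le) (hz n)
    linarith
  have hbdd : BddBelow (Set.range A) := ⟨0, by rintro _ ⟨n, rfl⟩; exact hA0 n⟩
  have hL := tendsto_atTop_ciInf hanti hbdd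
  set L := ⨅ n, A n with hLdef
  have h1 : Tendsto (fun n => (A n - A (n + 1)) / (a - b)) atTop (𝓝 0) := by
    have := (hL.sub ((tendsto_add_atTop_iff_nat 1).2 hL)).div_const (a - b)
    simpa using this
  have h2 : Tendsto z atTop (𝓝 0) := by
    refine squeeze_zero hz (fun n => ?_) h1
    rw [le_div_iff₀ (sub_pos.2 hb)]
    have := hstep n
    linarith
  have h3 : Tendsto (fun n => x n ^ 3) atTop (𝓝 0) :=
    squeeze_zero (fun n => pow_nonneg (hx n) 3) hxz h2
  rw [Metric.tendsto_atTop] at h3 ⊢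
  intro ε hε
  obtain ⟨N, hN⟩ := h3 (ε ^ 3) (by positivity)
  refine ⟨N, fun n hn => ?_⟩
  have h4 := hN n hn
  rw [Real.dist_eq, sub_zero, abs_of_nonneg (pow_nonneg (hx n) 3)] at h4
  rw [Real.dist_eq, sub_zero, abs_of_nonneg (hx n)]
  exact lt_of_pow_lt_pow_left₀ 3 hε.le h4

theorem psi_scale (c x l : ℝ) : psi c (l * x) = l * x + c / 3 * l ^ 3 * x ^ 3 := by
  unfold psi
  ring

/-- The cubic recursion inequality gives nonreconstruction on the `d`-ary tree. -/
theorem nonreconstruction_dary_cubic (hq : 2 ≤ q) {lam c : ℝ} (hc : 0 < c)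
    (h1 : -1 / ((q : ℝ) - 1) ≤ lam) (h2 : lam < 1) (hR : RecCubic q lam c)
    {d : ℕ} (hlam : d * lam ^ 2 ≤ 1) (hd : 2 ≤ d) : Nonreconstruction (aDary q lam d) := by
  have hd0 : (2 : ℝ) ≤ d := by exact_mod_cast hd
  have hlam1 : lam ^ 2 ≤ 1 / 2 := by nlinarith [sq_nonneg lam]
  set M : ℕ → ℝ := fun n => Mtree q lam (dary d n) with hM
  have hM0 : ∀ n, 0 ≤ M n := fun n => Mtree_nonneg hq h1 h2.le _
  have hrec : ∀ n, M (n + 1) + c / 3 * M (n + 1) ^ 3 ≤
      M n + c / 3 * (lam ^ 2) ^ 2 * M n ^ 3 := by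
    intro n
    have h := hR d (fun _ => dary d n)
    rw [Finset.sum_const, Finset.card_univ, Fintype.card_fin, nsmul_eq_mul, psi_scale] at h
    have e : psi c (Mtree q lam (GTree.node d fun _ => dary d n)) =
      M (n + 1) + c / 3 * M (n + 1) ^ 3 := rfl
    rw [e] at h
    refine h.trans ?_
    have h3 : 0 ≤ M n := hM0 n
    have h4 : 0 ≤ c / 3 * (lam ^ 2) ^ 2 * M n ^ 3 := by positivity
    have h5 := mul_le_mul_of_nonneg_right hlam h3
    have h6 := mul_le_mul_of_nonneg_right hlam h4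
    simp only [hM] at h5 h6 ⊢
    nlinarith
  have hlimM : Tendsto M atTop (𝓝 0) := by
    refine tendsto_zero_of_cubic (z := fun n => M n ^ 3) (a := c / 3)
      (b := c / 3 * (lam ^ 2) ^ 2) (by positivity) ?_ hM0 (fun n => pow_nonneg (hM0 n) 3)
      (fun n => le_rfl) hrec
    have : (lam ^ 2) ^ 2 < 1 := by nlinarith [sq_nonneg lam]
    have h3 : 0 < c / 3 := by positivity
    nlinarith
  unfold Nonreconstruction
  rw [Metric.tendsto_atTop]
  intro ε hε
  have hq0 : (2 : ℝ) ≤ q := by exact_mod_cast hq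
  have h3 : Tendsto (fun n => ε / 4 + ((q : ℝ) - 1) / (4 * ε) * M n) atTop (𝓝 (ε / 4)) := by
    have := (hlimM.const_mul (((q : ℝ) - 1) / (4 * ε))).const_add (ε / 4)
    rwa [mul_zero, add_zero] at this
  have h4 := h3.eventually_lt_const (show ε / 4 < ε by linarith)
  obtain ⟨N, hN⟩ := eventually_atTop.1 h4
  refine ⟨N, fun n hn => ?_⟩
  have h5 := adv_nonneg hq h1 h2.le (dary d n)
  have h6 := adv_le hq h1 h2.le (dary d n) hε
  have h7 := hN n hn
  unfold aDary
  rw [Real.dist_eq, sub_zero, abs_of_nonneg h5]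
  simp only [hM] at h7
  linarith

/-- If a bounded functional dominating `Mtree` has vanishing average, then `aPoisson → 0`. -/
theorem nonreconstruction_of_avg (hq : 2 ≤ q) {lam : ℝ}
    (h1 : -1 / ((q : ℝ) - 1) ≤ lam) (h2 : lam ≤ 1) {d : ℝ} (hd : 0 ≤ d)
    (y : ∀ {m : ℕ}, GTree m → ℝ) (hy0 : ∀ {m : ℕ} (T : GTree m), Mtree q lam T ≤ y T)
    (hy1 : ∀ {m : ℕ} (T : GTree m), y T ≤ 1)
    (hlim : Tendsto (fun n => ∑' T : GTree n, poissonWeight d T * y T) atTop (𝓝 0)) :
    Nonreconstruction (aPoisson q lam d) := by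
  have hy : ∀ {m : ℕ} (T : GTree m), 0 ≤ y T := fun T =>
    (Mtree_nonneg hq h1 h2 T).trans (hy0 T)
  have ha0 : ∀ n, 0 ≤ aPoisson q lam d n := fun n =>
    tsum_nonneg fun T => mul_nonneg (poissonWeight_nonneg hd T) (adv_nonneg hq h1 h2 T)
  have hq0 : (2 : ℝ) ≤ q := by exact_mod_cast hq
  have ha : ∀ ε : ℝ, 0 < ε → ∀ n,
      aPoisson q lam d n ≤ ε / 4 + ((q : ℝ) - 1) / (4 * ε) *
        ∑' T : GTree n, poissonWeight d T * y T := by
    intro ε hε n
    have hs1 : Summable (fun T : GTree n => poissonWeight d T * y T) :=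
      summable_weight hd n hy hy1
    have hs2 : Summable (fun T : GTree n => ε / 4 * poissonWeight d T +
        ((q : ℝ) - 1) / (4 * ε) * (poissonWeight d T * y T)) :=
      ((poissonWeight_summable hd n).mul_left _).add (hs1.mul_left _)
    have hle : ∀ T : GTree n, poissonWeight d T * adv q lam T ≤ ε / 4 * poissonWeight d T +
        ((q : ℝ) - 1) / (4 * ε) * (poissonWeight d T * y T) := by
      intro T
      have h3 := mul_le_mul_of_nonneg_left (adv_le hq h1 h2 T hε) (poissonWeight_nonneg hd T)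
      have h4 : ((q : ℝ) - 1) / (4 * ε) * (poissonWeight d T * Mtree q lam T) ≤
          ((q : ℝ) - 1) / (4 * ε) * (poissonWeight d T * y T) := by
        refine mul_le_mul_of_nonneg_left ?_ (div_nonneg (by linarith) (by linarith))
        exact mul_le_mul_of_nonneg_left (hy0 T) (poissonWeight_nonneg hd T)
      refine h3.trans ?_
      linarith
    have hs3 : Summable (fun T : GTree n => poissonWeight d T * adv q lam T) :=
      Summable.of_nonneg_of_le
        (fun T => mul_nonneg (poissonWeight_nonneg hd T) (adv_nonneg hq h1 h2 T)) hle hs2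
    unfold aPoisson
    refine (hs3.tsum_le_tsum hle hs2).trans (le_of_eq ?_)
    rw [((poissonWeight_summable hd n).mul_left _).tsum_add (hs1.mul_left _), tsum_mul_left,
      tsum_mul_left, poissonWeight_tsum hd n, mul_one]
  unfold Nonreconstruction
  rw [Metric.tendsto_atTop]
  intro ε hε
  have h3 : Tendsto (fun n => ε / 4 + ((q : ℝ) - 1) / (4 * ε) *
      ∑' T : GTree n, poissonWeight d T * y T) atTop (𝓝 (ε / 4)) := by
    have := (hlim.const_mul (((q : ℝ) - 1) / (4 * ε))).const_add (ε / 4)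
    rwa [mul_zero, add_zero] at this
  have h4 := h3.eventually_lt_const (show ε / 4 < ε by linarith)
  obtain ⟨N, hN⟩ := eventually_atTop.1 h4
  refine ⟨N, fun n hn => ?_⟩
  rw [Real.dist_eq, sub_zero, abs_of_nonneg (ha0 n)]
  exact (ha ε hε n).trans_lt (hN n hn)

/-! ### subcritical and critical Poisson trees -/

/-- `1` if the tree reaches level `n`, and `0` otherwise -/
noncomputable def alive : {n : ℕ} → GTree n → ℝ
  | _, .leaf => 1
  | _, .node _ c => 1 - ∏ v, (1 - alive (c v))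

theorem alive_mem : {n : ℕ} → (T : GTree n) → alive T = 0 ∨ alive T = 1
  | _, .leaf => Or.inr rfl
  | _, .node k c => by
    change 1 - ∏ v, (1 - alive (c v)) = 0 ∨ 1 - ∏ v, (1 - alive (c v)) = 1
    by_cases h : ∀ v, alive (c v) = 0
    · left
      simp [h]
    · right
      push Not at h
      obtain ⟨v, hv⟩ := h
      have h1 : alive (c v) = 1 := (alive_mem (c v)).resolve_left hv
      have : ∏ v, (1 - alive (c v)) = 0 := Finset.prod_eq_zero (mem_univ v) (by rw [h1, sub_self])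
      rw [this, sub_zero]

theorem lik_of_alive_zero (hq : 0 < q) (lam : ℝ) : {n : ℕ} → (T : GTree n) → alive T = 0 →
    ∀ (x : Obs q T) (i : Fin q), lik q lam T x i = 1
  | _, .leaf => fun h => absurd h (by change (1 : ℝ) ≠ 0; norm_num)
  | _, .node k c => by
    intro h x i
    have h0 : ∀ v, alive (c v) = 0 := by
      intro v
      by_contra hv
      have h1 : alive (c v) = 1 := (alive_mem (c v)).resolve_left hv
      have h2 : ∏ v, (1 - alive (c v)) = 0 :=
        Finset.prod_eq_zero (mem_univ v) (by rw [h1, sub_self])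
      change 1 - ∏ v, (1 - alive (c v)) = 0 at h
      rw [h2] at h
      norm_num at h
    change ∏ v : Fin k, ∑ j, potts q lam i j * lik q lam (c v) (x v) j = 1
    refine Finset.prod_eq_one fun v _ => ?_
    have h3 : ∀ j, lik q lam (c v) (x v) j = 1 := fun j =>
      lik_of_alive_zero hq lam (c v) (h0 v) (x v) j
    simp_rw [h3, mul_one]
    exact sum_potts hq lam i

theorem Mtree_le_alive (hq : 2 ≤ q) {lam : ℝ} (h1 : -1 / ((q : ℝ) - 1) ≤ lam) (h2 : lam ≤ 1)
    {n : ℕ} (T : GTree n) : Mtree q lam T ≤ alive T := by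
  rcases alive_mem T with h | h
  · rw [h]
    have hl := lik_of_alive_zero (q := q) (by omega) lam T h
    unfold Mtree
    rw [Mfun_eq_Gfun hq]
    refine le_of_eq (Finset.sum_eq_zero fun x _ => ?_)
    have hq0 : (2 : ℝ) ≤ q := by exact_mod_cast hq
    have h3 : (q : ℝ) ≠ 0 := by linarith
    unfold Gfun
    simp_rw [hl x]
    simp [h3]
  · rw [h]
    exact Mtree_le_one hq h1 h2 T

/-- For Poisson(`d`) offspring with `d ≤ 1`, there is no reconstruction, whatever the channel. -/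
theorem nonreconstruction_poisson_sub (hq : 2 ≤ q) {lam : ℝ}
    (h1 : -1 / ((q : ℝ) - 1) ≤ lam) (h2 : lam ≤ 1) {d : ℝ} (hd : 0 ≤ d) (hd1 : d ≤ 1) :
    Nonreconstruction (aPoisson q lam d) := by
  have ha0 : ∀ {m : ℕ} (T : GTree m), 0 ≤ alive T := by
    intro m T
    rcases alive_mem T with h | h <;> rw [h]
    exact zero_le_one
  have ha1 : ∀ {m : ℕ} (T : GTree m), alive T ≤ 1 := by
    intro m T
    rcases alive_mem T with h | h <;> rw [h]
    exact zero_le_one
  refine nonreconstruction_of_avg hq h1 h2 hd (fun T => alive T)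
    (fun T => Mtree_le_alive hq h1 h2 T) ha1 ?_
  have hx0 : ∀ n, 0 ≤ ∑' T : GTree n, poissonWeight d T * alive T := fun n =>
    tsum_nonneg fun T => mul_nonneg (poissonWeight_nonneg hd T) (ha0 T)
  refine tendsto_zero_of_le (f := fun t => 1 - Real.exp (-t)) (by fun_prop) hx0 ?_ ?_
    (by simp) ?_
  · intro n
    rw [← poissonWeight_tsum hd n]
    exact (summable_weight hd n ha0 ha1).tsum_le_tsum
      (fun T => mul_le_of_le_one_right (poissonWeight_nonneg hd T) (ha1 T))
      (poissonWeight_summable hd n)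
  · intro n
    have h := poisson_recursion (y := fun {m} T => alive T) hd n zero_le_one le_rfl
      ha0 ha1 (fun k ch => by
        change 1 - ∏ v, (1 - alive (ch v)) ≤ 1 - ∏ v, (1 - 1 * alive (ch v))
        simp)
    refine h.trans ?_
    have h3 : d * 1 * (∑' T : GTree n, poissonWeight d T * alive T) ≤
        ∑' T : GTree n, poissonWeight d T * alive T := by nlinarith [hx0 n]
    have h4 := Real.exp_le_exp.2 (neg_le_neg h3)
    linarith
  · intro t ht0 _
    have := Real.add_one_lt_exp (x := -t) (by linarith)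
    change 1 - Real.exp (-t) < t
    linarith

/-! ### the cubic recursion on the Poisson tree -/

theorem ofReal_tsum_weight' {d : ℝ} (hd : 0 ≤ d) (n : ℕ) (g : GTree n → ℝ) (hg : ∀ T, 0 ≤ g T)
    (hs : Summable (fun T : GTree n => poissonWeight d T * g T)) :
    ENNReal.ofReal (∑' T : GTree n, poissonWeight d T * g T)
      = treeE d n (fun T => ENNReal.ofReal (g T)) := by
  rw [ENNReal.ofReal_tsum_of_nonneg
    (fun T => mul_nonneg (poissonWeight_nonneg hd T) (hg T)) hs]
  unfold treeE treeW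
  refine tsum_congr (fun T => ?_)
  rw [ENNReal.ofReal_mul (poissonWeight_nonneg hd T)]

theorem psi_nonneg {c x : ℝ} (hc : 0 ≤ c) (hx : 0 ≤ x) : 0 ≤ psi c x := by
  unfold psi
  positivity

theorem psi_le_two {c x : ℝ} (hc : 0 ≤ c) (hc1 : c ≤ 1) (hx : 0 ≤ x) (hx1 : x ≤ 1) :
    psi c x ≤ 2 := by
  unfold psi
  have h1 : x ^ 3 ≤ 1 := pow_le_one₀ hx hx1
  have h2 : 0 ≤ x ^ 3 := by positivity
  nlinarith

/-- The cubic recursion inequality gives nonreconstruction on the Poisson tree. -/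
theorem nonreconstruction_poisson_cubic (hq : 2 ≤ q) {lam c : ℝ} (hc : 0 < c) (hc1 : c ≤ 1)
    (h1 : -1 / ((q : ℝ) - 1) ≤ lam) (h2 : lam < 1) (hlam0 : -1 < lam) (hR : RecCubic q lam c)
    {d : ℝ} (hd : 0 ≤ d) (hlam : d * lam ^ 2 ≤ 1) : Nonreconstruction (aPoisson q lam d) := by
  have hlam2 : lam ^ 2 < 1 := by nlinarith
  have hM0 : ∀ {m : ℕ} (T : GTree m), 0 ≤ Mtree q lam T := fun T => Mtree_nonneg hq h1 h2.le T
  have hM1 : ∀ {m : ℕ} (T : GTree m), Mtree q lam T ≤ 1 := fun T => Mtree_le_one hq h1 h2.le T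
  have hl0 : ∀ {m : ℕ} (T : GTree m), 0 ≤ lam ^ 2 * Mtree q lam T := fun T =>
    mul_nonneg (sq_nonneg _) (hM0 T)
  have hl1 : ∀ {m : ℕ} (T : GTree m), lam ^ 2 * Mtree q lam T ≤ 1 := fun T => by
    nlinarith [hM0 T, hM1 T, sq_nonneg lam]
  have hz0 : ∀ {m : ℕ} (T : GTree m), 0 ≤ Mtree q lam T ^ 3 := fun T => pow_nonneg (hM0 T) 3
  have hz1 : ∀ {m : ℕ} (T : GTree m), Mtree q lam T ^ 3 ≤ 1 := fun T =>
    pow_le_one₀ (hM0 T) (hM1 T)
  set x : ℕ → ℝ := fun n => ∑' T : GTree n, poissonWeight d T * Mtree q lam T with hx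
  set z : ℕ → ℝ := fun n => ∑' T : GTree n, poissonWeight d T * Mtree q lam T ^ 3 with hz
  have hsx : ∀ n, Summable (fun T : GTree n => poissonWeight d T * Mtree q lam T) := fun n =>
    summable_weight hd n hM0 hM1
  have hsz : ∀ n, Summable (fun T : GTree n => poissonWeight d T * Mtree q lam T ^ 3) := fun n =>
    summable_weight hd n hz0 hz1
  have hx0 : ∀ n, 0 ≤ x n := fun n =>
    tsum_nonneg fun T => mul_nonneg (poissonWeight_nonneg hd T) (hM0 T)
  have hzz0 : ∀ n, 0 ≤ z n := fun n =>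
    tsum_nonneg fun T => mul_nonneg (poissonWeight_nonneg hd T) (hz0 T)
  -- Jensen
  have hxz : ∀ n, x n ^ 3 ≤ z n := by
    intro n
    have hle : ∀ T : GTree n, 3 * x n ^ 2 * (poissonWeight d T * Mtree q lam T) -
        2 * x n ^ 3 * poissonWeight d T ≤ poissonWeight d T * Mtree q lam T ^ 3 := by
      intro T
      have h3 : 3 * x n ^ 2 * Mtree q lam T - 2 * x n ^ 3 ≤ Mtree q lam T ^ 3 := by
        have h4 : 0 ≤ (Mtree q lam T - x n) ^ 2 * (Mtree q lam T + 2 * x n) :=
          mul_nonneg (sq_nonneg _) (add_nonneg (hM0 T) (by linarith [hx0 n]))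
        nlinarith
      have h5 := mul_le_mul_of_nonneg_left h3 (poissonWeight_nonneg hd T)
      refine le_trans (le_of_eq ?_) h5
      ring
    have hs := ((hsx n).mul_left (3 * x n ^ 2)).sub
      ((poissonWeight_summable hd n).mul_left (2 * x n ^ 3))
    have h6 := hs.tsum_le_tsum hle (hsz n)
    rw [((hsx n).mul_left _).tsum_sub ((poissonWeight_summable hd n).mul_left _), tsum_mul_left,
      tsum_mul_left, poissonWeight_tsum hd n] at h6
    simp only [hx, hz] at h6 ⊢
    nlinarith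
  -- the two averages of psi
  have hpsi : ∀ n, ∑' T : GTree n, poissonWeight d T * psi c (Mtree q lam T) =
      x n + c / 3 * z n := by
    intro n
    have : ∀ T : GTree n, poissonWeight d T * psi c (Mtree q lam T) =
        poissonWeight d T * Mtree q lam T + c / 3 * (poissonWeight d T * Mtree q lam T ^ 3) := by
      intro T
      unfold psi
      ring
    simp_rw [this]
    rw [(hsx n).tsum_add ((hsz n).mul_left _), tsum_mul_left]
  have hpsi2 : ∀ n, ∑' T : GTree n, poissonWeight d T * psi c (lam ^ 2 * Mtree q lam T) =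
      lam ^ 2 * x n + c / 3 * (lam ^ 2) ^ 3 * z n := by
    intro n
    have : ∀ T : GTree n, poissonWeight d T * psi c (lam ^ 2 * Mtree q lam T) =
        lam ^ 2 * (poissonWeight d T * Mtree q lam T) +
        c / 3 * (lam ^ 2) ^ 3 * (poissonWeight d T * Mtree q lam T ^ 3) := by
      intro T
      rw [psi_scale]
      ring
    simp_rw [this]
    rw [((hsx n).mul_left _).tsum_add ((hsz n).mul_left _), tsum_mul_left, tsum_mul_left]
  have hrec : ∀ n, x (n + 1) + c / 3 * z (n + 1) ≤ x n + c / 3 * (lam ^ 2) ^ 2 * z n := by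
    intro n
    have hp0 : ∀ {m : ℕ} (T : GTree m), 0 ≤ psi c (Mtree q lam T) := fun T =>
      psi_nonneg hc.le (hM0 T)
    have hp1 : ∀ {m : ℕ} (T : GTree m), psi c (Mtree q lam T) ≤ 2 := fun T =>
      psi_le_two hc.le hc1 (hM0 T) (hM1 T)
    have hr0 : ∀ {m : ℕ} (T : GTree m), 0 ≤ psi c (lam ^ 2 * Mtree q lam T) := fun T =>
      psi_nonneg hc.le (hl0 T)
    have hr1 : ∀ {m : ℕ} (T : GTree m), psi c (lam ^ 2 * Mtree q lam T) ≤ 2 := fun T =>
      psi_le_two hc.le hc1 (hl0 T) (hl1 T)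
    let G : GTree (n + 1) → ℝ≥0∞ := fun T => match T with
      | .node _ ch => ∑ v, ENNReal.ofReal (psi c (lam ^ 2 * Mtree q lam (ch v)))
    have hG : treeE d (n + 1) G = ENNReal.ofReal d *
        treeE d n (fun T => ENNReal.ofReal (psi c (lam ^ 2 * Mtree q lam T))) :=
      treeE_sum_children hd n G _ (fun k ch => rfl)
    have hle : treeE d (n + 1) (fun T => ENNReal.ofReal (psi c (Mtree q lam T))) ≤
        treeE d (n + 1) G := by
      refine treeE_mono d (n + 1) fun T => ?_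
      cases T with
      | node k ch =>
        change _ ≤ ∑ v, ENNReal.ofReal (psi c (lam ^ 2 * Mtree q lam (ch v)))
        rw [← ENNReal.ofReal_sum_of_nonneg (fun v _ => hr0 (ch v))]
        exact ENNReal.ofReal_le_ofReal (hR k ch)
    have hr : 0 ≤ ∑' T : GTree n, poissonWeight d T * psi c (lam ^ 2 * Mtree q lam T) :=
      tsum_nonneg fun T => mul_nonneg (poissonWeight_nonneg hd T) (hr0 T)
    rw [hG, ← ofReal_tsum_weight' hd (n + 1) _ hp0 (summable_weight hd _ hp0 hp1),
      ← ofReal_tsum_weight' hd n _ hr0 (summable_weight hd _ hr0 hr1),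
      ← ENNReal.ofReal_mul hd, ENNReal.ofReal_le_ofReal_iff (mul_nonneg hd hr),
      hpsi, hpsi2] at hle
    refine hle.trans ?_
    have h5 := mul_le_mul_of_nonneg_right hlam (hx0 n)
    have h6 : 0 ≤ c / 3 * (lam ^ 2) ^ 2 * z n :=
      mul_nonneg (by positivity) (hzz0 n)
    have h7 := mul_le_mul_of_nonneg_right hlam h6
    nlinarith
  have hlim : Tendsto x atTop (𝓝 0) := by
    refine tendsto_zero_of_cubic (z := z) (a := c / 3)
      (b := c / 3 * (lam ^ 2) ^ 2) (by positivity) ?_ hx0 hzz0 hxz hrec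
    have : (lam ^ 2) ^ 2 < 1 := by nlinarith [sq_nonneg lam]
    have h3 : 0 < c / 3 := by positivity
    nlinarith
  exact nonreconstruction_of_avg hq h1 h2.le hd (fun T => Mtree q lam T) (fun T => le_rfl) hM1 hlim

/-- The exact threshold on both tree models, from the abstract core with cubic gain on the open
interval `(0, 1)` of parameters. -/
theorem threshold_of_cubic (hq : 2 ≤ q) {c : ℝ} (hc : 0 < c) (hc1 : c ≤ 1)
    (Inv : ℝ → ∀ (X : Type) [Fintype X], (X → Fin q → ℝ) → Prop)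
    (C : ∀ lam ∈ Set.Ioo (0 : ℝ) 1, CoreCubic q lam c (Inv lam))
    (lam : ℝ) (h0 : 0 ≤ lam) (h2 : lam ≤ 1) :
    (∀ d : ℕ, 2 ≤ d →
      (1 < (d : ℝ) * lam ^ 2 → Reconstruction (aDary q lam d)) ∧
      ((d : ℝ) * lam ^ 2 ≤ 1 → Nonreconstruction (aDary q lam d)) ∧
      (Reconstruction (aDary q lam d) ↔ 1 < (d : ℝ) * lam ^ 2)) ∧
    (∀ d : ℝ, 0 < d →
      (1 < d * lam ^ 2 → Reconstruction (aPoisson q lam d)) ∧
      (d * lam ^ 2 ≤ 1 → Nonreconstruction (aPoisson q lam d)) ∧
      (Reconstruction (aPoisson q lam d) ↔ 1 < d * lam ^ 2)) := by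
  have hq0 : (2 : ℝ) ≤ q := by exact_mod_cast hq
  have hqq : -1 / ((q : ℝ) - 1) < 0 := div_neg_of_neg_of_pos (by norm_num) (by linarith)
  have h1 : -1 / ((q : ℝ) - 1) ≤ lam := hqq.le.trans h0
  have hR : ∀ l ∈ Set.Icc (0 : ℝ) 1, RecCubic q l c :=
    recCubic_closure hq one_pos hqq.le le_rfl fun l hl =>
      (C l hl).recCubic hq hc.le hc1 (hqq.trans hl.1) hl.2
  constructor
  · intro d hd
    have hd0 : (2 : ℝ) ≤ d := by exact_mod_cast hd
    have hrec : 1 < (d : ℝ) * lam ^ 2 → Reconstruction (aDary q lam d) :=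
      fun h => reconstruction_dary hq h1 h2 h
    have hnon : (d : ℝ) * lam ^ 2 ≤ 1 → Nonreconstruction (aDary q lam d) := by
      intro h
      have hl1 : lam < 1 := by nlinarith
      exact nonreconstruction_dary_cubic hq hc h1 hl1 (hR lam ⟨h0, h2⟩) h hd
    refine ⟨hrec, hnon, ⟨fun h => ?_, hrec⟩⟩
    by_contra hcon
    exact not_reconstruction_of_non (hnon (not_lt.1 hcon)) h
  · intro d hd
    have hrec : 1 < d * lam ^ 2 → Reconstruction (aPoisson q lam d) :=
      fun h => reconstruction_poisson hq h1 h2 hd h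
    have hnon : d * lam ^ 2 ≤ 1 → Nonreconstruction (aPoisson q lam d) := by
      intro h
      rcases h2.lt_or_eq with hl | hl
      · exact nonreconstruction_poisson_cubic hq hc hc1 h1 hl (by linarith) (hR lam ⟨h0, h2⟩)
          hd.le h
      · refine nonreconstruction_poisson_sub hq h1 h2 hd.le ?_
        rw [hl] at h
        linarith
    refine ⟨hrec, hnon, ⟨fun h => ?_, hrec⟩⟩
    by_contra hcon
    exact not_reconstruction_of_non (hnon (not_lt.1 hcon)) h

/-! ### a constant depending on the parameter -/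

theorem recIneq_zero (hq : 2 ≤ q) : RecIneq q 0 1 := by
  intro n k ch
  have hq0 : (2 : ℝ) ≤ q := by exact_mod_cast hq
  have hq1 : (q : ℝ) ≠ 0 := by linarith
  have h0 : Mtree q 0 (GTree.node k ch) = 0 := by
    unfold Mtree
    rw [Mfun_eq_Gfun hq]
    refine Finset.sum_eq_zero fun x _ => ?_
    have hc : ∀ i, lik q 0 (GTree.node k ch) x i =
        ∏ v, ∑ j, 1 / (q : ℝ) * lik q 0 (ch v) (x v) j := by
      intro i
      change ∏ v : Fin k, ∑ j, potts q 0 i j * lik q 0 (ch v) (x v) j = _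
      refine Finset.prod_congr rfl fun v _ => Finset.sum_congr rfl fun j _ => ?_
      unfold potts
      ring
    unfold Gfun
    simp_rw [hc]
    set a := ∏ v, ∑ j, 1 / (q : ℝ) * lik q 0 (ch v) (x v) j
    simp only [Finset.sum_const, Finset.card_univ, Fintype.card_fin, nsmul_eq_mul]
    by_cases ha : a = 0
    · rw [ha]
      simp
    · have : (q : ℝ) * ((q : ℝ) * a ^ 2) / ((q : ℝ) * a) - (q : ℝ) * a = 0 := by
        field_simp
        ring
      rw [this, zero_div]
  rw [h0]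
  simp

/-- The exact threshold on both tree models, from the abstract core with cubic gain, the constant
being allowed to depend on the parameter. -/
theorem threshold_of_cubic' (hq : 2 ≤ q) (c : ℝ → ℝ)
    (hc : ∀ lam ∈ Set.Ioo (0 : ℝ) 1, 0 < c lam) (hc1 : ∀ lam ∈ Set.Ioo (0 : ℝ) 1, c lam ≤ 1)
    (Inv : ℝ → ∀ (X : Type) [Fintype X], (X → Fin q → ℝ) → Prop)
    (C : ∀ lam ∈ Set.Ioo (0 : ℝ) 1, CoreCubic q lam (c lam) (Inv lam))
    (lam : ℝ) (h0 : 0 ≤ lam) (h2 : lam ≤ 1) :
    (∀ d : ℕ, 2 ≤ d →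
      (1 < (d : ℝ) * lam ^ 2 → Reconstruction (aDary q lam d)) ∧
      ((d : ℝ) * lam ^ 2 ≤ 1 → Nonreconstruction (aDary q lam d)) ∧
      (Reconstruction (aDary q lam d) ↔ 1 < (d : ℝ) * lam ^ 2)) ∧
    (∀ d : ℝ, 0 < d →
      (1 < d * lam ^ 2 → Reconstruction (aPoisson q lam d)) ∧
      (d * lam ^ 2 ≤ 1 → Nonreconstruction (aPoisson q lam d)) ∧
      (Reconstruction (aPoisson q lam d) ↔ 1 < d * lam ^ 2)) := by
  have hq0 : (2 : ℝ) ≤ q := by exact_mod_cast hq
  have hqq : -1 / ((q : ℝ) - 1) < 0 := div_neg_of_neg_of_pos (by norm_num) (by linarith)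
  have h1 : -1 / ((q : ℝ) - 1) ≤ lam := hqq.le.trans h0
  have hR : lam ∈ Set.Ioo (0 : ℝ) 1 → RecCubic q lam (c lam) := fun hl =>
    (C lam hl).recCubic hq (hc lam hl).le (hc1 lam hl) (hqq.trans hl.1) hl.2
  constructor
  · intro d hd
    have hd0 : (2 : ℝ) ≤ d := by exact_mod_cast hd
    have hrec : 1 < (d : ℝ) * lam ^ 2 → Reconstruction (aDary q lam d) :=
      fun h => reconstruction_dary hq h1 h2 h
    have hnon : (d : ℝ) * lam ^ 2 ≤ 1 → Nonreconstruction (aDary q lam d) := by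
      intro h
      have hl1 : lam < 1 := by nlinarith
      rcases h0.eq_or_lt with hl | hl
      · rw [← hl] at h1 h2 h ⊢
        exact nonreconstruction_dary hq one_pos le_rfl h1 h2 (recIneq_zero hq) hd h
      · exact nonreconstruction_dary_cubic hq (hc lam ⟨hl, hl1⟩) h1 hl1 (hR ⟨hl, hl1⟩) h hd
    refine ⟨hrec, hnon, ⟨fun h => ?_, hrec⟩⟩
    by_contra hcon
    exact not_reconstruction_of_non (hnon (not_lt.1 hcon)) h
  · intro d hd
    have hrec : 1 < d * lam ^ 2 → Reconstruction (aPoisson q lam d) :=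
      fun h => reconstruction_poisson hq h1 h2 hd h
    have hnon : d * lam ^ 2 ≤ 1 → Nonreconstruction (aPoisson q lam d) := by
      intro h
      rcases h0.eq_or_lt with hl0 | hl0
      · rw [← hl0] at h1 h2 h ⊢
        exact nonreconstruction_poisson hq one_pos le_rfl h1 h2 (recIneq_zero hq) hd.le h
      rcases h2.lt_or_eq with hl | hl
      · exact nonreconstruction_poisson_cubic hq (hc lam ⟨hl0, hl⟩) (hc1 lam ⟨hl0, hl⟩) h1 hl
          (by linarith) (hR ⟨hl0, hl⟩) hd.le h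
      · refine nonreconstruction_poisson_sub hq h1 h2 hd.le ?_
        rw [hl] at h
        linarith
    refine ⟨hrec, hnon, ⟨fun h => ?_, hrec⟩⟩
    by_contra hcon
    exact not_reconstruction_of_non (hnon (not_lt.1 hcon)) h

end Vale.Agent.P154.Up
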