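import Vale.Agent.P154.Model
import Vale.Agent.P154.CoreDefs

/-!
# The tree side: experiments built along a tree

Abstract propagation of an invariant and of the recursion inequality along trees.
-/

namespace Vale.Agent.P154.Up

open Finset Vale.Agent.P154

variable {q : ℕ}

/-- two conditionally independent observations -/
def prodExp {X Y : Type*} (u : X → Fin q → ℝ) (v : Y → Fin q → ℝ) : X × Y → Fin q → ℝ :=
  fun p i => u p.1 i * v p.2 i

/-- finitely many conditionally independent observations -/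
def piExp {k : ℕ} {X : Fin k → Type} (u : ∀ v, X v → Fin q → ℝ) : (∀ v, X v) → Fin q → ℝ :=
  fun x i => ∏ v, u v (x v) i

/-- the observation seen through the channel -/
noncomputable def chan (lam : ℝ) {X : Type*} (u : X → Fin q → ℝ) : X → Fin q → ℝ :=
  fun x i => ∑ j, potts q lam i j * u x j

/-- the perfect observation of the root -/
def leafExp (q : ℕ) : Fin q → Fin q → ℝ := fun x i => if x = i then 1 else 0

/-- nonnegative normalised symmetric experiment, each observation having positive probability -/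
structure WeakExp {X : Type*} [Fintype X] (u : X → Fin q → ℝ) : Prop where
  nonneg : ∀ x i, 0 ≤ u x i
  tot : ∀ x, 0 < ∑ i, u x i
  sum : ∀ i, ∑ x, u x i = 1
  sym : SymExp u

theorem _root_.Vale.Agent.P154.GoodExp.weak {X : Type*} [Fintype X] {u : X → Fin q → ℝ} (hq : 0 < q)
    (h : GoodExp u) : WeakExp u where
  nonneg x i := (h.pos x i).le
  tot x := by
    have : Nonempty (Fin q) := ⟨⟨0, hq⟩⟩
    exact Finset.sum_pos (fun i _ => h.pos x i) Finset.univ_nonempty
  sum := h.sum
  sym := h.sym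

theorem weakExp_leaf : WeakExp (leafExp q) where
  nonneg x i := by unfold leafExp; split_ifs <;> norm_num
  tot x := by simp [leafExp]
  sum i := by simp [leafExp]
  sym := by
    intro g
    refine ⟨g.symm, fun x i => ?_⟩
    simp only [leafExp]
    congr 1
    rw [Equiv.symm_apply_eq]

theorem goodExp_unit (q : ℕ) : GoodExp (fun (_ : Unit) (_ : Fin q) => (1 : ℝ)) where
  pos _ _ := one_pos
  sum _ := by simp
  sym := fun _ => ⟨Equiv.refl _, fun _ _ => rfl⟩

theorem _root_.Vale.Agent.P154.GoodExp.prod {X Y : Type*} [Fintype X] [Fintype Y] {u : X → Fin q → ℝ}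
    {v : Y → Fin q → ℝ} (hu : GoodExp u) (hv : GoodExp v) : GoodExp (prodExp u v) where
  pos p i := mul_pos (hu.pos _ _) (hv.pos _ _)
  sum i := by
    unfold prodExp
    rw [Fintype.sum_prod_type]
    simp only
    simp_rw [← Finset.mul_sum, hv.sum, mul_one, hu.sum]
  sym := by
    intro g
    obtain ⟨e, he⟩ := hu.sym g
    obtain ⟨f, hf⟩ := hv.sym g
    refine ⟨Equiv.prodCongr e f, fun p i => ?_⟩
    simp only [prodExp, Equiv.prodCongr_apply, Prod.map]
    rw [he, hf]

theorem _root_.Vale.Agent.P154.GoodExp.comp {X Y : Type*} [Fintype X] [Fintype Y] (e : X ≃ Y) {u : Y → Fin q → ℝ}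
    (hu : GoodExp u) : GoodExp (fun x => u (e x)) where
  pos x i := hu.pos _ _
  sum i := by
    rw [← hu.sum i]
    exact Equiv.sum_comp e (fun y => u y i)
  sym := by
    intro g
    obtain ⟨f, hf⟩ := hu.sym g
    refine ⟨e.trans (f.trans e.symm), fun x i => ?_⟩
    simp [hf]

theorem potts_pos (hq : 2 ≤ q) {lam : ℝ} (h1 : -1 / ((q : ℝ) - 1) < lam) (h2 : lam < 1)
    (i j : Fin q) : 0 < potts q lam i j := by
  have hq0 : (2 : ℝ) ≤ q := by exact_mod_cast hq
  unfold potts
  have hb : 0 < (1 - lam) / q := div_pos (by linarith) (by linarith)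
  split_ifs
  · have h3 : -1 < lam * ((q : ℝ) - 1) := by
      rwa [div_lt_iff₀ (by linarith)] at h1
    have h4 : lam * 1 + (1 - lam) / q = (lam * ((q : ℝ) - 1) + 1) / q := by
      field_simp
      ring
    rw [h4]
    exact div_pos (by linarith) (by linarith)
  · linarith

theorem potts_nonneg (hq : 2 ≤ q) {lam : ℝ} (h1 : -1 / ((q : ℝ) - 1) ≤ lam) (h2 : lam ≤ 1)
    (i j : Fin q) : 0 ≤ potts q lam i j := by
  have hq0 : (2 : ℝ) ≤ q := by exact_mod_cast hq
  unfold potts
  have hb : 0 ≤ (1 - lam) / q := div_nonneg (by linarith) (by linarith)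
  split_ifs
  · have h3 : -1 ≤ lam * ((q : ℝ) - 1) := by
      rwa [div_le_iff₀ (by linarith)] at h1
    have h4 : lam * 1 + (1 - lam) / q = (lam * ((q : ℝ) - 1) + 1) / q := by
      field_simp
      ring
    rw [h4]
    exact div_nonneg (by linarith) (by linarith)
  · linarith

theorem chan_eq (lam : ℝ) {X : Type*} (u : X → Fin q → ℝ) (x : X) (i : Fin q) :
    chan lam u x i = lam * u x i + (1 - lam) * mass (u x) := by
  unfold chan potts mass
  simp only [add_mul, Finset.sum_add_distrib]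
  congr 1
  · simp
  · rw [← Finset.mul_sum]
    ring

theorem sum_potts (hq : 0 < q) (lam : ℝ) (i : Fin q) : ∑ j, potts q lam i j = 1 := by
  have : (q : ℝ) ≠ 0 := by exact_mod_cast hq.ne'
  unfold potts
  simp only [Finset.sum_add_distrib]
  simp
  field_simp
  ring

theorem WeakExp.chan_good (hq : 2 ≤ q) {lam : ℝ} (h1 : -1 / ((q : ℝ) - 1) < lam) (h2 : lam < 1)
    {X : Type*} [Fintype X] {u : X → Fin q → ℝ} (hu : WeakExp u) : GoodExp (chan lam u) where
  pos x i := by
    have h := hu.tot x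
    obtain ⟨j, -, hj⟩ : ∃ j ∈ (univ : Finset (Fin q)), 0 < u x j := by
      by_contra hcon
      push Not at hcon
      have := Finset.sum_nonpos hcon
      linarith
    unfold chan
    exact Finset.sum_pos' (fun j _ => mul_nonneg (potts_pos hq h1 h2 i j).le (hu.nonneg x j))
      ⟨j, mem_univ _, mul_pos (potts_pos hq h1 h2 i j) hj⟩
  sum i := by
    unfold chan
    rw [Finset.sum_comm]
    simp_rw [← Finset.mul_sum, hu.sum, mul_one]
    exact sum_potts (by omega) lam i
  sym := by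
    intro g
    obtain ⟨e, he⟩ := hu.sym g
    refine ⟨e, fun x i => ?_⟩
    rw [chan_eq, chan_eq, he]
    congr 2
    unfold mass
    congr 1
    simp_rw [he]
    exact Equiv.sum_comp g (fun i => u x i)

/-- The abstract interface: an invariant `Inv` of experiments and a functional `F` with
`F (E₁ E₂) ≤ F E₁ + F E₂ - c F E₁ F E₂` on experiments satisfying the invariant. -/
structure Core (q : ℕ) (lam c : ℝ) (Inv : ∀ (X : Type) [Fintype X], (X → Fin q → ℝ) → Prop)
    (F : ∀ (X : Type) [Fintype X], (X → Fin q → ℝ) → ℝ) : Prop where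
  inv_equiv : ∀ (X Y : Type) [Fintype X] [Fintype Y] (e : X ≃ Y) (u : Y → Fin q → ℝ),
    Inv Y u → Inv X (fun x => u (e x))
  F_equiv : ∀ (X Y : Type) [Fintype X] [Fintype Y] (e : X ≃ Y) (u : Y → Fin q → ℝ),
    F X (fun x => u (e x)) = F Y u
  inv_unit : Inv Unit (fun _ _ => 1)
  F_unit : F Unit (fun _ _ => 1) = 0
  inv_leaf : Inv (Fin q) (chan lam (leafExp q))
  inv_chan : ∀ (X : Type) [Fintype X] (u : X → Fin q → ℝ), GoodExp u → Inv X u →
    Inv X (chan lam u)
  F_chan : ∀ (X : Type) [Fintype X] (u : X → Fin q → ℝ), WeakExp u →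
    F X (chan lam u) ≤ lam ^ 2 * F X u
  F_le : ∀ (X : Type) [Fintype X] (u : X → Fin q → ℝ), WeakExp u → c * F X u ≤ 1
  inv_prod : ∀ (X Y : Type) [Fintype X] [Fintype Y] (u : X → Fin q → ℝ) (v : Y → Fin q → ℝ),
    GoodExp u → GoodExp v → Inv X u → Inv Y v → Inv (X × Y) (prodExp u v)
  F_prod : ∀ (X Y : Type) [Fintype X] [Fintype Y] (u : X → Fin q → ℝ) (v : Y → Fin q → ℝ),
    GoodExp u → GoodExp v → Inv X u → Inv Y v →
    F (X × Y) (prodExp u v) ≤ F X u + F Y v - c * F X u * F Y v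

variable {lam c : ℝ} {Inv : ∀ (X : Type) [Fintype X], (X → Fin q → ℝ) → Prop}
  {F : ∀ (X : Type) [Fintype X], (X → Fin q → ℝ) → ℝ}

theorem Core.pi (C : Core q lam c Inv F) (hq : 2 ≤ q) (hc : 0 < c) :
    ∀ (k : ℕ) (X : Fin k → Type) [∀ v, Fintype (X v)] (u : ∀ v, X v → Fin q → ℝ),
      (∀ v, GoodExp (u v)) → (∀ v, Inv _ (u v)) →
      GoodExp (piExp u) ∧ Inv _ (piExp u) ∧
        c * F _ (piExp u) ≤ 1 - ∏ v, (1 - c * F _ (u v)) := by
  intro k
  induction k with
  | zero =>
    intro X _ u hg hi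
    let e : (∀ v, X v) ≃ Unit := Equiv.ofUnique _ _
    have h1 : piExp u = (fun x => (fun (_ : Unit) (_ : Fin q) => (1 : ℝ)) (e x)) := by
      funext x i
      simp [piExp]
    refine ⟨?_, ?_, ?_⟩
    · rw [h1]
      exact (goodExp_unit q).comp e
    · rw [h1]
      exact C.inv_equiv _ _ e _ C.inv_unit
    · rw [h1, C.F_equiv _ _ e (fun (_ : Unit) (_ : Fin q) => (1 : ℝ)), C.F_unit]
      simp
  | succ k ih =>
    intro X _ u hg hi
    obtain ⟨g1, i1, f1⟩ := ih (fun v => X v.succ) (fun v => u v.succ) (fun v => hg _) (fun v => hi _)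
    let e : (∀ v, X v) ≃ X 0 × (∀ v : Fin k, X v.succ) := (Fin.consEquiv X).symm
    have h1 : piExp u = (fun x => prodExp (u 0) (piExp (fun v : Fin k => u v.succ)) (e x)) := by
      funext x i
      simp only [piExp, prodExp, e, Fin.prod_univ_succ]
      rfl
    refine ⟨?_, ?_, ?_⟩
    · rw [h1]
      exact ((hg 0).prod g1).comp e
    · rw [h1]
      exact C.inv_equiv _ _ e _ (C.inv_prod _ _ _ _ (hg 0) g1 (hi 0) i1)
    · rw [h1, C.F_equiv _ _ e]
      have h2 := C.F_prod _ _ _ _ (hg 0) g1 (hi 0) i1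
      rw [Fin.prod_univ_succ]
      have h3 : 0 ≤ 1 - c * F _ (u 0) := by
        have := C.F_le _ (u 0) ((hg 0).weak (by omega))
        linarith
      have h4 := mul_le_mul_of_nonneg_left h2 hc.le
      have h5 := mul_le_mul_of_nonneg_left f1 h3
      nlinarith

theorem lik_leaf' (lam : ℝ) : lik q lam GTree.leaf = leafExp q := by
  funext x i
  rfl

theorem lik_node' (lam : ℝ) {n : ℕ} (k : ℕ) (ch : Fin k → GTree n) :
    lik q lam (GTree.node k ch) = piExp (fun v => chan lam (lik q lam (ch v))) := by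
  funext x i
  rfl

theorem Core.tree (C : Core q lam c Inv F) (hq : 2 ≤ q) (hc : 0 < c)
    (h1 : -1 / ((q : ℝ) - 1) < lam) (h2 : lam < 1) {n : ℕ} (T : GTree n) :
    WeakExp (lik q lam T) ∧ Inv (Obs q T) (chan lam (lik q lam T)) := by
  induction T with
  | leaf => exact ⟨weakExp_leaf, C.inv_leaf⟩
  | node k ch ih =>
    obtain ⟨g, i, -⟩ := C.pi hq hc k (fun v => Obs q (ch v))
      (fun v => chan lam (lik q lam (ch v))) (fun v => (ih v).1.chan_good hq h1 h2)
      (fun v => (ih v).2)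
    exact ⟨g.weak (by omega), C.inv_chan _ _ g i⟩

theorem sq_le_one_of_lam (hq : 2 ≤ q) (h1 : -1 / ((q : ℝ) - 1) ≤ lam) (h2 : lam ≤ 1) :
    lam ^ 2 ≤ 1 := by
  have hq0 : (2 : ℝ) ≤ q := by exact_mod_cast hq
  have : -1 ≤ -1 / ((q : ℝ) - 1) := by
    rw [le_div_iff₀ (by linarith)]
    linarith
  nlinarith

theorem Core.recursion (C : Core q lam c Inv F) (hq : 2 ≤ q) (hc : 0 < c)
    (h1 : -1 / ((q : ℝ) - 1) < lam) (h2 : lam < 1) {n : ℕ} (k : ℕ) (ch : Fin k → GTree n) :
    c * F (Obs q (GTree.node k ch)) (lik q lam (GTree.node k ch)) ≤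
      1 - ∏ v, (1 - c * (lam ^ 2 * F (Obs q (ch v)) (lik q lam (ch v)))) := by
  obtain ⟨g, i, f⟩ := C.pi hq hc k (fun v => Obs q (ch v))
    (fun v => chan lam (lik q lam (ch v)))
    (fun v => (C.tree hq hc h1 h2 (ch v)).1.chan_good hq h1 h2)
    (fun v => (C.tree hq hc h1 h2 (ch v)).2)
  refine le_trans f ?_
  have hlam : lam ^ 2 ≤ 1 := sq_le_one_of_lam hq h1.le h2.le
  have key : ∏ v, (1 - c * (lam ^ 2 * F (Obs q (ch v)) (lik q lam (ch v)))) ≤
      ∏ v, (1 - c * F (Obs q (ch v)) (chan lam (lik q lam (ch v)))) := by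
    refine Finset.prod_le_prod (fun v _ => ?_) (fun v _ => ?_)
    · have e1 := C.F_le _ _ (C.tree hq hc h1 h2 (ch v)).1
      nlinarith [mul_le_mul_of_nonneg_left e1 (sq_nonneg lam)]
    · have := C.F_chan _ _ (C.tree hq hc h1 h2 (ch v)).1
      have := mul_le_mul_of_nonneg_left this hc.le
      linarith
  linarith

end Vale.Agent.P154.Up
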