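import Vale.Agent.P154.PoissonLimit
import Vale.Agent.P154.Recon

/-!
# The threshold statements from the recursion inequality
-/

namespace Vale.Agent.P154.Up

open Finset Filter Topology Vale.Agent.P154

variable {q : ℕ}

/-- If the abstract core is available for all parameters in an open interval `(a, b)` with a
constant `c` that does not depend on the parameter, then the recursion inequality holds on
`[a, b]`. -/
theorem recIneq_of_core (hq : 2 ≤ q) {c a b : ℝ} (hc : 0 < c) (hab : a < b)
    (ha : -1 / ((q : ℝ) - 1) ≤ a) (hb : b ≤ 1)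
    (Inv : ℝ → ∀ (X : Type) [Fintype X], (X → Fin q → ℝ) → Prop)
    (C : ∀ lam ∈ Set.Ioo a b, Core q lam c (Inv lam) (fun _ _ u => Mfun u)) :
    ∀ lam ∈ Set.Icc a b, RecIneq q lam c :=
  recIneq_closure hq hab ha hb fun lam hlam =>
    (C lam hlam).recIneq hq hc (ha.trans_lt hlam.1) (hlam.2.trans_le hb)

/-- The exact threshold on both tree models at a parameter where the recursion inequality holds. -/
theorem threshold_of_recIneq (hq : 2 ≤ q) {lam c : ℝ} (hc : 0 < c) (hc1 : c ≤ 1)
    (h1 : -1 / ((q : ℝ) - 1) ≤ lam) (h2 : lam ≤ 1) (hR : RecIneq q lam c) :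
    (∀ d : ℕ, 2 ≤ d →
      (1 < (d : ℝ) * lam ^ 2 → Reconstruction (aDary q lam d)) ∧
      ((d : ℝ) * lam ^ 2 ≤ 1 → Nonreconstruction (aDary q lam d)) ∧
      (Reconstruction (aDary q lam d) ↔ 1 < (d : ℝ) * lam ^ 2)) ∧
    (∀ d : ℝ, 0 < d →
      (1 < d * lam ^ 2 → Reconstruction (aPoisson q lam d)) ∧
      (d * lam ^ 2 ≤ 1 → Nonreconstruction (aPoisson q lam d)) ∧
      (Reconstruction (aPoisson q lam d) ↔ 1 < d * lam ^ 2)) := by
  constructor
  · intro d hd
    have hrec : 1 < (d : ℝ) * lam ^ 2 → Reconstruction (aDary q lam d) :=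
      fun h => reconstruction_dary hq h1 h2 h
    have hnon : (d : ℝ) * lam ^ 2 ≤ 1 → Nonreconstruction (aDary q lam d) :=
      fun h => nonreconstruction_dary hq hc hc1 h1 h2 hR hd h
    refine ⟨hrec, hnon, ⟨fun h => ?_, hrec⟩⟩
    by_contra hcon
    exact not_reconstruction_of_non (hnon (not_lt.1 hcon)) h
  · intro d hd
    have hrec : 1 < d * lam ^ 2 → Reconstruction (aPoisson q lam d) :=
      fun h => reconstruction_poisson hq h1 h2 hd h
    have hnon : d * lam ^ 2 ≤ 1 → Nonreconstruction (aPoisson q lam d) :=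
      fun h => nonreconstruction_poisson hq hc hc1 h1 h2 hR hd.le h
    refine ⟨hrec, hnon, ⟨fun h => ?_, hrec⟩⟩
    by_contra hcon
    exact not_reconstruction_of_non (hnon (not_lt.1 hcon)) h

end Vale.Agent.P154.Up
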